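import Crest.Agent.Lib.Gas.AssembleFields

/-!
# Gas assembly: bounds on all levels, and the `TripleData`.
-/

namespace Crest.Agent.Lib.Gas
open MeasureTheory Set Filter Topology
open Crest.ProbabilityR.Continuum

namespace Num
variable (N : Num)

theorem Kθ_le : (N.P.K : ℝ) * N.P.θ N.p ≤ N.P.qmax N.p := by
  have h1 := N.hq
  have h2 := N.P.θ_le N.hp
  have h3 := N.P.K_pos
  nlinarith

theorem Kθ_nonneg : 0 ≤ (N.P.K : ℝ) * N.P.θ N.p :=
  mul_nonneg N.P.K_pos.le (N.P.θ_pos N.hp).le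

theorem concave_j (j : ℕ) {β : ℝ} (hβ : β ∈ Icc (1 / 2 : ℝ) 2) :
    ConcaveOn ℝ (Icc 0 (N.P.qmax N.p)) (N.Pj j β) :=
  concave_scale ((N.adm j).concave (by linarith [hβ.1])) N.pp_pos

theorem cont_j (j : ℕ) {β : ℝ} (hβ : β ∈ Icc (1 / 2 : ℝ) 2) :
    ContinuousOn (N.Pj j β) (Icc 0 (N.P.qmax N.p)) :=
  continuousOn_scale ((N.adm j).continuous (by linarith [hβ.1])) N.pp_pos

theorem concave_I {β : ℝ} (hβ : β ∈ Icc (1 / 2 : ℝ) 2) :
    ConcaveOn ℝ (Icc 0 (N.P.qmax N.p)) (N.PI β) :=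
  concave_scale (N.admI.concave (by linarith [hβ.1])) N.pp_pos

theorem cont_I {β : ℝ} (hβ : β ∈ Icc (1 / 2 : ℝ) 2) :
    ContinuousOn (N.PI β) (Icc 0 (N.P.qmax N.p)) :=
  continuousOn_scale (N.admI.continuous (by linarith [hβ.1])) N.pp_pos

theorem convex_gen {c : ℕ → ℝ} (h : Admissible (N.G.φc c) N.G.v (N.G.U / 2) N.G.V₁) {q : ℝ}
    (hq : q ∈ Icc 0 (N.P.qmax N.p)) :
    ConvexOn ℝ (Icc (1 / 2 : ℝ) 2) (fun β => Psi (N.G.φc c) β (q * N.P.pp N.p) / N.P.pp N.p) := by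
  have hpp := N.pp_pos
  have h1 := h.convex_beta (ρ := q * N.P.pp N.p) (mul_nonneg hq.1 hpp.le)
  have h2 : ConvexOn ℝ (Icc (1 / 2 : ℝ) 2) (fun β => Psi (N.G.φc c) β (q * N.P.pp N.p)) :=
    h1.subset (fun x hx => by
      have := hx.1
      simp only [mem_Ici]; linarith) (convex_Icc _ _)
  have h3 := h2.smul (c := (N.P.pp N.p)⁻¹) (inv_pos.mpr hpp).le
  have h4 : (fun β => Psi (N.G.φc c) β (q * N.P.pp N.p) / N.P.pp N.p) =
      fun β => (N.P.pp N.p)⁻¹ • Psi (N.G.φc c) β (q * N.P.pp N.p) := by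
    ext β
    simp [div_eq_inv_mul]
  rw [h4]
  exact h3

/-- Level-zero lower bound on `[0, Kθ]`. -/
theorem P0_lower {β q : ℝ} (hβ : β ∈ Icc (1 / 2 : ℝ) 2)
    (hq : q ∈ Icc 0 ((N.P.K : ℝ) * N.P.θ N.p)) :
    - ((N.P.K : ℝ) - 1) * N.P.Λ - N.P.S ≤ N.Pj 0 β q := by
  have hconc := N.concave_j 0 hβ
  have h0 : (0 : ℝ) ∈ Icc 0 (N.P.qmax N.p) := ⟨le_rfl, N.qmax_pos.le⟩
  have hK : (N.P.K : ℝ) * N.P.θ N.p ∈ Icc 0 (N.P.qmax N.p) := ⟨N.Kθ_nonneg, N.Kθ_le⟩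
  have h1 := N.hLBK hβ
  have h2 := N.hzero (j := 0) hβ
  have hpos : 0 < (N.P.K : ℝ) * N.P.θ N.p := mul_pos N.P.K_pos (N.P.θ_pos N.hp)
  set X := (N.P.K : ℝ) * N.P.θ N.p with hX
  have hneg : - ((N.P.K : ℝ) - 1) * N.P.Λ - N.P.S ≤ 0 := by
    have := N.P.K_sub_one_nonneg
    have := N.P.Λ_pos
    have := N.P.one_le_S
    nlinarith [mul_nonneg N.P.K_sub_one_nonneg N.P.Λ_pos.le]
  have hconv := hconc.2 h0 hK
    (show 0 ≤ 1 - q / X by
      rw [sub_nonneg, div_le_one hpos]; exact hq.2) (show 0 ≤ q / X by have := hq.1; positivity)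
    (by ring)
  simp only [smul_eq_mul, mul_zero, zero_add] at hconv
  have h3 : q / X * X = q := by field_simp
  rw [h3, h2] at hconv
  have ht0 : 0 ≤ q / X := by have := hq.1; positivity
  have ht1 : q / X ≤ 1 := by rw [div_le_one hpos]; exact hq.2
  have h4 : (q / X) * (- ((N.P.K : ℝ) - 1) * N.P.Λ - N.P.S) ≤ (q / X) * N.Pj 0 β X :=
    mul_le_mul_of_nonneg_left h1 ht0
  have h5 : - ((N.P.K : ℝ) - 1) * N.P.Λ - N.P.S ≤ (q / X) * (- ((N.P.K : ℝ) - 1) * N.P.Λ - N.P.S) := by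
    nlinarith
  linarith

theorem tsum_c_le {c' : ℕ → ℝ} (hc' : ∀ l, 0 ≤ c' l ∧ c' l ≤ 1) :
    ∑' l, c' l * N.G.a l ≤ N.G.A := by
  rw [← N.G.hA.tsum_eq]
  have hs : Summable fun l => c' l * N.G.a l := by
    refine Summable.of_nonneg_of_le (fun l => mul_nonneg (hc' l).1 (N.G.ha l).le) (fun l => ?_)
      N.summable_a
    have := mul_le_mul_of_nonneg_right (hc' l).2 (N.G.ha l).le
    linarith
  apply hs.tsum_le_tsum (fun l => ?_) N.summable_a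
  have := mul_le_mul_of_nonneg_right (hc' l).2 (N.G.ha l).le
  linarith

theorem tsum_c_nonneg {c' : ℕ → ℝ} (hc' : ∀ l, 0 ≤ c' l ∧ c' l ≤ 1) :
    0 ≤ ∑' l, c' l * N.G.a l :=
  tsum_nonneg fun l => mul_nonneg (hc' l).1 (N.G.ha l).le

theorem C₂_nonneg : 0 ≤ N.P.C₂ := by
  unfold PreNum.C₂
  have := N.P.one_le_S
  have := N.P.Λ_pos
  have := N.P.K_pos
  positivity

/-- Bound for any coefficients on `[0, Kθ]`. -/
theorem Pfun_bd {c' : ℕ → ℝ} (hc' : ∀ l, 0 ≤ c' l ∧ c' l ≤ 1) {β q : ℝ}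
    (hβ : β ∈ Icc (1 / 2 : ℝ) 2) (hq : q ∈ Icc 0 ((N.P.K : ℝ) * N.P.θ N.p)) :
    |N.Pfun (lvl 0 + c') β q| ≤ N.P.C₂ := by
  have hq' : q ∈ Icc 0 (N.P.qmax N.p) := ⟨hq.1, hq.2.trans N.Kθ_le⟩
  have hcj : ∀ l, l < 0 → c' l = 0 := fun l hl => absurd hl (by omega)
  have hpp := N.pp_pos
  have hW := N.P.W_pos
  have hK := N.P.K_pos
  have hΛ := N.P.Λ_pos
  have herr0 := N.err0_le
  have hsum0 := N.tsum_c_nonneg hc'
  have hsum1 := N.tsum_c_le hc'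
  have hat : N.P.pp N.p * ∑' l, c' l * N.G.a l ≤ N.P.W := by
    have := mul_le_mul_of_nonneg_left hsum1 hpp.le
    have h2 : N.P.pp N.p * N.G.A = N.P.W := N.pp_A
    linarith
  have hat0 : 0 ≤ N.P.pp N.p * ∑' l, c' l * N.G.a l := by positivity
  rw [abs_le]
  constructor
  · have h1 := N.H3gen hc' hcj hβ hq'
    have h2 := N.P0_lower hβ hq
    have h3 : N.Pfun (lvl 0) β q = N.Pj 0 β q := rfl
    rw [h3] at h1
    have h4 : 0 ≤ (β * (N.P.pp N.p * ∑' l, c' l * N.G.a l) / 2) * q ^ 2 := by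
      have : 0 ≤ β := by linarith [hβ.1]
      positivity
    have h5 : 0 ≤ N.P.Λ * N.P.K := by positivity
    unfold PreNum.C₂
    nlinarith
  · obtain ⟨q', hq'', hle⟩ := N.H4gen hc' hcj (μ := 0) hβ
      (by rw [abs_zero]; unfold PreNum.M₀; have := N.C₂_nonneg; positivity) hq'
    simp only [zero_mul, add_zero] at hle
    have h3 : N.Pfun (lvl 0) β q' = N.Pj 0 β q' := rfl
    rw [h3] at hle
    have h4 := N.hUB hβ hq''
    -- the quadratic term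
    have hβ2 : β ≤ 2 := hβ.2
    have hβ0 : 0 ≤ β := by linarith [hβ.1]
    have h5 : (β * (N.P.pp N.p * ∑' l, c' l * N.G.a l) / 2) * q' ^ 2 ≤ N.P.W * q' ^ 2 := by
      have h6 : β * (N.P.pp N.p * ∑' l, c' l * N.G.a l) / 2 ≤ N.P.W := by
        have : β * (N.P.pp N.p * ∑' l, c' l * N.G.a l) ≤ 2 * N.P.W :=
          mul_le_mul hβ2 hat hat0 (by norm_num)
        linarith
      exact mul_le_mul_of_nonneg_right h6 (sq_nonneg _)
    have h6 : N.P.W * q' ^ 2 - max (q' - N.P.K) 0 * N.P.Pn N.p ≤ N.P.W * (N.P.K : ℝ) ^ 2 := by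
      rcases le_total q' N.P.K with h | h
      · rw [max_eq_right (by linarith)]
        have : q' ^ 2 ≤ (N.P.K : ℝ) ^ 2 := pow_le_pow_left₀ hq''.1 h 2
        have := mul_le_mul_of_nonneg_left this hW.le
        linarith
      · rw [max_eq_left (by linarith)]
        have h7 : q' + N.P.K ≤ 2 * N.P.qmax N.p := by
          have := hq''.2
          have := N.hq
          linarith
        have h8 : N.P.W * (q' + N.P.K) ≤ N.P.Pn N.p := by
          unfold PreNum.Pn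
          have := mul_le_mul_of_nonneg_left h7 hW.le
          have hq0 := N.qmax_pos
          nlinarith [mul_pos hW hq0]
        have h9 : 0 ≤ q' - N.P.K := by linarith
        have := mul_le_mul_of_nonneg_left h8 h9
        nlinarith
    have h7 : N.P.W * (N.P.K : ℝ) ^ 2 = 2 * N.P.Λ * N.P.K := by
      rw [pow_two, ← mul_assoc, N.P.W_mul_K]
    have h8 : 0 ≤ max (q' - 1) 0 * N.P.Λ := mul_nonneg (le_max_right _ _) hΛ.le
    have h9 : 0 ≤ N.P.Λ * N.P.K := by positivity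
    unfold PreNum.C₂
    nlinarith

theorem lvl_coef (j l : ℕ) : 0 ≤ lvl j l ∧ lvl j l ≤ 1 := by
  unfold lvl; split_ifs <;> norm_num

theorem tl_coef (j l : ℕ) : 0 ≤ tl j l ∧ tl j l ≤ 1 := by
  unfold tl; split_ifs <;> norm_num

theorem sg_coef (j l : ℕ) : 0 ≤ sg j l ∧ sg j l ≤ 1 := by
  unfold sg; split_ifs <;> norm_num

theorem hBd (j : ℕ) {β q : ℝ} (hβ : β ∈ Icc (1 / 2 : ℝ) 2)
    (hq : q ∈ Icc 0 ((N.P.K : ℝ) * N.P.θ N.p)) : |N.Pj j β q| ≤ N.P.C₂ := by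
  have := N.Pfun_bd (lvl_coef j) hβ hq
  rwa [lvl_zero_add] at this

theorem hBdI {β q : ℝ} (hβ : β ∈ Icc (1 / 2 : ℝ) 2)
    (hq : q ∈ Icc 0 ((N.P.K : ℝ) * N.P.θ N.p)) : |N.PI β q| ≤ N.P.C₂ := by
  have := N.Pfun_bd (tl_coef 0) hβ hq
  rwa [lvl_zero_add_tl] at this

theorem tsum_aa_shift (j : ℕ) : ∑' l, N.aa (j + l) = N.P.pp N.p * ∑' l, tl j l * N.G.a l := by
  rw [tsum_tl j N.summable_a, ← tsum_mul_left]
  rfl

/-- The abstract data. -/
noncomputable def D : TripleData where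
  K := N.P.K
  Λ := N.P.Λ
  S := N.P.S
  θ := N.P.θ N.p
  W := N.P.W
  κ₀ := N.P.κ₀
  ϑ := N.ϑ
  δ := N.δ
  qmax := N.P.qmax N.p
  C₁ := N.P.U / 2 * N.P.qmax N.p
  C₂ := N.P.C₂
  M₀ := N.P.M₀
  Pn := N.P.Pn N.p
  aa := N.aa
  err := N.err
  P := N.Pj
  Pinf := N.PI
  hK := N.P.hK
  hWK := N.P.W_mul_K
  hS := N.P.one_le_S
  hW := N.hN1
  hθ0 := N.θ_ge
  hθ1 := N.P.θ_le N.hp
  hθΛ := N.hθΛ
  hκ₀ := rfl
  hq := N.hq
  hPn := le_rfl
  hM₀ := le_rfl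
  hC₁ := by have := N.P.hU; have := N.qmax_pos; positivity
  hC₂ := N.C₂_nonneg
  hϑ0 := N.hϑ0
  hϑW := N.hϑW
  hϑC := N.hϑC
  hδ0 := N.hδ0
  hδϑ := N.hδϑ
  hδκ := N.hδκ
  haa_pos := N.aa_pos
  haa_anti := N.aa_anti
  haa_sum := N.aa_sum
  haa0 := N.aa0
  herr_nn := N.err_nonneg
  herr0 := N.err0_le
  herr := N.err_le
  hconc := fun j _ hβ => N.concave_j j hβ
  hcont := fun j _ hβ => N.cont_j j hβ
  hconcI := fun _ hβ => N.concave_I hβ
  hcontI := fun _ hβ => N.cont_I hβ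
  hconv := fun j _ hq => N.convex_gen (N.adm j) hq
  hconvI := fun _ hq => N.convex_gen N.admI hq
  hzero := fun _ hβ => N.hzero hβ
  hLB1 := fun _ hβ => N.hLB1 hβ
  hLBK := fun _ hβ => N.hLBK hβ
  hUB := fun _ hβ _ hq => N.hUB hβ hq
  hmono0 := fun _ _ hβ _ hββ' _ hq => N.hmono0 hβ hββ' hq
  hlip := fun j _ _ hβ _ hββ' _ hq => N.hlipGen (N.adm j) hβ hββ' hq
  hBd := fun j _ hβ _ hq => N.hBd j hβ hq
  hBdI := fun _ hβ _ hq => N.hBdI hβ hq
  H3 := by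
    intro j β hβ q hq
    have h := N.H3gen (c' := sg j) (j := j) (sg_coef j)
      (fun l hl => by unfold sg; rw [if_neg (by omega)]) hβ hq
    rw [tsum_sg, lvl_add_sg] at h
    exact h
  H4 := by
    intro j β μ hβ hμ q hq
    have h := N.H4gen (c' := sg j) (j := j) (sg_coef j)
      (fun l hl => by unfold sg; rw [if_neg (by omega)]) hβ hμ hq
    simp only [tsum_sg, lvl_add_sg] at h
    exact h
  H3I := by
    intro j β hβ q hq
    have h := N.H3gen (c' := tl j) (j := j) (tl_coef j)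
      (fun l hl => by unfold tl; rw [if_neg (by omega)]) hβ hq
    rw [lvl_add_tl, ← N.tsum_aa_shift] at h
    exact h
  H4I := by
    intro j β μ hβ hμ q hq
    have h := N.H4gen (c' := tl j) (j := j) (tl_coef j)
      (fun l hl => by unfold tl; rw [if_neg (by omega)]) hβ hμ hq
    simp only [lvl_add_tl, ← N.tsum_aa_shift] at h
    exact h

end Num
end Crest.Agent.Lib.Gas
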