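import Crest.Agent.Lib.Gas.Kac1

/-!
# Gas assembly: choice of `Λ`.
-/

namespace Crest.Agent.Lib.Gas
open MeasureTheory Set Filter Topology
open Crest.ProbabilityR.Continuum

/-- The radius with `2 |B_{r₀}| = e^{-Λ}`. -/
noncomputable def r0Of (Λ : ℝ) : ℝ := (Real.exp (-Λ) / (2 * ballVol 1)) ^ (1 / 3 : ℝ)

theorem r0Of_pos (Λ : ℝ) : 0 < r0Of Λ := by
  have := ballVol_one_pos
  unfold r0Of; positivity

theorem r0Of_cube (Λ : ℝ) : (r0Of Λ) ^ 3 = Real.exp (-Λ) / (2 * ballVol 1) := by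
  have := ballVol_one_pos
  unfold r0Of
  rw [← Real.rpow_natCast, ← Real.rpow_mul (by positivity)]
  norm_num

theorem ballVol_r0Of (Λ : ℝ) : ballVol (r0Of Λ) = Real.exp (-Λ) / 2 := by
  have := ballVol_one_pos
  rw [ballVol_eq _ (r0Of_pos Λ).le, r0Of_cube]
  field_simp

theorem r0Of_eq (Λ : ℝ) : r0Of Λ = (1 / (2 * ballVol 1)) ^ (1 / 3 : ℝ) * Real.exp (-(Λ / 3)) := by
  have := ballVol_one_pos
  unfold r0Of
  have h : Real.exp (-Λ) / (2 * ballVol 1) = (1 / (2 * ballVol 1)) * Real.exp (-Λ) := by ring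
  rw [h, Real.mul_rpow (by positivity) (Real.exp_pos _).le, ← Real.exp_mul]
  congr 2
  ring

theorem r0Of_tendsto : Tendsto r0Of atTop (𝓝 0) := by
  have h1 : Tendsto (fun Λ : ℝ => Real.exp (-(Λ / 3))) atTop (𝓝 0) := by
    apply Real.tendsto_exp_atBot.comp
    apply tendsto_neg_atTop_atBot.comp
    exact tendsto_id.atTop_div_const (by norm_num)
  have h2 := h1.const_mul ((1 / (2 * ballVol 1)) ^ (1 / 3 : ℝ))
  rw [mul_zero] at h2
  exact h2.congr (fun Λ => (r0Of_eq Λ).symm)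

theorem mul_r0Of_tendsto : Tendsto (fun Λ => Λ * r0Of Λ) atTop (𝓝 0) := by
  have h1 : Tendsto (fun Λ : ℝ => (Λ / 3) * Real.exp (-(Λ / 3))) atTop (𝓝 0) := by
    have h := Real.tendsto_pow_mul_exp_neg_atTop_nhds_zero 1
    simp only [pow_one] at h
    exact h.comp (tendsto_id.atTop_div_const (by norm_num))
  have h2 := h1.const_mul (3 * (1 / (2 * ballVol 1)) ^ (1 / 3 : ℝ))
  rw [mul_zero] at h2
  refine h2.congr (fun Λ => ?_)
  rw [r0Of_eq]; ring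

theorem log_mul_add_le (c d : ℝ) : ∀ᶠ x in atTop, c * Real.log x + d ≤ x := by
  have h := Real.isLittleO_log_id_atTop
  have h2 := h.def (c := 1 / (2 * (|c| + 1))) (by positivity)
  filter_upwards [h2, eventually_ge_atTop (2 * |d| + 1), eventually_gt_atTop 1] with x hx hxd hx1
  simp only [id_eq, Real.norm_eq_abs] at hx
  rw [abs_of_pos (by linarith : (0 : ℝ) < x)] at hx
  have h3 : |Real.log x| * (2 * (|c| + 1)) ≤ x := by
    calc |Real.log x| * (2 * (|c| + 1)) ≤ (1 / (2 * (|c| + 1)) * x) * (2 * (|c| + 1)) :=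
          mul_le_mul_of_nonneg_right hx (by positivity)
      _ = x := by field_simp
  have h4 : c * Real.log x ≤ |c| * |Real.log x| := by
    rw [← abs_mul]; exact le_abs_self _
  have h5 : |c| * |Real.log x| ≤ x / 2 := by
    nlinarith [abs_nonneg c, abs_nonneg (Real.log x)]
  have h6 : d ≤ |d| := le_abs_self d
  linarith

/-- Choice of `Λ`. -/
theorem exists_Lambda (K : ℕ) (hK : 2 ≤ K) (S₀ p : ℝ) :
    ∃ Λ : ℝ, 1 ≤ Λ ∧ (1 : ℝ) ≤ 2 * Λ / K ∧
      1000000 * (3 * Real.log (2 * Λ / K) + S₀) ≤ 2 * Λ / K ∧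
      9 / (2 * Λ / K) + 6 * r0Of Λ ≤ 1 / 100 ∧
      Λ * r0Of Λ ≤ 1 ∧
      ((K : ℝ) + 1) * (8 * p) * Real.exp (-Λ) ≤ min 1 (64 * ballVol 1) := by
  have hK0 : (0 : ℝ) < K := by
    have : 0 < K := by omega
    exact_mod_cast this
  have hW : Tendsto (fun Λ : ℝ => 2 * Λ / K) atTop atTop := by
    have : Tendsto (fun Λ : ℝ => Λ * (2 / K)) atTop atTop :=
      tendsto_id.atTop_mul_const (by positivity)
    exact this.congr (fun Λ => by ring)
  have h1 := hW.eventually (log_mul_add_le 3000000 (1000000 * S₀))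
  have h2 : ∀ᶠ Λ in atTop, (1 : ℝ) ≤ 2 * Λ / K := hW.eventually (eventually_ge_atTop 1)
  have h3 : Tendsto (fun Λ : ℝ => 9 / (2 * Λ / K) + 6 * r0Of Λ) atTop (𝓝 (0 + 6 * 0)) :=
    (hW.const_div_atTop 9).add (r0Of_tendsto.const_mul 6)
  have h3' : ∀ᶠ Λ in atTop, 9 / (2 * Λ / K) + 6 * r0Of Λ ≤ 1 / 100 :=
    h3.eventually (ge_mem_nhds (by norm_num))
  have h4 : ∀ᶠ Λ in atTop, Λ * r0Of Λ ≤ 1 := mul_r0Of_tendsto.eventually (ge_mem_nhds (by norm_num))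
  have h5 : Tendsto (fun Λ : ℝ => ((K : ℝ) + 1) * (8 * p) * Real.exp (-Λ)) atTop
      (𝓝 (((K : ℝ) + 1) * (8 * p) * 0)) := by
    apply Tendsto.const_mul
    exact Real.tendsto_exp_atBot.comp tendsto_neg_atTop_atBot
  have hmin : 0 < min 1 (64 * ballVol 1) := by
    have := ballVol_one_pos
    positivity
  have h5' : ∀ᶠ Λ in atTop, ((K : ℝ) + 1) * (8 * p) * Real.exp (-Λ) ≤ min 1 (64 * ballVol 1) :=
    h5.eventually (ge_mem_nhds (by simpa using hmin))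
  obtain ⟨Λ, hΛ1, hΛ2, hΛ3, hΛ4, hΛ5, hΛ6⟩ :=
    ((eventually_ge_atTop 1).and (h2.and (h1.and (h3'.and (h4.and h5'))))).exists
  refine ⟨Λ, hΛ1, hΛ2, ?_, hΛ4, hΛ5, hΛ6⟩
  linarith

end Crest.Agent.Lib.Gas
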