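import Crest.Agent.Lib.Gas.AssembleV
import Crest.Agent.Lib.Gas.AssembleNum

/-!
# Gas assembly: construction of the base potential and of the setup.
-/

namespace Crest.Agent.Lib.Gas
open MeasureTheory Set Filter Topology
open Crest.ProbabilityR.Continuum

/-- Template and `Λ`. -/
structure PreNum where
  K : ℕ
  τ₁ : ℝ
  τ₂ : ℝ
  Λ : ℝ
  U : ℝ
  z : Fin K → Pt
  hK : 2 ≤ K
  hτ₁ : 1 / 2 ≤ τ₁
  hτ₁₂ : τ₁ < τ₂
  hτ₂ : τ₂ ≤ 1
  hclique : ∀ (n : ℕ) (z : Fin n → Pt),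
    (∀ i k, i ≠ k → τ₁ ≤ dist (z i) (z k) ∧ dist (z i) (z k) ≤ 1) → n ≤ K
  hz : ∀ i k, i ≠ k → τ₂ ≤ dist (z i) (z k) ∧ dist (z i) (z k) ≤ 1
  hΛ : 1 ≤ Λ
  hW : (1 : ℝ) ≤ 2 * Λ / K
  hsmall : 9 / (2 * Λ / K) + 6 * r0Of Λ ≤ 1 / 100
  hU : 0 < U

namespace PreNum
variable (P : PreNum)

noncomputable def W : ℝ := 2 * P.Λ / P.K
noncomputable def m : ℝ := (P.τ₂ - P.τ₁) / 2
noncomputable def r₀ : ℝ := r0Of P.Λ
noncomputable def r₁ : ℝ := 1 / P.W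
noncomputable def ζ : ℝ := P.r₁
noncomputable def d₀ : ℝ := P.τ₁ * P.r₀
noncomputable def d₁ : ℝ := P.r₀ * (P.τ₁ + P.m / 3)
noncomputable def d₂ : ℝ := P.r₀ * (1 - P.m / 3)
noncomputable def r₂ : ℝ := P.r₀ * (P.m / 6)
noncomputable def s : ℝ := 1 + 2 * P.r₁ + 2 * P.r₀

theorem K_pos : (0 : ℝ) < P.K := by
  have : 0 < P.K := by have := P.hK; omega
  exact_mod_cast this

theorem two_le_K : (2 : ℝ) ≤ P.K := by exact_mod_cast P.hK

theorem W_ge : 1 ≤ P.W := P.hW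

theorem W_pos : 0 < P.W := by linarith [P.W_ge]

theorem r₀_pos : 0 < P.r₀ := r0Of_pos _

theorem r₁_pos : 0 < P.r₁ := by
  have := P.W_pos
  unfold r₁; positivity

theorem small : 9 * P.r₁ + 6 * P.r₀ ≤ 1 / 100 := by
  have := P.hsmall
  unfold r₁ r₀ W
  calc 9 * (1 / (2 * P.Λ / P.K)) + 6 * r0Of P.Λ = 9 / (2 * P.Λ / P.K) + 6 * r0Of P.Λ := by ring
    _ ≤ 1 / 100 := this

theorem r₁_small : P.r₁ ≤ 1 / 900 := by linarith [P.small, P.r₀_pos]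

theorem r₀_small : P.r₀ ≤ 1 / 600 := by linarith [P.small, P.r₁_pos]

theorem m_pos : 0 < P.m := by
  unfold m; linarith [P.hτ₁₂]

theorem m_le : P.m ≤ 1 / 4 := by
  unfold m; linarith [P.hτ₁, P.hτ₂]

theorem τ₁_pos : 0 < P.τ₁ := by linarith [P.hτ₁]

theorem τ₁_m : P.τ₁ + P.m ≤ 1 := by
  unfold m; linarith [P.hτ₁₂, P.hτ₂]

theorem d₀_pos : 0 < P.d₀ := mul_pos P.τ₁_pos P.r₀_pos

theorem d₀_lt : P.d₀ < P.d₁ := by
  unfold d₀ d₁
  have := P.m_pos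
  have := P.r₀_pos
  nlinarith

theorem d₁_le : P.d₁ ≤ P.d₂ := by
  unfold d₁ d₂
  have := P.m_pos
  have := P.r₀_pos
  have := P.τ₁_m
  nlinarith

theorem d₂_lt : P.d₂ < P.r₀ := by
  unfold d₂
  have := P.m_pos
  have := P.r₀_pos
  nlinarith

theorem d₁_le_one : P.d₁ ≤ 1 := by
  have := P.d₁_le
  have := P.d₂_lt
  have := P.r₀_small
  linarith

theorem ζ_pos : 0 < P.ζ := P.r₁_pos

theorem ζ_lt : P.ζ < 1 := by
  unfold ζ; linarith [P.r₁_small]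

/-- The potential. -/
noncomputable def v (core : Bool) : ℝ → ℝ := vFull core P.U P.ζ P.d₀ P.d₁ P.d₂ P.r₀

theorem v_ge_of_one (core : Bool) {r : ℝ} (h : vShape P.ζ P.d₀ P.d₁ P.d₂ P.r₀ r = 1) :
    P.U ≤ P.v core r := by
  unfold v vFull
  rw [h]
  cases core
  · simp
  · simp only [mul_one, if_true]
    linarith [vCore_nonneg (d₀ := P.d₀) r]

/-- The double well. -/
noncomputable def base (core : Bool) : BaseV where
  v := P.v core
  U := P.U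
  ζ := P.ζ
  d₀ := P.d₀
  d₁ := P.d₁
  d₂ := P.d₂
  r₀ := P.r₀
  K := P.K
  V₁ := ∫ y : Pt, P.v core ‖y‖
  hv := vFull_measurable core
  hv0 := vFull_nonneg P.hU.le core
  hvfar := by
    intro r hr
    unfold v vFull
    rw [vShape_of_far P.ζ_pos P.d₀_lt P.d₁_le_one hr]
    have hd : P.d₀ ≤ r := by linarith [P.d₀_lt, P.d₁_le_one]
    cases core
    · simp
    · simp [vCore_of_ge P.d₀_pos hd]
  hint := vFull_integrable P.hU.le P.d₀_pos P.ζ_pos P.d₀_lt P.d₁_le_one core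
  hV := le_rfl
  hU := P.hU
  hζ0 := P.ζ_pos
  hζ1 := P.ζ_lt
  hd₀ := P.d₀_pos
  hd₀₁ := P.d₀_lt
  hd₁₂ := P.d₁_le
  hd₂ := P.d₂_lt
  hr₀ := by
    have h1 := P.r₀_small
    have h2 := P.r₁_small
    unfold ζ
    linarith
  hexp := by
    intro r _ h1 h2
    apply P.v_ge_of_one core
    rcases h2 with h | h
    · exact vShape_of_low P.d₀_lt h.le
    · exact vShape_of_mid P.ζ_pos P.d₂_lt h.le h1.le
  hband := by
    intro r h1 h2
    unfold v vFull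
    rw [vShape_of_band P.d₀_lt P.d₂_lt h1 h2]
    have hd : P.d₀ ≤ r := by linarith [P.d₀_lt]
    cases core
    · simp
    · simp [vCore_of_ge P.d₀_pos hd]
  hclique := by
    intro n z hz
    apply P.hclique n (fun i => (P.r₀)⁻¹ • z i)
    intro i k hik
    have h := hz i k hik
    have hr := P.r₀_pos
    rw [dist_smul₀, Real.norm_of_nonneg (inv_pos.mpr hr).le]
    constructor
    · rw [inv_mul_eq_div, le_div_iff₀ hr]
      exact h.1
    · rw [inv_mul_eq_div, div_le_one hr]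
      exact h.2

end PreNum
end Crest.Agent.Lib.Gas
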