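import Crest.Agent.Lib.Gas.Base

/-!
# Gas assembly: the crude bounds per site for the base potential.
-/

namespace Crest.Agent.Lib.Gas
open MeasureTheory Set Filter Topology
open Crest.ProbabilityR.Continuum

namespace BaseV
variable (b : BaseV)

/-- Density of sites at separation `1 - ζ`. -/
noncomputable def pplus (p : ℝ) : ℝ := p / (1 - b.ζ) ^ 3

/-- Per-site free energy at level 0. -/
noncomputable def P0 (p β q : ℝ) : ℝ := Psi b.v β (q * b.pplus p) / b.pplus p

theorem one_sub_ζ_pos : 0 < 1 - b.ζ := by linarith [b.hζ1]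

theorem pplus_pos {p : ℝ} (hp : 0 < p) : 0 < b.pplus p := by
  have := b.one_sub_ζ_pos
  unfold pplus; positivity

theorem one_le_pplus {p : ℝ} (hp : 1 ≤ p) : 1 ≤ b.pplus p := by
  have h0 := b.one_sub_ζ_pos
  have h1 : 1 - b.ζ ≤ 1 := by linarith [b.hζ0]
  have h3 : (1 - b.ζ) ^ 3 ≤ 1 := pow_le_one₀ h0.le h1
  unfold pplus
  rw [le_div_iff₀ (by positivity)]
  nlinarith [pow_pos h0 3]

/-- Elementary: `q (1 - log q) ≤ 1`. -/
theorem mul_one_sub_log_le {q : ℝ} (hq : 0 < q) : q * (1 - Real.log q) ≤ 1 := by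
  have := Real.one_sub_inv_le_log_of_pos hq
  have h2 : q * (1 - 1 / q) ≤ q * Real.log q := by
    have : 1 - 1 / q = 1 - q⁻¹ := by rw [one_div]
    rw [this]
    exact mul_le_mul_of_nonneg_left ‹_› hq.le
  have h3 : q * (1 - 1 / q) = q - 1 := by field_simp
  nlinarith

set_option maxHeartbeats 1000000 in
/-- **Upper bound per site.** -/
theorem P0_le {p Λ S Pn : ℝ} (hlim : Tendsto (fun L : ℝ => (packingNumber L : ℝ) / L ^ 3) atTop (𝓝 p))
    (hp : 1 ≤ p) (hK : 2 ≤ b.K) (hΛ0 : 0 ≤ Λ) (hPn : 0 ≤ Pn)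
    (hw : ballVol b.r₀ + Real.exp (-(1 / 4) * b.U) * ballVol 1 ≤ Real.exp (-Λ))
    (hKw : ((b.K : ℝ) + 1) * b.pplus p * Real.exp (-Λ) ≤ 1)
    (hS : 2 * ((b.K : ℝ) + 1) ≤ S) (hU1 : 2 * ((b.K : ℝ) * Λ + Pn + b.K + 1) ≤ b.U)
    (hU2 : 4 * Pn ≤ b.U) {β q : ℝ} (hβ : β ∈ Icc (1 / 2 : ℝ) 2) (hq : 0 ≤ q) :
    b.P0 p β q ≤ S - max (q - 1) 0 * Λ - max (q - b.K) 0 * Pn := by
  have hpp := b.one_le_pplus hp
  have hpp0 : 0 < b.pplus p := by linarith
  have hβ0 : 0 ≤ β := by linarith [hβ.1]
  have hK0 : (0 : ℝ) ≤ b.K := Nat.cast_nonneg _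
  have hS0 : 0 ≤ S := by linarith
  have hβ1 : (1 / 2 : ℝ) ≤ β := hβ.1
  unfold P0
  rw [div_le_iff₀ hpp0]
  -- three regimes
  rcases le_or_gt q 1 with h1 | h1
  · -- `q ≤ 1`
    have hmax1 : max (q - 1) 0 = 0 := max_eq_right (by linarith)
    have hK1 : (1 : ℝ) ≤ b.K + 1 := by linarith
    rcases eq_or_lt_of_le hq with h0 | h0
    · subst h0
      have hz := b.admissible.psi_zero hβ0
      simp only [zero_mul, hz]
      have hmax2 : max ((0:ℝ) - b.K) 0 = 0 := max_eq_right (by linarith)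
      rw [hmax1, hmax2]; simp only [zero_mul, sub_zero]; positivity
    · have hub := b.admissible.ub (ρ := q * b.pplus p) hβ0 (by positivity)
      have hlog : Real.log q ≤ Real.log (q * b.pplus p) := by
        apply Real.log_le_log h0
        exact le_mul_of_one_le_right h0.le hpp
      have hqK : q ≤ b.K := by
        have : (2 : ℝ) ≤ b.K := by exact_mod_cast hK
        linarith
      have hmax2 : max (q - b.K) 0 = 0 := max_eq_right (by linarith)
      rw [hmax1, hmax2]
      simp only [zero_mul, sub_zero]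
      have h3 := mul_one_sub_log_le h0
      calc Psi b.v β (q * b.pplus p) ≤ q * b.pplus p * (1 + β * 0 - Real.log (q * b.pplus p)) := hub
        _ ≤ b.pplus p * (q * (1 - Real.log q)) := by
            have : 1 + β * 0 - Real.log (q * b.pplus p) ≤ 1 - Real.log q := by linarith
            have h4 : 0 ≤ q * b.pplus p := by positivity
            calc q * b.pplus p * (1 + β * 0 - Real.log (q * b.pplus p))
                ≤ q * b.pplus p * (1 - Real.log q) := mul_le_mul_of_nonneg_left this h4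
              _ = b.pplus p * (q * (1 - Real.log q)) := by ring
        _ ≤ b.pplus p * 1 := mul_le_mul_of_nonneg_left h3 hpp0.le
        _ ≤ S * b.pplus p := by nlinarith
  · have hK2 : (2 : ℝ) ≤ b.K := by exact_mod_cast hK
    have hρ1 : 1 ≤ q * b.pplus p := by
      calc (1 : ℝ) = 1 * 1 := by ring
        _ ≤ q * b.pplus p := mul_le_mul h1.le hpp (by norm_num) (by linarith)
    have hρ0 : 0 < q * b.pplus p := by linarith
    have hU0 := b.hU
    rw [max_eq_left (by linarith : (0 : ℝ) ≤ q - 1)]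
    have hmaxρ : max (q * b.pplus p - b.K * b.pplus p) 0 = max (q - b.K) 0 * b.pplus p := by
      have : q * b.pplus p - b.K * b.pplus p = (q - b.K) * b.pplus p := by ring
      rw [this]
      rcases le_total (q - b.K) 0 with h | h
      · rw [max_eq_right h, max_eq_right (mul_nonpos_of_nonpos_of_nonneg h hpp0.le)]; simp
      · rw [max_eq_left h, max_eq_left (mul_nonneg h hpp0.le)]
    rcases le_or_gt q ((b.K : ℝ) + 1) with h2 | h2
    · -- middle regime
      have hexp : Real.exp (-(β / 2) * b.U) ≤ Real.exp (-(1 / 4) * b.U) := by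
        apply Real.exp_le_exp.mpr
        have : (1 / 2) * b.U ≤ β * b.U := mul_le_mul_of_nonneg_right hβ1 hU0.le
        linarith
      have hb1 := ballVol_one_pos
      have hwβ : ballVol b.r₀ + Real.exp (-(β / 2) * b.U) * ballVol 1 ≤ Real.exp (-Λ) := by
        refine le_trans ?_ hw
        gcongr
      have hr₀pos : 0 < b.r₀ := by linarith [b.hd₀, b.hd₀₁, b.hd₁₂, b.hd₂]
      have hbr₀ : 0 < ballVol b.r₀ := by
        rw [ballVol_eq _ hr₀pos.le]; positivity
      have hwpos : 0 < ballVol b.r₀ + Real.exp (-(β / 2) * b.U) * ballVol 1 := by positivity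
      have hub := b.Psi_ub_mid (ρ := q * b.pplus p) hlim (by linarith) hβ0
        (le_mul_of_one_le_left hpp0.le h1.le)
        (by
          calc q * b.pplus p * (ballVol b.r₀ + Real.exp (-(β / 2) * b.U) * ballVol 1)
              ≤ ((b.K : ℝ) + 1) * b.pplus p * Real.exp (-Λ) := by
                apply mul_le_mul _ hwβ hwpos.le (by positivity)
                exact mul_le_mul_of_nonneg_right h2 hpp0.le
            _ ≤ 1 := hKw)
      have hl2e : Real.log (2 * Real.exp 1) ≤ 2 := by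
        rw [Real.log_mul (by norm_num) (Real.exp_pos _).ne', Real.log_exp]
        have := Real.log_two_lt_d9
        linarith
      have hl1ρ : Real.log (1 / (q * b.pplus p)) ≤ 0 := by
        rw [one_div, Real.log_inv]
        have := Real.log_nonneg hρ1
        linarith
      have hlw : Real.log (ballVol b.r₀ + Real.exp (-(β / 2) * b.U) * ballVol 1) ≤ -Λ := by
        have := Real.log_le_log hwpos hwβ
        rwa [Real.log_exp] at this
      have hpen : -(β * b.U / 2) * (max (q - b.K) 0 * b.pplus p) ≤ - Pn * (max (q - b.K) 0 * b.pplus p) := by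
        have h5 : 0 ≤ max (q - b.K) 0 * b.pplus p := by positivity
        have h6 : Pn ≤ β * b.U / 2 := by
          have : (1 / 2) * b.U ≤ β * b.U := mul_le_mul_of_nonneg_right hβ1 hU0.le
          linarith
        have := mul_le_mul_of_nonneg_right h6 h5
        linarith
      have hub' : Psi b.v β (q * b.pplus p) ≤
          -(β * b.U / 2) * max (q * b.pplus p - b.K * b.pplus p) 0
          + q * b.pplus p * Real.log (2 * Real.exp 1) + b.pplus p * Real.log (1 / (q * b.pplus p))
          + (q * b.pplus p - b.pplus p) *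
            Real.log (ballVol b.r₀ + Real.exp (-(β / 2) * b.U) * ballVol 1) := hub
      rw [hmaxρ] at hub'
      have h_a : q * b.pplus p * Real.log (2 * Real.exp 1) ≤ S * b.pplus p := by
        have h8 : q * b.pplus p * Real.log (2 * Real.exp 1) ≤ q * b.pplus p * 2 :=
          mul_le_mul_of_nonneg_left hl2e (by positivity)
        have h9 : q * b.pplus p * 2 ≤ S * b.pplus p := by
          have : q * 2 ≤ S := by linarith
          calc q * b.pplus p * 2 = (q * 2) * b.pplus p := by ring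
            _ ≤ S * b.pplus p := mul_le_mul_of_nonneg_right this hpp0.le
        linarith
      have h_b : b.pplus p * Real.log (1 / (q * b.pplus p)) ≤ 0 :=
        mul_nonpos_of_nonneg_of_nonpos hpp0.le hl1ρ
      have h_c : (q * b.pplus p - b.pplus p) *
          Real.log (ballVol b.r₀ + Real.exp (-(β / 2) * b.U) * ballVol 1) ≤
          (q * b.pplus p - b.pplus p) * (-Λ) :=
        mul_le_mul_of_nonneg_left hlw (by linarith [le_mul_of_one_le_left hpp0.le h1.le])
      have h_d : (S - (q - 1) * Λ - max (q - b.K) 0 * Pn) * b.pplus p =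
          S * b.pplus p + (q * b.pplus p - b.pplus p) * (-Λ) - Pn * (max (q - b.K) 0 * b.pplus p) := by
        ring
      rw [h_d]
      linarith
    · -- high regime
      have hub := b.Psi_ub_high (ρ := q * b.pplus p) hlim hβ0 hρ0
      have hub' : Psi b.v β (q * b.pplus p) ≤
          -(β * b.U) * max (q * b.pplus p - b.K * b.pplus p) 0
            + q * b.pplus p * (1 - Real.log (q * b.pplus p)) := hub
      rw [hmaxρ] at hub'
      have hlogρ := Real.log_nonneg hρ1
      have hqK : q - b.K = max (q - b.K) 0 := (max_eq_left (by linarith)).symm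
      rw [← hqK] at hub' ⊢
      set x := q - (b.K : ℝ) with hx
      have hx1 : 1 ≤ x := by rw [hx]; linarith
      have hq' : q = x + b.K := by rw [hx]; ring
      have h1' : q * b.pplus p * (1 - Real.log (q * b.pplus p)) ≤ q * b.pplus p := by
        have : 0 ≤ q * b.pplus p := by positivity
        nlinarith
      have h2' : -(β * b.U) * (x * b.pplus p) ≤ -(b.U / 2) * (x * b.pplus p) := by
        have : 0 ≤ x * b.pplus p := by positivity
        have h9 : b.U / 2 ≤ β * b.U := by nlinarith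
        nlinarith
      have h3' : (q - 1) ≤ b.K * x := by rw [hq']; nlinarith
      have h4' : q ≤ ((b.K : ℝ) + 1) * x := by rw [hq']; nlinarith
      -- combine
      have h5' : (q + (q - 1) * Λ + x * Pn) ≤ x * ((b.K : ℝ) * Λ + Pn + b.K + 1) := by
        have : (q - 1) * Λ ≤ b.K * x * Λ := mul_le_mul_of_nonneg_right h3' hΛ0
        nlinarith
      have h6' : x * ((b.K : ℝ) * Λ + Pn + b.K + 1) ≤ x * (b.U / 2) :=
        mul_le_mul_of_nonneg_left (by linarith) (by linarith)
      have h7' : (q - (b.U / 2) * x) ≤ S - (q - 1) * Λ - x * Pn := by nlinarith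
      calc Psi b.v β (q * b.pplus p) ≤ -(b.U / 2) * (x * b.pplus p) + q * b.pplus p := by linarith
        _ = (q - (b.U / 2) * x) * b.pplus p := by ring
        _ ≤ (S - (q - 1) * Λ - x * Pn) * b.pplus p := mul_le_mul_of_nonneg_right h7' hpp0.le

/-- Lower bound per site, one particle per site. -/
theorem P0_ge_one {p r₁ r₂ s S β θ : ℝ}
    (hlim : Tendsto (fun L : ℝ => (packingNumber L : ℝ) / L ^ 3) atTop (𝓝 p))
    (hp : 1 ≤ p) (hr₁ : 0 < r₁) (hr₂ : 0 < r₂) (hs : 1 + 2 * r₁ + 2 * b.r₀ ≤ s)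
    (hθ : θ = (p / s ^ 3) / b.pplus p) (hθ0 : 0 ≤ θ) (hθ1 : θ ≤ 1) (hS0 : 0 ≤ S)
    (hS : - S ≤ Real.log (ballVol r₁)) (hβ : 0 ≤ β) :
    - S ≤ b.P0 p β θ := by
  have hp0 : 0 < p := by linarith
  have hpp0 := b.pplus_pos hp0
  have hy := b.Psi_lb_cluster (k := 0) (y := fun _ => 0) hlim hp0 hβ hr₁ hr₂ hs rfl
    (fun a c hac => absurd (Fin.ext (by have := a.2; have := c.2; omega)) hac)
  have hθρ : θ * b.pplus p = p / s ^ 3 := by
    rw [hθ]; field_simp
  unfold P0
  rw [hθρ, le_div_iff₀ hpp0]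
  simp only [Nat.cast_zero, zero_mul, add_zero, zero_add, Nat.factorial_one, Nat.cast_one,
    Real.log_one, sub_zero, one_mul] at hy
  have h1 : - S * b.pplus p ≤ (p / s ^ 3) * Real.log (ballVol r₁) := by
    have h2 : p / s ^ 3 = θ * b.pplus p := hθρ.symm
    rw [h2]
    have h3 : - S ≤ θ * Real.log (ballVol r₁) := by
      rcases le_total 0 (Real.log (ballVol r₁)) with h | h
      · have := mul_nonneg hθ0 h
        linarith
      · have : θ * Real.log (ballVol r₁) ≥ 1 * Real.log (ballVol r₁) :=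
          mul_le_mul_of_nonpos_right hθ1 h
        linarith
    nlinarith
  linarith

/-- Lower bound per site, `k + 1` particles per site. -/
theorem P0_ge_K {p r₁ r₂ s S β θ Λ c₂ : ℝ} {k : ℕ}
    (hlim : Tendsto (fun L : ℝ => (packingNumber L : ℝ) / L ^ 3) atTop (𝓝 p))
    (hp : 1 ≤ p) (hr₁ : 0 < r₁) (hr₂ : 0 < r₂) (hs : 1 + 2 * r₁ + 2 * b.r₀ ≤ s)
    (hθ : θ = (p / s ^ 3) / b.pplus p) (hθ0 : 0 ≤ θ) (hθ1 : θ ≤ 1) (hΛ : 0 ≤ Λ) 
    (hS1 : - S ≤ Real.log (ballVol r₁) - k * c₂ - Real.log ((k + 1).factorial))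
    (hS0 : 0 ≤ S)
    (hr₂Λ : - Λ - c₂ ≤ Real.log (ballVol r₂)) (hβ : 0 ≤ β)
    (y : Fin (k + 1) → Pt) (hy0 : y 0 = 0)
    (hy : ∀ a c, a ≠ c → b.d₁ + 2 * r₂ ≤ dist (y a) (y c) ∧ dist (y a) (y c) + 2 * r₂ ≤ b.d₂) :
    - (k : ℝ) * Λ - S ≤ b.P0 p β (((k : ℝ) + 1) * θ) := by
  have hp0 : 0 < p := by linarith
  have hpp0 := b.pplus_pos hp0
  have hc := b.Psi_lb_cluster (k := k) (y := y) hlim hp0 hβ hr₁ hr₂ hs hy0 hy
  have hθρ : θ * b.pplus p = p / s ^ 3 := by
    rw [hθ]; field_simp
  unfold P0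
  have hρ : ((k : ℝ) + 1) * θ * b.pplus p = ((k : ℝ) + 1) * (p / s ^ 3) := by
    rw [← hθρ]; ring
  rw [hρ, le_div_iff₀ hpp0]
  set Y := Real.log (ballVol r₁) + k * Real.log (ballVol r₂) - Real.log ((k + 1).factorial) with hYdef
  have hY : - (k : ℝ) * Λ - S ≤ Y := by
    have : (k : ℝ) * (- Λ - c₂) ≤ k * Real.log (ballVol r₂) :=
      mul_le_mul_of_nonneg_left hr₂Λ (Nat.cast_nonneg _)
    rw [hYdef]
    nlinarith
  have hk0 : (0 : ℝ) ≤ k := Nat.cast_nonneg _
  have hneg : - (k : ℝ) * Λ - S ≤ 0 := by nlinarith [mul_nonneg hk0 hΛ]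
  have h3 : - (k : ℝ) * Λ - S ≤ θ * Y := by
    rcases le_total 0 Y with h | h
    · have := mul_nonneg hθ0 h
      linarith
    · have : θ * Y ≥ 1 * Y := mul_le_mul_of_nonpos_right hθ1 h
      linarith
  have h4 : (- (k : ℝ) * Λ - S) * b.pplus p ≤ θ * Y * b.pplus p :=
    mul_le_mul_of_nonneg_right h3 hpp0.le
  have h5 : θ * Y * b.pplus p = (p / s ^ 3) * Y := by rw [← hθρ]; ring
  linarith

end BaseV
end Crest.Agent.Lib.Gas
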