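import Crest.Agent.Lib.Gas.AssembleBd

/-!
# Gas assembly: decay and attraction of the potential.
-/

namespace Crest.Agent.Lib.Gas
open MeasureTheory Set Filter Topology
open Crest.ProbabilityR.Continuum

namespace Num
variable (N : Num)

theorem Tc_one_le {r : ℝ} {l₀ : ℕ} (h : ∀ l, l < l₀ → 2 * N.G.R l ≤ r) :
    N.G.Tc coefOne r ≤ (∑' i, N.G.a (l₀ + i)) / ballVol (N.G.R l₀) := by
  have hvol : 0 < ballVol (N.G.R l₀) := ballVol_pos' (N.R_pos l₀)
  have hdiv : Summable fun l => N.G.a l / ballVol (N.G.R l₀) := N.summable_a.div_const _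
  have heq : (∑' i, N.G.a (l₀ + i)) / ballVol (N.G.R l₀) =
      ∑' l, tl l₀ l * (N.G.a l / ballVol (N.G.R l₀)) := by
    rw [tsum_tl l₀ hdiv, tsum_div_const]
  rw [heq]
  have hs : Summable fun l => tl l₀ l * (N.G.a l / ballVol (N.G.R l₀)) := by
    have hnn : ∀ l, 0 ≤ N.G.a l / ballVol (N.G.R l₀) := fun l => div_nonneg (N.G.ha l).le hvol.le
    refine Summable.of_nonneg_of_le (fun l => ?_) (fun l => ?_) hdiv
    · unfold tl; split_ifs <;> simp [hnn l]
    · unfold tl; split_ifs <;> simp [hnn l]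
  apply (GasSetup.summable_Tc (G := N.G) coefOne_ok r).tsum_le_tsum (fun l => ?_) hs
  by_cases hl : l < l₀
  · have h0 : J (N.G.R l) r = 0 := J_eq_zero _ _ (N.R_pos l) (h l hl)
    have : ¬ l₀ ≤ l := by omega
    simp [h0, tl, this]
  · have h1 : l₀ ≤ l := by omega
    simp only [tl, h1, if_true, one_mul, coefOne]
    have h2 : J (N.G.R l) r ≤ 1 / ballVol (N.G.R l) := J_le _ _ (N.R_pos l)
    have h3 : 1 / ballVol (N.G.R l) ≤ 1 / ballVol (N.G.R l₀) := by
      apply one_div_le_one_div_of_le hvol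
      exact ballVol_mono (N.R_pos l₀).le (scaleR_mono N.hY h1)
    have h4 : N.G.a l * J (N.G.R l) r ≤ N.G.a l * (1 / ballVol (N.G.R l₀)) :=
      mul_le_mul_of_nonneg_left (h2.trans h3) (N.G.ha l).le
    calc N.G.a l * J (N.G.R l) r ≤ N.G.a l * (1 / ballVol (N.G.R l₀)) := h4
      _ = N.G.a l / ballVol (N.G.R l₀) := by ring

theorem φ_far {r : ℝ} (hr : 1 ≤ r) : N.G.φc coefOne r = - N.G.Tc coefOne r := by
  unfold GasSetup.φc
  rw [N.G.hvfar r hr, zero_sub]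

theorem φ_decay : ∃ C : ℝ, ∀ r, 1 ≤ r → |N.G.φc coefOne r| ≤ C * r ^ (-(3 + 1 / 32 : ℝ)) := by
  have hb := ballVol_one_pos
  set s : ℝ := 3 + 1 / 32 with hs
  have hs0 : 0 < s := by rw [hs]; norm_num
  have hR0 := N.R_pos 0
  have hvol0 : 0 < ballVol (N.G.R 0) := ballVol_pos' hR0
  have hA0 : 0 < N.G.A := N.A_pos
  refine ⟨(2 / ballVol 1) * (2 : ℝ) ^ s + (N.G.A / ballVol (N.G.R 0)) * (2 * N.G.R 0) ^ s, ?_⟩
  intro r hr
  have hr0 : 0 < r := by linarith
  rw [N.φ_far hr, abs_neg, abs_of_nonneg (GasSetup.Tc_nonneg (G := N.G) coefOne_ok r)]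
  have hex : ∃ l, r < 2 * N.G.R l := by
    obtain ⟨l, hl⟩ := scaleR_unbounded N.hY r
    refine ⟨l, ?_⟩
    have : N.G.R l = scaleR N.Y l := rfl
    have := N.R_pos l
    linarith
  classical
  set l₀ := Nat.find hex with hl₀
  have hspec : r < 2 * N.G.R l₀ := Nat.find_spec hex
  have hmin : ∀ l, l < l₀ → 2 * N.G.R l ≤ r := fun l hl => by
    have := Nat.find_min hex hl
    linarith
  have hT := N.Tc_one_le hmin
  have hrs : 0 < r ^ (-s) := Real.rpow_pos_of_pos hr0 _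
  have hT1 : 0 < (2 / ballVol 1) * (2 : ℝ) ^ s := by positivity
  have hT2 : 0 < (N.G.A / ballVol (N.G.R 0)) * (2 * N.G.R 0) ^ s := by positivity
  rcases Nat.eq_zero_or_pos l₀ with h0 | hpos
  · -- `l₀ = 0`
    rw [h0] at hT hspec
    have h1 : ∑' i, N.G.a (0 + i) ≤ N.G.A := N.tsum_a_shift_le 0
    have h2 : N.G.Tc coefOne r ≤ N.G.A / ballVol (N.G.R 0) :=
      hT.trans (div_le_div_of_nonneg_right h1 hvol0.le)
    have h3 : 1 ≤ (2 * N.G.R 0) ^ s * r ^ (-s) := by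
      rw [Real.rpow_neg hr0.le, ← div_eq_mul_inv, one_le_div (Real.rpow_pos_of_pos hr0 s)]
      exact Real.rpow_le_rpow hr0.le hspec.le hs0.le
    have h4 : N.G.A / ballVol (N.G.R 0) ≤
        (N.G.A / ballVol (N.G.R 0)) * ((2 * N.G.R 0) ^ s * r ^ (-s)) := by
      have : 0 ≤ N.G.A / ballVol (N.G.R 0) := by positivity
      exact le_mul_of_one_le_right this h3
    have h5 : (N.G.A / ballVol (N.G.R 0)) * ((2 * N.G.R 0) ^ s * r ^ (-s)) =
        (N.G.A / ballVol (N.G.R 0)) * (2 * N.G.R 0) ^ s * r ^ (-s) := by ring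
    have h6 := mul_pos hT1 hrs
    rw [add_mul]
    linarith
  · -- `l₀ ≥ 1`
    have hRl := N.R_pos l₀
    have hRl' : N.G.R l₀ = scaleR N.Y l₀ := rfl
    have h1 : ∑' i, N.G.a (l₀ + i) ≤ 2 * eps N.Y l₀ := by
      have h2 : (fun i => N.G.a (l₀ + i)) = fun i => eps N.Y (l₀ + i) := by
        ext i
        obtain ⟨k, hk⟩ : ∃ k, l₀ + i = k + 1 := ⟨l₀ + i - 1, by omega⟩
        rw [hk]
        exact aS_succ (N.P.A N.p) N.Y k
      rw [h2]
      exact tsum_eps_shift_le N.hY l₀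
    have hvol := ballVol_pos' hRl
    have h2 : N.G.Tc coefOne r ≤ (2 * eps N.Y l₀) / ballVol (N.G.R l₀) :=
      hT.trans (div_le_div_of_nonneg_right h1 hvol.le)
    have h3 : (2 * eps N.Y l₀) / ballVol (N.G.R l₀) = (2 / ballVol 1) * (N.G.R l₀) ^ (-s) := by
      rw [N.ballVol_R l₀, eps_eq_rpow N.hY, ← hRl', hs, neg_add, Real.rpow_add hRl,
        Real.rpow_neg hRl.le (3 : ℝ)]
      have h30 : N.G.R l₀ ^ (3 : ℝ) = N.G.R l₀ ^ 3 := by
        rw [← Real.rpow_natCast]; norm_num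
      rw [h30]
      have e : -(1 / 32 : ℝ) = -(1 / 32) := rfl
      field_simp
    have h4 : (N.G.R l₀) ^ (-s) ≤ (r / 2) ^ (-s) := by
      apply Real.rpow_le_rpow_of_nonpos (by positivity) (by linarith) (by linarith)
    have h5 : (r / 2) ^ (-s) = (2 : ℝ) ^ s * r ^ (-s) := by
      rw [Real.div_rpow hr0.le (by norm_num), Real.rpow_neg (by norm_num : (0 : ℝ) ≤ 2), div_inv_eq_mul]
      ring
    have h6 : (2 / ballVol 1) * (N.G.R l₀) ^ (-s) ≤ (2 / ballVol 1) * ((2 : ℝ) ^ s * r ^ (-s)) := by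
      rw [← h5]
      exact mul_le_mul_of_nonneg_left h4 (by positivity)
    have h7 : (2 / ballVol 1) * ((2 : ℝ) ^ s * r ^ (-s)) = (2 / ballVol 1) * (2 : ℝ) ^ s * r ^ (-s) := by
      ring
    rw [h3] at h2
    have h8 := mul_pos hT2 hrs
    rw [add_mul]
    linarith

theorem φ_attract : ∃ a : ℝ, 0 < a ∧ ∀ r, 1 ≤ r → r ≤ 2 → N.G.φc coefOne r ≤ -a := by
  have hR0 := N.R_pos 0
  have hR5 := N.G.hR 0
  have hvol0 : 0 < ballVol (N.G.R 0) := ballVol_pos' hR0
  have hvol1 : 0 < ballVol (N.G.R 0 - 1) := ballVol_pos' (by linarith)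
  refine ⟨N.G.a 0 * (ballVol (N.G.R 0 - 1) / (ballVol (N.G.R 0)) ^ 2), ?_, ?_⟩
  · have := N.G.ha 0
    positivity
  · intro r hr1 hr2
    rw [N.φ_far hr1]
    have h1 := J_lb (N.G.R 0) r (by linarith) (by linarith) hr2
    have h2 : coefOne 0 * N.G.a 0 * J (N.G.R 0) r ≤ N.G.Tc coefOne r :=
      (GasSetup.summable_Tc (G := N.G) coefOne_ok r).le_tsum 0 (fun l _ => by
        have := N.G.ha l
        have := J_nonneg (N.G.R l) r
        simp only [coefOne, one_mul]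
        positivity)
    simp only [coefOne, one_mul] at h2
    have h3 := mul_le_mul_of_nonneg_left h1 (N.G.ha 0).le
    linarith

end Num
end Crest.Agent.Lib.Gas
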