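import Crest.Agent.Lib.Gas.AssembleH

/-!
# Gas assembly: the error budget.
-/

namespace Crest.Agent.Lib.Gas
open MeasureTheory Set Filter Topology
open Crest.ProbabilityR.Continuum

namespace Num
variable (N : Num)

/-- Mean-field strengths per site. -/
noncomputable def aa (j : ℕ) : ℝ := N.P.pp N.p * N.G.a j

theorem aa_pos (j : ℕ) : 0 < N.aa j := mul_pos N.pp_pos (N.G.ha j)

theorem aa_succ (j : ℕ) : N.aa (j + 1) = N.P.pp N.p * eps N.Y (j + 1) := by
  unfold aa
  congr 1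

theorem aa_anti : Antitone N.aa := by
  intro a b hab
  unfold aa
  exact mul_le_mul_of_nonneg_left (aS_anti N.hY N.three_eps_le_A hab) N.pp_pos.le

theorem aa_sum : HasSum N.aa N.P.W := by
  have h := (hasSum_aS (A := N.P.A N.p) N.hY).mul_left (N.P.pp N.p)
  rw [N.pp_A] at h
  exact h

theorem aa0 : N.P.W - 1 ≤ N.aa 0 := by
  have h1 := aS_zero_ge (A := N.P.A N.p) N.hY
  have h2 := N.pp_A
  have h3 := N.hY1
  have h4 := N.pp_pos
  have h5 : N.P.pp N.p * (N.P.A N.p - 2 * eps N.Y 1) ≤ N.P.pp N.p * aS (N.P.A N.p) N.Y 0 :=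
    mul_le_mul_of_nonneg_left h1 h4.le
  have h6 : N.aa 0 = N.P.pp N.p * aS (N.P.A N.p) N.Y 0 := rfl
  nlinarith

theorem δ_le : N.δ ≤ 1 / 512 := by
  have h1 := N.hϑC
  have h2 := N.hϑ0
  have h3 := N.P.W_pos
  have h4 : 0 ≤ N.P.C₂ := by
    unfold PreNum.C₂
    have := N.P.one_le_S
    have := N.P.Λ_pos
    have := N.P.K_pos
    positivity
  have h5 : 0 ≤ N.P.qmax N.p := by
    have := N.ρmax_pos
    have := N.pp_pos
    unfold PreNum.qmax
    positivity
  have h6 : 0 ≤ N.P.U / 2 * N.P.qmax N.p := by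
    have := N.P.hU
    positivity
  have h7 : 0 ≤ 4 * (N.P.U / 2 * N.P.qmax N.p + 8 * N.P.C₂ + 2 * N.P.W) * N.ϑ := by
    positivity
  linarith

theorem summable_a_shift (j : ℕ) : Summable fun i => N.G.a (j + i) :=
  by
  have := (summable_nat_add_iff j).mpr N.summable_a
  refine this.congr fun i => ?_
  rw [add_comm]

theorem tsum_a_shift_le (j : ℕ) : ∑' i, N.G.a (j + i) ≤ N.G.A := by
  have h1 : ∑' i, N.G.a (j + i) = ∑' l, tl j l * N.G.a l := (tsum_tl j N.summable_a).symm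
  rw [h1, ← N.G.hA.tsum_eq]
  have hs : Summable fun l => tl j l * N.G.a l := by
    refine Summable.of_nonneg_of_le (fun l => ?_) (fun l => ?_) N.summable_a
    · unfold tl; split_ifs <;> simp [(N.G.ha l).le]
    · unfold tl; split_ifs <;> simp [(N.G.ha l).le]
  apply hs.tsum_le_tsum (fun l => ?_) N.summable_a
  unfold tl; split_ifs <;> simp [(N.G.ha l).le]

theorem ballVol_R (j : ℕ) : ballVol (N.G.R j) = ballVol 1 * (scaleR N.Y j) ^ 3 := by
  rw [ballVol_eq _ (N.R_pos j).le]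
  rfl

theorem Dj_le (j : ℕ) : N.Dj j ≤ N.P.A N.p / ballVol 1 * (1 / (scaleR N.Y j) ^ 3) := by
  have hb := ballVol_one_pos
  have hR := scaleR_pos N.hY j
  have hvol : 0 < ballVol (N.G.R j) := ballVol_pos' (N.R_pos j)
  have h0 : N.Dj j ≤ (∑' i, N.G.a (j + i)) / ballVol (N.G.R j) := by
    rw [← tsum_div_const]
    have hs : Summable fun i => N.G.a (j + i) / ballVol (N.G.R (j + i)) := by
      have := (summable_nat_add_iff j).mpr N.summable_a_div
      refine this.congr fun i => ?_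
      rw [add_comm]
    apply hs.tsum_le_tsum (fun i => ?_) ((N.summable_a_shift j).div_const _)
    apply div_le_div_of_nonneg_left (N.G.ha _).le hvol
    apply ballVol_mono (N.R_pos j).le
    exact scaleR_mono N.hY (Nat.le_add_right _ _)
  have h1 : (∑' i, N.G.a (j + i)) / ballVol (N.G.R j) ≤ N.G.A / ballVol (N.G.R j) :=
    div_le_div_of_nonneg_right (N.tsum_a_shift_le j) hvol.le
  have h2 : N.G.A / ballVol (N.G.R j) = N.P.A N.p / ballVol 1 * (1 / (scaleR N.Y j) ^ 3) := by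
    rw [N.ballVol_R j]
    have : N.G.A = N.P.A N.p := rfl
    rw [this]
    field_simp
  linarith

theorem err_le (j : ℕ) : N.err j ≤ N.δ * (1 / 2) ^ j * N.aa (j + 1) := by
  have hpp := N.pp_pos
  have hY0 : 0 < N.Y := by linarith [N.hY]
  have hb := ballVol_one_pos
  set x := eps N.Y (j + 1) * (1 / N.Y ^ 24) * (1 / 2) ^ j with hx
  have hx0 : 0 ≤ x := by
    have := eps_pos N.hY (j + 1)
    positivity
  have h1 := sigY_le N.hY j
  have h2 := scale_inv_le N.hY j
  have h3 := N.Dj_le j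
  have hA := N.A_pos
  have hρ := N.ρmax_pos
  have h4 : N.Dj j ≤ N.P.A N.p / ballVol 1 * x :=
    h3.trans (mul_le_mul_of_nonneg_left h2 (by positivity))
  have h5 : 3 * N.Cs * sigY N.Y j + N.P.ρmax * N.Dj j ≤
      (3 * N.Cs + N.P.ρmax * N.P.A N.p / ballVol 1) * x := by
    have h6 : 3 * N.Cs * sigY N.Y j ≤ 3 * N.Cs * x :=
      mul_le_mul_of_nonneg_left h1 (by have := N.hCs0; positivity)
    have h7 : N.P.ρmax * N.Dj j ≤ N.P.ρmax * (N.P.A N.p / ballVol 1 * x) :=
      mul_le_mul_of_nonneg_left h4 hρ.le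
    have h8 : N.P.ρmax * (N.P.A N.p / ballVol 1 * x) =
        N.P.ρmax * N.P.A N.p / ballVol 1 * x := by ring
    nlinarith
  have h6 : (3 * N.Cs + N.P.ρmax * N.P.A N.p / ballVol 1) * x ≤
      (N.δ * N.P.pp N.p ^ 2 * N.Y ^ 24) * x := mul_le_mul_of_nonneg_right N.hY2 hx0
  unfold err
  rw [div_le_iff₀ hpp, N.aa_succ]
  have h7 : N.δ * N.P.pp N.p ^ 2 * N.Y ^ 24 * x =
      N.δ * (1 / 2) ^ j * (N.P.pp N.p * eps N.Y (j + 1)) * N.P.pp N.p := by
    rw [hx]
    field_simp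
  linarith

theorem err0_le : N.err 0 ≤ 1 := by
  have h1 := N.err_le 0
  rw [N.aa_succ] at h1
  have h2 := N.δ_le
  have h3 := N.hY1
  have h4 := N.hδ0
  have h5 := eps_pos N.hY 1
  have h6 := N.pp_pos
  simp only [pow_zero, mul_one, zero_add] at h1
  have h7 : N.P.pp N.p * eps N.Y 1 ≤ 1 / 2 := by linarith
  have h8 : 0 < N.P.pp N.p * eps N.Y 1 := by positivity
  nlinarith

end Num
end Crest.Agent.Lib.Gas
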