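import Crest.Agent.Lib.Gas.AssembleErr
import Crest.Agent.Lib.Gas.AssembleCrude

/-!
# Gas assembly: numeric and crude fields of `TripleData`.
-/

namespace Crest.Agent.Lib.Gas
open MeasureTheory Set Filter Topology
open Crest.ProbabilityR.Continuum

namespace Num
variable (N : Num)

theorem θ_ge : 99 / 100 ≤ N.P.θ N.p := by
  have h1 := N.P.one_sub_θ_le N.hp
  have h2 := N.P.small
  linarith

theorem ρmax_ge : 512 * ballVol 1 * Real.exp N.P.Λ ≤ N.P.ρmax := by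
  have hb := ballVol_one_pos
  have h0 := N.ℓ₀_pos
  have h1 := N.ℓ₀_le_r₀
  have hr := N.P.r₀_pos
  have h2 : N.P.ℓ₀ ^ 3 ≤ (N.P.r₀ / 2) ^ 3 := by gcongr
  have h3 : N.P.r₀ ^ 3 = Real.exp (-N.P.Λ) / (2 * ballVol 1) := r0Of_cube _
  have h4 : N.P.ℓ₀ ^ 3 ≤ Real.exp (-N.P.Λ) / (16 * ballVol 1) := by
    have : (N.P.r₀ / 2) ^ 3 = N.P.r₀ ^ 3 / 8 := by ring
    rw [this, h3] at h2
    have h5 : Real.exp (-N.P.Λ) / (2 * ballVol 1) / 8 = Real.exp (-N.P.Λ) / (16 * ballVol 1) := by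
      field_simp
      norm_num
    linarith
  unfold PreNum.ρmax GasSetup.rhoMax
  rw [le_div_iff₀ (by positivity)]
  have h6 : 512 * ballVol 1 * Real.exp N.P.Λ * N.P.ℓ₀ ^ 3 ≤
      512 * ballVol 1 * Real.exp N.P.Λ * (Real.exp (-N.P.Λ) / (16 * ballVol 1)) :=
    mul_le_mul_of_nonneg_left h4 (by positivity)
  have h7 : 512 * ballVol 1 * Real.exp N.P.Λ * (Real.exp (-N.P.Λ) / (16 * ballVol 1)) = 32 := by
    rw [Real.exp_neg]
    have := Real.exp_pos N.P.Λ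
    field_simp
    norm_num
  linarith

theorem hq : (N.P.K : ℝ) + 1 ≤ N.P.qmax N.p := by
  have hb := ballVol_one_pos
  have h1 := N.ρmax_ge
  have h2 : ((N.P.K : ℝ) + 1) * (8 * N.p) * Real.exp (-N.P.Λ) ≤ 64 * ballVol 1 :=
    N.hN3.trans (min_le_right _ _)
  have h3 := N.pp_pos
  have h4 := N.P.pp_le N.hp
  have hK := N.P.K_pos
  have he := Real.exp_pos N.P.Λ
  have h5 : ((N.P.K : ℝ) + 1) * (8 * N.p) ≤ 64 * ballVol 1 * Real.exp N.P.Λ := by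
    have h6 : ((N.P.K : ℝ) + 1) * (8 * N.p) =
        ((N.P.K : ℝ) + 1) * (8 * N.p) * Real.exp (-N.P.Λ) * Real.exp N.P.Λ := by
      rw [mul_assoc _ (Real.exp (-N.P.Λ)), ← Real.exp_add]
      simp
    rw [h6]
    exact mul_le_mul_of_nonneg_right h2 he.le
  unfold PreNum.qmax
  rw [le_div_iff₀ h3]
  have h7 : ((N.P.K : ℝ) + 1) * N.P.pp N.p ≤ ((N.P.K : ℝ) + 1) * (8 * N.p) :=
    mul_le_mul_of_nonneg_left h4 (by positivity)
  have h8 : 0 < ballVol 1 * Real.exp N.P.Λ := by positivity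
  linarith

theorem hKw : ((N.P.K : ℝ) + 1) * N.P.pp N.p * Real.exp (-N.P.Λ) ≤ 1 := by
  have h2 : ((N.P.K : ℝ) + 1) * (8 * N.p) * Real.exp (-N.P.Λ) ≤ 1 :=
    N.hN3.trans (min_le_left _ _)
  have h4 := N.P.pp_le N.hp
  have hK := N.P.K_pos
  have h7 : ((N.P.K : ℝ) + 1) * N.P.pp N.p * Real.exp (-N.P.Λ) ≤
      ((N.P.K : ℝ) + 1) * (8 * N.p) * Real.exp (-N.P.Λ) := by
    gcongr
  linarith

theorem qmax_pos : 0 < N.P.qmax N.p := by
  have h1 := N.hq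
  have := N.P.K_pos
  linarith

theorem eight_K_sq_le : 8 * (N.P.K : ℝ) ^ 2 ≤ N.P.S := by
  unfold PreNum.S PreNum.S₀
  have h1 := N.P.K_sub_one_nonneg
  have h2 := N.P.c₂_nonneg
  have h3 : 0 ≤ Real.log (N.P.K.factorial) := Real.log_natCast_nonneg _
  have h4 := N.P.two_le_K
  have h5 := N.P.log_W_nonneg
  have h6 : 0 ≤ ((N.P.K : ℝ) - 1) * N.P.c₂ := mul_nonneg h1 h2
  have h7 := abs_nonneg (Real.log (ballVol 1))
  linarith

theorem two_K_add_le : 2 * ((N.P.K : ℝ) + 1) ≤ N.P.S := by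
  unfold PreNum.S PreNum.S₀
  have h1 := N.P.K_sub_one_nonneg
  have h2 := N.P.c₂_nonneg
  have h3 : 0 ≤ Real.log (N.P.K.factorial) := Real.log_natCast_nonneg _
  have h4 := N.P.two_le_K
  have h5 := N.P.log_W_nonneg
  have h6 : 0 ≤ ((N.P.K : ℝ) - 1) * N.P.c₂ := mul_nonneg h1 h2
  have h7 := abs_nonneg (Real.log (ballVol 1))
  have h8 : 0 ≤ 8 * (N.P.K : ℝ) ^ 2 := by positivity
  linarith

theorem hθΛ : (N.P.K : ℝ) * N.P.Λ * (1 - N.P.θ N.p) ≤ N.P.S := by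
  have h1 := N.P.one_sub_θ_le N.hp
  have hK := N.P.K_pos
  have hΛ := N.P.Λ_pos
  have h2 := N.eight_K_sq_le
  have h3 := N.hN2
  have h4 := N.P.two_le_K
  have hKW : N.P.Λ * N.P.r₁ = (N.P.K : ℝ) / 2 := by
    unfold PreNum.r₁ PreNum.W
    field_simp
  have h5 : (N.P.K : ℝ) * N.P.Λ * (1 - N.P.θ N.p) ≤ (N.P.K : ℝ) * N.P.Λ * (9 * N.P.r₁ + 6 * N.P.r₀) :=
    mul_le_mul_of_nonneg_left h1 (by positivity)
  have h6 : (N.P.K : ℝ) * N.P.Λ * (9 * N.P.r₁ + 6 * N.P.r₀) =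
      (N.P.K : ℝ) * (9 * (N.P.Λ * N.P.r₁) + 6 * (N.P.Λ * N.P.r₀)) := by ring
  rw [h6, hKW] at h5
  have h7 : (N.P.K : ℝ) * (9 * ((N.P.K : ℝ) / 2) + 6 * (N.P.Λ * N.P.r₀)) ≤
      (N.P.K : ℝ) * (9 * ((N.P.K : ℝ) / 2) + 6 * 1) := by
    gcongr
  nlinarith

/-- The base well. -/
noncomputable abbrev b : BaseV := N.P.base N.core

theorem Tc_lvl_zero (r : ℝ) : N.G.Tc (lvl 0) r = 0 := by
  unfold GasSetup.Tc
  simp [lvl]

theorem φc_lvl_zero : N.G.φc (lvl 0) = N.b.v := by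
  ext r
  unfold GasSetup.φc
  rw [N.Tc_lvl_zero]
  simp only [sub_zero]
  rfl

theorem Pj_zero (β q : ℝ) : N.Pj 0 β q = N.b.P0 N.p β q := by
  unfold Pj BaseV.P0
  rw [N.φc_lvl_zero]
  rfl

theorem hUB {β q : ℝ} (hβ : β ∈ Icc (1 / 2 : ℝ) 2) (hq : q ∈ Icc 0 (N.P.qmax N.p)) :
    N.Pj 0 β q ≤ N.P.S - max (q - 1) 0 * N.P.Λ - max (q - N.P.K) 0 * N.P.Pn N.p := by
  rw [N.Pj_zero]
  have hPn : 0 ≤ N.P.Pn N.p := by
    have := N.P.W_pos
    have := N.qmax_pos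
    unfold PreNum.Pn
    positivity
  exact N.b.P0_le (Λ := N.P.Λ) (Pn := N.P.Pn N.p) N.hlim N.hp N.P.hK N.P.Λ_pos.le hPn N.hUe N.hKw
    N.two_K_add_le N.hUa N.hUb hβ hq.1

theorem log_ballVol_r₁ : Real.log (ballVol N.P.r₁) = Real.log (ballVol 1) - 3 * Real.log N.P.W := by
  have hb := ballVol_one_pos
  have hW := N.P.W_pos
  rw [ballVol_eq _ N.P.r₁_pos.le]
  unfold PreNum.r₁
  rw [Real.log_mul hb.ne' (by positivity), Real.log_pow, one_div, Real.log_inv]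
  push_cast
  ring

theorem hLB1 {β : ℝ} (hβ : β ∈ Icc (1 / 2 : ℝ) 2) : - N.P.S ≤ N.Pj 0 β (N.P.θ N.p) := by
  rw [N.Pj_zero]
  have hr₂ : 0 < N.P.r₂ := by
    have := N.P.r₀_pos
    have := N.P.m_pos
    unfold PreNum.r₂
    positivity
  have hS : - N.P.S ≤ Real.log (ballVol N.P.r₁) := by
    rw [N.log_ballVol_r₁]
    unfold PreNum.S PreNum.S₀
    have h1 := N.P.K_sub_one_nonneg
    have h2 := N.P.c₂_nonneg
    have h3 : 0 ≤ Real.log (N.P.K.factorial) := Real.log_natCast_nonneg _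
    have h4 := N.P.two_le_K
    have h6 : 0 ≤ ((N.P.K : ℝ) - 1) * N.P.c₂ := mul_nonneg h1 h2
    have h7 := neg_abs_le (Real.log (ballVol 1))
    have h8 : 0 ≤ 8 * (N.P.K : ℝ) ^ 2 := by positivity
    linarith
  exact N.b.P0_ge_one (r₁ := N.P.r₁) (r₂ := N.P.r₂) (s := N.P.s) N.hlim N.hp N.P.r₁_pos hr₂ le_rfl rfl
    (N.P.θ_pos N.hp).le (N.P.θ_le N.hp) (by linarith [N.P.one_le_S]) hS (by linarith [hβ.1])

theorem log_ballVol_r₂ : Real.log (ballVol N.P.r₂) = - N.P.Λ - N.P.c₂ := by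
  have hb := ballVol_one_pos
  have hr := N.P.r₀_pos
  have hm := N.P.m_pos
  have hr₂ : ballVol N.P.r₂ = (Real.exp (-N.P.Λ) / 2) * (N.P.m / 6) ^ 3 := by
    rw [ballVol_eq _ (by unfold PreNum.r₂; positivity)]
    unfold PreNum.r₂
    have h3 : N.P.r₀ ^ 3 = Real.exp (-N.P.Λ) / (2 * ballVol 1) := r0Of_cube _
    rw [mul_pow, h3]
    field_simp
  rw [hr₂, Real.log_mul (by positivity) (by positivity), Real.log_div (Real.exp_pos _).ne'
    (by norm_num), Real.log_exp, Real.log_pow]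
  unfold PreNum.c₂
  have h6 : Real.log (6 / N.P.m) = - Real.log (N.P.m / 6) := by
    rw [← Real.log_inv, inv_div]
  rw [h6]
  push_cast
  ring

theorem hLBK {β : ℝ} (hβ : β ∈ Icc (1 / 2 : ℝ) 2) :
    - ((N.P.K : ℝ) - 1) * N.P.Λ - N.P.S ≤ N.Pj 0 β (N.P.K * N.P.θ N.p) := by
  rw [N.Pj_zero]
  have hr₂0 : 0 < N.P.r₂ := by
    have := N.P.r₀_pos
    have := N.P.m_pos
    unfold PreNum.r₂
    positivity
  obtain ⟨k, hk⟩ : ∃ k, N.P.K = k + 1 := ⟨N.P.K - 1, by have := N.P.hK; omega⟩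
  have hkc : (N.P.K : ℝ) = (k : ℝ) + 1 := by rw [hk]; push_cast; ring
  have hτ₂ : 0 < N.P.τ₂ := by linarith [N.P.τ₁_pos, N.P.hτ₁₂]
  set f := (1 + N.P.τ₁ / N.P.τ₂) / 2 with hf
  have hfτ : f * N.P.τ₂ = N.P.τ₁ + N.P.m := by
    rw [hf]; unfold PreNum.m; field_simp; ring
  have hf1 : f ≤ 1 - N.P.m := by
    have h1 : f = 1 - N.P.m / N.P.τ₂ := by
      rw [hf]; unfold PreNum.m; field_simp; ring
    rw [h1]
    have h2 : N.P.m ≤ N.P.m / N.P.τ₂ := by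
      rw [le_div_iff₀ hτ₂]
      have := N.P.m_pos
      nlinarith [N.P.hτ₂]
    linarith
  have hf0 : 0 < f := by
    rw [hf]
    have := N.P.τ₁_pos
    positivity
  let y : Fin (k + 1) → Pt := fun a =>
    (N.P.r₀ * f) • (N.P.z (Fin.cast hk.symm a) - N.P.z (Fin.cast hk.symm 0))
  have hy0 : y 0 = 0 := by simp [y]
  have hy : ∀ a c, a ≠ c → N.b.d₁ + 2 * N.P.r₂ ≤ dist (y a) (y c) ∧
      dist (y a) (y c) + 2 * N.P.r₂ ≤ N.b.d₂ := by
    intro a c hac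
    have hne : Fin.cast hk.symm a ≠ Fin.cast hk.symm c := by
      intro h; exact hac (Fin.cast_injective _ h)
    obtain ⟨hz1, hz2⟩ := N.P.hz _ _ hne
    have hr := N.P.r₀_pos
    have hdist : dist (y a) (y c) = N.P.r₀ * f * dist (N.P.z (Fin.cast hk.symm a))
        (N.P.z (Fin.cast hk.symm c)) := by
      simp only [y]
      rw [dist_smul₀, Real.norm_of_nonneg (by positivity), dist_sub_right]
    rw [hdist]
    have e1 : N.b.d₁ = N.P.r₀ * (N.P.τ₁ + N.P.m / 3) := rfl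
    have e2 : N.b.d₂ = N.P.r₀ * (1 - N.P.m / 3) := rfl
    have e3 : N.P.r₂ = N.P.r₀ * (N.P.m / 6) := rfl
    rw [e1, e2, e3]
    constructor
    · have h1 : f * N.P.τ₂ ≤ f * dist (N.P.z (Fin.cast hk.symm a)) (N.P.z (Fin.cast hk.symm c)) :=
        mul_le_mul_of_nonneg_left hz1 hf0.le
      rw [hfτ] at h1
      have h2 := mul_le_mul_of_nonneg_left h1 hr.le
      have hm := N.P.m_pos
      nlinarith [mul_pos hr hm]
    · have h1 : f * dist (N.P.z (Fin.cast hk.symm a)) (N.P.z (Fin.cast hk.symm c)) ≤ 1 - N.P.m := by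
        have : f * dist (N.P.z (Fin.cast hk.symm a)) (N.P.z (Fin.cast hk.symm c)) ≤ f * 1 :=
          mul_le_mul_of_nonneg_left hz2 hf0.le
        linarith
      have h2 := mul_le_mul_of_nonneg_left h1 hr.le
      have hm := N.P.m_pos
      nlinarith [mul_pos hr hm]
  have hS1 : - N.P.S ≤ Real.log (ballVol N.P.r₁) - k * N.P.c₂ - Real.log ((k + 1).factorial) := by
    rw [N.log_ballVol_r₁, ← hk]
    unfold PreNum.S PreNum.S₀
    rw [hkc]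
    have h2 := N.P.c₂_nonneg
    have h7 := neg_abs_le (Real.log (ballVol 1))
    have hk0 : (0 : ℝ) ≤ k := Nat.cast_nonneg _
    have h8 : 0 ≤ 8 * ((k : ℝ) + 1) ^ 2 := by positivity
    have h9 : ((k : ℝ) + 1 - 1) * N.P.c₂ = k * N.P.c₂ := by ring
    rw [h9]
    linarith
  have h := N.b.P0_ge_K (β := β) (θ := N.P.θ N.p) (k := k) (r₁ := N.P.r₁) (r₂ := N.P.r₂) (s := N.P.s) (Λ := N.P.Λ)
    (c₂ := N.P.c₂) (S := N.P.S) N.hlim N.hp N.P.r₁_pos hr₂0 le_rfl rfl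
    (N.P.θ_pos N.hp).le (N.P.θ_le N.hp) N.P.Λ_pos.le hS1 (by linarith [N.P.one_le_S])
    (by rw [N.log_ballVol_r₂]) (by linarith [hβ.1]) y hy0 hy
  rw [hkc]
  have e : -((k : ℝ) + 1 - 1) * N.P.Λ = - (k : ℝ) * N.P.Λ := by ring
  rw [e]
  exact h

theorem hzero {j : ℕ} {β : ℝ} (hβ : β ∈ Icc (1 / 2 : ℝ) 2) : N.Pj j β 0 = 0 := by
  unfold Pj
  rw [zero_mul, (N.adm j).psi_zero (by linarith [hβ.1]), zero_div]

theorem hzeroI {β : ℝ} (hβ : β ∈ Icc (1 / 2 : ℝ) 2) : N.PI β 0 = 0 := by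
  unfold PI
  rw [zero_mul, (N.admI).psi_zero (by linarith [hβ.1]), zero_div]

theorem hmono0 {β β' : ℝ} (hβ : β ∈ Icc (1 / 2 : ℝ) 2) (hββ' : β ≤ β')
    {q : ℝ} (hq : q ∈ Icc 0 (N.P.qmax N.p)) : N.Pj 0 β' q ≤ N.Pj 0 β q := by
  rw [N.Pj_zero, N.Pj_zero]
  unfold BaseV.P0
  have hpp : 0 < N.b.pplus N.p := N.pp_pos
  have h := N.b.admissible.beta_lip (β := β) (β' := β') (ρ := q * N.b.pplus N.p)
    (by linarith [hβ.1]) hββ' (mul_nonneg hq.1 hpp.le)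
  simp only [mul_zero, zero_mul, add_zero] at h
  exact div_le_div_of_nonneg_right h hpp.le

theorem hlipGen {c : ℕ → ℝ} (h : Admissible (N.G.φc c) N.G.v (N.G.U / 2) N.G.V₁) {β β' : ℝ}
    (hβ : β ∈ Icc (1 / 2 : ℝ) 2) (hββ' : β ≤ β') {q : ℝ} (hq : q ∈ Icc 0 (N.P.qmax N.p)) :
    Psi (N.G.φc c) β' (q * N.P.pp N.p) / N.P.pp N.p ≤
      Psi (N.G.φc c) β (q * N.P.pp N.p) / N.P.pp N.p + N.P.U / 2 * N.P.qmax N.p * (β' - β) := by
  have hpp := N.pp_pos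
  have h1 := h.beta_lip (β := β) (β' := β') (ρ := q * N.P.pp N.p)
    (by linarith [hβ.1]) hββ' (mul_nonneg hq.1 hpp.le)
  have h2 : (β' - β) * (N.G.U / 2) * (q * N.P.pp N.p) / N.P.pp N.p =
      N.P.U / 2 * q * (β' - β) := by
    have : N.G.U = N.P.U := rfl
    rw [this]
    field_simp
  have h3 : N.P.U / 2 * q * (β' - β) ≤ N.P.U / 2 * N.P.qmax N.p * (β' - β) := by
    have := N.P.hU
    have hb : 0 ≤ β' - β := by linarith
    have := hq.2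
    gcongr
  have h4 : Psi (N.G.φc c) β' (q * N.P.pp N.p) / N.P.pp N.p ≤
      (Psi (N.G.φc c) β (q * N.P.pp N.p) + (β' - β) * (N.G.U / 2) * (q * N.P.pp N.p)) / N.P.pp N.p :=
    div_le_div_of_nonneg_right h1 hpp.le
  rw [add_div, h2] at h4
  linarith

end Num
end Crest.Agent.Lib.Gas
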