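import Crest.Agent.Lib.Gas.Defs

/-! # Gas F1: the template (pigeonhole). -/
namespace Crest.Agent.Lib.Gas
open MeasureTheory Set Filter Topology
open Crest.ProbabilityR.Continuum

/-- Coordinates are `1`-Lipschitz. -/
private lemma abs_coord_sub_le (x y : Pt) (j : Fin 3) : |x j - y j| ≤ dist x y := by
  rw [EuclideanSpace.dist_eq]
  apply Real.le_sqrt_of_sq_le
  have h : dist (x j) (y j) ^ 2 ≤ ∑ k, dist (x k) (y k) ^ 2 :=
    Finset.single_le_sum (f := fun k => dist (x k) (y k) ^ 2)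
      (fun _ _ => sq_nonneg _) (Finset.mem_univ j)
  rw [Real.dist_eq] at h
  rw [sq_abs]
  simpa [Real.dist_eq, sq_abs] using h

/-- Two points in the same cell of side `1/4` are at distance `< 1/2`. -/
private lemma dist_lt_half_of_floor_eq {x y : Pt}
    (h : ∀ j : Fin 3, ⌊4 * x j⌋ = ⌊4 * y j⌋) : dist x y < 1 / 2 := by
  have hc : ∀ j : Fin 3, |x j - y j| < 1 / 4 := by
    intro j
    have h1 := Int.floor_le (4 * x j)
    have h2 := Int.lt_floor_add_one (4 * x j)
    have h3 := Int.floor_le (4 * y j)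
    have h4 := Int.lt_floor_add_one (4 * y j)
    rw [h j] at h1 h2
    rw [abs_lt]
    constructor <;> linarith
  rw [EuclideanSpace.dist_eq]
  have hs : ∑ k, dist (x k) (y k) ^ 2 < (1 / 2 : ℝ) ^ 2 := by
    have : ∀ k : Fin 3, dist (x k) (y k) ^ 2 < (1 / 4 : ℝ) ^ 2 := by
      intro k
      rw [Real.dist_eq]
      have := hc k
      have h0 := abs_nonneg (x k - y k)
      nlinarith
    simp only [Fin.sum_univ_three]
    nlinarith [this 0, this 1, this 2]
  calc Real.sqrt (∑ k, dist (x k) (y k) ^ 2) < Real.sqrt ((1 / 2 : ℝ) ^ 2) :=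
        Real.sqrt_lt_sqrt (Finset.sum_nonneg fun _ _ => sq_nonneg _) hs
    _ = 1 / 2 := Real.sqrt_sq (by norm_num)

/-- The admissible sizes at threshold `τ`. -/
private def sizes (τ : ℝ) : Set ℕ :=
  {n | ∃ z : Fin n → Pt, ∀ i k, i ≠ k → τ ≤ dist (z i) (z k) ∧ dist (z i) (z k) ≤ 1}

/-- A grid count: a `1/2`-separated set of diameter `≤ 1` has at most `729` points. -/
private lemma card_le_of_separated {n : ℕ} {τ : ℝ} (hτ : 1 / 2 ≤ τ) {z : Fin n → Pt}
    (hz : ∀ i k, i ≠ k → τ ≤ dist (z i) (z k) ∧ dist (z i) (z k) ≤ 1) : n ≤ 729 := by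
  by_cases hn : n = 0
  · omega
  have i0 : Fin n := ⟨0, Nat.pos_of_ne_zero hn⟩
  -- the cell map
  let cell : Fin n → (Fin 3 → Finset.Icc (-4 : ℤ) 4) := fun i j =>
    ⟨⌊4 * (z i j - z i0 j)⌋, by
      have hb : |z i j - z i0 j| ≤ 1 := by
        by_cases h : i = i0
        · subst h; simp
        · exact (abs_coord_sub_le _ _ j).trans (hz i i0 h).2
      rw [abs_le] at hb
      rw [Finset.mem_Icc]
      constructor
      · apply Int.le_floor.2
        push_cast
        linarith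
      · have : ⌊4 * (z i j - z i0 j)⌋ ≤ ⌊(4 : ℝ)⌋ := Int.floor_le_floor (by linarith)
        simpa using this⟩
  have hinj : Function.Injective cell := by
    intro i k hik
    by_contra hne
    have hd := (hz i k hne).1
    have hf : ∀ j : Fin 3, ⌊4 * (z i j - z i0 j)⌋ = ⌊4 * (z k j - z i0 j)⌋ := by
      intro j
      have := congrFun hik j
      exact congrArg Subtype.val this
    -- translate the two points
    have hlt : dist (z i - z i0) (z k - z i0) < 1 / 2 :=
      dist_lt_half_of_floor_eq (x := z i - z i0) (y := z k - z i0) (by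
        intro j
        simpa using hf j)
    rw [dist_sub_right] at hlt
    linarith
  have := Fintype.card_le_of_injective cell hinj
  simpa using this

private lemma sizes_bdd {τ : ℝ} (hτ : 1 / 2 ≤ τ) : BddAbove (sizes τ) :=
  ⟨729, fun _ ⟨_, hz⟩ => card_le_of_separated hτ hz⟩

/-- Two points at distance exactly one. -/
private lemma two_mem_sizes {τ : ℝ} (hτ : τ ≤ 1) : 2 ∈ sizes τ := by
  refine ⟨fun i => if i = 0 then 0 else EuclideanSpace.single 0 1, ?_⟩
  have h01 : dist (0 : Pt) (EuclideanSpace.single (0 : Fin 3) (1 : ℝ)) = 1 := by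
    rw [dist_comm, dist_zero_right]
    simp
  intro i k hik
  fin_cases i <;> fin_cases k <;> simp_all [dist_comm]

private lemma sizes_anti {τ τ' : ℝ} (h : τ ≤ τ') : sizes τ' ⊆ sizes τ :=
  fun _ ⟨z, hz⟩ => ⟨z, fun i k hik => ⟨h.trans (hz i k hik).1, (hz i k hik).2⟩⟩

/-- Pigeonhole for the template: the maximal size `K(τ)` of a set with pairwise distances in
`[τ, 1]` is monotone and bounded on `[1/2, 1]`, so it takes the same value at some `τ₁ < τ₂`. -/
theorem exists_template : ∃ (K : ℕ) (τ₁ τ₂ : ℝ), 2 ≤ K ∧ 1 / 2 ≤ τ₁ ∧ τ₁ < τ₂ ∧ τ₂ ≤ 1 ∧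
    (∀ (n : ℕ) (z : Fin n → Pt), (∀ i k, i ≠ k → τ₁ ≤ dist (z i) (z k) ∧ dist (z i) (z k) ≤ 1) →
      n ≤ K) ∧
    ∃ z : Fin K → Pt, ∀ i k, i ≠ k → τ₂ ≤ dist (z i) (z k) ∧ dist (z i) (z k) ≤ 1 := by
  -- thresholds
  let t : Fin 731 → ℝ := fun i => 1 / 2 + (i : ℝ) / 2000
  have ht0 : ∀ i, 1 / 2 ≤ t i := fun i => by
    have : (0 : ℝ) ≤ (i : ℝ) := Nat.cast_nonneg _
    simp only [t]; linarith [div_nonneg this (by norm_num : (0 : ℝ) ≤ 2000)]
  have ht1 : ∀ i, t i ≤ 1 := fun i => by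
    have : ((i : ℕ) : ℝ) ≤ 730 := by exact_mod_cast Nat.lt_succ_iff.1 i.2
    simp only [t]; linarith
  have htlt : ∀ i j : Fin 731, i < j → t i < t j := fun i j hij => by
    have : ((i : ℕ) : ℝ) < (j : ℕ) := by exact_mod_cast hij
    simp only [t]; linarith
  let K : Fin 731 → ℕ := fun i => sSup (sizes (t i))
  have hKmem : ∀ i, K i ∈ sizes (t i) := fun i =>
    Nat.sSup_mem ⟨2, two_mem_sizes (ht1 i)⟩ (sizes_bdd (ht0 i))
  have hKle : ∀ i, K i ≤ 729 := fun i => by
    obtain ⟨z, hz⟩ := hKmem i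
    exact card_le_of_separated (ht0 i) hz
  -- pigeonhole
  let f : Fin 731 → Fin 730 := fun i => ⟨K i, Nat.lt_succ_of_le (hKle i)⟩
  obtain ⟨i, j, hne, hij⟩ := Fintype.exists_ne_map_eq_of_card_lt f (by simp)
  have hKij : K i = K j := congrArg Fin.val hij
  wlog hlt : i < j generalizing i j
  · exact this j i hne.symm hij.symm hKij.symm (lt_of_le_of_ne (not_lt.1 hlt) hne.symm)
  refine ⟨K i, t i, t j, ?_, ht0 i, htlt i j hlt, ht1 j, ?_, ?_⟩
  · exact le_csSup (sizes_bdd (ht0 i)) (two_mem_sizes (ht1 i))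
  · intro n z hz
    exact le_csSup (sizes_bdd (ht0 i)) ⟨z, hz⟩
  · rw [hKij]
    exact hKmem j

end Crest.Agent.Lib.Gas
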