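import Crest.Agent.Lib.Gas.Defs

/-!
# Gas, module A: packing numbers.
-/

namespace Crest.Agent.Lib.Gas
open MeasureTheory Set Filter Topology
open Crest.ProbabilityR.Continuum

private theorem abs_coord_le_dist (x y : Pt) (k : Fin 3) : |x k - y k| ≤ dist x y := by
  rw [dist_eq_norm, ← Real.norm_eq_abs]
  have := PiLp.norm_apply_le (x - y) k
  simpa using this

private theorem dist_lt_one_of_coord (x y : Pt) (h : ∀ k : Fin 3, |x k - y k| < 1 / 2) :
    dist x y < 1 := by
  rw [EuclideanSpace.dist_eq]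
  rw [Real.sqrt_lt' (by norm_num)]
  have : ∀ k : Fin 3, dist (x k) (y k) ^ 2 < 1 / 3 := by
    intro k
    rw [Real.dist_eq]
    have := h k
    have h0 := abs_nonneg (x k - y k)
    nlinarith
  rw [Fin.sum_univ_three]
  have h0 := this 0
  have h1 := this 1
  have h2 := this 2
  norm_num at *
  linarith

/-- Separated families have bounded cardinal, explicit form. -/
private theorem card_le_grid {L : ℝ} (X : Finset Pt) (hX : ∀ x ∈ X, x ∈ cube L)
    (hsep : ∀ x ∈ X, ∀ y ∈ X, x ≠ y → 1 ≤ dist x y) : X.card ≤ (⌊2 * L⌋₊ + 1) ^ 3 := by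
  classical
  set f : Pt → (Fin 3 → Fin (⌊2 * L⌋₊ + 1)) := fun x k =>
    ⟨min ⌊2 * x k⌋₊ ⌊2 * L⌋₊, by omega⟩ with hf
  have hinj : Set.InjOn f (X : Set Pt) := by
    intro x hx y hy hxy
    by_contra hne
    have h1 := hsep x hx y hy hne
    have h2 : dist x y < 1 := by
      apply dist_lt_one_of_coord
      intro k
      have hk := congrFun hxy k
      simp only [hf, Fin.mk.injEq] at hk
      have hx0 := (hX x hx k).1
      have hxL := (hX x hx k).2
      have hy0 := (hX y hy k).1
      have hyL := (hX y hy k).2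
      have hxle : ⌊2 * x k⌋₊ ≤ ⌊2 * L⌋₊ := Nat.floor_le_floor (by linarith)
      have hyle : ⌊2 * y k⌋₊ ≤ ⌊2 * L⌋₊ := Nat.floor_le_floor (by linarith)
      rw [min_eq_left hxle, min_eq_left hyle] at hk
      have h3 := Nat.floor_le (a := 2 * x k) (by linarith)
      have h4 := Nat.lt_floor_add_one (2 * x k)
      have h5 := Nat.floor_le (a := 2 * y k) (by linarith)
      have h6 := Nat.lt_floor_add_one (2 * y k)
      rw [hk] at h3 h4
      rw [abs_lt]
      constructor <;> linarith
    linarith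
  have := Finset.card_le_card_of_injOn f (fun x _ => Finset.mem_univ _) hinj
  simpa using this

/-- The packing set is bounded: a `1`-separated finite subset of `[0,L]³` injects into the grid of
side `1/2`. -/
theorem packingSet_bddAbove (L : ℝ) : BddAbove (packingSet L) := by
  refine ⟨(⌊2 * L⌋₊ + 1) ^ 3, ?_⟩
  rintro n ⟨X, rfl, hX, hsep⟩
  exact card_le_grid X hX hsep

private theorem packingSet_nonempty (L : ℝ) : (packingSet L).Nonempty :=
  ⟨0, ∅, by simp⟩

theorem packingNumber_le (L : ℝ) (hL : 0 ≤ L) : (packingNumber L : ℝ) ≤ (2 * L + 2) ^ 3 := by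
  have h1 : packingNumber L ≤ (⌊2 * L⌋₊ + 1) ^ 3 := by
    apply csSup_le (packingSet_nonempty L)
    rintro n ⟨X, rfl, hX, hsep⟩
    exact card_le_grid X hX hsep
  have h2 : ((packingNumber L : ℕ) : ℝ) ≤ ((⌊2 * L⌋₊ : ℝ) + 1) ^ 3 := by
    exact_mod_cast h1
  have h3 : (⌊2 * L⌋₊ : ℝ) ≤ 2 * L := Nat.floor_le (by linarith)
  refine h2.trans ?_
  have h4 : (0 : ℝ) ≤ (⌊2 * L⌋₊ : ℝ) + 1 := by positivity
  exact pow_le_pow_left₀ h4 (by linarith) 3

private theorem mem_packingNumber (L : ℝ) : packingNumber L ∈ packingSet L :=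
  Nat.sSup_mem (packingSet_nonempty L) (packingSet_bddAbove L)

private theorem coord_smul (c : ℝ) (x : Pt) (k : Fin 3) : (c • x) k = c * x k := by
  simp

/-- A family with separation `s` in `[0,L]³` has at most `packingNumber (L/s)` elements. -/
theorem card_le_packingNumber {s L : ℝ} (hs : 0 < s) (X : Finset Pt) (hX : ∀ x ∈ X, x ∈ cube L)
    (hsep : ∀ x ∈ X, ∀ y ∈ X, x ≠ y → s ≤ dist x y) : X.card ≤ packingNumber (L / s) := by
  classical
  have hinj : Function.Injective (fun x : Pt => s⁻¹ • x) :=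
    smul_right_injective _ (inv_ne_zero hs.ne')
  have hcard : (X.image (fun x : Pt => s⁻¹ • x)).card = X.card :=
    Finset.card_image_of_injective _ hinj
  rw [← hcard]
  refine le_csSup (packingSet_bddAbove _) ⟨_, rfl, ?_, ?_⟩
  · intro y hy k
    obtain ⟨x, hx, rfl⟩ := Finset.mem_image.mp hy
    rw [coord_smul]
    have h := hX x hx k
    constructor
    · exact mul_nonneg (inv_nonneg.mpr hs.le) h.1
    · rw [div_eq_inv_mul]
      exact mul_le_mul_of_nonneg_left h.2 (inv_nonneg.mpr hs.le)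
  · intro y hy z hz hne
    obtain ⟨x, hx, rfl⟩ := Finset.mem_image.mp hy
    obtain ⟨w, hw, rfl⟩ := Finset.mem_image.mp hz
    have hxw : x ≠ w := fun h => hne (by rw [h])
    have h1 := hsep x hx w hw hxw
    rw [dist_smul₀, Real.norm_of_nonneg (inv_nonneg.mpr hs.le)]
    rw [inv_mul_eq_div, one_le_div hs]
    exact h1

/-- There is a family of `packingNumber (L/s)` points of `[0,L]³` with separation `s`. -/
theorem exists_packing {s L : ℝ} (hs : 0 < s) (hL : 0 ≤ L) :
    ∃ X : Finset Pt, X.card = packingNumber (L / s) ∧ (∀ x ∈ X, x ∈ cube L) ∧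
      ∀ x ∈ X, ∀ y ∈ X, x ≠ y → s ≤ dist x y := by
  classical
  obtain ⟨X, hcard, hX, hsep⟩ := mem_packingNumber (L / s)
  have hinj : Function.Injective (fun x : Pt => s • x) :=
    smul_right_injective _ hs.ne'
  refine ⟨X.image (fun x : Pt => s • x), ?_, ?_, ?_⟩
  · rw [Finset.card_image_of_injective _ hinj, hcard]
  · intro y hy k
    obtain ⟨x, hx, rfl⟩ := Finset.mem_image.mp hy
    rw [coord_smul]
    have h := hX x hx k
    constructor
    · exact mul_nonneg hs.le h.1
    · have := h.2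
      rw [le_div_iff₀ hs] at this
      linarith
  · intro y hy z hz hne
    obtain ⟨x, hx, rfl⟩ := Finset.mem_image.mp hy
    obtain ⟨w, hw, rfl⟩ := Finset.mem_image.mp hz
    have hxw : x ≠ w := fun h => hne (by rw [h])
    have h1 := hsep x hx w hw hxw
    rw [dist_smul₀, Real.norm_of_nonneg hs.le]
    nlinarith

private theorem packingNumber_mono {L L' : ℝ} (h : L ≤ L') : packingNumber L ≤ packingNumber L' := by
  apply csSup_le (packingSet_nonempty L)
  rintro n ⟨X, rfl, hX, hsep⟩
  refine le_csSup (packingSet_bddAbove _) ⟨X, rfl, ?_, hsep⟩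
  intro x hx k
  exact ⟨(hX x hx k).1, (hX x hx k).2.trans h⟩

/-- Offset vector. -/
private noncomputable def offs (L : ℝ) {m : ℕ} (c : Fin 3 → Fin m) : Pt :=
  WithLp.toLp 2 (fun k => (L + 1) * ((c k : ℕ) : ℝ))

private theorem offs_apply (L : ℝ) {m : ℕ} (c : Fin 3 → Fin m) (k : Fin 3) :
    offs L c k = (L + 1) * ((c k : ℕ) : ℝ) := rfl

/-- Superadditivity: `packingNumber (m (L+1)) ≥ m³ packingNumber L`. -/
private theorem packing_super (L : ℝ) (hL : 0 ≤ L) (m : ℕ) :
    m ^ 3 * packingNumber L ≤ packingNumber (m * (L + 1)) := by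
  classical
  obtain ⟨X, hcard, hX, hsep⟩ := mem_packingNumber L
  set g : (Fin 3 → Fin m) × Pt → Pt := fun z => offs L z.1 + z.2 with hg
  set T : Finset ((Fin 3 → Fin m) × Pt) := Finset.univ ×ˢ X with hT
  have hsep' : ∀ z ∈ T, ∀ w ∈ T, z ≠ w → 1 ≤ dist (g z) (g w) := by
    rintro ⟨c, x⟩ hz ⟨c', y⟩ hw hne
    simp only [hT, Finset.mem_product, Finset.mem_univ, true_and] at hz hw
    by_cases hc : c = c'
    · subst hc
      have hxy : x ≠ y := fun h => hne (by rw [h])
      simp only [hg, dist_add_left]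
      exact hsep x hz y hw hxy
    · obtain ⟨k, hk⟩ := Function.ne_iff.mp hc
      refine le_trans ?_ (abs_coord_le_dist _ _ k)
      have h1 := hX x hz k
      have h2 := hX y hw k
      simp only [hg, PiLp.add_apply, offs_apply]
      have hk' : ((c k : ℕ) : ℝ) ≠ ((c' k : ℕ) : ℝ) := by
        intro h
        apply hk
        exact Fin.ext (by exact_mod_cast h)
      rcases lt_or_gt_of_ne hk' with h3 | h3
      · have h4 : ((c k : ℕ) : ℝ) + 1 ≤ ((c' k : ℕ) : ℝ) := by
          have : (c k : ℕ) < (c' k : ℕ) := by exact_mod_cast h3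
          exact_mod_cast this
        rw [abs_sub_comm]
        refine le_trans ?_ (le_abs_self _)
        nlinarith [h1.1, h1.2, h2.1, h2.2]
      · have h4 : ((c' k : ℕ) : ℝ) + 1 ≤ ((c k : ℕ) : ℝ) := by
          have : (c' k : ℕ) < (c k : ℕ) := by exact_mod_cast h3
          exact_mod_cast this
        refine le_trans ?_ (le_abs_self _)
        nlinarith [h1.1, h1.2, h2.1, h2.2]
  have hinj : Set.InjOn g (T : Set ((Fin 3 → Fin m) × Pt)) := by
    intro z hz w hw h
    by_contra hne
    have := hsep' z hz w hw hne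
    rw [h, dist_self] at this
    linarith
  have hcardT : (T.image g).card = m ^ 3 * packingNumber L := by
    rw [Finset.card_image_of_injOn hinj, hT, Finset.card_product, hcard]
    simp
  rw [← hcardT]
  refine le_csSup (packingSet_bddAbove _) ⟨_, rfl, ?_, ?_⟩
  · intro y hy k
    obtain ⟨⟨c, x⟩, hz, rfl⟩ := Finset.mem_image.mp hy
    simp only [hT, Finset.mem_product, Finset.mem_univ, true_and] at hz
    have h1 := hX x hz k
    simp only [hg, PiLp.add_apply, offs_apply]
    have hck : ((c k : ℕ) : ℝ) + 1 ≤ (m : ℝ) := by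
      have := (c k).isLt
      exact_mod_cast this
    have hc0 : (0 : ℝ) ≤ ((c k : ℕ) : ℝ) := by positivity
    constructor
    · have := h1.1
      positivity
    · nlinarith [h1.1, h1.2]
  · intro y hy z hz hne
    obtain ⟨w, hw, rfl⟩ := Finset.mem_image.mp hy
    obtain ⟨u, hu, rfl⟩ := Finset.mem_image.mp hz
    exact hsep' w hw u hu (fun h => hne (by rw [h]))

private theorem one_le_packingNumber_zero : 1 ≤ packingNumber 0 := by
  refine le_csSup (packingSet_bddAbove _) ⟨{0}, by simp, ?_, ?_⟩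
  · intro x hx k
    simp only [Finset.mem_singleton] at hx
    subst hx
    simp
  · intro x hx y hy hne
    simp only [Finset.mem_singleton] at hx hy
    exact absurd (hx.trans hy.symm) hne

/-- Existence and positivity of the packing density; also `p ≥ 1`
(`packingNumber (m (L+1)) ≥ m³ packingNumber L`, monotone in `L`, bounded). -/
theorem packing_limit : ∃ p : ℝ, 1 ≤ p ∧
    Tendsto (fun L : ℝ => (packingNumber L : ℝ) / L ^ 3) atTop (𝓝 p) := by
  set S : Set ℝ := (fun L : ℝ => (packingNumber L : ℝ) / (L + 1) ^ 3) '' Set.Ici 0 with hS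
  have hSbdd : BddAbove S := by
    refine ⟨8, ?_⟩
    rintro _ ⟨L, hL, rfl⟩
    have hL' : (0 : ℝ) ≤ L := hL
    have h := packingNumber_le L hL'
    simp only
    rw [div_le_iff₀ (by positivity)]
    calc (packingNumber L : ℝ) ≤ (2 * L + 2) ^ 3 := h
      _ = 8 * (L + 1) ^ 3 := by ring
  have hSne : S.Nonempty := ⟨_, 0, Set.mem_Ici.mpr le_rfl, rfl⟩
  refine ⟨sSup S, ?_, ?_⟩
  · refine le_trans ?_ (le_csSup hSbdd ⟨0, Set.mem_Ici.mpr le_rfl, rfl⟩)
    simp only
    have : (1 : ℝ) ≤ (packingNumber 0 : ℝ) := by exact_mod_cast one_le_packingNumber_zero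
    simpa using this
  · refine tendsto_order.2 ⟨fun a ha => ?_, fun a ha => ?_⟩
    · obtain ⟨_, ⟨L₀, hL₀, rfl⟩, hlt⟩ := exists_lt_of_lt_csSup hSne ha
      have hL₀' : (0 : ℝ) ≤ L₀ := hL₀
      simp only at hlt
      set c : ℝ := 1 / (L₀ + 1) with hc
      have hc0 : 0 ≤ c := by positivity
      have h1 : Tendsto (fun L : ℝ => ((⌊c * L⌋₊ : ℝ) / L) ^ 3 * (packingNumber L₀ : ℝ)) atTop
          (𝓝 (c ^ 3 * (packingNumber L₀ : ℝ))) :=
        ((tendsto_nat_floor_mul_div_atTop hc0).pow 3).mul_const _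
      have h2 : c ^ 3 * (packingNumber L₀ : ℝ) = (packingNumber L₀ : ℝ) / (L₀ + 1) ^ 3 := by
        rw [hc]; field_simp
      rw [h2] at h1
      filter_upwards [h1.eventually (lt_mem_nhds hlt), eventually_gt_atTop 0] with L hL hLpos
      refine lt_of_lt_of_le hL ?_
      set m : ℕ := ⌊c * L⌋₊ with hm
      have h3 : m ^ 3 * packingNumber L₀ ≤ packingNumber ((m : ℝ) * (L₀ + 1)) :=
        packing_super L₀ hL₀' m
      have h4 : (m : ℝ) * (L₀ + 1) ≤ L := by
        have h5 : (m : ℝ) ≤ c * L := Nat.floor_le (by positivity)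
        calc (m : ℝ) * (L₀ + 1) ≤ c * L * (L₀ + 1) :=
              mul_le_mul_of_nonneg_right h5 (by positivity)
          _ = L := by rw [hc]; field_simp
      have h6 := packingNumber_mono h4
      have h7 : (m : ℝ) ^ 3 * (packingNumber L₀ : ℝ) ≤ (packingNumber L : ℝ) := by
        exact_mod_cast h3.trans h6
      rw [div_pow, div_mul_eq_mul_div]
      exact div_le_div_of_nonneg_right h7 (by positivity)
    · have h1 : Tendsto (fun L : ℝ => sSup S * (1 + 1 / L) ^ 3) atTop (𝓝 (sSup S * (1 + 0) ^ 3)) := by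
        have : Tendsto (fun L : ℝ => 1 / L) atTop (𝓝 0) := tendsto_const_nhds.div_atTop tendsto_id
        exact ((tendsto_const_nhds.add this).pow 3).const_mul _
      have h2 : sSup S * (1 + 0) ^ 3 = sSup S := by ring
      rw [h2] at h1
      filter_upwards [h1.eventually (gt_mem_nhds ha), eventually_gt_atTop 0] with L hL hLpos
      refine lt_of_le_of_lt ?_ hL
      have h3 : (packingNumber L : ℝ) / (L + 1) ^ 3 ≤ sSup S :=
        le_csSup hSbdd ⟨L, Set.mem_Ici.mpr hLpos.le, rfl⟩
      have h4 : (packingNumber L : ℝ) / L ^ 3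
          = (packingNumber L : ℝ) / (L + 1) ^ 3 * (1 + 1 / L) ^ 3 := by
        field_simp
      rw [h4]
      exact mul_le_mul_of_nonneg_right h3 (by positivity)

end Crest.Agent.Lib.Gas
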