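import Crest.Agent.Lib.Gas.TripleBounds

/-! # Triple point: energies at the edges. -/
namespace Crest.Agent.Lib.Gas
open Set Filter Topology
namespace TripleData
variable (D : TripleData)

/-- Energy at the low edge: `L(p₀) ≥ -2000 S`.  Take `β = βc - 1/8` in the subgradient inequality:
`e ≥ 8 (Pinf βc ρ - Pinf (βc-1/8) ρ) ≥ 8 (-S - err₀ - (W ρ + S + err₀))`, `W ρ = 200 S`. -/
theorem Lval_low {βc e : ℝ} (h1 : 7 / 8 ≤ βc) (h2 : βc ≤ 9 / 8)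
    (he : ∀ β, β ∈ Icc (1 / 2 : ℝ) 2 →
      D.Pinf βc (2 * D.κ₀) + e * (β - βc) ≤ D.Pinf β (2 * D.κ₀)) :
    - 2000 * D.S ≤ e - (5 * D.W / 8) * (2 * D.κ₀) := by
  have hκ := D.κ₀_small
  have hκp := D.κ₀_pos
  have hθ := D.hθ0
  have hW := D.W_pos
  have hS := D.S_pos
  have hS1 := D.hS
  have herr := D.herr0
  have hWκ := D.W_κ₀
  have hK2 := D.two_le_K
  have hqm := D.θ_le_qmax
  have hβc : βc ∈ Icc (1 / 2 : ℝ) 2 := ⟨by linarith, by linarith⟩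
  have hβ : βc - 1 / 8 ∈ Icc (1 / 2 : ℝ) 1 := ⟨by linarith, by linarith⟩
  have hρQ : 2 * D.κ₀ ∈ D.Q := ⟨by linarith, by linarith⟩
  have hρθ : 2 * D.κ₀ ∈ Icc 0 D.θ := ⟨by linarith, by linarith⟩
  have h3 := he (βc - 1 / 8) ⟨hβ.1, by linarith [hβ.2]⟩
  have h4 := D.pinf_ge hβc hρQ
  have h5 := D.p0_ge_low hβc hρθ
  have h6 := D.pinf_le_low hβ hρQ
  have h7 : 0 ≤ (βc * D.W / 2) * (2 * D.κ₀) ^ 2 := by positivity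
  have e1 : D.W * (2 * D.κ₀) = 200 * D.S := by linarith
  have e2 : (5 * D.W / 8) * (2 * D.κ₀) = 125 * D.S := by linarith
  rw [e2]
  have e3 : e * (βc - 1 / 8 - βc) = -(e / 8) := by ring
  rw [e3] at h3
  linarith

/-- Energy at the high edge: `L(p_B) ≥ 0`.  `e ≥ 8 (Pinf βc ρ - Pinf (βc-1/8) ρ) ≥ Λ K - 2640 S K`,
`(5W/8) ρ ≤ (5/4) Λ`. -/
theorem Lval_high {βc e : ℝ} (h1 : 7 / 8 ≤ βc) (h2 : βc ≤ 9 / 8)
    (he : ∀ β, β ∈ Icc (1 / 2 : ℝ) 2 →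
      D.Pinf βc (D.K * D.θ - 2 * D.κ₀) + e * (β - βc) ≤ D.Pinf β (D.K * D.θ - 2 * D.κ₀)) :
    0 ≤ e - (5 * D.W / 8) * (D.K * D.θ - 2 * D.κ₀) := by
  have hκ := D.κ₀_small
  have hκp := D.κ₀_pos
  have hθ := D.hθ0
  have hθ1 := D.hθ1
  have hW := D.W_pos
  have hS := D.S_pos
  have hS1 := D.hS
  have herr := D.herr0
  have hWκ := D.W_κ₀
  have hK2 := D.two_le_K
  have hqm := D.Kθ_le_qmax'
  have hΛ := D.Λ_pos
  have hWΛ := D.W_le_Λ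
  have hWK := D.hWK
  have hW6 := D.hW
  have hΛθ := D.hθΛ
  have hβc : βc ∈ Icc (1 / 2 : ℝ) 2 := ⟨by linarith, by linarith⟩
  have hβ : βc - 1 / 8 ∈ Icc (1 / 2 : ℝ) 1 := ⟨by linarith, by linarith⟩
  have hKθ : 2 * D.θ ≤ (D.K : ℝ) * D.θ := by nlinarith
  obtain ⟨ρ, hρdef⟩ : ∃ ρ : ℝ, ρ = (D.K : ℝ) * D.θ - 2 * D.κ₀ := ⟨_, rfl⟩
  have hρ1 : D.θ ≤ ρ := by rw [hρdef]; linarith
  have hρ2 : ρ ≤ (D.K : ℝ) * D.θ := by rw [hρdef]; linarith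
  have hρQ : ρ ∈ D.Q := ⟨by linarith, by linarith⟩
  have hρθ : ρ ∈ Icc D.θ ((D.K : ℝ) * D.θ) := ⟨hρ1, hρ2⟩
  have h3 := he (βc - 1 / 8) ⟨hβ.1, by linarith [hβ.2]⟩
  rw [← hρdef] at h3 ⊢
  have h4 := D.pinf_ge hβc hρQ
  have h5 : - ((D.K : ℝ) - 1) * D.Λ - D.S ≤ D.P 0 βc ρ := D.p0_ge_high hβc hρθ
  have h6 := D.pinf_le_high hβ hρQ
  have e3 : e * (βc - 1 / 8 - βc) = -(e / 8) := by ring
  rw [e3] at h3
  -- `x = (D.K : ℝ) - ρ`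
  obtain ⟨x, hxdef⟩ : ∃ x : ℝ, x = (D.K : ℝ) * (1 - D.θ) + 2 * D.κ₀ := ⟨_, rfl⟩
  have hρx : ρ = (D.K : ℝ) - x := by rw [hρdef, hxdef]; ring
  have hx0 : 0 ≤ x := by
    rw [hxdef]
    have : 0 ≤ (D.K : ℝ) * (1 - D.θ) := mul_nonneg (by linarith) (by linarith)
    linarith
  have hΛx : D.Λ * x ≤ D.S + 100 * D.S * (D.K : ℝ) := by
    rw [hxdef]
    have e5 : D.Λ * ((D.K : ℝ) * (1 - D.θ) + 2 * D.κ₀) = (D.K : ℝ) * D.Λ * (1 - D.θ) + (D.W * (D.K : ℝ)) * D.κ₀ := by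
      rw [hWK]; ring
    rw [e5]
    have e6 : (D.W * (D.K : ℝ)) * D.κ₀ = 100 * D.S * (D.K : ℝ) := by
      have : (D.W * (D.K : ℝ)) * D.κ₀ = (D.W * D.κ₀) * (D.K : ℝ) := by ring
      rw [this, hWκ]
    rw [e6]
    linarith
  have hΛx0 : 0 ≤ D.Λ * x := mul_nonneg hΛ.le hx0
  -- quadratic term
  have hquad : βc * (D.Λ * (D.K : ℝ) - 2 * (D.Λ * x)) ≤ (βc * D.W / 2) * ρ ^ 2 := by
    have e7 : (βc * D.W / 2) * ρ ^ 2 = βc * ((D.W * (D.K : ℝ)) * (D.K : ℝ) / 2 - (D.W * (D.K : ℝ)) * x + D.W * x ^ 2 / 2) := by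
      rw [hρx]; ring
    rw [e7, hWK]
    apply mul_le_mul_of_nonneg_left _ (by linarith)
    have : 0 ≤ D.W * x ^ 2 / 2 := by positivity
    nlinarith
  have hΛρ : D.Λ * ρ = D.Λ * (D.K : ℝ) - D.Λ * x := by rw [hρx]; ring
  -- combine
  have h8 : e / 8 ≥ D.Λ * (D.K : ℝ) / 8 - 2 * D.S - 2 * D.err 0 - (2 * βc + 1) * (D.Λ * x) := by
    have e8 : (βc - 1 / 8) * D.Λ * (D.K : ℝ) = βc * (D.Λ * (D.K : ℝ)) - D.Λ * (D.K : ℝ) / 8 := by ring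
    rw [e8] at h6
    rw [hΛρ] at h6
    nlinarith
  have h9 : (2 * βc + 1) * (D.Λ * x) ≤ (13 / 4) * (D.S + 100 * D.S * (D.K : ℝ)) := by
    have : (2 * βc + 1) * (D.Λ * x) ≤ (13 / 4) * (D.Λ * x) :=
      mul_le_mul_of_nonneg_right (by linarith) hΛx0
    linarith
  have h10 : (5 * D.W / 8) * ρ ≤ (5 / 4) * D.Λ := by
    have h11 : ρ ≤ (D.K : ℝ) := by rw [hρx]; linarith
    have h12 : (5 * D.W / 8) * ρ ≤ (5 * D.W / 8) * (D.K : ℝ) :=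
      mul_le_mul_of_nonneg_left h11 (by positivity)
    have h13 : (5 * D.W / 8) * (D.K : ℝ) = (5 / 4) * D.Λ := by
      have : (5 * D.W / 8) * (D.K : ℝ) = (5 / 8) * (D.W * (D.K : ℝ)) := by ring
      rw [this, hWK]; ring
    linarith
  have hSK : D.S * 1000000 ≤ D.Λ := by linarith
  have h14 : D.S * (D.K : ℝ) * 1000000 ≤ D.Λ * (D.K : ℝ) := by
    have := mul_le_mul_of_nonneg_right hSK (show (0:ℝ) ≤ (D.K : ℝ) by linarith)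
    linarith
  have h15 : D.Λ * 2 ≤ D.Λ * (D.K : ℝ) := mul_le_mul_of_nonneg_left hK2 hΛ.le
  have h16 : D.S * 2 ≤ D.S * (D.K : ℝ) := mul_le_mul_of_nonneg_left hK2 hS.le
  nlinarith

end TripleData
end Crest.Agent.Lib.Gas
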