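import Crest.Agent.Lib.Gas.TripleBasic

/-! # Triple point: crude upper and lower bounds. -/
namespace Crest.Agent.Lib.Gas
open Set Filter Topology
namespace TripleData
variable (D : TripleData)

theorem max_sub_nonneg (x y : ℝ) : 0 ≤ max (x - y) 0 := le_max_right _ _

/-- `F 0 W β (-W) ≤ S` for `β ≤ 1`. -/
theorem F0_low {β : ℝ} (hβ : β ∈ Icc (1 / 2 : ℝ) 1) {q : ℝ} (hq : q ∈ D.Q) :
    D.P 0 β q + (β * D.W / 2) * q ^ 2 + (-D.W) * q ≤ D.S := by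
  have hβ' : β ∈ Icc (1 / 2 : ℝ) 2 := ⟨hβ.1, by linarith [hβ.2]⟩
  have hU := D.hUB β hβ' q hq
  have hW := D.W_pos
  have hq0 : 0 ≤ q := hq.1
  have hqm : q ≤ D.qmax := hq.2
  have hK2 := D.two_le_K
  have hWK := D.hWK
  have hPn := D.hPn
  have hqmax : 0 ≤ D.qmax := D.qmax_nonneg
  have hb1 : (β * D.W / 2) * q ^ 2 ≤ (D.W / 2) * q ^ 2 := by
    apply mul_le_mul_of_nonneg_right _ (sq_nonneg q)
    nlinarith [hβ.2]
  have hΛ : D.Λ = D.W * D.K / 2 := by linarith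
  by_cases h1 : q ≤ 1
  · have e1 : max (q - 1) 0 = 0 := max_eq_right (by linarith)
    have hqK : q ≤ D.K := by linarith
    have e2 : max (q - D.K) 0 = 0 := max_eq_right (by linarith)
    rw [e1, e2] at hU
    have : (D.W / 2) * q ^ 2 ≤ D.W * q := by nlinarith [mul_nonneg hW.le hq0]
    nlinarith
  · push Not at h1
    have e1 : max (q - 1) 0 = q - 1 := max_eq_left (by linarith)
    rw [e1] at hU
    by_cases h2 : q ≤ D.K
    · have e2 : max (q - D.K) 0 = 0 := max_eq_right (by linarith)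
      rw [e2] at hU
      have hkey : (D.W / 2) * q ^ 2 - D.W * q - (q - 1) * D.Λ ≤ 0 := by
        rw [hΛ]
        have : q ^ 2 - 2 * q - (q - 1) * D.K ≤ 0 := by nlinarith
        have h3 := mul_nonneg hW.le (neg_nonneg.mpr this)
        nlinarith
      nlinarith
    · push Not at h2
      have e2 : max (q - D.K) 0 = q - D.K := max_eq_left (by linarith)
      rw [e2] at hU
      have hkey : (D.W / 2) * q ^ 2 - D.W * q - (q - 1) * D.Λ - (q - D.K) * D.Pn ≤ 0 := by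
        rw [hΛ]
        have h3 : 0 ≤ q - D.K := by linarith
        have h4 : D.W * q ≤ D.Pn := by nlinarith
        have h5 : (q - D.K) * (D.W * q) ≤ (q - D.K) * D.Pn := mul_le_mul_of_nonneg_left h4 h3
        have h6 : 0 ≤ (q - D.K) * (D.W * q) := mul_nonneg h3 (mul_nonneg hW.le hq0)
        have h7 : 0 ≤ D.W * (q - D.K / 2) := mul_nonneg hW.le (by linarith)
        linarith
      nlinarith

/-- Level `0` upper bound with `μ = -W`, for `β ≤ 1`: `F 0 W β (-W) ≤ S` on `Q`. -/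
theorem pinf_le_low {β : ℝ} (hβ : β ∈ Icc (1 / 2 : ℝ) 1) {q : ℝ} (hq : q ∈ D.Q) :
    D.Pinf β q ≤ D.W * q + D.S + D.err 0 := by
  have hβ' : β ∈ Icc (1 / 2 : ℝ) 2 := ⟨hβ.1, by linarith [hβ.2]⟩
  have hW := D.W_pos
  have hΛ := D.Λ_pos
  have hC := D.hC₂
  have hM := D.hM₀
  have hμ : |(-D.W)| ≤ D.M₀ := by
    rw [abs_neg, abs_of_pos hW]; linarith
  obtain ⟨q', hq', hle⟩ := D.H4I 0 β (-D.W) hβ' hμ q hq
  have ht : (∑' l, D.aa (0 + l)) = D.W := D.tail_zero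
  rw [ht] at hle
  have := D.F0_low hβ hq'
  linarith

/-- Level `0` upper bound with `μ = Λ`, for `β ≤ 1`: `F 0 W β Λ ≤ S + Λ + β Λ K` on `Q`
(`F` is convex on `[0,1]` and on `[1,K]`; beyond `K` the penalty `Pn` wins). -/
theorem pinf_le_high {β : ℝ} (hβ : β ∈ Icc (1 / 2 : ℝ) 1) {q : ℝ} (hq : q ∈ D.Q) :
    D.Pinf β q + D.Λ * q ≤ D.S + D.err 0 + D.Λ + β * D.Λ * D.K := by
  have hβ' : β ∈ Icc (1 / 2 : ℝ) 2 := ⟨hβ.1, by linarith [hβ.2]⟩
  have hW := D.W_pos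
  have hΛ := D.Λ_pos
  have hC := D.hC₂
  have hM := D.hM₀
  have hμ : |D.Λ| ≤ D.M₀ := by
    rw [abs_of_pos hΛ]; linarith
  obtain ⟨q', hq', hle⟩ := D.H4I 0 β D.Λ hβ' hμ q hq
  have ht : (∑' l, D.aa (0 + l)) = D.W := D.tail_zero
  rw [ht] at hle
  have hU := D.hUB β hβ' q' hq'
  have hq0 : 0 ≤ q' := hq'.1
  have hqm : q' ≤ D.qmax := hq'.2
  have hK2 := D.two_le_K
  have hWK := D.hWK
  have hPn := D.hPn
  have hq1 := D.hq
  have hβ0 : 0 < β := by linarith [hβ.1]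
  have hβ1 : β ≤ 1 := hβ.2
  have hΛe : β * D.Λ * D.K = (β * D.W / 2) * D.K ^ 2 := by
    have : D.Λ = D.W * D.K / 2 := by linarith
    rw [this]; ring
  have hbW : 0 ≤ β * D.W / 2 := by positivity
  suffices hs : D.P 0 β q' + (β * D.W / 2) * q' ^ 2 + D.Λ * q' ≤
      D.S + D.Λ + β * D.Λ * D.K by linarith
  rw [hΛe]
  by_cases h1 : q' ≤ 1
  · have e1 : max (q' - 1) 0 = 0 := max_eq_right (by linarith)
    have hqK : q' ≤ D.K := by linarith
    have e2 : max (q' - D.K) 0 = 0 := max_eq_right (by linarith)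
    rw [e1, e2] at hU
    have h3 : q' ^ 2 ≤ D.K ^ 2 := by nlinarith
    have h4 := mul_le_mul_of_nonneg_left h3 hbW
    have h5 : D.Λ * q' ≤ D.Λ := by nlinarith
    linarith
  · push Not at h1
    have e1 : max (q' - 1) 0 = q' - 1 := max_eq_left (by linarith)
    rw [e1] at hU
    by_cases h2 : q' ≤ D.K
    · have e2 : max (q' - D.K) 0 = 0 := max_eq_right (by linarith)
      rw [e2] at hU
      have h3 : q' ^ 2 ≤ D.K ^ 2 := by nlinarith
      have h4 := mul_le_mul_of_nonneg_left h3 hbW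
      nlinarith
    · push Not at h2
      have e2 : max (q' - D.K) 0 = q' - D.K := max_eq_left (by linarith)
      rw [e2] at hU
      have h3 : 0 ≤ q' - D.K := by linarith
      have h4 : (β * D.W / 2) * (q' + D.K) ≤ D.Pn := by
        have h5 : q' + D.K ≤ 2 * D.qmax := by linarith
        have h6 : (β * D.W / 2) ≤ D.W / 2 := by nlinarith
        have h7 : 0 ≤ q' + D.K := by linarith
        have h8 : (β * D.W / 2) * (q' + D.K) ≤ (D.W / 2) * (2 * D.qmax) :=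
          mul_le_mul h6 h5 h7 (by positivity)
        nlinarith
      have h9 := mul_le_mul_of_nonneg_left h4 h3
      nlinarith

theorem pinf_ge {β : ℝ} (hβ : β ∈ Icc (1 / 2 : ℝ) 2) {q : ℝ} (hq : q ∈ D.Q) :
    D.P 0 β q + (β * D.W / 2) * q ^ 2 - D.err 0 ≤ D.Pinf β q := by
  have h := D.H3I 0 β hβ q hq
  have ht : (∑' l, D.aa (0 + l)) = D.W := D.tail_zero
  rwa [ht] at h

theorem S_pos : 0 < D.S := by
  have := D.hS
  linarith

theorem Kθ_le_qmax' : (D.K : ℝ) * D.θ ≤ D.qmax := by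
  have h1 := D.hq
  have h2 := D.hθ1
  have h3 := D.θ_pos
  have h4 := D.two_le_K
  nlinarith

theorem θ_le_qmax : D.θ ≤ D.qmax := by
  have h1 := D.hq
  have h2 := D.hθ1
  have h4 := D.two_le_K
  linarith

theorem p0_ge_low {β : ℝ} (hβ : β ∈ Icc (1 / 2 : ℝ) 2) {q : ℝ} (hq : q ∈ Icc 0 D.θ) :
    - D.S ≤ D.P 0 β q := by
  have hθ := D.θ_pos
  have hS := D.S_pos
  have h0 : (0 : ℝ) ∈ Icc 0 D.qmax := ⟨le_refl _, D.qmax_nonneg⟩
  have hθm : D.θ ∈ Icc 0 D.qmax := ⟨hθ.le, D.θ_le_qmax⟩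
  have ha : 0 ≤ (D.θ - q) / D.θ := div_nonneg (by linarith [hq.2]) hθ.le
  have hb : 0 ≤ q / D.θ := div_nonneg hq.1 hθ.le
  have hab : (D.θ - q) / D.θ + q / D.θ = 1 := by field_simp; ring
  have h := (D.hconc 0 β hβ).2 h0 hθm ha hb hab
  simp only [smul_eq_mul, mul_zero, zero_add] at h
  have harg : q / D.θ * D.θ = q := by field_simp
  rw [harg, D.hzero β hβ] at h
  have h1 := D.hLB1 β hβ
  have hb1 : q / D.θ ≤ 1 := by rw [div_le_one hθ]; exact hq.2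
  nlinarith

theorem p0_ge_high {β : ℝ} (hβ : β ∈ Icc (1 / 2 : ℝ) 2) {q : ℝ} (hq : q ∈ Icc D.θ (D.K * D.θ)) :
    - ((D.K : ℝ) - 1) * D.Λ - D.S ≤ D.P 0 β q := by
  have hθ := D.θ_pos
  have hS := D.S_pos
  have hK2 := D.two_le_K
  have hΛ := D.Λ_pos
  have hd : 0 < (D.K : ℝ) * D.θ - D.θ := by nlinarith
  have hθm : D.θ ∈ Icc 0 D.qmax := ⟨hθ.le, D.θ_le_qmax⟩
  have hKm : (D.K : ℝ) * D.θ ∈ Icc 0 D.qmax := ⟨by positivity, D.Kθ_le_qmax'⟩
  have ha : 0 ≤ ((D.K : ℝ) * D.θ - q) / ((D.K : ℝ) * D.θ - D.θ) :=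
    div_nonneg (by linarith [hq.2]) hd.le
  have hb : 0 ≤ (q - D.θ) / ((D.K : ℝ) * D.θ - D.θ) := div_nonneg (by linarith [hq.1]) hd.le
  have hab : ((D.K : ℝ) * D.θ - q) / ((D.K : ℝ) * D.θ - D.θ) +
      (q - D.θ) / ((D.K : ℝ) * D.θ - D.θ) = 1 := by
    rw [← add_div, div_eq_one_iff_eq hd.ne']; ring
  have h := (D.hconc 0 β hβ).2 hθm hKm ha hb hab
  simp only [smul_eq_mul] at h
  have harg : ((D.K : ℝ) * D.θ - q) / ((D.K : ℝ) * D.θ - D.θ) * D.θ +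
      (q - D.θ) / ((D.K : ℝ) * D.θ - D.θ) * ((D.K : ℝ) * D.θ) = q := by
    have e : ((D.K : ℝ) * D.θ - q) / ((D.K : ℝ) * D.θ - D.θ) * D.θ +
      (q - D.θ) / ((D.K : ℝ) * D.θ - D.θ) * ((D.K : ℝ) * D.θ) =
      (((D.K : ℝ) * D.θ - q) * D.θ + (q - D.θ) * ((D.K : ℝ) * D.θ)) / ((D.K : ℝ) * D.θ - D.θ) := by
      ring
    rw [e, div_eq_iff hd.ne']; ring
  rw [harg] at h
  have h1 := D.hLB1 β hβ
  have h2 := D.hLBK β hβ
  have h3 : 0 ≤ ((D.K : ℝ) - 1) * D.Λ := mul_nonneg (by linarith) hΛ.le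
  have h4 := mul_le_mul_of_nonneg_left (show - ((D.K : ℝ) - 1) * D.Λ - D.S ≤ D.P 0 β D.θ by linarith) ha
  have h5 := mul_le_mul_of_nonneg_left h2 hb
  have h6 : ((D.K : ℝ) * D.θ - q) / ((D.K : ℝ) * D.θ - D.θ) * (- ((D.K : ℝ) - 1) * D.Λ - D.S) +
      (q - D.θ) / ((D.K : ℝ) * D.θ - D.θ) * (- ((D.K : ℝ) - 1) * D.Λ - D.S) =
      - ((D.K : ℝ) - 1) * D.Λ - D.S := by
    rw [← add_mul, hab, one_mul]
  linarith

end TripleData
end Crest.Agent.Lib.Gas
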