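import Crest.Agent.Lib.Gas.TripleBounds

/-! # Triple point: exclusion at level 0. -/
namespace Crest.Agent.Lib.Gas
open Set Filter Topology
namespace TripleData
variable (D : TripleData)

/-- The chord inequality for `P + c q² + μ q`. -/
theorem chord_ineq {Px Py Pq c μ x y q : ℝ} (hx : x ≤ q) (hy : q ≤ y)
    (h1 : Px + c * x ^ 2 + μ * x ≤ Pq + c * q ^ 2 + μ * q)
    (h2 : Py + c * y ^ 2 + μ * y ≤ Pq + c * q ^ 2 + μ * q) :
    (y - q) * Px + (q - x) * Py + c * ((y - x) * ((q - x) * (y - q))) ≤ (y - x) * Pq := by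
  have h3 := mul_le_mul_of_nonneg_left h1 (show 0 ≤ y - q by linarith)
  have h4 := mul_le_mul_of_nonneg_left h2 (show 0 ≤ q - x by linarith)
  nlinarith

theorem prod_lb {κ s A B : ℝ} (hκ : 0 ≤ κ) (hA : κ ≤ A) (hB : κ ≤ B) (hs : s ≤ A + B) :
    (s / 2) * κ ≤ A * B := by
  by_cases h : s / 2 ≤ A
  · have hB0 : 0 ≤ B := by linarith
    have h1 := mul_le_mul_of_nonneg_right h hB0
    by_cases hs0 : 0 ≤ s / 2
    · have h2 := mul_le_mul_of_nonneg_left hB hs0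
      linarith
    · push Not at hs0
      have h3 : (s / 2) * κ ≤ 0 := mul_nonpos_of_nonpos_of_nonneg hs0.le hκ
      have h4 : 0 ≤ A * B := mul_nonneg (by linarith) hB0
      linarith
  · push Not at h
    have hB1 : s / 2 ≤ B := by linarith
    have hA0 : 0 ≤ A := by linarith
    have h1 := mul_le_mul_of_nonneg_left hB1 hA0
    by_cases hs0 : 0 ≤ s / 2
    · have h2 := mul_le_mul_of_nonneg_left hA hs0
      linarith
    · push Not at hs0
      have h3 : (s / 2) * κ ≤ 0 := mul_nonpos_of_nonpos_of_nonneg hs0.le hκ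
      have h4 : 0 ≤ A * B := mul_nonneg hA0 (by linarith)
      linarith

theorem Pn_nonneg : 0 ≤ D.Pn := by
  have h1 := D.hPn
  have h2 := D.W_pos
  have h3 := D.qmax_nonneg
  have : 0 ≤ 4 * D.W * D.qmax := by positivity
  linarith

theorem P0_le_S {β : ℝ} (hβ : β ∈ Icc (1 / 2 : ℝ) 2) {q : ℝ} (hq : q ∈ D.Q) : D.P 0 β q ≤ D.S := by
  have hU := D.hUB β hβ q hq
  have h1 : 0 ≤ max (q - 1) 0 * D.Λ := mul_nonneg (le_max_right _ _) D.Λ_pos.le
  have h2 : 0 ≤ max (q - D.K) 0 * D.Pn := mul_nonneg (le_max_right _ _) D.Pn_nonneg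
  linarith

theorem P0_le_S' {β : ℝ} (hβ : β ∈ Icc (1 / 2 : ℝ) 2) {q : ℝ} (hq : q ∈ D.Q) :
    D.P 0 β q ≤ D.S - (q - 1) * D.Λ := by
  have hU := D.hUB β hβ q hq
  have h1 : (q - 1) * D.Λ ≤ max (q - 1) 0 * D.Λ :=
    mul_le_mul_of_nonneg_right (le_max_left _ _) D.Λ_pos.le
  have h2 : 0 ≤ max (q - D.K) 0 * D.Pn := mul_nonneg (le_max_right _ _) D.Pn_nonneg
  linarith

/-- Exclusion on `[κ₀, θ-κ₀]`: compare with the chord between `0` and `θ`:
`F q - chord ≤ 2 S - (β a/2) q (θ - q)`, and `(β a/2) q (θ-q) ≥ (W/8)(κ₀/4) > 2 S`. -/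
theorem excl₁ {β a : ℝ} (hβ : β ∈ Icc (1 / 2 : ℝ) 2) (ha : D.W - 1 ≤ a) (ha' : a ≤ D.W) (μ q : ℝ)
    (hq : q ∈ Icc D.κ₀ (D.θ - D.κ₀)) : ∃ q', q' ∈ D.Q ∧ D.F 0 a β μ q < D.F 0 a β μ q' := by
  by_contra hcon
  push Not at hcon
  have hκ := D.κ₀_small
  have hκp := D.κ₀_pos
  have hθ0 := D.hθ0
  have hθ1 := D.hθ1
  have hW := D.W_pos
  have hW6 := D.hW
  have hS := D.S_pos
  have hS1 := D.hS
  have hWκ := D.W_κ₀
  have hθm := D.θ_le_qmax
  have h0Q : (0 : ℝ) ∈ D.Q := ⟨le_refl _, D.qmax_nonneg⟩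
  have hθQ : D.θ ∈ D.Q := ⟨by linarith, hθm⟩
  have hqQ : q ∈ D.Q := ⟨by linarith [hq.1], by linarith [hq.2]⟩
  have h1 := hcon 0 h0Q
  have h2 := hcon D.θ hθQ
  unfold F at h1 h2
  have hc := chord_ineq (x := 0) (y := D.θ) (q := q) (by linarith [hq.1]) (by linarith [hq.2]) h1 h2
  rw [D.hzero β hβ] at hc
  have hLB := D.hLB1 β hβ
  have hUp := D.P0_le_S hβ hqQ
  have hprod : (99 / 200) * D.κ₀ ≤ q * (D.θ - q) := by
    have := prod_lb (s := 99 / 100) hκp.le (A := q) (B := D.θ - q) hq.1 (by linarith [hq.2]) (by linarith)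
    linarith
  have hc0 : D.W / 8 ≤ β * a / 2 := by
    have h3 : 1 / 2 ≤ β := hβ.1
    have h4 : 0 ≤ a := by linarith
    nlinarith
  have hmain : (β * a / 2) * (q * (D.θ - q)) ≤ 2 * D.S := by
    have h5 : D.θ * ((β * a / 2) * (q * (D.θ - q))) ≤ D.θ * (2 * D.S) := by
      have h6 : (D.θ - q) * 0 + (q - 0) * D.P 0 β D.θ +
          (β * a / 2) * ((D.θ - 0) * ((q - 0) * (D.θ - q))) ≤ (D.θ - 0) * D.P 0 β q := hc
      have h7 : q * (-D.S) ≤ q * D.P 0 β D.θ :=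
        mul_le_mul_of_nonneg_left hLB (by linarith [hq.1])
      have h8 : D.θ * D.P 0 β q ≤ D.θ * D.S := mul_le_mul_of_nonneg_left hUp (by linarith)
      have h9 : q * D.S ≤ D.θ * D.S := mul_le_mul_of_nonneg_right (by linarith [hq.2]) hS.le
      nlinarith
    exact le_of_mul_le_mul_left h5 (by linarith)
  have hgain : D.W / 8 * ((99 / 200) * D.κ₀) ≤ (β * a / 2) * (q * (D.θ - q)) := by
    apply mul_le_mul hc0 hprod (by positivity) (by linarith)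
  have : D.W / 8 * ((99 / 200) * D.κ₀) = (99 / 1600) * (D.W * D.κ₀) := by ring
  rw [this, hWκ] at hgain
  linarith

/-- Exclusion on `[θ+κ₀, Kθ-κ₀]`: chord between `θ` and `Kθ`:
`F q - chord ≤ 2 S + Λ q (1-θ)/θ - (β a/2) (q-θ)(Kθ-q)`; `Λ q (1-θ)/θ ≤ Λ K (1-θ) ≤ S`. -/
theorem excl₂ {β a : ℝ} (hβ : β ∈ Icc (1 / 2 : ℝ) 2) (ha : D.W - 1 ≤ a) (ha' : a ≤ D.W) (μ q : ℝ)
    (hq : q ∈ Icc (D.θ + D.κ₀) (D.K * D.θ - D.κ₀)) :
    ∃ q', q' ∈ D.Q ∧ D.F 0 a β μ q < D.F 0 a β μ q' := by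
  by_contra hcon
  push Not at hcon
  have hκ := D.κ₀_small
  have hκp := D.κ₀_pos
  have hθ0 := D.hθ0
  have hθ1 := D.hθ1
  have hW := D.W_pos
  have hW6 := D.hW
  have hS := D.S_pos
  have hS1 := D.hS
  have hWκ := D.W_κ₀
  have hθm := D.θ_le_qmax
  have hKm := D.Kθ_le_qmax'
  have hK2 := D.two_le_K
  have hΛ := D.Λ_pos
  have hΛK := D.hθΛ
  have hθQ : D.θ ∈ D.Q := ⟨by linarith, hθm⟩
  have hKθQ : (D.K : ℝ) * D.θ ∈ D.Q := ⟨by positivity, hKm⟩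
  have hqQ : q ∈ D.Q := ⟨by linarith [hq.1], by linarith [hq.2]⟩
  have h1 := hcon D.θ hθQ
  have h2 := hcon _ hKθQ
  unfold F at h1 h2
  have hc := chord_ineq (x := D.θ) (y := (D.K : ℝ) * D.θ) (q := q)
    (by linarith [hq.1]) (by linarith [hq.2]) h1 h2
  have hLB := D.hLB1 β hβ
  have hLBK := D.hLBK β hβ
  have hUp := D.P0_le_S' hβ hqQ
  have hd : 0 < (D.K : ℝ) * D.θ - D.θ := by nlinarith
  have hd99 : 99 / 100 ≤ (D.K : ℝ) * D.θ - D.θ := by nlinarith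
  have hprod : (99 / 200) * D.κ₀ ≤ (q - D.θ) * ((D.K : ℝ) * D.θ - q) := by
    have := prod_lb (s := 99 / 100) hκp.le (A := q - D.θ) (B := (D.K : ℝ) * D.θ - q)
      (by linarith [hq.1]) (by linarith [hq.2]) (by linarith)
    linarith
  have hc0 : D.W / 8 ≤ β * a / 2 := by
    have h3 : 1 / 2 ≤ β := hβ.1
    have h4 : 0 ≤ a := by linarith
    nlinarith
  have hA0 : 0 ≤ q - D.θ := by linarith [hq.1]
  have hB0 : 0 ≤ (D.K : ℝ) * D.θ - q := by linarith [hq.2]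
  have hmain : (β * a / 2) * ((q - D.θ) * ((D.K : ℝ) * D.θ - q)) ≤ 3 * D.S := by
    apply le_of_mul_le_mul_left _ hd
    have h7 := mul_le_mul_of_nonneg_left hLB hB0
    have h8 := mul_le_mul_of_nonneg_left hLBK hA0
    have h9 := mul_le_mul_of_nonneg_left hUp hd.le
    have h10 : ((D.K : ℝ) - 1) * D.Λ * (q * (1 - D.θ)) ≤
        ((D.K : ℝ) * D.θ - D.θ) * ((D.K : ℝ) * D.Λ * (1 - D.θ)) := by
      have e : ((D.K : ℝ) * D.θ - D.θ) * ((D.K : ℝ) * D.Λ * (1 - D.θ)) =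
        ((D.K : ℝ) - 1) * D.Λ * (((D.K : ℝ) * D.θ) * (1 - D.θ)) := by ring
      rw [e]
      apply mul_le_mul_of_nonneg_left _ (mul_nonneg (by linarith) hΛ.le)
      apply mul_le_mul_of_nonneg_right _ (by linarith)
      linarith [hq.2]
    have h11 := mul_le_mul_of_nonneg_left hΛK hd.le
    nlinarith
  have hgain : D.W / 8 * ((99 / 200) * D.κ₀) ≤ (β * a / 2) * ((q - D.θ) * ((D.K : ℝ) * D.θ - q)) := by
    apply mul_le_mul hc0 hprod (by positivity) (by linarith)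
  have : D.W / 8 * ((99 / 200) * D.κ₀) = (99 / 1600) * (D.W * D.κ₀) := by ring
  rw [this, hWκ] at hgain
  linarith

set_option maxHeartbeats 1000000 in
/-- At `β = 9/8` the middle window is excluded as well: chord between `0` and `Kθ`:
`F q - chord ≤ 2 S + q [(K-1) Λ/(K θ) - (β a/2)(K θ - q)]`, the bracket `≤ -(W/2)(K-1)/16`. -/
theorem excl₃ {a : ℝ} (ha : D.W - 1 ≤ a) (ha' : a ≤ D.W) (μ q : ℝ)
    (hq : q ∈ Icc (D.θ - D.κ₀) (D.θ + D.κ₀)) :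
    ∃ q', q' ∈ D.Q ∧ D.F 0 a (9 / 8) μ q < D.F 0 a (9 / 8) μ q' := by
  by_contra hcon
  push Not at hcon
  have hκ := D.κ₀_small
  have hκp := D.κ₀_pos
  have hθ0 := D.hθ0
  have hθ1 := D.hθ1
  have hW := D.W_pos
  have hW6 := D.hW
  have hS := D.S_pos
  have hS1 := D.hS
  have hθm := D.θ_le_qmax
  have hKm := D.Kθ_le_qmax'
  have hK2 := D.two_le_K
  have hΛ := D.Λ_pos
  have hWK := D.hWK
  have hβ : (9 / 8 : ℝ) ∈ Icc (1 / 2 : ℝ) 2 := ⟨by norm_num, by norm_num⟩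
  have hKθ2 : 2 * D.θ ≤ (D.K : ℝ) * D.θ := by nlinarith
  have h0Q : (0 : ℝ) ∈ D.Q := ⟨le_refl _, D.qmax_nonneg⟩
  have hKθQ : (D.K : ℝ) * D.θ ∈ D.Q := ⟨by positivity, hKm⟩
  have hqQ : q ∈ D.Q := ⟨by linarith [hq.1], by linarith [hq.2]⟩
  have h1 := hcon 0 h0Q
  have h2 := hcon _ hKθQ
  unfold F at h1 h2
  have hc := chord_ineq (x := 0) (y := (D.K : ℝ) * D.θ) (q := q)
    (by linarith [hq.1]) (by linarith [hq.2]) h1 h2
  rw [D.hzero _ hβ] at hc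
  have hLBK := D.hLBK _ hβ
  have hUp := D.P0_le_S hβ hqQ
  have hq0 : 98 / 100 ≤ q := by linarith [hq.1]
  obtain ⟨m, hm⟩ : ∃ m : ℝ, m = (D.K : ℝ) - 1 := ⟨_, rfl⟩
  have hm1 : 1 ≤ m := by linarith
  have hK : (D.K : ℝ) = m + 1 := by linarith
  obtain ⟨c, hcdef⟩ : ∃ c : ℝ, c = 9 / 8 * a / 2 := ⟨_, rfl⟩
  rw [← hcdef] at hc
  have hc0 : 9 * (D.W - 1) / 16 ≤ c := by rw [hcdef]; linarith
  have hW1 : 0 < D.W - 1 := by linarith
  -- `θ B ≥ .979 m`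
  have hB : (979 / 1000) * m ≤ D.θ * ((D.K : ℝ) * D.θ - q) := by
    have h3 : m * D.θ - D.κ₀ ≤ (D.K : ℝ) * D.θ - q := by rw [hK]; linarith [hq.2]
    have h4 : D.θ * (m * D.θ - D.κ₀) ≤ D.θ * ((D.K : ℝ) * D.θ - q) :=
      mul_le_mul_of_nonneg_left h3 (by linarith)
    have h5 : (9801 / 10000) ≤ D.θ * D.θ := by nlinarith
    have h6 : m * (9801 / 10000) ≤ m * (D.θ * D.θ) := mul_le_mul_of_nonneg_left h5 (by linarith)
    have h7 : D.θ * D.κ₀ ≤ 1 / 10000 := by nlinarith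
    nlinarith
  have hcB : (11 / 20) * (D.W - 1) * m ≤ c * (D.θ * ((D.K : ℝ) * D.θ - q)) := by
    have h3 : 9 * (D.W - 1) / 16 * ((979 / 1000) * m) ≤ c * (D.θ * ((D.K : ℝ) * D.θ - q)) :=
      mul_le_mul hc0 hB (by positivity) (by linarith [mul_pos hW1 (show (0:ℝ) < 9 / 16 by norm_num)])
    have h4 : 0 ≤ (D.W - 1) * m := by positivity
    nlinarith
  -- the chord inequality divided by `K`
  have hKp : (0 : ℝ) < D.K := by linarith
  have hΛe : D.Λ = D.W * D.K / 2 := by linarith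
  have hdiv : c * (D.θ * (q * ((D.K : ℝ) * D.θ - q))) ≤ 2 * D.S * D.θ + q * m * (D.W / 2) := by
    apply le_of_mul_le_mul_left _ hKp
    have h7 := mul_le_mul_of_nonneg_left hLBK (show 0 ≤ q - 0 by linarith)
    have h8 := mul_le_mul_of_nonneg_left hUp
      (show 0 ≤ (D.K : ℝ) * D.θ - 0 by linarith [mul_pos hKp D.θ_pos])
    have h9 : q * D.S ≤ ((D.K : ℝ) * D.θ) * D.S :=
      mul_le_mul_of_nonneg_right (by linarith [hq.2]) hS.le
    have h10 : q * (- ((D.K : ℝ) - 1) * D.Λ) = - (D.K * (q * m * (D.W / 2))) := by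
      rw [hΛe, hm]; ring
    have h11 : (q - 0) * (- ((D.K : ℝ) - 1) * D.Λ - D.S) =
        - (D.K * (q * m * (D.W / 2))) - q * D.S := by
      rw [← h10]; ring
    rw [h11] at h7
    linarith
  have hlast : (99 / 1000) * D.W ≤ 2 * D.S + 1 := by
    have h3 : q * ((11 / 20) * (D.W - 1) * m) ≤ q * (c * (D.θ * ((D.K : ℝ) * D.θ - q))) :=
      mul_le_mul_of_nonneg_left hcB (by linarith)
    have h4 : q * m * (D.W / 20 - 11 / 20) ≤ 2 * D.S * D.θ := by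
      have e1 : q * (c * (D.θ * ((D.K : ℝ) * D.θ - q))) = c * (D.θ * (q * ((D.K : ℝ) * D.θ - q))) := by ring
      rw [e1] at h3
      have e2 : q * ((11 / 20) * (D.W - 1) * m) = q * m * ((11 / 20) * (D.W - 1)) := by ring
      rw [e2] at h3
      have e3 : q * m * (D.W / 20 - 11 / 20) = q * m * ((11 / 20) * (D.W - 1)) - q * m * (D.W / 2) := by ring
      rw [e3]
      linarith
    have h5 : 2 * D.S * D.θ ≤ 2 * D.S := by
      have := mul_le_mul_of_nonneg_left hθ1 (show 0 ≤ 2 * D.S by linarith)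
      linarith
    have h6 : (98 / 100) * (D.W / 20 - 11 / 20) ≤ q * m * (D.W / 20 - 11 / 20) := by
      apply mul_le_mul_of_nonneg_right _ (by linarith)
      have := mul_le_mul_of_nonneg_left hm1 (show 0 ≤ q by linarith)
      linarith
    linarith
  linarith

end TripleData
end Crest.Agent.Lib.Gas
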