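import Crest.Agent.Lib.Gas.TripleAff
import Crest.Agent.Lib.Gas.TripleExcl
import Crest.Agent.Lib.Gas.TripleBounds

/-! # Triple point: the gaps, the slopes, definition of `βc`. -/
namespace Crest.Agent.Lib.Gas
open Set Filter Topology
namespace TripleData
variable (D : TripleData)

private lemma a_range {a : ℝ} (h : a = D.aa 0 ∨ a = D.W) : D.W - 1 ≤ a ∧ a ≤ D.W := by
  rcases h with rfl | rfl
  · refine ⟨D.haa0, ?_⟩
    have := D.aa_le_tail 0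
    rwa [D.tail_zero] at this
  · exact ⟨by linarith, le_refl _⟩

private lemma Kθ_ge : 2 * D.θ ≤ D.K * D.θ :=
  mul_le_mul_of_nonneg_right D.two_le_K D.θ_pos.le

private lemma Kθ_le : (D.K : ℝ) * D.θ ≤ D.K := by
  have h0 : (0 : ℝ) ≤ D.K := by have := D.two_le_K; linarith
  have := mul_le_mul_of_nonneg_left D.hθ1 h0
  linarith

private lemma mem_Q_of {q : ℝ} (h0 : 0 ≤ q) (h1 : q ≤ D.K * D.θ) : q ∈ Icc (0 : ℝ) D.qmax :=
  ⟨h0, h1.trans D.Kθ_le_qmax⟩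

/-- `Pinf` is affine on `G₁` (from `affine_of_excl`, `excl₁`). -/
theorem affine₁ {β : ℝ} (hβ : β ∈ Icc (1 / 2 : ℝ) 2) (q : ℝ)
    (hq : q ∈ Icc (2 * D.κ₀) (D.θ - 2 * D.κ₀)) :
    D.Pinf β q = D.Pinf β (2 * D.κ₀) + D.s₁ β * (q - 2 * D.κ₀) := by
  have hk := D.κ₀_pos
  have hk' := D.κ₀_small
  have h0 := D.hθ0
  have hK := D.Kθ_ge
  have hex : ∀ a, (a = D.aa 0 ∨ a = D.W) → ∀ μ q, q ∈ Icc D.κ₀ (D.θ - D.κ₀) →
      ∃ q', q' ∈ D.Q ∧ D.F 0 a β μ q < D.F 0 a β μ q' := fun a ha μ q hq =>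
    D.excl₁ hβ (D.a_range ha).1 (D.a_range ha).2 μ q hq
  have key := D.affine_of_excl hβ (u := D.κ₀) (v := D.θ - D.κ₀) hk.le (by linarith) (by linarith)
    hex q ⟨by linarith [hq.1], by linarith [hq.2]⟩
  have e1 : D.κ₀ + D.κ₀ = 2 * D.κ₀ := by ring
  have e2 : D.θ - D.κ₀ - D.κ₀ = D.θ - 2 * D.κ₀ := by ring
  have e3 : D.θ - 2 * D.κ₀ - 2 * D.κ₀ = D.θ - 4 * D.κ₀ := by ring
  rw [e1, e2, e3] at key
  exact key

/-- `Pinf` is affine on `G₂` (from `affine_of_excl`, `excl₂`). -/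
theorem affine₂ {β : ℝ} (hβ : β ∈ Icc (1 / 2 : ℝ) 2) (q : ℝ)
    (hq : q ∈ Icc (D.θ + 2 * D.κ₀) (D.K * D.θ - 2 * D.κ₀)) :
    D.Pinf β q = D.Pinf β (D.θ + 2 * D.κ₀) + D.s₂ β * (q - (D.θ + 2 * D.κ₀)) := by
  have hk := D.κ₀_pos
  have hk' := D.κ₀_small
  have h0 := D.hθ0
  have hK := D.Kθ_ge
  have hex : ∀ a, (a = D.aa 0 ∨ a = D.W) → ∀ μ q, q ∈ Icc (D.θ + D.κ₀) (D.K * D.θ - D.κ₀) →
      ∃ q', q' ∈ D.Q ∧ D.F 0 a β μ q < D.F 0 a β μ q' := fun a ha μ q hq =>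
    D.excl₂ hβ (D.a_range ha).1 (D.a_range ha).2 μ q hq
  have key := D.affine_of_excl hβ (u := D.θ + D.κ₀) (v := D.K * D.θ - D.κ₀) (by linarith)
    (by linarith) (by linarith) hex q ⟨by linarith [hq.1], by linarith [hq.2]⟩
  have e1 : D.θ + D.κ₀ + D.κ₀ = D.θ + 2 * D.κ₀ := by ring
  have e2 : D.K * D.θ - D.κ₀ - D.κ₀ = D.K * D.θ - 2 * D.κ₀ := by ring
  have e3 : D.K * D.θ - 2 * D.κ₀ - (D.θ + 2 * D.κ₀) = D.K * D.θ - D.θ - 4 * D.κ₀ := by ring
  rw [e1, e2, e3] at key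
  exact key

/-- Concavity: a chord extended to the right lies above the function. -/
private lemma chord_right {s : Set ℝ} {f : ℝ → ℝ} (hf : ConcaveOn ℝ s f) {a b m : ℝ}
    (ha : a ∈ s) (hm : m ∈ s) (hab : a < b) (hbm : b ≤ m) :
    f m - f a ≤ (f b - f a) / (b - a) * (m - a) := by
  have hd : 0 < b - a := by linarith
  rcases eq_or_lt_of_le hbm with rfl | hbm'
  · field_simp
    exact le_refl _
  · have h := hf.slope_anti_adjacent ha hm hab hbm'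
    have h' : f m - f b ≤ (f b - f a) / (b - a) * (m - b) := by
      rwa [div_le_iff₀ (by linarith)] at h
    have e : (f b - f a) / (b - a) * (m - a) =
        (f b - f a) / (b - a) * (m - b) + (f b - f a) := by
      field_simp
      ring
    rw [e]
    linarith

/-- Concavity: a chord extended to the left lies above the function. -/
private lemma chord_left {s : Set ℝ} {f : ℝ → ℝ} (hf : ConcaveOn ℝ s f) {m c d : ℝ}
    (hm : m ∈ s) (hd : d ∈ s) (hmc : m ≤ c) (hcd : c < d) :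
    (f d - f c) / (d - c) * (d - m) ≤ f d - f m := by
  have hd' : 0 < d - c := by linarith
  rcases eq_or_lt_of_le hmc with rfl | hmc'
  · field_simp
    exact le_refl _
  · have h := hf.slope_anti_adjacent hm hd hmc' hcd
    have h' : (f d - f c) / (d - c) * (c - m) ≤ f c - f m := by
      rwa [le_div_iff₀ (by linarith)] at h
    have e : (f d - f c) / (d - c) * (d - m) =
        (f d - f c) / (d - c) * (c - m) + (f d - f c) := by
      field_simp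
      ring
    rw [e]
    linarith

/-- Chord slopes over two disjoint intervals of a concave function. -/
private lemma slope_le_slope {s : Set ℝ} {f : ℝ → ℝ} (hf : ConcaveOn ℝ s f) {x y z w : ℝ}
    (hx : x ∈ s) (hz : z ∈ s) (hy : y ∈ s) (hw : w ∈ s) (hxy : x < y) (hyz : y ≤ z) (hzw : z < w) :
    (f w - f z) / (w - z) ≤ (f y - f x) / (y - x) := by
  rcases eq_or_lt_of_le hyz with rfl | hyz'
  · exact hf.slope_anti_adjacent hx hw hxy hzw
  · exact (hf.slope_anti_adjacent hy hw hyz' hzw).trans (hf.slope_anti_adjacent hx hz hxy hyz')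

/-- Concavity. -/
theorem s₂_le_s₁ {β : ℝ} (hβ : β ∈ Icc (1 / 2 : ℝ) 2) : D.s₂ β ≤ D.s₁ β := by
  have hk := D.κ₀_pos
  have hk' := D.κ₀_small
  have h0 := D.hθ0
  have h1 := D.hθ1
  have hK := D.Kθ_ge
  have hconc := D.hconcI β hβ
  have key := slope_le_slope hconc (x := 2 * D.κ₀) (y := D.θ - 2 * D.κ₀) (z := D.θ + 2 * D.κ₀)
    (w := D.K * D.θ - 2 * D.κ₀)
    (D.mem_Q_of (by linarith) (by linarith)) (D.mem_Q_of (by linarith) (by linarith))
    (D.mem_Q_of (by linarith) (by linarith)) (D.mem_Q_of (by linarith) (by linarith))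
    (by linarith) (by linarith) (by linarith)
  have e1 : D.θ - 2 * D.κ₀ - 2 * D.κ₀ = D.θ - 4 * D.κ₀ := by ring
  have e2 : D.K * D.θ - 2 * D.κ₀ - (D.θ + 2 * D.κ₀) = D.K * D.θ - D.θ - 4 * D.κ₀ := by ring
  rw [e1, e2] at key
  exact key

/-- At `β = 9/8`: `Pinf` is affine on `[2κ₀, Kθ-2κ₀]` (from `affine_of_excl`, `excl₁₂₃`). -/
theorem s_eq_98 : D.s₁ (9 / 8) = D.s₂ (9 / 8) := by
  have hk := D.κ₀_pos
  have hk' := D.κ₀_small
  have h0 := D.hθ0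
  have h1 := D.hθ1
  have hK := D.Kθ_ge
  have hβ : (9 / 8 : ℝ) ∈ Icc (1 / 2 : ℝ) 2 := ⟨by norm_num, by norm_num⟩
  have hex : ∀ a, (a = D.aa 0 ∨ a = D.W) → ∀ μ q, q ∈ Icc D.κ₀ (D.K * D.θ - D.κ₀) →
      ∃ q', q' ∈ D.Q ∧ D.F 0 a (9 / 8) μ q < D.F 0 a (9 / 8) μ q' := by
    intro a ha μ q hq
    by_cases h1 : q ≤ D.θ - D.κ₀
    · exact D.excl₁ hβ (D.a_range ha).1 (D.a_range ha).2 μ q ⟨hq.1, h1⟩
    · by_cases h2 : q ≤ D.θ + D.κ₀
      · exact D.excl₃ (D.a_range ha).1 (D.a_range ha).2 μ q ⟨(not_le.1 h1).le, h2⟩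
      · exact D.excl₂ hβ (D.a_range ha).1 (D.a_range ha).2 μ q ⟨(not_le.1 h2).le, hq.2⟩
  have key := D.affine_of_excl hβ (u := D.κ₀) (v := D.K * D.θ - D.κ₀) hk.le
    (by linarith) (by linarith) hex
  have e1 : D.κ₀ + D.κ₀ = 2 * D.κ₀ := by ring
  have e2 : D.K * D.θ - D.κ₀ - D.κ₀ = D.K * D.θ - 2 * D.κ₀ := by ring
  rw [e1, e2] at key
  set c := (D.Pinf (9 / 8) (D.K * D.θ - 2 * D.κ₀) - D.Pinf (9 / 8) (2 * D.κ₀)) /
    (D.K * D.θ - 2 * D.κ₀ - 2 * D.κ₀) with hc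
  have ha := key (D.θ - 2 * D.κ₀) ⟨by linarith, by linarith⟩
  have hb := key (D.θ + 2 * D.κ₀) ⟨by linarith, by linarith⟩
  have hd := key (D.K * D.θ - 2 * D.κ₀) ⟨by linarith, by linarith⟩
  have h₁ : D.s₁ (9 / 8) = c := by
    unfold s₁
    rw [ha, div_eq_iff (by linarith)]
    ring
  have h₂ : D.s₂ (9 / 8) = c := by
    unfold s₂
    rw [hd, hb, div_eq_iff (by linarith)]
    ring
  rw [h₁, h₂]

/-- At `β = 7/8` the slopes differ: if they agreed, `Pinf + μ q` would be constant on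
`[2κ₀, Kθ-2κ₀]`; compare `q = θ` (`pinf_ge`) with `q = 2κ₀` (`pinf_le_low`) and `q = Kθ-2κ₀`
(`pinf_le_high`):  `μ ≤ -βΛ/K + O(S)`, `μ ≥ Λ(1 - β(K+1)/K) - O(S)`, and the difference of the two
is `Λ (1-β) = Λ/8`. -/
theorem s_lt_78 : D.s₂ (7 / 8) < D.s₁ (7 / 8) := by
  by_contra hcon
  push Not at hcon
  have hk := D.κ₀_pos
  have hk' := D.κ₀_small
  have h0 := D.hθ0
  have h1 := D.hθ1
  have hK := D.Kθ_ge
  have hK2 := D.two_le_K
  have hβ : (7 / 8 : ℝ) ∈ Icc (1 / 2 : ℝ) 2 := ⟨by norm_num, by norm_num⟩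
  have hβ' : (7 / 8 : ℝ) ∈ Icc (1 / 2 : ℝ) 1 := ⟨by norm_num, by norm_num⟩
  have hconc := D.hconcI (7 / 8) hβ
  set f := D.Pinf (7 / 8) with hf
  -- the points
  have ha : 2 * D.κ₀ ∈ Icc (0 : ℝ) D.qmax := D.mem_Q_of (by linarith) (by linarith)
  have hb : D.θ - 2 * D.κ₀ ∈ Icc (0 : ℝ) D.qmax := D.mem_Q_of (by linarith) (by linarith)
  have hc : D.θ + 2 * D.κ₀ ∈ Icc (0 : ℝ) D.qmax := D.mem_Q_of (by linarith) (by linarith)
  have hd : D.K * D.θ - 2 * D.κ₀ ∈ Icc (0 : ℝ) D.qmax := D.mem_Q_of (by linarith) (by linarith)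
  have hm : D.θ ∈ Icc (0 : ℝ) D.qmax := D.mem_Q_of (by linarith) (by linarith)
  -- the slope
  set s := D.s₁ (7 / 8) with hs
  have hs1 : s = (f (D.θ - 2 * D.κ₀) - f (2 * D.κ₀)) / (D.θ - 2 * D.κ₀ - 2 * D.κ₀) := by
    have e1 : D.θ - 2 * D.κ₀ - 2 * D.κ₀ = D.θ - 4 * D.κ₀ := by ring
    rw [e1]
    rfl
  have hs2 : D.s₂ (7 / 8) = (f (D.K * D.θ - 2 * D.κ₀) - f (D.θ + 2 * D.κ₀)) /
      (D.K * D.θ - 2 * D.κ₀ - (D.θ + 2 * D.κ₀)) := by
    have e2 : D.K * D.θ - 2 * D.κ₀ - (D.θ + 2 * D.κ₀) = D.K * D.θ - D.θ - 4 * D.κ₀ := by ring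
    rw [e2]
    rfl
  -- two chord bounds
  have hi : f D.θ - f (2 * D.κ₀) ≤ s * (D.θ - 2 * D.κ₀) := by
    have := chord_right hconc (a := 2 * D.κ₀) (b := D.θ - 2 * D.κ₀) (m := D.θ) ha hm
      (by linarith) (by linarith)
    rw [hs1]
    exact this
  have hii : s * (D.K * D.θ - 2 * D.κ₀ - D.θ) ≤ f (D.K * D.θ - 2 * D.κ₀) - f D.θ := by
    have := chord_left hconc (m := D.θ) (c := D.θ + 2 * D.κ₀) (d := D.K * D.θ - 2 * D.κ₀) hm hd
      (by linarith) (by linarith)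
    rw [← hs2] at this
    have hpos : 0 ≤ D.K * D.θ - 2 * D.κ₀ - D.θ := by linarith
    exact (mul_le_mul_of_nonneg_right hcon hpos).trans this
  -- the three bounds on `f`
  have hS : 1 ≤ D.S := D.hS
  have he0 : D.err 0 ≤ 1 := D.herr0
  have he1 : 0 ≤ D.err 0 := D.herr_nn 0
  have hQm : D.θ ∈ D.Q := hm
  have hlow := D.pinf_le_low hβ' (q := 2 * D.κ₀) ha
  have hhigh := D.pinf_le_high hβ' (q := D.K * D.θ - 2 * D.κ₀) hd
  have hge := D.pinf_ge hβ (q := D.θ) hm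
  have hLB1 := D.hLB1 (7 / 8) hβ
  -- numerics
  have hWκ := D.W_κ₀
  have hW := D.hW
  have hWK := D.hWK
  have hθΛ := D.hθΛ
  have hWpos := D.W_pos
  have hΛpos := D.Λ_pos
  have hSpos : 0 < D.S := by linarith
  -- rename
  set W := D.W
  set S := D.S
  set Λ := D.Λ
  set θ := D.θ
  set κ := D.κ₀
  set e := D.err 0
  set K : ℝ := (D.K : ℝ) with hKdef
  -- `A`
  have hAdef : ((7 / 8 : ℝ) * W / 2) * θ ^ 2 = (7 / 16) * W * θ ^ 2 := by ring
  set A := (7 / 16) * W * θ ^ 2 with hA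
  rw [hAdef] at hge
  have hfθ : -S + A - e ≤ f θ := by linarith
  have hfa : f (2 * κ) ≤ 200 * S + S + e := by
    have : W * (2 * κ) = 200 * S := by rw [← mul_assoc, mul_comm W 2, mul_assoc, hWκ]; ring
    linarith
  have hθ2 : (98 : ℝ) / 100 ≤ θ ^ 2 := by nlinarith
  have hAbig : 400000 * S ≤ A := by
    have : (7 / 16) * W * (98 / 100) ≤ A := by
      rw [hA]
      exact mul_le_mul_of_nonneg_left hθ2 (by positivity)
    nlinarith
  -- upper bound on `μ = -s`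
  have hsU : A - 204 * S ≤ s := by
    have h3 : A - 204 * S ≤ s * (θ - 2 * κ) := by linarith
    by_contra hlt
    push Not at hlt
    have hspos : s < A - 204 * S := hlt
    have hsub : θ - 2 * κ ≤ 1 := by linarith
    have hpos2 : 0 < θ - 2 * κ := by linarith
    have hnn : 0 ≤ A - 204 * S := by linarith
    have : s * (θ - 2 * κ) < A - 204 * S := by
      by_cases hs0 : 0 ≤ s
      · calc s * (θ - 2 * κ) ≤ s * 1 := mul_le_mul_of_nonneg_left hsub hs0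
          _ = s := mul_one s
          _ < _ := hlt
      · push Not at hs0
        have : s * (θ - 2 * κ) < 0 := mul_neg_of_neg_of_pos hs0 hpos2
        linarith
    linarith
  -- lower bound on `μ`
  have hfd : f (K * θ - 2 * κ) + Λ * (K * θ - 2 * κ) ≤ S + e + Λ + 7 / 8 * Λ * K := hhigh
  have hΛK : W * K = 2 * Λ := hWK
  have hsL : (A - 204 * S) * (K * θ - 2 * κ - θ) ≤ f (K * θ - 2 * κ) - f θ := by
    have hpos : 0 ≤ K * θ - 2 * κ - θ := by linarith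
    exact (mul_le_mul_of_nonneg_right hsU hpos).trans hii
  -- combination
  have hmain : (A - 204 * S) * (K * θ - 2 * κ - θ) + A + Λ * (K * θ - 2 * κ) ≤
      S + e + Λ + 7 / 8 * Λ * K + S + e := by linarith
  -- `A K = 7/8 Λ θ²`
  have hAK : A * K = (7 / 8) * Λ * θ ^ 2 := by
    rw [hA]
    have : (7 / 16) * W * θ ^ 2 * K = (7 / 16) * (W * K) * θ ^ 2 := by ring
    rw [this, hΛK]
    ring
  have hκΛ : 2 * Λ * κ = 100 * S * K := by
    rw [← hΛK]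
    have : W * K * κ = (W * κ) * K := by ring
    rw [this, hWκ]
  have hθΛ' : K * Λ * (1 - θ) ≤ S := hθΛ
  have hΛθ : Λ * (1 - θ) ≤ S := D.Λθ
  -- expand the product
  have e1 : (A - 204 * S) * (K * θ - 2 * κ - θ) + A + Λ * (K * θ - 2 * κ) =
      (A * K) * θ - A * (2 * κ) - A * θ + A - 204 * S * (K * θ - 2 * κ - θ) + Λ * K * θ
        - 2 * Λ * κ := by ring
  rw [e1, hAK, hκΛ] at hmain
  -- `A (1 - θ) ≥ 0`, `A ≤ W`, `A κ` small
  have hAθ : 0 ≤ A * (1 - θ) := mul_nonneg (by linarith) (by linarith)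
  have hA_le : A ≤ (7 / 16) * W := by
    have h2 : θ ^ 2 ≤ 1 := pow_le_one₀ (by linarith only [h0]) h1
    have := mul_le_mul_of_nonneg_left h2 (by positivity : 0 ≤ (7 / 16) * W)
    rw [hA]
    linarith only [this]
  have hAκ : A * (2 * κ) ≤ 100 * S := by
    have : A * (2 * κ) ≤ (7 / 16) * W * (2 * κ) :=
      mul_le_mul_of_nonneg_right hA_le (by linarith)
    have h' : (7 / 16) * W * (2 * κ) = (7 / 8) * (W * κ) := by ring
    rw [h', hWκ] at this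
    linarith
  -- bound the `204 S` term
  have hKθ : K * θ - 2 * κ - θ ≤ K := by
    have := D.Kθ_le
    linarith only [this, hk, h0]
  have h204 : 204 * S * (K * θ - 2 * κ - θ) ≤ 204 * S * K :=
    mul_le_mul_of_nonneg_left hKθ (by positivity)
  -- `θ³ ≥ 1 - 3 (1-θ)`
  have hθ3 : 1 - 3 * (1 - θ) ≤ θ ^ 2 * θ := by
    have h3 : 0 ≤ (1 - θ) ^ 2 * (3 - (1 - θ)) :=
      mul_nonneg (sq_nonneg _) (by linarith only [h0, h1])
    nlinarith only [h3]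
  have hΛθ3 : Λ * (1 - 3 * (1 - θ)) ≤ Λ * (θ ^ 2 * θ) :=
    mul_le_mul_of_nonneg_left hθ3 hΛpos.le
  have hKΛ : Λ * K * θ = Λ * K - K * Λ * (1 - θ) := by ring
  -- final: `Λ (K - 1) / 8 ≤ O(S K)`
  have hfinal : Λ * (K - 1) / 8 ≤ 400 * S * K + 20 * S := by
    have hSK' : 2 * S ≤ S * K := by nlinarith only [hK2, hSpos]
    linarith only [hSK', hmain, hKΛ, hΛθ3, hθΛ', hΛθ, hAθ, hAκ, h204, hS, he0, he1]
  have hΛW : W ≤ Λ := D.W_le_Λ
  have hK1 : K / 2 ≤ K - 1 := by linarith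
  have hSK : 0 ≤ S * K := by positivity
  have : 1000000 * S * (K / 2) / 8 ≤ Λ * (K - 1) / 8 := by
    have h1 : 1000000 * S ≤ Λ := by linarith
    have := mul_le_mul h1 hK1 (by linarith only [hK2]) hΛpos.le
    linarith only [this]
  have hSK2 : 2 * S ≤ S * K := by nlinarith only [hK2, hSpos]
  linarith only [this, hfinal, hSK2, hSpos]

private lemma pinf_cont {q : ℝ} (hq : q ∈ Icc (0 : ℝ) D.qmax) :
    ContinuousOn (fun β => D.Pinf β q) (Ioo (1 / 2 : ℝ) 2) :=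
  ((D.hconvI q hq).subset Ioo_subset_Icc_self (convex_Ioo _ _)).continuousOn isOpen_Ioo

theorem s₁_cont : ContinuousOn D.s₁ (Ioo (1 / 2 : ℝ) 2) := by
  have hk := D.κ₀_pos
  have hk' := D.κ₀_small
  have h0 := D.hθ0
  have h1 := D.hθ1
  have hK := D.Kθ_ge
  have ha := D.pinf_cont (q := 2 * D.κ₀) (D.mem_Q_of (by linarith) (by linarith))
  have hb := D.pinf_cont (q := D.θ - 2 * D.κ₀) (D.mem_Q_of (by linarith) (by linarith))
  exact (hb.sub ha).div_const _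

theorem s₂_cont : ContinuousOn D.s₂ (Ioo (1 / 2 : ℝ) 2) := by
  have hk := D.κ₀_pos
  have hk' := D.κ₀_small
  have h0 := D.hθ0
  have h1 := D.hθ1
  have hK := D.Kθ_ge
  have ha := D.pinf_cont (q := D.K * D.θ - 2 * D.κ₀) (D.mem_Q_of (by linarith) (by linarith))
  have hb := D.pinf_cont (q := D.θ + 2 * D.κ₀) (D.mem_Q_of (by linarith) (by linarith))
  exact (ha.sub hb).div_const _

/-- Definition of `βc`: the first `β ≥ 7/8` at which the slopes agree. -/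
theorem exists_βc : ∃ βc : ℝ, 7 / 8 < βc ∧ βc ≤ 9 / 8 ∧ D.s₁ βc = D.s₂ βc ∧
    ∀ β, 7 / 8 ≤ β → β < βc → D.s₂ β < D.s₁ β := by
  have hsub : Icc (7 / 8 : ℝ) (9 / 8) ⊆ Ioo (1 / 2 : ℝ) 2 := fun x hx =>
    ⟨by linarith [hx.1], by linarith [hx.2]⟩
  have hclosed : IsClosed {x ∈ Icc (7 / 8 : ℝ) (9 / 8) | D.s₁ x = D.s₂ x} :=
    isClosed_Icc.isClosed_eq (D.s₁_cont.mono hsub) (D.s₂_cont.mono hsub)
  set T := {x ∈ Icc (7 / 8 : ℝ) (9 / 8) | D.s₁ x = D.s₂ x} with hT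
  have hTb : BddBelow T := ⟨7 / 8, fun x hx => hx.1.1⟩
  have hne : T.Nonempty := ⟨9 / 8, ⟨by norm_num, le_refl _⟩, D.s_eq_98⟩
  have hmem : sInf T ∈ T := hclosed.csInf_mem hne hTb
  refine ⟨sInf T, ?_, hmem.1.2, hmem.2, ?_⟩
  · refine lt_of_le_of_ne hmem.1.1 ?_
    intro h
    have h2 := hmem.2
    rw [← h] at h2
    have := D.s_lt_78
    linarith
  · intro β h1 h2
    have hβ : β ∈ Icc (1 / 2 : ℝ) 2 := by
      constructor
      · linarith
      · linarith [hmem.1.2]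
    refine lt_of_le_of_ne (D.s₂_le_s₁ hβ) ?_
    intro heq
    have hβT : β ∈ T := ⟨⟨h1, by linarith [hmem.1.2]⟩, heq.symm⟩
    have := csInf_le hTb hβT
    linarith

private lemma abs_chord_le {x y d C : ℝ} (hx : |x| ≤ C) (hy : |y| ≤ C) (hd : 1 / 8 ≤ d) :
    |(x - y) / d| ≤ 16 * C := by
  have hd0 : 0 < d := by linarith
  have hC : 0 ≤ C := (abs_nonneg x).trans hx
  rw [abs_div, abs_of_pos hd0, div_le_iff₀ hd0]
  have h1 : |x - y| ≤ 2 * C := by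
    have := abs_sub x y
    linarith
  nlinarith

/-- Bound on the slopes. -/
theorem abs_s₁_le {β : ℝ} (hβ : β ∈ Icc (1 / 2 : ℝ) 2) : |D.s₁ β| ≤ 16 * D.C₂ := by
  have hk := D.κ₀_pos
  have hk' := D.κ₀_small
  have h0 := D.hθ0
  have h1 := D.hθ1
  have hK := D.Kθ_ge
  exact abs_chord_le (D.hBdI β hβ _ ⟨by linarith, by linarith⟩)
    (D.hBdI β hβ _ ⟨by linarith, by linarith⟩) (by linarith)

theorem abs_s₂_le {β : ℝ} (hβ : β ∈ Icc (1 / 2 : ℝ) 2) : |D.s₂ β| ≤ 16 * D.C₂ := by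
  have hk := D.κ₀_pos
  have hk' := D.κ₀_small
  have h0 := D.hθ0
  have h1 := D.hθ1
  have hK := D.Kθ_ge
  exact abs_chord_le (D.hBdI β hβ _ ⟨by linarith, by linarith⟩)
    (D.hBdI β hβ _ ⟨by linarith, by linarith⟩) (by linarith)

end TripleData
end Crest.Agent.Lib.Gas
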