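import Crest.Agent.Lib.Gas.TriplePhase
import Crest.Agent.Lib.Gas.TripleEdge
import Crest.Agent.Lib.Gas.TripleGaps

/-! # Triple point: the kink. -/
namespace Crest.Agent.Lib.Gas
open Set Filter Topology
namespace TripleData
variable (D : TripleData)

/-- **Abstract triple-point theorem.**  `exists_βc`; `p_A` from `exists_phaseA`; `p₀`, `p_B` at the edges
`2κ₀`, `Kθ-2κ₀` from `isSub_of_max` (both maximise at `(βc, -s₁ βc)`: `Pinf + μ q` is constant on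
`[2κ₀, Kθ-2κ₀]` by `affine₁₂` and concavity), `exists_beta_sub`; `Lval_low`, `Lval_high`.
For `q` in the gap: `e₁` on the segment `[p_A, p_B]`, `e₂` on the segment `[p₀, p_B]`;
`e₂ - e₁ = (ω₂-ω₁) L(p_B) + (1-ω₂) L(p₀) - (1-ω₁) L(p_A) ≥ (1-ω₁)(W/16 - 2000 S) > 0`;
`sub_of_isSub`. -/
theorem kink :
    ∃ βc : ℝ, 7 / 8 ≤ βc ∧ βc ≤ 9 / 8 ∧
      ∀ q, D.θ + 2 * D.κ₀ < q → q < D.K * D.θ - 2 * D.κ₀ →
        ∃ e₁ e₂ : ℝ, e₁ < e₂ ∧ ∀ β, β ∈ Icc (1 / 2 : ℝ) 2 →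
          D.Pinf βc q + e₁ * (β - βc) ≤ D.Pinf β q ∧
          D.Pinf βc q + e₂ * (β - βc) ≤ D.Pinf β q := by
  obtain ⟨βc, hβ1, hβ2, hs, hlt⟩ := D.exists_βc
  refine ⟨βc, hβ1.le, hβ2, ?_⟩
  have hW := D.W_pos
  have hκ₀p := D.κ₀_pos
  have hκ₀s := D.κ₀_small
  have hθ0 := D.hθ0
  have hθ1 := D.hθ1
  have hK := D.two_le_K
  have hKθ : 2 * D.θ ≤ D.K * D.θ := mul_le_mul_of_nonneg_right hK (by linarith)
  have hKq := D.Kθ_le_qmax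
  have hS := D.hS
  have hWS := D.hW
  have hβcm : βc ∈ Icc (1 / 2 : ℝ) 2 := ⟨by linarith, by linarith⟩
  set μc := - D.s₁ βc with hμc
  set q₀ := 2 * D.κ₀ with hq₀
  set q₁ := D.θ - 2 * D.κ₀ with hq₁
  set q₂ := D.θ + 2 * D.κ₀ with hq₂
  set qB := D.K * D.θ - 2 * D.κ₀ with hqB
  have h01 : q₀ < q₁ := by rw [hq₀, hq₁]; linarith
  have h12 : q₁ < q₂ := by rw [hq₁, hq₂]; linarith
  have h2B : q₂ < qB := by rw [hq₂, hqB]; linarith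
  have hq₀0 : 0 < q₀ := by rw [hq₀]; linarith
  have hqBm : qB ≤ D.qmax := by rw [hqB]; linarith
  set Ψ : ℝ → ℝ := fun q => D.Pinf βc q + μc * q with hΨ
  have hΨc : ConcaveOn ℝ (Icc 0 D.qmax) Ψ := concaveOn_add_lin (D.hconcI βc hβcm) μc
  -- flat on `G₁`
  have hflat1 : ∀ q, q ∈ Icc q₀ q₁ → Ψ q = Ψ q₀ := by
    intro q hq
    have := D.affine₁ hβcm q hq
    simp only [hΨ]
    rw [this, ← hq₀, hμc]
    ring
  have hflat2 : ∀ q, q ∈ Icc q₂ qB → Ψ q = Ψ q₂ := by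
    intro q hq
    have := D.affine₂ hβcm q hq
    simp only [hΨ]
    rw [this, hμc, hs, ← hq₂]
    ring
  have hQ1 : ∀ q, q ∈ D.Q → Ψ q ≤ Ψ q₀ := by
    intro q hq
    by_cases hmem : q ∈ Ioo q₀ q₁
    · exact (hflat1 q ⟨hmem.1.le, hmem.2.le⟩).le
    · exact concave_outside hΨc hq₀0.le (by linarith) h01
        (hflat1 q₁ ⟨h01.le, le_rfl⟩).symm hq hmem
  have hQ2 : ∀ q, q ∈ D.Q → Ψ q ≤ Ψ qB := by
    intro q hq
    have e := hflat2 qB ⟨h2B.le, le_rfl⟩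
    rw [e]
    by_cases hmem : q ∈ Ioo q₂ qB
    · exact (hflat2 q ⟨hmem.1.le, hmem.2.le⟩).le
    · exact concave_outside hΨc (by linarith) hqBm h2B e.symm hq hmem
  have hq₀Q : q₀ ∈ D.Q := ⟨hq₀0.le, by linarith⟩
  have hqBQ : qB ∈ D.Q := ⟨by linarith, hqBm⟩
  have hq₀K : q₀ ∈ Icc 0 ((D.K : ℝ) * D.θ) := ⟨hq₀0.le, by rw [hq₀]; linarith⟩
  have hqBK : qB ∈ Icc 0 ((D.K : ℝ) * D.θ) := ⟨by linarith, by rw [hqB]; linarith⟩
  -- the three subgradients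
  obtain ⟨e₀, -, he₀⟩ := D.exists_beta_sub hβ1.le hβ2 hq₀K
  obtain ⟨eB, -, heB⟩ := D.exists_beta_sub hβ1.le hβ2 hqBK
  have hIs₀ : D.IsSub βc μc e₀ q₀ := D.isSub_of_max hβcm hq₀Q hQ1 he₀
  have hIsB : D.IsSub βc μc eB qB := D.isSub_of_max hβcm hqBQ hQ2 heB
  have hL₀ := D.Lval_low hβ1.le hβ2 he₀
  have hLB := D.Lval_high hβ1.le hβ2 heB
  rw [← hq₀] at hL₀
  rw [← hqB] at hLB
  obtain ⟨eA, qA, hIsA, hqAw, hLA⟩ := D.exists_phaseA hβ1 hβ2 hs hlt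
  rw [← hμc] at hIsA
  rw [← hq₁, ← hq₂] at hqAw
  -- segments
  intro q hq2 hqb
  have hqQ : q ∈ Ioo 0 D.qmax := ⟨by linarith, by linarith⟩
  have hqA : qA < q := by linarith [hqAw.2]
  have hdA : 0 < qB - qA := by linarith
  have hd0 : 0 < qB - q₀ := by linarith
  set ω₁ := (q - qA) / (qB - qA) with hω₁
  set ω₂ := (q - q₀) / (qB - q₀) with hω₂
  have hω₁0 : 0 ≤ ω₁ := div_nonneg (by linarith) hdA.le
  have hω₂0 : 0 ≤ ω₂ := div_nonneg (by linarith) hd0.le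
  have hω₁1 : ω₁ < 1 := by rw [hω₁, div_lt_one hdA]; linarith
  have hω₂1 : ω₂ < 1 := by rw [hω₂, div_lt_one hd0]; linarith
  have hcomb₁ : (1 - ω₁) * qA + ω₁ * qB = q := by rw [hω₁]; field_simp; ring
  have hcomb₂ : (1 - ω₂) * q₀ + ω₂ * qB = q := by rw [hω₂]; field_simp; ring
  have hIs₁ := IsSub.comb D hIsA hIsB hω₁0 hω₁1.le
  have hIs₂ := IsSub.comb D hIs₀ hIsB hω₂0 hω₂1.le
  rw [hcomb₁] at hIs₁
  rw [hcomb₂] at hIs₂
  refine ⟨(1 - ω₁) * eA + ω₁ * eB, (1 - ω₂) * e₀ + ω₂ * eB, ?_, fun β hβ => ⟨?_, ?_⟩⟩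
  · -- arithmetic
    have hq₀A : q₀ ≤ qA := by linarith [hqAw.1]
    have h1ω : 1 - ω₂ ≤ 1 - ω₁ := by
      have e1 : 1 - ω₁ = (qB - q) / (qB - qA) := by rw [hω₁]; field_simp; ring
      have e2 : 1 - ω₂ = (qB - q) / (qB - q₀) := by rw [hω₂]; field_simp; ring
      rw [e1, e2]
      exact div_le_div_of_nonneg_left (by linarith) hdA (by linarith)
    set c := 5 * D.W / 8 with hc
    set LA := eA - c * qA with hLAdef
    set L₀ := e₀ - c * q₀ with hL₀def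
    set LB := eB - c * qB with hLBdef
    have e1 : (1 - ω₁) * eA + ω₁ * eB = (1 - ω₁) * LA + ω₁ * LB + c * q := by
      rw [hLAdef, hLBdef, ← hcomb₁]; ring
    have e2 : (1 - ω₂) * e₀ + ω₂ * eB = (1 - ω₂) * L₀ + ω₂ * LB + c * q := by
      rw [hL₀def, hLBdef, ← hcomb₂]; ring
    rw [e1, e2]
    have h1 : 0 ≤ (ω₂ - ω₁) * LB := mul_nonneg (by linarith) hLB
    have h2 : (1 - ω₂) * (- 2000 * D.S) ≤ (1 - ω₂) * L₀ :=
      mul_le_mul_of_nonneg_left hL₀ (by linarith)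
    have h3 : (1 - ω₂) * (2000 * D.S) ≤ (1 - ω₁) * (2000 * D.S) :=
      mul_le_mul_of_nonneg_right h1ω (by positivity)
    have h4 : (1 - ω₁) * LA ≤ (1 - ω₁) * (- (D.W / 16)) :=
      mul_le_mul_of_nonneg_left hLA (by linarith)
    have h5 : 0 < (1 - ω₁) * (D.W / 16 - 2000 * D.S) := by
      apply mul_pos (by linarith)
      have : 0 < D.S := by linarith
      linarith
    nlinarith
  · exact D.sub_of_isSub hβcm hIs₁ hqQ hβ
  · exact D.sub_of_isSub hβcm hIs₂ hqQ hβ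

end TripleData
end Crest.Agent.Lib.Gas
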