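import Crest.Agent.Lib.Gas.AssembleDecay
import Crest.Agent.Lib.Gas.TripleKink
import Crest.Agent.Lib.Gas.Base1
import Crest.Agent.Lib.Gas.Packing

/-!
# Gas assembly: the main package.
-/

namespace Crest.Agent.Lib.Gas
open MeasureTheory Set Filter Topology
open Crest.ProbabilityR.Continuum

namespace Num
variable (N : Num)

theorem κ₀_le : N.P.κ₀ ≤ 1 / 10000 := by
  unfold PreNum.κ₀
  have h1 := N.hN1
  have h2 := N.P.W_pos
  rw [div_le_iff₀ h2]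
  linarith

theorem κ₀_pos : 0 < N.P.κ₀ := by
  unfold PreNum.κ₀
  have h1 := N.P.one_le_S
  have h2 := N.P.W_pos
  positivity

/-- The kink in terms of the density. -/
theorem kink_density : ∃ βc : ℝ, 7 / 8 ≤ βc ∧ βc ≤ 9 / 8 ∧
    ∀ ρ, 5 * N.p / 3 - N.p / 10 < ρ → ρ < 5 * N.p / 3 + N.p / 10 →
      ∃ e₁ e₂ : ℝ, e₁ < e₂ ∧ ∀ β, β ∈ Icc (1 / 2 : ℝ) 2 →
        Psi (N.G.φc coefOne) βc ρ + e₁ * (β - βc) ≤ Psi (N.G.φc coefOne) β ρ ∧
        Psi (N.G.φc coefOne) βc ρ + e₂ * (β - βc) ≤ Psi (N.G.φc coefOne) β ρ := by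
  obtain ⟨βc, h1, h2, hk⟩ := N.D.kink
  refine ⟨βc, h1, h2, ?_⟩
  intro ρ hρ1 hρ2
  have hpp := N.pp_pos
  have hp0 : 0 < N.p := by linarith [N.hp]
  have hge := N.P.ge_pp N.hp
  have hκ := N.κ₀_le
  have hκ0 := N.κ₀_pos
  have hθ1 := N.P.θ_le N.hp
  have hθ0 := N.θ_ge
  have hK := N.P.two_le_K
  have hζ : N.P.ζ ≤ 1 / 900 := N.P.r₁_small
  have hζ0 := N.P.ζ_pos
  -- `q`
  set q := ρ / N.P.pp N.p with hq
  have hqpp : q * N.P.pp N.p = ρ := by rw [hq]; field_simp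
  have hρ0 : 0 < ρ := by linarith
  have hlow : N.D.θ + 2 * N.D.κ₀ < q := by
    have e1 : N.D.θ = N.P.θ N.p := rfl
    have e2 : N.D.κ₀ = N.P.κ₀ := rfl
    rw [e1, e2]
    have h3 : (299 / 300 : ℝ) ≤ (1 - N.P.ζ) ^ 3 := by
      have := one_add_mul_le_pow (a := -N.P.ζ) (by linarith) 3
      have e : (1 + -N.P.ζ) = 1 - N.P.ζ := by ring
      rw [e] at this
      push_cast at this
      linarith
    have h4 : (3 / 2 : ℝ) < q := by
      rw [hq]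
      unfold PreNum.pp
      rw [div_div_eq_mul_div, lt_div_iff₀ hp0]
      have h5 : (47 / 30) * N.p < ρ := by linarith
      nlinarith
    linarith
  have hhigh : q < N.D.K * N.D.θ - 2 * N.D.κ₀ := by
    have e1 : N.D.θ = N.P.θ N.p := rfl
    have e2 : N.D.κ₀ = N.P.κ₀ := rfl
    have e3 : N.D.K = N.P.K := rfl
    rw [e1, e2, e3]
    have h4 : q ≤ ρ / N.p := by
      rw [hq]
      exact div_le_div_of_nonneg_left hρ0.le hp0 hge
    have h5 : ρ / N.p < 9 / 5 := by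
      rw [div_lt_iff₀ hp0]
      linarith
    have h6 : 2 * (99 / 100) ≤ (N.P.K : ℝ) * N.P.θ N.p := by
      apply mul_le_mul hK hθ0 (by norm_num) (by linarith)
    linarith
  obtain ⟨e₁, e₂, he, hsub⟩ := hk q hlow hhigh
  refine ⟨N.P.pp N.p * e₁, N.P.pp N.p * e₂, mul_lt_mul_of_pos_left he hpp, ?_⟩
  intro β hβ
  obtain ⟨h3, h4⟩ := hsub β hβ
  have e : ∀ β', N.D.Pinf β' q = Psi (N.G.φc coefOne) β' ρ / N.P.pp N.p := by
    intro β'
    show Psi (N.G.φc coefOne) β' (q * N.P.pp N.p) / N.P.pp N.p = _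
    rw [hqpp]
  rw [e, e] at h3 h4
  have hmul : ∀ e : ℝ, Psi (N.G.φc coefOne) βc ρ / N.P.pp N.p + e * (β - βc) ≤
      Psi (N.G.φc coefOne) β ρ / N.P.pp N.p →
      Psi (N.G.φc coefOne) βc ρ + N.P.pp N.p * e * (β - βc) ≤ Psi (N.G.φc coefOne) β ρ := by
    intro e h
    have h5 := mul_le_mul_of_nonneg_left h hpp.le
    have h6 : N.P.pp N.p * (Psi (N.G.φc coefOne) βc ρ / N.P.pp N.p + e * (β - βc)) =
        Psi (N.G.φc coefOne) βc ρ + N.P.pp N.p * e * (β - βc) := by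
      field_simp
    have h7 : N.P.pp N.p * (Psi (N.G.φc coefOne) β ρ / N.P.pp N.p) = Psi (N.G.φc coefOne) β ρ := by
      field_simp
    rw [h6, h7] at h5
    exact h5
  exact ⟨hmul _ h3, hmul _ h4⟩

end Num

namespace PreNum
variable (P : PreNum)

/-- Change of `U`. -/
noncomputable def setU (u : ℝ) (hu : 0 < u) : PreNum := { P with U := u, hU := hu }

theorem v_false_continuous : Continuous (P.v false) := by
  unfold v vFull
  simp only [Bool.false_eq_true, if_false, add_zero]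
  exact continuous_const.mul vShape_continuous

theorem v_false_bdd (r : ℝ) : |P.v false r| ≤ P.U := by
  unfold v vFull
  simp only [Bool.false_eq_true, if_false, add_zero]
  have h1 := P.hU
  have h2 := vShape_nonneg (ζ := P.ζ) (d₀ := P.d₀) (d₁ := P.d₁) (d₂ := P.d₂) (r₀ := P.r₀) r
  have h3 := vShape_le_one (ζ := P.ζ) (d₀ := P.d₀) (d₁ := P.d₁) (d₂ := P.d₂) (r₀ := P.r₀) r
  rw [abs_of_nonneg (by positivity)]
  nlinarith

theorem v_true_bdd {a b : ℝ} (ha : 0 < a) (_hab : a ≤ b) :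
    ∃ M : ℝ, ∀ r, a ≤ r → r ≤ b → |P.v true r| ≤ M := by
  refine ⟨P.U + 1 / a, fun r h1 _ => ?_⟩
  have hr : 0 < r := by linarith
  have h0 : 0 ≤ P.v true r := vFull_nonneg P.hU.le true r
  rw [abs_of_nonneg h0]
  unfold v vFull
  simp only [if_true]
  have h3 := vShape_le_one (ζ := P.ζ) (d₀ := P.d₀) (d₁ := P.d₁) (d₂ := P.d₂) (r₀ := P.r₀) r
  have h4 := vCore_le P.d₀_pos hr
  have h5 : 1 / r ≤ 1 / a := one_div_le_one_div_of_le ha h1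
  have h6 := P.hU
  nlinarith

theorem v_true_tendsto : Tendsto (P.v true) (𝓝[>] 0) atTop := by
  have h1 : Tendsto (fun r : ℝ => r⁻¹ + -(1 / P.d₀)) (𝓝[>] 0) atTop :=
    tendsto_atTop_add_const_right _ _ tendsto_inv_nhdsGT_zero
  refine tendsto_atTop_mono (fun r => ?_) h1
  unfold v vFull
  simp only [if_true]
  have h2 : 0 ≤ P.U * vShape P.ζ P.d₀ P.d₁ P.d₂ P.r₀ r :=
    mul_nonneg P.hU.le (vShape_nonneg r)
  have h3 : 1 / r - 1 / P.d₀ ≤ vCore P.d₀ r := le_max_left _ _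
  rw [one_div r] at h3
  linarith

end PreNum

/-- All the numbers exist. -/
theorem exists_Num (core : Bool) : ∃ N : Num, N.core = core := by
  obtain ⟨K, τ₁, τ₂, hK, hτ₁, hτ₁₂, hτ₂, hclique, z, hz⟩ := exists_template
  obtain ⟨p, hp1, hlim⟩ := packing_limit
  obtain ⟨Λ, h1, h2, h3, h4, h5, h6⟩ := exists_Lambda K hK
    (|Real.log (ballVol 1)| + ((K : ℝ) - 1) * (Real.log 2 + 3 * Real.log (6 / ((τ₂ - τ₁) / 2)))
      + Real.log (K.factorial) + 2 * ((K : ℝ) + 1) + 8 * (K : ℝ) ^ 2) p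
  let P₀ : PreNum := ⟨K, τ₁, τ₂, Λ, 1, z, hK, hτ₁, hτ₁₂, hτ₂, hclique, hz, h1, h2, h4, one_pos⟩
  have hb := ballVol_one_pos
  have hW0 := P₀.W_pos
  have hKpos := P₀.K_pos
  have hΛ0 := P₀.Λ_pos
  have hpp := P₀.pp_pos hp1
  have hℓ₀ : 0 < P₀.ℓ₀ := by
    have := P₀.d₀_pos
    unfold PreNum.ℓ₀
    positivity
  have hρmax : 0 < P₀.ρmax := by
    unfold PreNum.ρmax GasSetup.rhoMax
    positivity
  have hqmax : 0 < P₀.qmax p := by
    unfold PreNum.qmax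
    positivity
  have hPn : 0 < P₀.Pn p := by
    unfold PreNum.Pn
    positivity
  have hS1 := P₀.one_le_S
  have hC₂ : 0 ≤ P₀.C₂ := by
    unfold PreNum.C₂
    positivity
  have hM₀ : 0 ≤ P₀.M₀ := by
    unfold PreNum.M₀
    positivity
  have hA : 0 < P₀.A p := by
    unfold PreNum.A
    positivity
  have hAℓ : 0 ≤ 64 * P₀.A p / P₀.ℓ₀ ^ 3 := by positivity
  obtain ⟨u, hu⟩ : ∃ u : ℝ, u = 2 * ((K : ℝ) * Λ + P₀.Pn p + K + 1) + 4 * P₀.Pn p +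
    (4 * (1 + P₀.M₀) + 64 * P₀.A p / P₀.ℓ₀ ^ 3) + 4 * Λ + 4 * |Real.log (2 * ballVol 1)| + 1 :=
    ⟨_, rfl⟩
  have hKΛ : 0 ≤ (K : ℝ) * Λ := by
    have : (K : ℝ) = P₀.K := rfl
    rw [this]
    have : Λ = P₀.Λ := rfl
    rw [this]
    positivity
  have hKnn : (0 : ℝ) ≤ K := Nat.cast_nonneg _
  have hΛ1 : 0 < Λ := by linarith
  have habs := abs_nonneg (Real.log (2 * ballVol 1))
  have hupos : 0 < u := by
    rw [hu]
    linarith
  let P : PreNum := P₀.setU u hupos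
  have eU : P.U = u := rfl
  have eW : P.W = P₀.W := rfl
  have eS : P.S = P₀.S := rfl
  have eC₂ : P.C₂ = P₀.C₂ := rfl
  have eM₀ : P.M₀ = P₀.M₀ := rfl
  have eA : P.A p = P₀.A p := rfl
  have eℓ₀ : P.ℓ₀ = P₀.ℓ₀ := rfl
  have eqmax : P.qmax p = P₀.qmax p := rfl
  have eρmax : P.ρmax = P₀.ρmax := rfl
  have ePn : P.Pn p = P₀.Pn p := rfl
  have epp : P.pp p = P₀.pp p := rfl
  have er₀ : P.r₀ = r0Of Λ := rfl
  have eκ₀ : P.κ₀ = P₀.κ₀ := rfl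
  have eΛ : P.Λ = Λ := rfl
  have eK : (P.K : ℝ) = K := rfl
  have hUa : 2 * ((P.K : ℝ) * P.Λ + P.Pn p + P.K + 1) ≤ P.U := by
    rw [eK, eΛ, ePn, eU, hu]
    linarith
  have hUb : 4 * P.Pn p ≤ P.U := by
    rw [ePn, eU, hu]
    linarith
  have hUc : 4 * (1 + P.M₀) + 64 * P.A p / P.ℓ₀ ^ 3 ≤ P.U := by
    rw [eM₀, eA, eℓ₀, eU, hu]
    linarith
  have hUd : 8 * P.A p ≤ P.U * P.ℓ₀ ^ 3 := by
    have h7 : 64 * P.A p / P.ℓ₀ ^ 3 ≤ P.U := by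
      rw [eM₀] at hUc
      linarith
    rw [div_le_iff₀ (by rw [eℓ₀]; positivity)] at h7
    rw [eA] at h7 ⊢
    linarith
  have hUe : ballVol P.r₀ + Real.exp (-(1 / 4) * P.U) * ballVol 1 ≤ Real.exp (-P.Λ) := by
    rw [er₀, ballVol_r0Of, eU, eΛ]
    have h7 : Real.exp (-(1 / 4) * u) * (2 * ballVol 1) ≤ Real.exp (-Λ) := by
      have h8 : Real.exp (-(1 / 4) * u) * (2 * ballVol 1) =
          Real.exp (-(1 / 4) * u + Real.log (2 * ballVol 1)) := by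
        rw [Real.exp_add, Real.exp_log (by positivity)]
      rw [h8]
      apply Real.exp_le_exp.mpr
      have h9 := le_abs_self (Real.log (2 * ballVol 1))
      rw [hu]
      linarith
    linarith
  -- `ϑ`, `δ`
  obtain ⟨X, hX⟩ : ∃ X : ℝ, X = P.U / 2 * P.qmax p + 8 * P.C₂ + 2 * P.W := ⟨_, rfl⟩
  have hXpos : 0 < X := by
    rw [hX, eU, eqmax, eC₂, eW]
    positivity
  obtain ⟨ϑ, hϑ⟩ : ∃ ϑ : ℝ, ϑ = min (1 / (200 * P.W)) (1 / (512 * X)) := ⟨_, rfl⟩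
  have hWP : 0 < P.W := hW0
  have hϑ0 : 0 < ϑ := by
    rw [hϑ]
    positivity
  have hκ₀ : 0 < P.κ₀ := by
    rw [eκ₀]
    unfold PreNum.κ₀
    positivity
  obtain ⟨δ, hδ⟩ : ∃ δ : ℝ, δ = min (1 / 1024) (min (ϑ * P.W / 600) (P.κ₀ / 512)) := ⟨_, rfl⟩
  have hδ0 : 0 < δ := by
    rw [hδ]
    positivity
  have hδ1 : δ ≤ 1 / 1024 := hδ.le.trans (min_le_left _ _)
  have hδ2 : δ ≤ ϑ * P.W / 600 := hδ.le.trans ((min_le_right _ _).trans (min_le_left _ _))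
  have hδ3 : δ ≤ P.κ₀ / 512 := hδ.le.trans ((min_le_right _ _).trans (min_le_right _ _))
  have hϑW : 200 * ϑ * P.W ≤ 1 := by
    have h7 : ϑ ≤ 1 / (200 * P.W) := hϑ.le.trans (min_le_left _ _)
    rw [le_div_iff₀ (by positivity)] at h7
    linarith
  have hϑC : 4 * (P.U / 2 * P.qmax p + 8 * P.C₂ + 2 * P.W) * ϑ + 8 * δ ≤ 1 / 64 := by
    rw [← hX]
    have h7 : ϑ ≤ 1 / (512 * X) := hϑ.le.trans (min_le_right _ _)
    rw [le_div_iff₀ (by positivity)] at h7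
    linarith
  obtain ⟨Cs, hCs0, hCs⟩ := GasSetup.Psi_level_ub P.U (∫ y : Pt, P.v core ‖y‖) (P.A p) P.ℓ₀ P.M₀
    (by rw [eM₀]; exact hM₀) hUc
  have hppP : 0 < P.pp p := hpp
  have hρmaxP : 0 < P.ρmax := hρmax
  have hAP : 0 < P.A p := hA
  obtain ⟨C₈, hC₈⟩ : ∃ C₈ : ℝ, C₈ = (3 * Cs + P.ρmax * P.A p / ballVol 1) / (δ * P.pp p ^ 2) :=
    ⟨_, rfl⟩
  have hC₈0 : 0 ≤ C₈ := by
    rw [hC₈]
    positivity
  obtain ⟨Y, hYdef⟩ : ∃ Y : ℝ, Y = 2 + 2 * P.pp p + C₈ := ⟨_, rfl⟩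
  have hY : 2 ≤ Y := by
    rw [hYdef]
    linarith
  have hY0 : 0 < Y := by linarith
  have hY1' : 1 ≤ Y := by linarith
  have hY1 : 2 * P.pp p * eps Y 1 ≤ 1 := by
    unfold eps
    have h7 : Y ≤ Y ^ (2 * 4 ^ 1) := by
      calc Y = Y ^ 1 := (pow_one Y).symm
        _ ≤ Y ^ (2 * 4 ^ 1) := pow_le_pow_right₀ hY1' (by norm_num)
    have h8 : 2 * P.pp p ≤ Y ^ (2 * 4 ^ 1) := by
      have : 2 * P.pp p ≤ Y := by rw [hYdef]; linarith
      linarith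
    have h9 : 0 < Y ^ (2 * 4 ^ 1) := by positivity
    rw [mul_one_div, div_le_one h9]
    exact h8
  have hY2 : 3 * Cs + P.ρmax * P.A p / ballVol 1 ≤ δ * P.pp p ^ 2 * Y ^ 24 := by
    have h7 : Y ≤ Y ^ 24 := by
      calc Y = Y ^ 1 := (pow_one Y).symm
        _ ≤ Y ^ 24 := pow_le_pow_right₀ hY1' (by norm_num)
    have h8 : C₈ ≤ Y ^ 24 := by
      have : C₈ ≤ Y := by rw [hYdef]; linarith
      linarith
    rw [hC₈, div_le_iff₀ (by positivity)] at h8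
    linarith
  refine ⟨⟨P, core, p, hp1, hlim, ?_, h5, h6, hUa, hUb, hUc, hUd, hUe, ϑ, δ, hϑ0, hϑW, hϑC, hδ0,
    by linarith, by linarith, Cs, hCs0, hCs, Y, hY, hY1, hY2⟩, rfl⟩
  exact h3

/-- Main package for both statements; `core = true` adds a divergent core. -/
theorem gas_main (core : Bool) :
    ∃ (G : GasSetup) (p η βc : ℝ),
      (core = false → Continuous G.v ∧ ∃ M, ∀ r, |G.v r| ≤ M) ∧
      (core = true → (∀ a b : ℝ, 0 < a → a ≤ b → ∃ M : ℝ, ∀ r, a ≤ r → r ≤ b → |G.v r| ≤ M) ∧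
        Tendsto G.v (𝓝[>] 0) atTop) ∧
      (∃ C : ℝ, ∀ r, 1 ≤ r → |G.φc coefOne r| ≤ C * r ^ (-(3 + 1 / 32 : ℝ))) ∧
      (∃ a : ℝ, 0 < a ∧ ∀ r, 1 ≤ r → r ≤ 2 → G.φc coefOne r ≤ -a) ∧
      0 < p ∧ Tendsto (fun L : ℝ => (packingNumber L : ℝ) / L ^ 3) atTop (𝓝 p) ∧
      0 < η ∧ η ≤ 5 * p / 3 ∧ 7 / 8 ≤ βc ∧ βc ≤ 9 / 8 ∧
      ∀ ρ, 5 * p / 3 - η < ρ → ρ < 5 * p / 3 + η →
        ∃ e₁ e₂ : ℝ, e₁ < e₂ ∧ ∀ β, β ∈ Icc (1 / 2 : ℝ) 2 →
          Psi (G.φc coefOne) βc ρ + e₁ * (β - βc) ≤ Psi (G.φc coefOne) β ρ ∧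
          Psi (G.φc coefOne) βc ρ + e₂ * (β - βc) ≤ Psi (G.φc coefOne) β ρ := by
  obtain ⟨N, hN⟩ := exists_Num core
  obtain ⟨βc, h1, h2, hk⟩ := N.kink_density
  have hp0 : 0 < N.p := by linarith [N.hp]
  refine ⟨N.G, N.p, N.p / 10, βc, ?_, ?_, N.φ_decay, N.φ_attract, hp0, N.hlim, by positivity,
    by linarith, h1, h2, hk⟩
  · intro hc
    have hv : N.G.v = N.P.v false := by
      show N.P.v N.core = _
      rw [hN, hc]
    rw [hv]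
    exact ⟨N.P.v_false_continuous, N.P.U, N.P.v_false_bdd⟩
  · intro hc
    have hv : N.G.v = N.P.v true := by
      show N.P.v N.core = _
      rw [hN, hc]
    rw [hv]
    exact ⟨fun a b ha hab => N.P.v_true_bdd ha hab, N.P.v_true_tendsto⟩

end Crest.Agent.Lib.Gas
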