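import Crest.Agent.Lib.Gas.AssembleLevel

/-!
# Gas assembly: `H3`, `H4` per site.
-/

namespace Crest.Agent.Lib.Gas
open MeasureTheory Set Filter Topology
open Crest.ProbabilityR.Continuum

namespace Num
variable (N : Num)

/-- Per-site function for coefficients `c`. -/
noncomputable def Pfun (c : ℕ → ℝ) (β q : ℝ) : ℝ :=
  Psi (N.G.φc c) β (q * N.P.pp N.p) / N.P.pp N.p

/-- Diagonal error. -/
noncomputable def Dj (j : ℕ) : ℝ := ∑' i, N.G.a (j + i) / ballVol (N.G.R (j + i))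

/-- Total error. -/
noncomputable def err (j : ℕ) : ℝ :=
  (3 * N.Cs * sigY N.Y j + N.P.ρmax * N.Dj j) / N.P.pp N.p

theorem ballVol_pos' {R : ℝ} (hR : 0 < R) : 0 < ballVol R := by
  rw [ballVol_eq R hR.le]
  have := ballVol_one_pos
  positivity

theorem R_pos (l : ℕ) : 0 < N.G.R l := by
  have := N.G.hR l
  linarith

theorem summable_a : Summable N.G.a := N.G.hA.summable

theorem summable_a_div : Summable fun l => N.G.a l / ballVol (N.G.R l) := by
  have hb5 : 0 < ballVol 5 := ballVol_pos' (by norm_num)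
  refine Summable.of_nonneg_of_le (fun l => ?_) (fun l => ?_) (N.summable_a.div_const (ballVol 5))
  · exact div_nonneg (N.G.ha l).le (ballVol_pos' (N.R_pos l)).le
  · apply div_le_div_of_nonneg_left (N.G.ha l).le hb5
    exact ballVol_mono (by norm_num) (N.G.hR l)

theorem Dj_nonneg (j : ℕ) : 0 ≤ N.Dj j := by
  apply tsum_nonneg
  intro i
  exact div_nonneg (N.G.ha _).le (ballVol_pos' (N.R_pos _)).le

theorem ρmax_pos : 0 < N.P.ρmax := by
  have := N.ℓ₀_pos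
  unfold PreNum.ρmax GasSetup.rhoMax
  positivity

theorem err_nonneg (j : ℕ) : 0 ≤ N.err j := by
  have h1 := sigY_nonneg N.hY j
  have h2 := N.hCs0
  have h3 := N.Dj_nonneg j
  have h4 := N.ρmax_pos
  have h5 := N.pp_pos
  unfold err
  positivity

/-- Coefficients supported on `l ≥ j`. -/
theorem tsum_div_le {c' : ℕ → ℝ} {j : ℕ} (hc' : ∀ l, 0 ≤ c' l ∧ c' l ≤ 1)
    (hcj : ∀ l, l < j → c' l = 0) :
    ∑' l, c' l * N.G.a l / ballVol (N.G.R l) ≤ N.Dj j := by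
  have h1 : N.Dj j = ∑' l, tl j l * (N.G.a l / ballVol (N.G.R l)) := by
    rw [tsum_tl j N.summable_a_div]; rfl
  rw [h1]
  have hnn : ∀ l, 0 ≤ N.G.a l / ballVol (N.G.R l) := fun l =>
    div_nonneg (N.G.ha _).le (ballVol_pos' (N.R_pos _)).le
  have hs1 : Summable fun l => c' l * N.G.a l / ballVol (N.G.R l) := by
    refine Summable.of_nonneg_of_le (fun l => ?_) (fun l => ?_) N.summable_a_div
    · rw [mul_div_assoc]; exact mul_nonneg (hc' l).1 (hnn l)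
    · rw [mul_div_assoc]
      have := mul_le_mul_of_nonneg_right (hc' l).2 (hnn l)
      linarith
  have hs2 : Summable fun l => tl j l * (N.G.a l / ballVol (N.G.R l)) := by
    refine Summable.of_nonneg_of_le (fun l => ?_) (fun l => ?_) N.summable_a_div
    · unfold tl; split_ifs <;> simp [hnn l]
    · unfold tl; split_ifs <;> simp [hnn l]
  apply hs1.tsum_le_tsum (fun l => ?_) hs2
  rw [mul_div_assoc]
  by_cases h : l < j
  · rw [hcj l h]
    have : ¬ j ≤ l := by omega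
    simp [tl, this]
  · have : j ≤ l := by omega
    simp only [tl, this, if_true, one_mul]
    have := mul_le_mul_of_nonneg_right (hc' l).2 (hnn l)
    linarith

theorem tsum_div_nonneg {c' : ℕ → ℝ} (hc' : ∀ l, 0 ≤ c' l ∧ c' l ≤ 1) :
    0 ≤ ∑' l, c' l * N.G.a l / ballVol (N.G.R l) := by
  apply tsum_nonneg
  intro l
  exact div_nonneg (mul_nonneg (hc' l).1 (N.G.ha l).le) (ballVol_pos' (N.R_pos _)).le

theorem coef_add_ok {c' : ℕ → ℝ} {j : ℕ} (hc' : ∀ l, 0 ≤ c' l ∧ c' l ≤ 1)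
    (hcj : ∀ l, l < j → c' l = 0) : CoefOK (lvl j + c') := by
  intro l
  simp only [Pi.add_apply, lvl]
  by_cases h : l < j
  · rw [hcj l h]; simp [h]
  · have := hc' l
    simp only [h, if_false, zero_add]
    exact ⟨this.1, by linarith [this.2]⟩

/-- **`H3` in general form.** -/
theorem H3gen {c' : ℕ → ℝ} {j : ℕ} (hc' : ∀ l, 0 ≤ c' l ∧ c' l ≤ 1)
    (hcj : ∀ l, l < j → c' l = 0) {β q : ℝ} (hβ : β ∈ Icc (1 / 2 : ℝ) 2)
    (hq : q ∈ Icc 0 (N.P.qmax N.p)) :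
    N.Pfun (lvl j) β q + (β * (N.P.pp N.p * ∑' l, c' l * N.G.a l) / 2) * q ^ 2 - N.err j ≤
      N.Pfun (lvl j + c') β q := by
  have hpp := N.pp_pos
  have hβ0 : 0 ≤ β := by linarith [hβ.1]
  have hρ0 : 0 ≤ q * N.P.pp N.p := mul_nonneg hq.1 hpp.le
  have hρle : q * N.P.pp N.p ≤ N.P.ρmax := by
    have := hq.2
    unfold PreNum.qmax at this
    rwa [le_div_iff₀ hpp] at this
  have hcok : CoefOK c' := fun l => ⟨(hc' l).1, by linarith [(hc' l).2]⟩
  have h := GasSetup.Psi_level_lb (G := N.G) (c := lvl j) (c' := c') (lvl_ok j) hcok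
    (coef_add_ok hc' hcj) hβ0 hρ0
  unfold Pfun
  have hD := N.tsum_div_le hc' hcj
  have hD0 := N.tsum_div_nonneg hc'
  have hdiag : (β * (q * N.P.pp N.p) / 2) * (∑' l, c' l * N.G.a l / ballVol (N.G.R l)) ≤
      N.P.ρmax * N.Dj j := by
    have h1 : β * (q * N.P.pp N.p) / 2 ≤ N.P.ρmax := by
      have : β * (q * N.P.pp N.p) ≤ 2 * N.P.ρmax := by
        apply mul_le_mul hβ.2 hρle hρ0 (by norm_num)
      linarith
    exact mul_le_mul h1 hD hD0 N.ρmax_pos.le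
  have herr : N.err j ≥ N.P.ρmax * N.Dj j / N.P.pp N.p := by
    unfold err
    apply div_le_div_of_nonneg_right _ hpp.le
    have := mul_nonneg (mul_nonneg (by norm_num : (0:ℝ) ≤ 3) N.hCs0) (sigY_nonneg N.hY j)
    linarith
  have hkey : (Psi (N.G.φc (lvl j)) β (q * N.P.pp N.p) + (β / 2) * (∑' l, c' l * N.G.a l) *
      (q * N.P.pp N.p) ^ 2 - N.P.ρmax * N.Dj j) / N.P.pp N.p ≤
      Psi (N.G.φc (lvl j + c')) β (q * N.P.pp N.p) / N.P.pp N.p := by
    apply div_le_div_of_nonneg_right _ hpp.le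
    linarith
  have heq : (Psi (N.G.φc (lvl j)) β (q * N.P.pp N.p) + (β / 2) * (∑' l, c' l * N.G.a l) *
      (q * N.P.pp N.p) ^ 2 - N.P.ρmax * N.Dj j) / N.P.pp N.p =
      Psi (N.G.φc (lvl j)) β (q * N.P.pp N.p) / N.P.pp N.p +
        (β * (N.P.pp N.p * ∑' l, c' l * N.G.a l) / 2) * q ^ 2 - N.P.ρmax * N.Dj j / N.P.pp N.p := by
    field_simp
  rw [heq] at hkey
  linarith

/-- **`H4` in general form.** -/
theorem H4gen {c' : ℕ → ℝ} {j : ℕ} (hc' : ∀ l, 0 ≤ c' l ∧ c' l ≤ 1)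
    (hcj : ∀ l, l < j → c' l = 0) {β μ q : ℝ} (hβ : β ∈ Icc (1 / 2 : ℝ) 2) (hμ : |μ| ≤ N.P.M₀)
    (hq : q ∈ Icc 0 (N.P.qmax N.p)) :
    ∃ q', q' ∈ Icc 0 (N.P.qmax N.p) ∧
      N.Pfun (lvl j + c') β q + μ * q ≤
        N.Pfun (lvl j) β q' + (β * (N.P.pp N.p * ∑' l, c' l * N.G.a l) / 2) * q' ^ 2 + μ * q' +
          N.err j := by
  have hpp := N.pp_pos
  have hY := N.hY
  have hρ0 : 0 ≤ q * N.P.pp N.p := mul_nonneg hq.1 hpp.le
  have hρle : q * N.P.pp N.p ≤ N.P.ρmax := by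
    have := hq.2
    unfold PreNum.qmax at this
    rwa [le_div_iff₀ hpp] at this
  have hRpj : ∀ l, c' l ≠ 0 → scaleR N.Y j ≤ N.G.R l := by
    intro l hl
    have : j ≤ l := by
      by_contra hlt
      exact hl (hcj l (by omega))
    exact scaleR_mono hY this
  obtain ⟨ρ', hρ', hle⟩ := N.hCs N.G rfl rfl rfl rfl j c' (rmY N.Y j) (scaleR N.Y j) (ellY N.Y j)
    hc' hcj (one_le_rmY hY j) (fun l hl => scaleR_le_rmY hY hl) (scaleR_pos hY j) hRpj
    (rmY_le hY j) (ellY_le hY j) β μ (q * N.P.pp N.p) hβ hμ ⟨hρ0, hρle⟩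
  refine ⟨ρ' / N.P.pp N.p, ⟨div_nonneg hρ'.1 hpp.le, ?_⟩, ?_⟩
  · unfold PreNum.qmax
    exact div_le_div_of_nonneg_right hρ'.2 hpp.le
  · unfold Pfun
    have hq'ρ : ρ' / N.P.pp N.p * N.P.pp N.p = ρ' := by field_simp
    rw [hq'ρ]
    have hsum : rmY N.Y j / ellY N.Y j + ellY N.Y j / scaleR N.Y j + 1 / ellY N.Y j ≤
        3 * sigY N.Y j := by
      rw [rmY_div hY, ellY_div hY]
      linarith [one_div_ellY_le hY j]
    have hCsum : N.Cs * (rmY N.Y j / ellY N.Y j + ellY N.Y j / scaleR N.Y j + 1 / ellY N.Y j) ≤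
        3 * N.Cs * sigY N.Y j := by
      have := mul_le_mul_of_nonneg_left hsum N.hCs0
      linarith
    have herr : (3 * N.Cs * sigY N.Y j) / N.P.pp N.p ≤ N.err j := by
      unfold err
      apply div_le_div_of_nonneg_right _ hpp.le
      have := mul_nonneg N.ρmax_pos.le (N.Dj_nonneg j)
      linarith
    have hdiv : (Psi (N.G.φc (lvl j + c')) β (q * N.P.pp N.p) + μ * (q * N.P.pp N.p)) / N.P.pp N.p ≤
        (Psi (N.G.φc (lvl j)) β ρ' + (β / 2) * (∑' l, c' l * N.G.a l) * ρ' ^ 2 + μ * ρ' +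
          3 * N.Cs * sigY N.Y j) / N.P.pp N.p := by
      apply div_le_div_of_nonneg_right _ hpp.le
      linarith
    have e1 : (Psi (N.G.φc (lvl j + c')) β (q * N.P.pp N.p) + μ * (q * N.P.pp N.p)) / N.P.pp N.p =
        Psi (N.G.φc (lvl j + c')) β (q * N.P.pp N.p) / N.P.pp N.p + μ * q := by
      field_simp
    have e2 : (Psi (N.G.φc (lvl j)) β ρ' + (β / 2) * (∑' l, c' l * N.G.a l) * ρ' ^ 2 + μ * ρ' +
          3 * N.Cs * sigY N.Y j) / N.P.pp N.p =
        Psi (N.G.φc (lvl j)) β ρ' / N.P.pp N.p +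
          (β * (N.P.pp N.p * ∑' l, c' l * N.G.a l) / 2) * (ρ' / N.P.pp N.p) ^ 2 +
          μ * (ρ' / N.P.pp N.p) + (3 * N.Cs * sigY N.Y j) / N.P.pp N.p := by
      field_simp
    rw [e1, e2] at hdiv
    linarith

end Num
end Crest.Agent.Lib.Gas
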