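import Crest.Agent.Lib.Gas.AssembleNum3

/-!
# Gas assembly: level comparison per site.
-/

namespace Crest.Agent.Lib.Gas
open MeasureTheory Set Filter Topology
open Crest.ProbabilityR.Continuum

/-- Single scale. -/
noncomputable def sg (j l : ℕ) : ℝ := if l = j then 1 else 0

/-- Tail of scales. -/
noncomputable def tl (j l : ℕ) : ℝ := if j ≤ l then 1 else 0

theorem lvl_add_sg (j : ℕ) : lvl j + sg j = lvl (j + 1) := by
  ext l
  simp only [Pi.add_apply, lvl, sg]
  by_cases h1 : l < j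
  · have h2 : l ≠ j := by omega
    have h3 : l < j + 1 := by omega
    simp [h1, h2, h3]
  · by_cases h2 : l = j
    · subst h2; simp
    · have h3 : ¬ l < j + 1 := by omega
      simp [h1, h2, h3]

theorem lvl_add_tl (j : ℕ) : lvl j + tl j = coefOne := by
  ext l
  simp only [Pi.add_apply, lvl, tl, coefOne]
  by_cases h1 : l < j
  · have h2 : ¬ j ≤ l := by omega
    simp [h1, h2]
  · have h2 : j ≤ l := by omega
    simp [h1, h2]

theorem lvl_zero_add (j : ℕ) : lvl 0 + lvl j = lvl j := by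
  ext l
  simp [lvl]

theorem lvl_zero_add_tl : lvl 0 + tl 0 = coefOne := lvl_add_tl 0

theorem tsum_sg (j : ℕ) (a : ℕ → ℝ) : ∑' l, sg j l * a l = a j := by
  rw [tsum_eq_single j]
  · simp [sg]
  · intro l hl
    simp [sg, hl]

theorem tsum_tl (j : ℕ) {a : ℕ → ℝ} (ha : Summable a) :
    ∑' l, tl j l * a l = ∑' i, a (j + i) := by
  have hs : Summable fun l => tl j l * a l := by
    apply Summable.of_norm_bounded ha.norm
    intro l
    unfold tl
    split_ifs <;> simp
  rw [← hs.sum_add_tsum_nat_add j]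
  have h1 : ∑ i ∈ Finset.range j, tl j i * a i = 0 := by
    apply Finset.sum_eq_zero
    intro i hi
    have : ¬ j ≤ i := by
      have := Finset.mem_range.mp hi
      omega
    simp [tl, this]
  rw [h1, zero_add]
  apply tsum_congr
  intro i
  have : j ≤ i + j := by omega
  simp [tl, this, add_comm]

/-- The intermediate scales. -/
noncomputable def rmY (Y : ℝ) : ℕ → ℝ
  | 0 => 1
  | j + 1 => scaleR Y j

noncomputable def ellY (Y : ℝ) : ℕ → ℝ
  | 0 => Y ^ 32
  | j + 1 => Y ^ (160 * 4 ^ j)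

noncomputable def sigY (Y : ℝ) : ℕ → ℝ
  | 0 => 1 / Y ^ 32
  | j + 1 => 1 / Y ^ (96 * 4 ^ j)

section
variable {Y : ℝ}

theorem sigY_nonneg (hY : 2 ≤ Y) (j : ℕ) : 0 ≤ sigY Y j := by
  cases j <;> (simp only [sigY]; positivity)

theorem ellY_pos (hY : 2 ≤ Y) (j : ℕ) : 0 < ellY Y j := by
  cases j <;> (simp only [ellY]; positivity)

theorem rmY_div (hY : 2 ≤ Y) (j : ℕ) : rmY Y j / ellY Y j = sigY Y j := by
  have hY0 : 0 < Y := by linarith
  cases j with
  | zero => simp [rmY, ellY, sigY]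
  | succ j =>
    simp only [rmY, ellY, sigY, scaleR]
    have : 160 * 4 ^ j = 64 * 4 ^ j + 96 * 4 ^ j := by ring
    rw [this, pow_add]
    field_simp

theorem ellY_div (hY : 2 ≤ Y) (j : ℕ) : ellY Y j / scaleR Y j = sigY Y j := by
  have hY0 : 0 < Y := by linarith
  cases j with
  | zero =>
    simp only [ellY, sigY, scaleR]
    have : 64 * 4 ^ 0 = 32 + 32 := by norm_num
    rw [this, pow_add]
    field_simp
  | succ j =>
    simp only [ellY, sigY, scaleR]
    have : 64 * 4 ^ (j + 1) = 160 * 4 ^ j + 96 * 4 ^ j := by ring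
    rw [this, pow_add]
    field_simp

theorem one_div_ellY_le (hY : 2 ≤ Y) (j : ℕ) : 1 / ellY Y j ≤ sigY Y j := by
  cases j with
  | zero => simp [ellY, sigY]
  | succ j =>
    simp only [ellY, sigY]
    apply one_div_le_one_div_of_le (by positivity)
    apply pow_le_pow_right₀ (by linarith)
    omega

theorem pow_ge_large (hY : 2 ≤ Y) {n : ℕ} (hn : 5 ≤ n) : (24 : ℝ) ≤ Y ^ n := by
  have h1 : (2 : ℝ) ^ 5 ≤ Y ^ 5 := by gcongr
  have h2 : Y ^ 5 ≤ Y ^ n := pow_le_pow_right₀ (by linarith) hn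
  norm_num at h1
  linarith

theorem rmY_le (hY : 2 ≤ Y) (j : ℕ) : 24 * rmY Y j ≤ ellY Y j := by
  have hY0 : 0 < Y := by linarith
  cases j with
  | zero =>
    simp only [rmY, ellY]
    have := pow_ge_large hY (n := 32) (by norm_num)
    linarith
  | succ j =>
    simp only [rmY, ellY, scaleR]
    have : 160 * 4 ^ j = 96 * 4 ^ j + 64 * 4 ^ j := by ring
    rw [this, pow_add]
    have h1 := pow_ge_large hY (n := 96 * 4 ^ j) (by
      have : 0 < 4 ^ j := by positivity
      omega)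
    have h2 : 0 < Y ^ (64 * 4 ^ j) := by positivity
    nlinarith

theorem ellY_le (hY : 2 ≤ Y) (j : ℕ) : 15 * ellY Y j ≤ scaleR Y j := by
  have hY0 : 0 < Y := by linarith
  cases j with
  | zero =>
    simp only [ellY, scaleR]
    have : 64 * 4 ^ 0 = 32 + 32 := by norm_num
    rw [this, pow_add]
    have h1 := pow_ge_large hY (n := 32) (by norm_num)
    have h2 : 0 < Y ^ 32 := by positivity
    nlinarith
  | succ j =>
    simp only [ellY, scaleR]
    have : 64 * 4 ^ (j + 1) = 96 * 4 ^ j + 160 * 4 ^ j := by ring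
    rw [this, pow_add]
    have h1 := pow_ge_large hY (n := 96 * 4 ^ j) (by
      have : 0 < 4 ^ j := by positivity
      omega)
    have h2 : 0 < Y ^ (160 * 4 ^ j) := by positivity
    nlinarith

theorem one_le_rmY (hY : 2 ≤ Y) (j : ℕ) : 1 ≤ rmY Y j := by
  cases j with
  | zero => simp [rmY]
  | succ j =>
    simp only [rmY]
    linarith [scaleR_ge_five hY j]

theorem scaleR_le_rmY (hY : 2 ≤ Y) {l j : ℕ} (h : l < j) : scaleR Y l ≤ rmY Y j := by
  cases j with
  | zero => omega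
  | succ j =>
    simp only [rmY]
    exact scaleR_mono hY (by omega)

/-- `sig j` against `eps (j+1)`. -/
theorem sigY_le (hY : 2 ≤ Y) (j : ℕ) : sigY Y j ≤ eps Y (j + 1) * (1 / Y ^ 24) * (1 / 2) ^ j := by
  have hY0 : 0 < Y := by linarith
  cases j with
  | zero =>
    simp only [sigY, eps]
    have h : (2 * 4 ^ (0 + 1) : ℕ) = 8 := by norm_num
    rw [h]
    have h2 : (32 : ℕ) = 8 + 24 := by norm_num
    rw [h2, pow_add]
    simp only [pow_zero, mul_one]
    apply le_of_eq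
    field_simp
  | succ j =>
    simp only [sigY, eps]
    have h : (2 * 4 ^ (j + 1 + 1) : ℕ) = 32 * 4 ^ j := by ring
    rw [h]
    have h2 : (1 / Y ^ (32 * 4 ^ j) * (1 / Y ^ 24) * (1 / 2) ^ (j + 1) : ℝ) =
        1 / (Y ^ (32 * 4 ^ j) * Y ^ 24 * 2 ^ (j + 1)) := by
      simp only [one_div, mul_inv, inv_pow]
    rw [h2]
    apply one_div_le_one_div_of_le (by positivity)
    have h3 : (2 : ℝ) ^ (j + 1) ≤ Y ^ (j + 1) := by gcongr
    have h4 : (j : ℕ) < 4 ^ j := Nat.lt_pow_self (by norm_num)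
    calc Y ^ (32 * 4 ^ j) * Y ^ 24 * 2 ^ (j + 1) ≤ Y ^ (32 * 4 ^ j) * Y ^ 24 * Y ^ (j + 1) := by
          gcongr
      _ = Y ^ (32 * 4 ^ j + 24 + (j + 1)) := by rw [pow_add (Y) (32 * 4 ^ j + 24), pow_add Y (32 * 4 ^ j)]
      _ ≤ Y ^ (96 * 4 ^ j) := by
          apply pow_le_pow_right₀ (by linarith)
          have : 0 < 4 ^ j := by positivity
          omega

/-- `1/R_j³` against `eps (j+1)`. -/
theorem scale_inv_le (hY : 2 ≤ Y) (j : ℕ) :
    1 / (scaleR Y j) ^ 3 ≤ eps Y (j + 1) * (1 / Y ^ 24) * (1 / 2) ^ j := by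
  have hY0 : 0 < Y := by linarith
  simp only [eps, scaleR]
  have h : (2 * 4 ^ (j + 1) : ℕ) = 8 * 4 ^ j := by ring
  rw [h]
  have h2 : (1 / Y ^ (8 * 4 ^ j) * (1 / Y ^ 24) * (1 / 2) ^ j : ℝ) =
      1 / (Y ^ (8 * 4 ^ j) * Y ^ 24 * 2 ^ j) := by
    simp only [one_div, mul_inv, inv_pow]
  rw [h2]
  apply one_div_le_one_div_of_le (by positivity)
  have h3 : (2 : ℝ) ^ j ≤ Y ^ j := by gcongr
  have h4 : (j : ℕ) < 4 ^ j := Nat.lt_pow_self (by norm_num)
  calc Y ^ (8 * 4 ^ j) * Y ^ 24 * 2 ^ j ≤ Y ^ (8 * 4 ^ j) * Y ^ 24 * Y ^ j := by gcongr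
    _ = Y ^ (8 * 4 ^ j + 24 + j) := by rw [pow_add Y (8 * 4 ^ j + 24), pow_add Y (8 * 4 ^ j)]
    _ ≤ (Y ^ (64 * 4 ^ j)) ^ 3 := by
        rw [← pow_mul]
        apply pow_le_pow_right₀ (by linarith)
        have : 0 < 4 ^ j := by positivity
        omega

end

end Crest.Agent.Lib.Gas
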