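import Crest.Agent.Lib.Gas.AssembleBuild
import Crest.Agent.Lib.Gas.Level

/-!
# Gas assembly: all the numbers.
-/

namespace Crest.Agent.Lib.Gas
open MeasureTheory Set Filter Topology
open Crest.ProbabilityR.Continuum

namespace PreNum
variable (P : PreNum)

noncomputable def c₂ : ℝ := Real.log 2 + 3 * Real.log (6 / P.m)

noncomputable def S₀ : ℝ :=
  |Real.log (ballVol 1)| + ((P.K : ℝ) - 1) * P.c₂ + Real.log (P.K.factorial)
    + 2 * ((P.K : ℝ) + 1) + 8 * (P.K : ℝ) ^ 2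

noncomputable def S : ℝ := 3 * Real.log P.W + P.S₀

noncomputable def pp (p : ℝ) : ℝ := p / (1 - P.ζ) ^ 3

noncomputable def θ (p : ℝ) : ℝ := (p / P.s ^ 3) / P.pp p

noncomputable def κ₀ : ℝ := 100 * P.S / P.W

noncomputable def A (p : ℝ) : ℝ := P.W / P.pp p

noncomputable def ℓ₀ : ℝ := P.d₀ / 2

noncomputable def ρmax : ℝ := GasSetup.rhoMax P.ℓ₀

noncomputable def qmax (p : ℝ) : ℝ := P.ρmax / P.pp p

noncomputable def Pn (p : ℝ) : ℝ := 4 * P.W * P.qmax p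

noncomputable def C₂ : ℝ := P.S + 1 + 3 * P.Λ * P.K

noncomputable def M₀ : ℝ := 16 * P.C₂ + 8 * P.W + P.Λ

theorem pp_eq_pplus (core : Bool) (p : ℝ) : P.pp p = (P.base core).pplus p := rfl

theorem one_sub_ζ_ge : (1 / 2 : ℝ) ≤ 1 - P.ζ := by
  unfold ζ; linarith [P.r₁_small]

theorem one_sub_ζ_pos : 0 < 1 - P.ζ := by linarith [P.one_sub_ζ_ge]

theorem s_pos : 0 < P.s := by
  unfold s; linarith [P.r₁_pos, P.r₀_pos]

theorem one_le_s : 1 ≤ P.s := by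
  unfold s; linarith [P.r₁_pos, P.r₀_pos]

theorem pp_pos {p : ℝ} (hp : 1 ≤ p) : 0 < P.pp p := by
  have := P.one_sub_ζ_pos
  unfold pp
  have : 0 < p := by linarith
  positivity

theorem one_le_pp {p : ℝ} (hp : 1 ≤ p) : 1 ≤ P.pp p :=
  (P.base false).one_le_pplus hp

theorem pp_le {p : ℝ} (hp : 1 ≤ p) : P.pp p ≤ 8 * p := by
  have h1 := P.one_sub_ζ_ge
  unfold pp
  rw [div_le_iff₀ (by have := P.one_sub_ζ_pos; positivity)]
  have h2 : (1 / 8 : ℝ) ≤ (1 - P.ζ) ^ 3 := by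
    calc (1 / 8 : ℝ) = (1 / 2) ^ 3 := by norm_num
      _ ≤ (1 - P.ζ) ^ 3 := by gcongr
  nlinarith

theorem ge_pp {p : ℝ} (hp : 1 ≤ p) : p ≤ P.pp p := by
  have h0 := P.one_sub_ζ_pos
  have h1 : 1 - P.ζ ≤ 1 := by linarith [P.ζ_pos]
  have h3 : (1 - P.ζ) ^ 3 ≤ 1 := pow_le_one₀ h0.le h1
  unfold pp
  rw [le_div_iff₀ (by positivity)]
  nlinarith

/-- `θ = ((1-ζ)/s)³`. -/
theorem θ_eq {p : ℝ} (hp : 1 ≤ p) : P.θ p = ((1 - P.ζ) / P.s) ^ 3 := by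
  have h0 := P.one_sub_ζ_pos
  have h1 := P.s_pos
  have hp0 : p ≠ 0 := by linarith
  unfold θ pp
  rw [div_pow]
  field_simp

theorem θ_pos {p : ℝ} (hp : 1 ≤ p) : 0 < P.θ p := by
  rw [P.θ_eq hp]
  have h0 := P.one_sub_ζ_pos
  have h1 := P.s_pos
  positivity

theorem θ_le {p : ℝ} (hp : 1 ≤ p) : P.θ p ≤ 1 := by
  rw [P.θ_eq hp]
  have h0 := P.one_sub_ζ_pos
  have h1 := P.s_pos
  have h2 : (1 - P.ζ) / P.s ≤ 1 := by
    rw [div_le_one h1]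
    linarith [P.ζ_pos, P.one_le_s]
  exact pow_le_one₀ (by positivity) h2

/-- `1 - θ ≤ 9 r₁ + 6 r₀`. -/
theorem one_sub_θ_le {p : ℝ} (hp : 1 ≤ p) : 1 - P.θ p ≤ 9 * P.r₁ + 6 * P.r₀ := by
  rw [P.θ_eq hp]
  have h0 := P.one_sub_ζ_pos
  have h1 := P.s_pos
  have hr₁ := P.r₁_pos
  have hr₀ := P.r₀_pos
  -- `x = (1-ζ)/s ≥ 1 - 3 r₁ - 2 r₀`
  have hx : 1 - (3 * P.r₁ + 2 * P.r₀) ≤ (1 - P.ζ) / P.s := by
    rw [le_div_iff₀ h1]
    have : P.ζ = P.r₁ := rfl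
    rw [this]
    unfold s
    nlinarith [mul_pos hr₁ hr₀, mul_pos hr₁ hr₁, mul_pos hr₀ hr₀]
  have hsmall := P.small
  have hb : 1 + 3 * (-(3 * P.r₁ + 2 * P.r₀)) ≤ (1 + (-(3 * P.r₁ + 2 * P.r₀))) ^ 3 := by
    exact one_add_mul_le_pow (by linarith) 3
  have hmono : (1 + (-(3 * P.r₁ + 2 * P.r₀))) ^ 3 ≤ ((1 - P.ζ) / P.s) ^ 3 := by
    apply pow_le_pow_left₀ (by linarith)
    linarith
  norm_num at hb
  linarith

theorem W_mul_K : P.W * P.K = 2 * P.Λ := by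
  have := P.K_pos
  unfold W
  field_simp

theorem Λ_pos : 0 < P.Λ := by linarith [P.hΛ]

theorem m_div : 1 ≤ 6 / P.m := by
  have := P.m_pos
  rw [le_div_iff₀ this]
  linarith [P.m_le]

theorem c₂_nonneg : 0 ≤ P.c₂ := by
  unfold c₂
  have h1 : 0 ≤ Real.log 2 := Real.log_nonneg (by norm_num)
  have h2 : 0 ≤ Real.log (6 / P.m) := Real.log_nonneg P.m_div
  linarith

theorem log_W_nonneg : 0 ≤ Real.log P.W := Real.log_nonneg P.W_ge

theorem K_sub_one_nonneg : 0 ≤ (P.K : ℝ) - 1 := by linarith [P.two_le_K]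

theorem S₀_nonneg : 0 ≤ P.S₀ := by
  unfold S₀
  have h1 := P.K_sub_one_nonneg
  have h2 := P.c₂_nonneg
  have h3 : 0 ≤ Real.log (P.K.factorial) :=
    Real.log_natCast_nonneg _
  have h4 := P.K_pos
  positivity

theorem one_le_S : 1 ≤ P.S := by
  unfold S S₀
  have h1 := P.K_sub_one_nonneg
  have h2 := P.c₂_nonneg
  have h3 : 0 ≤ Real.log (P.K.factorial) := Real.log_natCast_nonneg _
  have h4 := P.two_le_K
  have h5 := P.log_W_nonneg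
  have h6 : 0 ≤ ((P.K : ℝ) - 1) * P.c₂ := mul_nonneg h1 h2
  have h7 := abs_nonneg (Real.log (ballVol 1))
  nlinarith

end PreNum
end Crest.Agent.Lib.Gas
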