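import Mathlib

/-!
# Abstract triple-point theorem: data and definitions (pure real analysis, no physics)

`P j β q` : free energy per site at level `j` (potential with the first `j` Kac scales),
`Pinf β q`: the limit potential.  `aa j` : mean-field strength of scale `j`, `W = ∑ aa j`.
Hypotheses `H3*` `H4*` : comparison between levels.
Conclusion: at one `βc ∈ [7/8, 9/8]`, for every density `q` in the open gap between the `A` and `B`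
windows, `Pinf · q` has two distinct subgradients at `βc`.

Paper proof: msgs table topic 'S0209-G' and the docstrings below.
-/

namespace Crest.Agent.Lib.Gas
open Set Filter Topology

/-- Hypotheses of the abstract theorem. -/
structure TripleData where
  K : ℕ
  Λ : ℝ
  S : ℝ
  θ : ℝ
  W : ℝ
  κ₀ : ℝ
  ϑ : ℝ
  δ : ℝ
  qmax : ℝ
  C₁ : ℝ
  C₂ : ℝ
  M₀ : ℝ
  Pn : ℝ
  aa : ℕ → ℝ
  err : ℕ → ℝ
  P : ℕ → ℝ → ℝ → ℝ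
  Pinf : ℝ → ℝ → ℝ
  -- numerics
  hK : 2 ≤ K
  hWK : W * K = 2 * Λ
  hS : 1 ≤ S
  hW : 1000000 * S ≤ W
  hθ0 : 99 / 100 ≤ θ
  hθ1 : θ ≤ 1
  hθΛ : K * Λ * (1 - θ) ≤ S
  hκ₀ : κ₀ = 100 * S / W
  hq : (K : ℝ) + 1 ≤ qmax
  hPn : 4 * W * qmax ≤ Pn
  hM₀ : 16 * C₂ + 8 * W + Λ ≤ M₀
  hC₁ : 0 ≤ C₁
  hC₂ : 0 ≤ C₂
  hϑ0 : 0 < ϑ
  hϑW : 200 * ϑ * W ≤ 1
  hϑC : 4 * (C₁ + 8 * C₂ + 2 * W) * ϑ + 8 * δ ≤ 1 / 64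
  hδ0 : 0 < δ
  hδϑ : 600 * δ ≤ ϑ * W
  hδκ : 512 * δ ≤ κ₀
  -- scales
  haa_pos : ∀ j, 0 < aa j
  haa_anti : Antitone aa
  haa_sum : HasSum aa W
  haa0 : W - 1 ≤ aa 0
  herr_nn : ∀ j, 0 ≤ err j
  herr0 : err 0 ≤ 1
  herr : ∀ j, err j ≤ δ * (1 / 2) ^ j * aa (j + 1)
  -- regularity
  hconc : ∀ j β, β ∈ Icc (1 / 2 : ℝ) 2 → ConcaveOn ℝ (Icc 0 qmax) (P j β)
  hcont : ∀ j β, β ∈ Icc (1 / 2 : ℝ) 2 → ContinuousOn (P j β) (Icc 0 qmax)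
  hconcI : ∀ β, β ∈ Icc (1 / 2 : ℝ) 2 → ConcaveOn ℝ (Icc 0 qmax) (Pinf β)
  hcontI : ∀ β, β ∈ Icc (1 / 2 : ℝ) 2 → ContinuousOn (Pinf β) (Icc 0 qmax)
  hconv : ∀ j q, q ∈ Icc 0 qmax → ConvexOn ℝ (Icc (1 / 2 : ℝ) 2) (fun β => P j β q)
  hconvI : ∀ q, q ∈ Icc 0 qmax → ConvexOn ℝ (Icc (1 / 2 : ℝ) 2) (fun β => Pinf β q)
  -- crude bounds, level 0
  hzero : ∀ β, β ∈ Icc (1 / 2 : ℝ) 2 → P 0 β 0 = 0
  hLB1 : ∀ β, β ∈ Icc (1 / 2 : ℝ) 2 → - S ≤ P 0 β θ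
  hLBK : ∀ β, β ∈ Icc (1 / 2 : ℝ) 2 → - ((K : ℝ) - 1) * Λ - S ≤ P 0 β (K * θ)
  hUB : ∀ β, β ∈ Icc (1 / 2 : ℝ) 2 → ∀ q, q ∈ Icc 0 qmax →
    P 0 β q ≤ S - max (q - 1) 0 * Λ - max (q - K) 0 * Pn
  hmono0 : ∀ β β', β ∈ Icc (1 / 2 : ℝ) 2 → β' ∈ Icc (1 / 2 : ℝ) 2 → β ≤ β' →
    ∀ q, q ∈ Icc 0 qmax → P 0 β' q ≤ P 0 β q
  -- all levels
  hlip : ∀ j β β', β ∈ Icc (1 / 2 : ℝ) 2 → β' ∈ Icc (1 / 2 : ℝ) 2 → β ≤ β' →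
    ∀ q, q ∈ Icc 0 qmax → P j β' q ≤ P j β q + C₁ * (β' - β)
  hBd : ∀ j β, β ∈ Icc (1 / 2 : ℝ) 2 → ∀ q, q ∈ Icc 0 ((K : ℝ) * θ) → |P j β q| ≤ C₂
  hBdI : ∀ β, β ∈ Icc (1 / 2 : ℝ) 2 → ∀ q, q ∈ Icc 0 ((K : ℝ) * θ) → |Pinf β q| ≤ C₂
  -- comparison: one step
  H3 : ∀ j β, β ∈ Icc (1 / 2 : ℝ) 2 → ∀ q, q ∈ Icc 0 qmax →
    P j β q + (β * aa j / 2) * q ^ 2 - err j ≤ P (j + 1) β q
  H4 : ∀ j β μ, β ∈ Icc (1 / 2 : ℝ) 2 → |μ| ≤ M₀ → ∀ q, q ∈ Icc 0 qmax →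
    ∃ q', q' ∈ Icc 0 qmax ∧
      P (j + 1) β q + μ * q ≤ P j β q' + (β * aa j / 2) * q' ^ 2 + μ * q' + err j
  -- comparison: level j to the limit; `∑' l, aa (j + l)` is the tail
  H3I : ∀ j β, β ∈ Icc (1 / 2 : ℝ) 2 → ∀ q, q ∈ Icc 0 qmax →
    P j β q + (β * (∑' l, aa (j + l)) / 2) * q ^ 2 - err j ≤ Pinf β q
  H4I : ∀ j β μ, β ∈ Icc (1 / 2 : ℝ) 2 → |μ| ≤ M₀ → ∀ q, q ∈ Icc 0 qmax →
    ∃ q', q' ∈ Icc 0 qmax ∧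
      Pinf β q + μ * q ≤ P j β q' + (β * (∑' l, aa (j + l)) / 2) * q' ^ 2 + μ * q' + err j

namespace TripleData
variable (D : TripleData)

/-- Density range. -/
def Q : Set ℝ := Icc 0 D.qmax

/-- Tail of the mean-field strengths. -/
noncomputable def tail (j : ℕ) : ℝ := ∑' l, D.aa (j + l)

/-- Mean-field functional at level `j`. -/
noncomputable def F (j : ℕ) (a β μ q : ℝ) : ℝ := D.P j β q + (β * a / 2) * q ^ 2 + μ * q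

/-- Shrinking of the gaps at level `j`. -/
noncomputable def shr (j : ℕ) : ℝ := ∑ i ∈ Finset.range j, 128 * D.err i / D.aa (i + 1)

/-- Legendre transform at level `j`. -/
noncomputable def g (j : ℕ) (β μ : ℝ) : ℝ := sSup ((fun q => D.P j β q + μ * q) '' D.Q)

/-- Legendre transform of the limit. -/
noncomputable def gI (β μ : ℝ) : ℝ := sSup ((fun q => D.Pinf β q + μ * q) '' D.Q)

/-- The final gaps: `G₁ = [2κ₀, θ - 2κ₀]`, `G₂ = [θ + 2κ₀, Kθ - 2κ₀]`; slopes of `Pinf` over them. -/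
noncomputable def s₁ (β : ℝ) : ℝ :=
  (D.Pinf β (D.θ - 2 * D.κ₀) - D.Pinf β (2 * D.κ₀)) / (D.θ - 4 * D.κ₀)

noncomputable def s₂ (β : ℝ) : ℝ :=
  (D.Pinf β (D.K * D.θ - 2 * D.κ₀) - D.Pinf β (D.θ + 2 * D.κ₀)) / ((D.K : ℝ) * D.θ - D.θ - 4 * D.κ₀)

end TripleData

end Crest.Agent.Lib.Gas
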