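import Crest.Agent.Lib.Gas.AssembleNum2
import Crest.Agent.Lib.Gas.TripleDefs

/-!
# Gas assembly: the full list of numbers, the setup `G`, the regularity of `P`.
-/

namespace Crest.Agent.Lib.Gas
open MeasureTheory Set Filter Topology
open Crest.ProbabilityR.Continuum

/-- All numbers. -/
structure Num where
  P : PreNum
  core : Bool
  p : ℝ
  hp : 1 ≤ p
  hlim : Tendsto (fun L : ℝ => (packingNumber L : ℝ) / L ^ 3) atTop (𝓝 p)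
  hN1 : 1000000 * P.S ≤ P.W
  hN2 : P.Λ * P.r₀ ≤ 1
  hN3 : ((P.K : ℝ) + 1) * (8 * p) * Real.exp (-P.Λ) ≤ min 1 (64 * ballVol 1)
  hUa : 2 * ((P.K : ℝ) * P.Λ + P.Pn p + P.K + 1) ≤ P.U
  hUb : 4 * P.Pn p ≤ P.U
  hUc : 4 * (1 + P.M₀) + 64 * P.A p / P.ℓ₀ ^ 3 ≤ P.U
  hUd : 8 * P.A p ≤ P.U * P.ℓ₀ ^ 3
  hUe : ballVol P.r₀ + Real.exp (-(1 / 4) * P.U) * ballVol 1 ≤ Real.exp (-P.Λ)
  ϑ : ℝ
  δ : ℝ
  hϑ0 : 0 < ϑ
  hϑW : 200 * ϑ * P.W ≤ 1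
  hϑC : 4 * (P.U / 2 * P.qmax p + 8 * P.C₂ + 2 * P.W) * ϑ + 8 * δ ≤ 1 / 64
  hδ0 : 0 < δ
  hδϑ : 600 * δ ≤ ϑ * P.W
  hδκ : 512 * δ ≤ P.κ₀
  Cs : ℝ
  hCs0 : 0 ≤ Cs
  hCs : ∀ (G : GasSetup), G.U = P.U → G.V₁ = (∫ y : Pt, P.v core ‖y‖) → G.A = P.A p → G.ℓ₀ = P.ℓ₀ →
      ∀ (j : ℕ) (c' : ℕ → ℝ) (Rm Rp ℓ : ℝ), (∀ l, 0 ≤ c' l ∧ c' l ≤ 1) → (∀ l, l < j → c' l = 0) →
        1 ≤ Rm → (∀ l, l < j → G.R l ≤ Rm) → 0 < Rp → (∀ l, c' l ≠ 0 → Rp ≤ G.R l) →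
        24 * Rm ≤ ℓ → 15 * ℓ ≤ Rp →
        ∀ β μ ρ, β ∈ Icc (1 / 2 : ℝ) 2 → |μ| ≤ P.M₀ → ρ ∈ Icc 0 (GasSetup.rhoMax P.ℓ₀) →
        ∃ ρ', ρ' ∈ Icc 0 (GasSetup.rhoMax P.ℓ₀) ∧
          Psi (G.φc (lvl j + c')) β ρ + μ * ρ ≤
            Psi (G.φc (lvl j)) β ρ' + (β / 2) * (∑' l, c' l * G.a l) * ρ' ^ 2 + μ * ρ' +
              Cs * (Rm / ℓ + ℓ / Rp + 1 / ℓ)
  Y : ℝ
  hY : 2 ≤ Y
  hY1 : 2 * P.pp p * eps Y 1 ≤ 1
  hY2 : 3 * Cs + P.ρmax * P.A p / ballVol 1 ≤ δ * P.pp p ^ 2 * Y ^ 24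

namespace Num
variable (N : Num)

theorem W_large : (1000000 : ℝ) ≤ N.P.W := by
  have := N.P.one_le_S
  linarith [N.hN1]

theorem pp_pos : 0 < N.P.pp N.p := N.P.pp_pos N.hp

theorem A_pos : 0 < N.P.A N.p := by
  have := N.P.W_pos
  have := N.pp_pos
  unfold PreNum.A
  positivity

theorem pp_A : N.P.pp N.p * N.P.A N.p = N.P.W := by
  have := N.pp_pos
  unfold PreNum.A
  field_simp

theorem eps_lt_A : 2 * eps N.Y 1 < N.P.A N.p := by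
  have h1 := N.hY1
  have h2 := N.W_large
  have h3 := N.pp_A
  have h4 := N.pp_pos
  by_contra h
  push Not at h
  have h5 : N.P.pp N.p * N.P.A N.p ≤ N.P.pp N.p * (2 * eps N.Y 1) :=
    mul_le_mul_of_nonneg_left h h4.le
  nlinarith

theorem three_eps_le_A : 3 * eps N.Y 1 ≤ N.P.A N.p := by
  have h1 := N.hY1
  have h2 := N.W_large
  have h3 := N.pp_A
  have h4 := N.pp_pos
  by_contra h
  push Not at h
  have h5 : N.P.pp N.p * N.P.A N.p ≤ N.P.pp N.p * (3 * eps N.Y 1) :=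
    mul_le_mul_of_nonneg_left h.le h4.le
  nlinarith

theorem ℓ₀_pos : 0 < N.P.ℓ₀ := by
  have := N.P.d₀_pos
  unfold PreNum.ℓ₀; positivity

theorem ℓ₀_le_r₀ : N.P.ℓ₀ ≤ N.P.r₀ / 2 := by
  unfold PreNum.ℓ₀ PreNum.d₀
  have h1 := N.P.r₀_pos
  have h2 := N.P.hτ₁₂
  have h3 := N.P.hτ₂
  nlinarith

/-- The setup. -/
noncomputable def G : GasSetup where
  v := N.P.v N.core
  U := N.P.U
  ℓ₀ := N.P.ℓ₀
  V₁ := ∫ y : Pt, N.P.v N.core ‖y‖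
  A := N.P.A N.p
  a := aS (N.P.A N.p) N.Y
  R := scaleR N.Y
  hv := (N.P.base N.core).hv
  hv0 := (N.P.base N.core).hv0
  hvfar := (N.P.base N.core).hvfar
  hint := (N.P.base N.core).hint
  hV := le_rfl
  hU := N.P.hU
  hℓ₀ := N.ℓ₀_pos
  hℓ₀' := by
    have := N.ℓ₀_le_r₀
    have := N.P.r₀_small
    linarith
  hcore := by
    intro r _ h2
    apply N.P.v_ge_of_one
    apply vShape_of_low N.P.d₀_lt
    have hs3 : Real.sqrt 3 ≤ 2 := by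
      rw [Real.sqrt_le_left (by norm_num)]
      norm_num
    have h3 : Real.sqrt 3 * N.P.ℓ₀ ≤ 2 * N.P.ℓ₀ := mul_le_mul_of_nonneg_right hs3 N.ℓ₀_pos.le
    have h4 : 2 * N.P.ℓ₀ = N.P.d₀ := by
      unfold PreNum.ℓ₀; ring
    linarith
  ha := aS_pos N.hY N.eps_lt_A
  hA := hasSum_aS N.hY
  hR := scaleR_ge_five N.hY
  hUA := N.hUd

/-- Per-site free energy. -/
noncomputable def Pj (j : ℕ) (β q : ℝ) : ℝ :=
  Psi (N.G.φc (lvl j)) β (q * N.P.pp N.p) / N.P.pp N.p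

noncomputable def PI (β q : ℝ) : ℝ :=
  Psi (N.G.φc coefOne) β (q * N.P.pp N.p) / N.P.pp N.p

theorem lvl_ok (j : ℕ) : CoefOK (lvl j) := by
  intro l
  unfold lvl
  split_ifs <;> norm_num

theorem adm (j : ℕ) : Admissible (N.G.φc (lvl j)) N.G.v (N.G.U / 2) N.G.V₁ :=
  GasSetup.admissible_φc (lvl_ok j)

theorem admI : Admissible (N.G.φc coefOne) N.G.v (N.G.U / 2) N.G.V₁ :=
  GasSetup.admissible_φc coefOne_ok

end Num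

/-- Scaling of concave functions. -/
theorem concave_scale {f : ℝ → ℝ} (hf : ConcaveOn ℝ (Ici 0) f) {c Q : ℝ} (hc : 0 < c) :
    ConcaveOn ℝ (Icc 0 Q) (fun q => f (q * c) / c) := by
  refine ⟨convex_Icc _ _, ?_⟩
  intro x hx y hy a b ha hb hab
  have hxc : x * c ∈ Ici (0 : ℝ) := mul_nonneg hx.1 hc.le
  have hyc : y * c ∈ Ici (0 : ℝ) := mul_nonneg hy.1 hc.le
  have := hf.2 hxc hyc ha hb hab
  simp only [smul_eq_mul] at this ⊢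
  have h2 : (a * x + b * y) * c = a * (x * c) + b * (y * c) := by ring
  rw [h2]
  calc a * (f (x * c) / c) + b * (f (y * c) / c) = (a * f (x * c) + b * f (y * c)) / c := by ring
    _ ≤ f (a * (x * c) + b * (y * c)) / c := by gcongr

theorem continuousOn_scale {f : ℝ → ℝ} (hf : ContinuousOn f (Ici 0)) {c Q : ℝ} (hc : 0 < c) :
    ContinuousOn (fun q => f (q * c) / c) (Icc 0 Q) := by
  apply ContinuousOn.div_const
  apply hf.comp (by fun_prop)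
  intro q hq
  exact mul_nonneg hq.1 hc.le

end Crest.Agent.Lib.Gas
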