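import Crest.Agent.Lib.Gas.Kac1

/-!
# Gas assembly: the scales `R_l = Y^(64·4^l)`, `a_l = Y^(-2·4^l)` (`l ≥ 1`), `a_0 = A - ∑_{l≥1} a_l`.
-/

namespace Crest.Agent.Lib.Gas
open MeasureTheory Set Filter Topology
open Crest.ProbabilityR.Continuum

/-- Scales. -/
noncomputable def scaleR (Y : ℝ) (l : ℕ) : ℝ := Y ^ (64 * 4 ^ l)

/-- Couplings for `l ≥ 1`. -/
noncomputable def eps (Y : ℝ) (l : ℕ) : ℝ := 1 / Y ^ (2 * 4 ^ l)

/-- Couplings. -/
noncomputable def aS (A Y : ℝ) (l : ℕ) : ℝ :=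
  if l = 0 then A - ∑' i, eps Y (i + 1) else eps Y l

section
variable {Y : ℝ}

theorem eps_pos (hY : 2 ≤ Y) (l : ℕ) : 0 < eps Y l := by
  unfold eps; positivity

theorem eps_succ_le (hY : 2 ≤ Y) (l : ℕ) : eps Y (l + 1) ≤ eps Y l / 2 := by
  unfold eps
  have hY0 : 0 < Y := by linarith
  have h4 : 2 * 4 ^ (l + 1) = 2 * 4 ^ l + 6 * 4 ^ l := by ring
  rw [h4, pow_add, div_div, one_div, one_div]
  apply inv_anti₀ (by positivity)
  have h6 : (2 : ℝ) ≤ Y ^ (6 * 4 ^ l) := by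
    calc (2 : ℝ) ≤ Y := hY
      _ = Y ^ 1 := (pow_one Y).symm
      _ ≤ Y ^ (6 * 4 ^ l) := pow_le_pow_right₀ (by linarith) (by
        have : 0 < 4 ^ l := by positivity
        omega)
  have h7 : 0 < Y ^ (2 * 4 ^ l) := by positivity
  nlinarith

/-- Geometric bound. -/
theorem eps_geom (hY : 2 ≤ Y) (j i : ℕ) : eps Y (j + i) ≤ eps Y j * (1 / 2) ^ i := by
  induction i with
  | zero => simp
  | succ i ih =>
    have := eps_succ_le hY (j + i)
    have h2 : j + (i + 1) = j + i + 1 := by ring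
    rw [h2, pow_succ]
    calc eps Y (j + i + 1) ≤ eps Y (j + i) / 2 := this
      _ ≤ eps Y j * (1 / 2) ^ i / 2 := by gcongr
      _ = eps Y j * ((1 / 2) ^ i * (1 / 2)) := by ring

theorem summable_eps_shift (hY : 2 ≤ Y) (j : ℕ) : Summable fun i => eps Y (j + i) := by
  refine Summable.of_nonneg_of_le (fun i => (eps_pos hY _).le) (eps_geom hY j) ?_
  exact (summable_geometric_two).mul_left _

theorem tsum_eps_shift_le (hY : 2 ≤ Y) (j : ℕ) : ∑' i, eps Y (j + i) ≤ 2 * eps Y j := by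
  have h := hasSum_geometric_two.mul_left (eps Y j)
  have := (summable_eps_shift hY j).hasSum
  have hle := hasSum_le (eps_geom hY j) this h
  linarith

theorem tsum_eps_succ_le (hY : 2 ≤ Y) : ∑' i, eps Y (i + 1) ≤ 2 * eps Y 1 := by
  have h := tsum_eps_shift_le hY 1
  have h2 : (fun i => eps Y (1 + i)) = fun i => eps Y (i + 1) := by
    ext i; rw [add_comm]
  rwa [h2] at h

theorem tsum_eps_succ_pos (hY : 2 ≤ Y) : 0 < ∑' i, eps Y (i + 1) := by
  have hs : Summable fun i => eps Y (i + 1) := by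
    have := summable_eps_shift hY 1
    have h2 : (fun i => eps Y (1 + i)) = fun i => eps Y (i + 1) := by
      ext i; rw [add_comm]
    rwa [h2] at this
  exact hs.tsum_pos (fun i => (eps_pos hY _).le) 0 (eps_pos hY _)

theorem aS_zero (A Y : ℝ) : aS A Y 0 = A - ∑' i, eps Y (i + 1) := by simp [aS]

theorem aS_succ (A Y : ℝ) (l : ℕ) : aS A Y (l + 1) = eps Y (l + 1) := by simp [aS]

theorem aS_zero_ge {A : ℝ} (hY : 2 ≤ Y) : A - 2 * eps Y 1 ≤ aS A Y 0 := by
  rw [aS_zero]; linarith [tsum_eps_succ_le hY]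

theorem aS_pos {A : ℝ} (hY : 2 ≤ Y) (hA : 2 * eps Y 1 < A) (l : ℕ) : 0 < aS A Y l := by
  cases l with
  | zero => have := aS_zero_ge (A := A) hY; linarith
  | succ l => rw [aS_succ]; exact eps_pos hY _

theorem hasSum_aS {A : ℝ} (hY : 2 ≤ Y) : HasSum (aS A Y) A := by
  have hs : Summable fun i => eps Y (i + 1) := by
    have := summable_eps_shift hY 1
    have h2 : (fun i => eps Y (1 + i)) = fun i => eps Y (i + 1) := by
      ext i; rw [add_comm]
    rwa [h2] at this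
  have h1 : HasSum (fun i => aS A Y (i + 1)) (∑' i, eps Y (i + 1)) := by
    have : (fun i => aS A Y (i + 1)) = fun i => eps Y (i + 1) := by
      ext i; exact aS_succ A Y i
    rw [this]; exact hs.hasSum
  have h3 := (hasSum_nat_add_iff (f := aS A Y) 1).mp h1
  simp only [Finset.sum_range_one, aS_zero] at h3
  have h4 : (∑' i, eps Y (i + 1)) + (A - ∑' i, eps Y (i + 1)) = A := add_sub_cancel _ _
  rwa [h4] at h3

theorem aS_anti {A : ℝ} (hY : 2 ≤ Y) (hA : 3 * eps Y 1 ≤ A) : Antitone (aS A Y) := by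
  apply antitone_nat_of_succ_le
  intro l
  cases l with
  | zero =>
    rw [aS_succ]
    have := aS_zero_ge (A := A) hY
    simp only [zero_add]
    linarith
  | succ l =>
    rw [aS_succ, aS_succ]
    have := eps_succ_le hY (l + 1)
    have h2 := eps_pos hY (l + 1)
    linarith

theorem scaleR_pos (hY : 2 ≤ Y) (l : ℕ) : 0 < scaleR Y l := by
  unfold scaleR; positivity

theorem one_le_pow_Y (hY : 2 ≤ Y) (n : ℕ) : 1 ≤ Y ^ n := one_le_pow₀ (by linarith)

theorem Y_pow_ge (hY : 2 ≤ Y) (n : ℕ) : (2 : ℝ) ^ n ≤ Y ^ n := by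
  gcongr

theorem scaleR_ge_five (hY : 2 ≤ Y) (l : ℕ) : 5 ≤ scaleR Y l := by
  unfold scaleR
  have h1 : (2 : ℝ) ^ 3 ≤ Y ^ 3 := Y_pow_ge hY 3
  have h2 : Y ^ 3 ≤ Y ^ (64 * 4 ^ l) := by
    apply pow_le_pow_right₀ (by linarith)
    have : 0 < 4 ^ l := by positivity
    omega
  norm_num at h1
  linarith

theorem scaleR_mono (hY : 2 ≤ Y) : Monotone (scaleR Y) := by
  intro a b hab
  unfold scaleR
  apply pow_le_pow_right₀ (by linarith)
  have : 4 ^ a ≤ 4 ^ b := Nat.pow_le_pow_right (by norm_num) hab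
  omega

theorem scaleR_unbounded (hY : 2 ≤ Y) (r : ℝ) : ∃ l, r < scaleR Y l := by
  obtain ⟨n, hn⟩ := pow_unbounded_of_one_lt r (by norm_num : (1 : ℝ) < 2)
  refine ⟨n, hn.trans_le ?_⟩
  unfold scaleR
  have h1 : (2 : ℝ) ^ n ≤ Y ^ n := Y_pow_ge hY n
  have h2 : Y ^ n ≤ Y ^ (64 * 4 ^ n) := by
    apply pow_le_pow_right₀ (by linarith)
    have : n < 4 ^ n := Nat.lt_pow_self (by norm_num)
    omega
  linarith

/-- Relation with the exponent `1/32`. -/
theorem eps_eq_rpow (hY : 2 ≤ Y) (l : ℕ) : eps Y l = (scaleR Y l) ^ (-(1 / 32 : ℝ)) := by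
  unfold eps scaleR
  have hY0 : 0 < Y := by linarith
  rw [one_div, ← Real.rpow_natCast Y (64 * 4 ^ l), ← Real.rpow_mul hY0.le,
    ← Real.rpow_natCast Y (2 * 4 ^ l), ← Real.rpow_neg hY0.le]
  congr 1
  push_cast
  ring

end

end Crest.Agent.Lib.Gas
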