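import Crest.Agent.Lib.Gas.Setup

/-!
# Gas: statement of the main package, and the derivative lemma.
-/

namespace Crest.Agent.Lib.Gas
open MeasureTheory Set Filter Topology
open Crest.ProbabilityR.Continuum

/-- The coefficients of the full potential. -/
def coefOne : ℕ → ℝ := fun _ => 1

theorem coefOne_ok : CoefOK coefOne := fun _ => by norm_num [coefOne]

/-- A convex function with two subgradients `e₁ < e₂` at `βc` has left derivative `≤ e₁` and right
derivative `≥ e₂`; `f = -P/β` then has `Dr < Dl`. -/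
theorem deriv_of_kink {P : ℝ → ℝ} {βc e₁ e₂ a b : ℝ} (hab : 0 < a) (hβc : βc ∈ Ioo a b)
    (hconv : ConvexOn ℝ (Icc a b) P) (he : e₁ < e₂)
    (h1 : ∀ β, β ∈ Icc a b → P βc + e₁ * (β - βc) ≤ P β)
    (h2 : ∀ β, β ∈ Icc a b → P βc + e₂ * (β - βc) ≤ P β) :
    ∃ Dl Dr : ℝ, HasDerivWithinAt (fun β => -(1 / β) * P β) Dl (Iio βc) βc ∧
      HasDerivWithinAt (fun β => -(1 / β) * P β) Dr (Ioi βc) βc ∧ Dr < Dl := by
  have hint : βc ∈ interior (Icc a b) := by
    rw [interior_Icc]; exact hβc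
  have hL := hconv.hasDerivWithinAt_leftDeriv_of_mem_interior hint
  have hR := hconv.hasDerivWithinAt_rightDeriv_of_mem_interior hint
  set L := derivWithin P (Iio βc) βc with hLdef
  set R := derivWithin P (Ioi βc) βc with hRdef
  have hβ0 : 0 < βc := lt_trans hab hβc.1
  -- `L ≤ e₁`
  have hLe : L ≤ e₁ := by
    have hev : ∀ᶠ β in 𝓝[<] βc, slope P βc β ≤ e₁ := by
      have : Ioo a βc ∈ 𝓝[<] βc := Ioo_mem_nhdsLT hβc.1
      filter_upwards [this] with β hβ
      have hmem : β ∈ Icc a b := ⟨hβ.1.le, (hβ.2.trans hβc.2).le⟩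
      have := h1 β hmem
      have hneg : β - βc < 0 := sub_neg.mpr hβ.2
      rw [slope_def_field, div_le_iff_of_neg hneg]
      nlinarith
    have ht := hasDerivWithinAt_iff_tendsto_slope.mp hL
    have hS : Iio βc \ {βc} = Iio βc := by
      ext x; simp only [Set.mem_sdiff, mem_Iio, mem_singleton_iff]
      exact ⟨fun h => h.1, fun h => ⟨h, h.ne⟩⟩
    rw [hS] at ht
    exact le_of_tendsto ht hev
  have hRe : e₂ ≤ R := by
    have hev : ∀ᶠ β in 𝓝[>] βc, e₂ ≤ slope P βc β := by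
      have : Ioo βc b ∈ 𝓝[>] βc := Ioo_mem_nhdsGT hβc.2
      filter_upwards [this] with β hβ
      have hmem : β ∈ Icc a b := ⟨(hβc.1.trans hβ.1).le, hβ.2.le⟩
      have := h2 β hmem
      have hpos : 0 < β - βc := sub_pos.mpr hβ.1
      rw [slope_def_field, le_div_iff₀ hpos]
      nlinarith
    have ht := hasDerivWithinAt_iff_tendsto_slope.mp hR
    have hS : Ioi βc \ {βc} = Ioi βc := by
      ext x; simp only [Set.mem_sdiff, mem_Ioi, mem_singleton_iff]
      exact ⟨fun h => h.1, fun h => ⟨h, h.ne'⟩⟩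
    rw [hS] at ht
    exact ge_of_tendsto ht hev
  have hinv : HasDerivAt (fun β : ℝ => -(1 / β)) (1 / βc ^ 2) βc := by
    have := (hasDerivAt_inv hβ0.ne').neg
    have h2 : (fun β : ℝ => -(1 / β)) = -fun y : ℝ => y⁻¹ := by
      ext x; simp
    have h3 : 1 / βc ^ 2 = - -(βc ^ 2)⁻¹ := by rw [neg_neg, one_div]
    rw [h2, h3]
    exact this
  refine ⟨(1 / βc ^ 2) * P βc + -(1 / βc) * L, (1 / βc ^ 2) * P βc + -(1 / βc) * R, ?_, ?_, ?_⟩
  · exact (hinv.hasDerivWithinAt).mul hL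
  · exact (hinv.hasDerivWithinAt).mul hR
  · have : L < R := lt_of_le_of_lt hLe (lt_of_lt_of_le he hRe)
    have h1β : 0 < 1 / βc := by positivity
    nlinarith

theorem ballVol_mono {R R' : ℝ} (hR : 0 ≤ R) (hRR' : R ≤ R') : ballVol R ≤ ballVol R' := by
  rw [ballVol_eq R hR, ballVol_eq R' (hR.trans hRR')]
  have := ballVol_one_pos
  gcongr

/-- Uniform bound on the tail. -/
theorem Tc_le (G : GasSetup) {c : ℕ → ℝ} (hc : CoefOK c) (r : ℝ) :
    G.Tc c r ≤ 2 * G.A / ballVol 5 := by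
  have hb5 : 0 < ballVol 5 := by
    rw [ballVol_eq 5 (by norm_num)]
    have := ballVol_one_pos
    positivity
  have hterm : ∀ l, c l * G.a l * J (G.R l) r ≤ 2 * G.a l / ballVol 5 := by
    intro l
    have hR := G.hR l
    have hRpos : 0 < G.R l := by linarith
    have h1 : J (G.R l) r ≤ 1 / ballVol (G.R l) := J_le _ _ hRpos
    have h2 : 1 / ballVol (G.R l) ≤ 1 / ballVol 5 := by
      apply one_div_le_one_div_of_le hb5
      exact ballVol_mono (by norm_num) hR
    have h3 : J (G.R l) r ≤ 1 / ballVol 5 := h1.trans h2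
    have h4 := J_nonneg (G.R l) r
    have h5 := G.ha l
    have h6 := hc l
    calc c l * G.a l * J (G.R l) r ≤ 2 * G.a l * (1 / ballVol 5) := by
          apply mul_le_mul _ h3 h4 (by positivity)
          exact mul_le_mul_of_nonneg_right h6.2 h5.le
      _ = 2 * G.a l / ballVol 5 := by ring
  have hs : HasSum (fun l => 2 * G.a l / ballVol 5) (2 * G.A / ballVol 5) :=
    (G.hA.mul_left 2).div_const _
  exact hasSum_le hterm (GasSetup.summable_Tc hc r).hasSum hs

/-- The common conclusion: the free energy. -/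
theorem gas_limit (G : GasSetup) {β ρ : ℝ} (hβ : 0 < β) (hρ : 0 ≤ ρ) :
    Tendsto (fun L : ℝ => -(1 / (β * L ^ 3)) *
        Real.log (partitionFn (G.φc coefOne) L ⌊ρ * L ^ 3⌋₊ β)) atTop
      (𝓝 (-(1 / β) * Psi (G.φc coefOne) β ρ)) := by
  have h := (GasSetup.admissible_φc (G := G) coefOne_ok).tendsto hβ.le hρ
  have := h.const_mul (-(1 / β))
  refine this.congr (fun L => ?_)
  by_cases hL : L ^ 3 = 0
  · simp [hL]
  · field_simp

/-- The kink in terms of the derivative of the free energy. -/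
theorem gas_deriv (G : GasSetup) {βc ρ e₁ e₂ : ℝ} (h1 : 7 / 8 ≤ βc) (h2 : βc ≤ 9 / 8) (hρ : 0 ≤ ρ)
    (he : e₁ < e₂)
    (hsub : ∀ β, β ∈ Icc (1 / 2 : ℝ) 2 →
      Psi (G.φc coefOne) βc ρ + e₁ * (β - βc) ≤ Psi (G.φc coefOne) β ρ ∧
      Psi (G.φc coefOne) βc ρ + e₂ * (β - βc) ≤ Psi (G.φc coefOne) β ρ) :
    ∃ Dl Dr : ℝ,
      HasDerivWithinAt (fun β => -(1 / β) * Psi (G.φc coefOne) β ρ) Dl (Iio βc) βc ∧
      HasDerivWithinAt (fun β => -(1 / β) * Psi (G.φc coefOne) β ρ) Dr (Ioi βc) βc ∧ Dr < Dl := by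
  have hconv := (GasSetup.admissible_φc (G := G) coefOne_ok).convex_beta hρ
  refine deriv_of_kink (a := 1 / 2) (b := 2) (by norm_num) ⟨by linarith, by linarith⟩ ?_ he
    (fun β hβ => (hsub β hβ).1) (fun β hβ => (hsub β hβ).2)
  exact hconv.subset (fun x hx => by
    have := hx.1
    simp only [mem_Ici]; linarith) (convex_Icc _ _)

end Crest.Agent.Lib.Gas
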