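import Crest.Agent.Lib.Gas.AssembleCrude
import Crest.Agent.Lib.Gas.AssembleScale
import Crest.Agent.Lib.Gas.Main

/-!
# Gas assembly: the base potential.
-/

namespace Crest.Agent.Lib.Gas
open MeasureTheory Set Filter Topology
open Crest.ProbabilityR.Continuum

/-- Clamp to `[0,1]`. -/
noncomputable def clamp01 (x : ℝ) : ℝ := max 0 (min 1 x)

theorem clamp01_nonneg (x : ℝ) : 0 ≤ clamp01 x := le_max_left _ _

theorem clamp01_le_one (x : ℝ) : clamp01 x ≤ 1 := max_le (by norm_num) (min_le_left _ _)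

theorem clamp01_of_one_le {x : ℝ} (h : 1 ≤ x) : clamp01 x = 1 := by
  unfold clamp01; rw [min_eq_left h]; simp

theorem clamp01_of_nonpos {x : ℝ} (h : x ≤ 0) : clamp01 x = 0 := by
  unfold clamp01; rw [min_eq_right (by linarith)]; exact max_eq_left h

theorem clamp01_continuous : Continuous clamp01 := by
  unfold clamp01; fun_prop

/-- The shape of the well. -/
noncomputable def vShape (ζ d₀ d₁ d₂ r₀ r : ℝ) : ℝ :=
  max (clamp01 ((d₁ - r) / (d₁ - d₀))) (min (clamp01 ((r - d₂) / (r₀ - d₂))) (clamp01 ((1 - r) / ζ)))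

/-- The divergent core. -/
noncomputable def vCore (d₀ r : ℝ) : ℝ := max (1 / r - 1 / d₀) 0

/-- The base potential. -/
noncomputable def vFull (core : Bool) (U ζ d₀ d₁ d₂ r₀ r : ℝ) : ℝ :=
  U * vShape ζ d₀ d₁ d₂ r₀ r + if core then vCore d₀ r else 0

section
variable {ζ d₀ d₁ d₂ r₀ U : ℝ}

theorem vShape_nonneg (r : ℝ) : 0 ≤ vShape ζ d₀ d₁ d₂ r₀ r :=
  le_max_of_le_left (clamp01_nonneg _)

theorem vShape_le_one (r : ℝ) : vShape ζ d₀ d₁ d₂ r₀ r ≤ 1 :=
  max_le (clamp01_le_one _) (min_le_of_left_le (clamp01_le_one _))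

theorem vShape_continuous : Continuous (vShape ζ d₀ d₁ d₂ r₀) := by
  unfold vShape
  have := clamp01_continuous
  fun_prop

theorem vShape_of_far (hζ : 0 < ζ) (h01 : d₀ < d₁) (hd1 : d₁ ≤ 1) {r : ℝ} (hr : 1 ≤ r) :
    vShape ζ d₀ d₁ d₂ r₀ r = 0 := by
  unfold vShape
  have h1 : clamp01 ((d₁ - r) / (d₁ - d₀)) = 0 :=
    clamp01_of_nonpos (div_nonpos_of_nonpos_of_nonneg (by linarith) (by linarith))
  have h2 : clamp01 ((1 - r) / ζ) = 0 :=
    clamp01_of_nonpos (div_nonpos_of_nonpos_of_nonneg (by linarith) hζ.le)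
  rw [h1, h2, min_eq_right (clamp01_nonneg _)]
  simp

theorem vShape_of_band (h01 : d₀ < d₁) (h2r : d₂ < r₀) {r : ℝ} (h1 : d₁ ≤ r) (h2 : r ≤ d₂) :
    vShape ζ d₀ d₁ d₂ r₀ r = 0 := by
  unfold vShape
  have h3 : clamp01 ((d₁ - r) / (d₁ - d₀)) = 0 :=
    clamp01_of_nonpos (div_nonpos_of_nonpos_of_nonneg (by linarith) (by linarith))
  have h4 : clamp01 ((r - d₂) / (r₀ - d₂)) = 0 :=
    clamp01_of_nonpos (div_nonpos_of_nonpos_of_nonneg (by linarith) (by linarith))
  rw [h3, h4, min_eq_left (clamp01_nonneg _)]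
  simp

theorem vShape_of_low (h01 : d₀ < d₁) {r : ℝ} (h : r ≤ d₀) : vShape ζ d₀ d₁ d₂ r₀ r = 1 := by
  apply le_antisymm (vShape_le_one r)
  apply le_max_of_le_left
  rw [clamp01_of_one_le]
  rw [le_div_iff₀ (by linarith)]
  linarith

theorem vShape_of_mid (hζ : 0 < ζ) (h2r : d₂ < r₀) {r : ℝ} (h1 : r₀ ≤ r) (h2 : r ≤ 1 - ζ) :
    vShape ζ d₀ d₁ d₂ r₀ r = 1 := by
  apply le_antisymm (vShape_le_one r)
  apply le_max_of_le_right
  rw [clamp01_of_one_le, clamp01_of_one_le]
  · simp
  · rw [le_div_iff₀ hζ]; linarith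
  · rw [le_div_iff₀ (by linarith)]; linarith

theorem vCore_nonneg (r : ℝ) : 0 ≤ vCore d₀ r := le_max_right _ _

theorem vCore_of_ge (hd : 0 < d₀) {r : ℝ} (hr : d₀ ≤ r) : vCore d₀ r = 0 := by
  unfold vCore
  apply max_eq_right
  have : 1 / r ≤ 1 / d₀ := one_div_le_one_div_of_le hd hr
  linarith

theorem vCore_measurable : Measurable (vCore d₀) := by
  unfold vCore
  fun_prop

theorem vCore_le (hd : 0 < d₀) {r : ℝ} (hr : 0 < r) : vCore d₀ r ≤ 1 / r := by
  unfold vCore
  apply max_le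
  · have : 0 < 1 / d₀ := by positivity
    linarith
  · positivity

/-- The core is integrable in `ℝ³`. -/
theorem vCore_integrable (hd : 0 < d₀) : Integrable (fun y : Pt => vCore d₀ ‖y‖) := by
  have hfin : Module.finrank ℝ Pt = 3 := by simp
  rw [MeasureTheory.integrable_fun_norm_addHaar (μ := (volume : Measure Pt))]
  rw [hfin]
  have hm : Measurable (fun r : ℝ => r ^ (3 - 1) • vCore d₀ r) :=
    ((measurable_id.pow_const _).smul vCore_measurable)
  have hbound : IntegrableOn (fun r : ℝ => (Set.Ioc 0 d₀).indicator (fun _ => d₀) r) (Ioi 0) := by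
    apply Integrable.integrableOn
    rw [integrable_indicator_iff measurableSet_Ioc]
    exact integrableOn_const (by simp) 
  refine Integrable.mono' hbound hm.aestronglyMeasurable ?_
  refine (ae_restrict_iff' measurableSet_Ioi).mpr (Eventually.of_forall fun r hr => ?_)
  have hr0 : (0 : ℝ) < r := hr
  rw [Real.norm_of_nonneg (smul_nonneg (by positivity) (vCore_nonneg r))]
  rcases le_or_gt r d₀ with h | h
  · rw [indicator_of_mem (show r ∈ Ioc 0 d₀ from ⟨hr0, h⟩)]
    have h1 := vCore_le hd hr0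
    simp only [smul_eq_mul]
    calc r ^ (3 - 1) * vCore d₀ r ≤ r ^ (3 - 1) * (1 / r) := by gcongr
      _ = r := by
        norm_num
        field_simp
      _ ≤ d₀ := h
  · rw [vCore_of_ge hd h.le]
    simp only [smul_zero]
    exact indicator_nonneg (fun _ _ => hd.le) _

theorem vFull_measurable (core : Bool) : Measurable (vFull core U ζ d₀ d₁ d₂ r₀) := by
  unfold vFull
  have h1 : Measurable (vShape ζ d₀ d₁ d₂ r₀) := vShape_continuous.measurable
  cases core
  · simpa using h1.const_mul U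
  · have h2 := (h1.const_mul U).add (vCore_measurable (d₀ := d₀))
    convert h2 using 1
    ext r; simp

theorem vFull_nonneg (hU : 0 ≤ U) (core : Bool) (r : ℝ) : 0 ≤ vFull core U ζ d₀ d₁ d₂ r₀ r := by
  unfold vFull
  have h1 : 0 ≤ U * vShape ζ d₀ d₁ d₂ r₀ r := mul_nonneg hU (vShape_nonneg r)
  cases core
  · simpa using h1
  · simpa using add_nonneg h1 (vCore_nonneg r)

theorem vFull_integrable (hU : 0 ≤ U) (hd : 0 < d₀) (hζ : 0 < ζ) (h01 : d₀ < d₁) (hd1 : d₁ ≤ 1)
    (core : Bool) : Integrable (fun y : Pt => vFull core U ζ d₀ d₁ d₂ r₀ ‖y‖) := by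
  have h1 : Integrable (fun y : Pt => vShape ζ d₀ d₁ d₂ r₀ ‖y‖) := by
    apply Continuous.integrable_of_hasCompactSupport
    · exact vShape_continuous.comp continuous_norm
    · apply HasCompactSupport.of_support_subset_isCompact (isCompact_closedBall (0 : Pt) 1)
      intro y hy
      rw [Function.mem_support] at hy
      by_contra hc
      simp only [Metric.mem_closedBall, dist_zero_right, not_le] at hc
      exact hy (vShape_of_far hζ h01 hd1 hc.le)
  unfold vFull
  cases core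
  · simpa using h1.const_mul U
  · have h2 := (h1.const_mul U).add (vCore_integrable hd)
    refine h2.congr (Eventually.of_forall fun y => ?_)
    simp

end

end Crest.Agent.Lib.Gas
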