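import Crest.Agent.Lib.Gas.BaseDefs

/-! # Gas F2: penalty for expensive pairs. -/
namespace Crest.Agent.Lib.Gas
open MeasureTheory Set Filter Topology
open Crest.ProbabilityR.Continuum

namespace BaseV
variable (b : BaseV)

/-- Greedy maximal separated subset. -/
private theorem exists_maximal_sep {N : ℕ} (x : Fin N → Pt) (s : ℝ) (Y : Finset (Fin N)) :
    ∃ R ⊆ Y, (∀ i ∈ R, ∀ k ∈ R, i ≠ k → s ≤ dist (x i) (x k)) ∧
      ∀ i ∈ Y, ∃ j ∈ R, i = j ∨ dist (x i) (x j) < s := by
  classical
  induction Y using Finset.induction_on with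
  | empty => exact ⟨∅, by simp⟩
  | insert a Y ha ih =>
    obtain ⟨R, hRY, hsep, hcov⟩ := ih
    by_cases h : ∃ j ∈ R, dist (x a) (x j) < s
    · refine ⟨R, hRY.trans (Finset.subset_insert _ _), hsep, ?_⟩
      intro i hi
      rcases Finset.mem_insert.mp hi with rfl | hi
      · obtain ⟨j, hj, hd⟩ := h
        exact ⟨j, hj, Or.inr hd⟩
      · exact hcov i hi
    · push Not at h
      refine ⟨insert a R, Finset.insert_subset_insert _ hRY, ?_, ?_⟩
      · intro i hi k hk hik
        rcases Finset.mem_insert.mp hi with hia | hi'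
        · rcases Finset.mem_insert.mp hk with hka | hk'
          · exact absurd (hia.trans hka.symm) hik
          · rw [hia]; exact h k hk'
        · rcases Finset.mem_insert.mp hk with hka | hk'
          · rw [hka, dist_comm]; exact h i hi'
          · exact hsep i hi' k hk' hik
      · intro i hi
        rcases Finset.mem_insert.mp hi with hia | hi'
        · exact ⟨a, Finset.mem_insert_self _ _, Or.inl hia⟩
        · obtain ⟨j, hj, hd⟩ := hcov i hi'
          exact ⟨j, Finset.mem_insert_of_mem hj, hd⟩

/-- Number of pairs/penalty: `E ≥ U (N - K n₊)`, `n₊ = packingNumber (L/(1-ζ))`.  Choose a maximal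
`(1-ζ)`-separated subset `Rep` of the set `Y` left after deleting one endpoint of each expensive pair;
the fibres over `Rep` have pairwise distances in the band. -/
theorem energy_penalty {L : ℝ} {N : ℕ} (x : Fin N → Pt) (hx : ∀ i, x i ∈ cube L) :
    b.U * ((N : ℝ) - b.K * packingNumber (L / (1 - b.ζ))) ≤ energy b.v x := by
  classical
  have hs : 0 < 1 - b.ζ := by linarith [b.hζ1]
  -- expensive pairs
  let Exp : Fin N × Fin N → Prop := fun p =>
    p.1 < p.2 ∧ dist (x p.1) (x p.2) < 1 - b.ζ ∧
      (dist (x p.1) (x p.2) < b.d₀ ∨ b.r₀ < dist (x p.1) (x p.2))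
  set Ex : Finset (Fin N × Fin N) := Finset.univ.filter Exp with hEx
  -- energy bound
  have hE : b.U * (Ex.card : ℝ) ≤ energy b.v x := by
    unfold energy
    have h1 : (∑ p : {p : Fin N × Fin N // p.1 < p.2}, b.v (dist (x p.1.1) (x p.1.2)))
        = ∑ p ∈ Finset.univ.filter (fun p : Fin N × Fin N => p.1 < p.2),
            b.v (dist (x p.1) (x p.2)) :=
      (Finset.sum_subtype (p := fun p : Fin N × Fin N => p.1 < p.2)
        (Finset.filter (fun p : Fin N × Fin N => p.1 < p.2) Finset.univ) (by simp)
        (fun p => b.v (dist (x p.1) (x p.2)))).symm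
    rw [h1]
    have hsub : Ex ⊆ Finset.univ.filter (fun p : Fin N × Fin N => p.1 < p.2) := by
      intro p hp
      simp only [hEx, Finset.mem_filter, Finset.mem_univ, true_and] at hp ⊢
      exact hp.1
    calc b.U * (Ex.card : ℝ) = ∑ _p ∈ Ex, b.U := by
          rw [Finset.sum_const, nsmul_eq_mul, mul_comm]
      _ ≤ ∑ p ∈ Ex, b.v (dist (x p.1) (x p.2)) := by
          refine Finset.sum_le_sum fun p hp => ?_
          simp only [hEx, Finset.mem_filter, Finset.mem_univ, true_and] at hp
          exact b.hexp _ dist_nonneg hp.2.1 hp.2.2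
      _ ≤ _ := Finset.sum_le_sum_of_subset_of_nonneg hsub fun p _ _ => b.hv0 _
  -- survivors
  set Y : Finset (Fin N) := Finset.univ \ Ex.image Prod.fst with hY
  have hYcard : N ≤ Y.card + Ex.card := by
    have h1 : (Ex.image Prod.fst).card ≤ Ex.card := Finset.card_image_le
    have h2 : Y.card = N - (Ex.image Prod.fst).card := by
      rw [hY, Finset.card_sdiff_of_subset (Finset.subset_univ _)]
      simp
    have h3 : (Ex.image Prod.fst).card ≤ N := by
      simpa using Finset.card_le_univ (Ex.image Prod.fst)
    omega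
  -- no expensive pair among survivors
  have hnoexp : ∀ i ∈ Y, ∀ k ∈ Y, i ≠ k → dist (x i) (x k) < 1 - b.ζ →
      b.d₀ ≤ dist (x i) (x k) ∧ dist (x i) (x k) ≤ b.r₀ := by
    intro i hi k hk hik hd
    by_contra hcon
    have hcon' : dist (x i) (x k) < b.d₀ ∨ b.r₀ < dist (x i) (x k) := by
      by_contra h
      push Not at h
      exact hcon h
    rcases lt_or_gt_of_ne hik with h | h
    · have : (i, k) ∈ Ex := by
        simp only [hEx, Finset.mem_filter, Finset.mem_univ, true_and]
        exact ⟨h, hd, hcon'⟩
      have hi' : i ∈ Ex.image Prod.fst := Finset.mem_image.mpr ⟨_, this, rfl⟩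
      simp only [hY, Finset.mem_sdiff, Finset.mem_univ, true_and] at hi
      exact hi hi'
    · have : (k, i) ∈ Ex := by
        simp only [hEx, Finset.mem_filter, Finset.mem_univ, true_and]
        show k < i ∧ dist (x k) (x i) < 1 - b.ζ ∧ (dist (x k) (x i) < b.d₀ ∨ b.r₀ < dist (x k) (x i))
        rw [dist_comm (x k) (x i)]
        exact ⟨h, hd, hcon'⟩
      have hk' : k ∈ Ex.image Prod.fst := Finset.mem_image.mpr ⟨_, this, rfl⟩
      simp only [hY, Finset.mem_sdiff, Finset.mem_univ, true_and] at hk
      exact hk hk'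
  -- representatives
  obtain ⟨R, hRY, hRsep, hRcov⟩ := exists_maximal_sep x (1 - b.ζ) Y
  have hRcard : R.card ≤ packingNumber (L / (1 - b.ζ)) := by
    have hinj : Set.InjOn x (R : Set (Fin N)) := by
      intro i hi k hk hik
      by_contra hne
      have := hRsep i hi k hk hne
      rw [hik, dist_self] at this
      linarith
    rw [← Finset.card_image_of_injOn hinj]
    refine card_le_packingNumber hs _ ?_ ?_
    · intro y hy
      obtain ⟨i, -, rfl⟩ := Finset.mem_image.mp hy
      exact hx i
    · intro y hy z hz hne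
      obtain ⟨i, hi, rfl⟩ := Finset.mem_image.mp hy
      obtain ⟨k, hk, rfl⟩ := Finset.mem_image.mp hz
      exact hRsep i hi k hk (fun h => hne (by rw [h]))
  -- choice of representative
  choose! rep hrepR hrepd using hRcov
  have hYK : Y.card ≤ b.K * R.card := by
    refine Finset.card_le_mul_card_image_of_maps_to (f := rep) (fun i hi => hrepR i hi) b.K ?_
    intro j hj
    set F : Finset (Fin N) := Y.filter (fun i => rep i = j) with hF
    -- pairwise distances in the fibre
    have hclose : ∀ i ∈ F, dist (x i) (x j) ≤ b.r₀ := by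
      intro i hi
      simp only [hF, Finset.mem_filter] at hi
      have hd := hrepd i hi.1
      rw [hi.2] at hd
      rcases hd with h | h
      · rw [h, dist_self]
        linarith [b.hd₀, b.hd₀₁, b.hd₁₂, b.hd₂]
      · by_cases hij : i = j
        · rw [hij, dist_self]
          linarith [b.hd₀, b.hd₀₁, b.hd₁₂, b.hd₂]
        · exact (hnoexp i hi.1 j (hRY hj) hij h).2
    have hpair : ∀ i ∈ F, ∀ k ∈ F, i ≠ k →
        b.d₀ ≤ dist (x i) (x k) ∧ dist (x i) (x k) ≤ b.r₀ := by
      intro i hi k hk hik
      have h1 := hclose i hi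
      have h2 := hclose k hk
      have h3 : dist (x i) (x k) ≤ dist (x i) (x j) + dist (x j) (x k) := dist_triangle _ _ _
      rw [dist_comm (x j)] at h3
      have h4 := b.hr₀
      have hi' := (Finset.mem_filter.mp hi).1
      have hk' := (Finset.mem_filter.mp hk).1
      exact hnoexp i hi' k hk' hik (by linarith)
    -- apply clique bound
    let e := F.equivFin
    have := b.hclique F.card (fun a => x (e.symm a).1) (by
      intro a c hac
      exact hpair _ (e.symm a).2 _ (e.symm c).2 (fun h => hac (e.symm.injective (Subtype.ext h))))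
    exact this
  -- conclude
  have hU := b.hU
  have hfinal : (N : ℝ) - b.K * packingNumber (L / (1 - b.ζ)) ≤ Ex.card := by
    have h1 : (N : ℝ) ≤ (Y.card : ℝ) + Ex.card := by exact_mod_cast hYcard
    have h2 : (Y.card : ℝ) ≤ b.K * R.card := by exact_mod_cast hYK
    have h3 : (R.card : ℝ) ≤ packingNumber (L / (1 - b.ζ)) := by exact_mod_cast hRcard
    have h4 : (b.K : ℝ) * R.card ≤ b.K * packingNumber (L / (1 - b.ζ)) :=
      mul_le_mul_of_nonneg_left h3 (by positivity)
    linarith
  exact (mul_le_mul_of_nonneg_left hfinal hU.le).trans hE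

end BaseV
end Crest.Agent.Lib.Gas
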