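import Crest.Agent.Lib.Gas.BaseDefs

/-! # Gas F3: forest bound. -/
namespace Crest.Agent.Lib.Gas
open MeasureTheory Set Filter Topology
open Crest.ProbabilityR.Continuum

private theorem energy_snoc' (φ : ℝ → ℝ) {n : ℕ} (x : Fin (n + 1) → Pt) :
    energy φ x = energy φ (fun i => x (Fin.castSucc i))
      + ∑ k, φ (dist (x (Fin.castSucc k)) (x (Fin.last n))) := by
  classical
  rw [energy_eq_pairE, energy_eq_pairE]
  unfold pairE
  simp only [Fin.sum_univ_castSucc]
  have h1 : ∀ i k : Fin n, (Fin.castSucc i = Fin.castSucc k) ↔ i = k := fun i k => Fin.castSucc_inj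
  have h2 : ∀ i : Fin n, Fin.castSucc i ≠ Fin.last n := fun i => (Fin.castSucc_lt_last i).ne
  have h3 : ∀ i : Fin n, Fin.last n ≠ Fin.castSucc i := fun i => (Fin.castSucc_lt_last i).ne'
  simp only [h1, h2, h3, if_false, if_true, Finset.sum_add_distrib]
  simp only [dist_comm (x (Fin.last n)) _]
  ring

/-- Fubini, last coordinate. -/
private theorem setIntegral_snoc {n : ℕ} {D : Set Pt} (hD : MeasurableSet D)
    (F : (Fin (n + 1) → Pt) → ℝ) (hF : IntegrableOn F (Set.pi Set.univ (fun _ => D))) :
    IntegrableOn (fun x : Fin n → Pt => ∫ y in D, F (Fin.snoc (α := fun _ => Pt) x y))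
        (Set.pi Set.univ (fun _ => D)) ∧
    ∫ x in Set.pi Set.univ (fun _ : Fin (n + 1) => D), F x
      = ∫ x in Set.pi Set.univ (fun _ : Fin n => D), ∫ y in D,
          F (Fin.snoc (α := fun _ => Pt) x y) := by
  classical
  set e := MeasurableEquiv.piFinSuccAbove (fun _ : Fin (n + 1) => Pt) (Fin.last n) with he
  have hmp : MeasurePreserving e volume volume :=
    volume_preserving_piFinSuccAbove (fun _ : Fin (n + 1) => Pt) (Fin.last n)
  have hsymm : ∀ (y : Pt) (x : Fin n → Pt), e.symm (y, x) = Fin.snoc (α := fun _ => Pt) x y := by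
    intro y x
    ext1 i
    refine Fin.lastCases ?_ (fun j => ?_) i
    · simp [he, MeasurableEquiv.piFinSuccAbove, Fin.insertNthEquiv]
    · simp [he, MeasurableEquiv.piFinSuccAbove, Fin.insertNthEquiv]
  have hpre : e.symm ⁻¹' (Set.pi Set.univ (fun _ : Fin (n + 1) => D))
      = D ×ˢ (Set.pi Set.univ (fun _ : Fin n => D)) := by
    ext ⟨y, x⟩
    simp only [Set.mem_preimage, Set.mem_pi, Set.mem_univ, true_imp_iff, Set.mem_prod, hsymm]
    constructor
    · intro h
      refine ⟨?_, fun i => ?_⟩
      · simpa using h (Fin.last n)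
      · simpa using h (Fin.castSucc i)
    · rintro ⟨hy, hx⟩ i
      refine Fin.lastCases ?_ (fun j => ?_) i
      · simpa using hy
      · simpa using hx j
  have hmps := hmp.symm
  set G : Pt × (Fin n → Pt) → ℝ := fun z => F (e.symm z) with hG
  have hGint : IntegrableOn G (D ×ˢ (Set.pi Set.univ (fun _ : Fin n => D))) := by
    rw [← hpre]
    exact (hmps.integrableOn_comp_preimage e.symm.measurableEmbedding).mpr hF
  have hsplit : ∫ x in Set.pi Set.univ (fun _ : Fin (n + 1) => D), F x
      = ∫ z in D ×ˢ (Set.pi Set.univ (fun _ : Fin n => D)), G z := by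
    rw [← hpre]
    exact (hmps.setIntegral_preimage_emb e.symm.measurableEmbedding F _).symm
  have hGint' : Integrable G ((volume.restrict D).prod
      (volume.restrict (Set.pi Set.univ (fun _ : Fin n => D)))) := by
    rw [Measure.prod_restrict]
    exact hGint
  have hsplit2 : ∫ z in D ×ˢ (Set.pi Set.univ (fun _ : Fin n => D)), G z
      = ∫ x in Set.pi Set.univ (fun _ : Fin n => D), ∫ y in D, G (y, x) := by
    rw [Measure.volume_eq_prod, ← Measure.prod_restrict]
    exact integral_prod_symm G hGint'
  have hGF : ∀ x y, G (y, x) = F (Fin.snoc (α := fun _ => Pt) x y) := fun x y => by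
    simp only [hG, hsymm]
  constructor
  · have := MeasureTheory.Integrable.integral_prod_right hGint'
    simp only [hGF] at this
    exact this
  · rw [hsplit, hsplit2]
    simp only [hGF]

namespace BaseV
variable (b : BaseV)

/-- Weight `λ^{#roots}`. -/
private noncomputable def rootW (lam s : ℝ) {N : ℕ} (x : Fin N → Pt) : ℝ :=
  ∏ i : Fin N, if (∀ k : Fin N, k < i → s ≤ dist (x k) (x i)) then lam else 1

private theorem rootW_succ (lam s : ℝ) {N : ℕ} (x : Fin (N + 1) → Pt) :
    rootW lam s x = rootW lam s (fun i => x (Fin.castSucc i)) *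
      (if (∀ k : Fin N, s ≤ dist (x (Fin.castSucc k)) (x (Fin.last N))) then lam else 1) := by
  classical
  unfold rootW
  rw [Fin.prod_univ_castSucc]
  congr 1
  · refine Finset.prod_congr rfl fun i _ => ?_
    have : (∀ k : Fin (N + 1), k < Fin.castSucc i → s ≤ dist (x k) (x (Fin.castSucc i))) ↔
        (∀ k : Fin N, k < i → s ≤ dist (x (Fin.castSucc k)) (x (Fin.castSucc i))) := by
      rw [Fin.forall_iff_castSucc]
      simp [(Fin.castSucc_lt_last i).not_gt]
    simp only [this]
  · have : (∀ k : Fin (N + 1), k < Fin.last N → s ≤ dist (x k) (x (Fin.last N))) ↔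
        (∀ k : Fin N, s ≤ dist (x (Fin.castSucc k)) (x (Fin.last N))) := by
      rw [Fin.forall_iff_castSucc]
      simp [Fin.castSucc_lt_last]
    simp only [this]

private theorem measurable_rootW (lam s : ℝ) (N : ℕ) :
    Measurable (fun x : Fin N → Pt => rootW lam s x) := by
  classical
  unfold rootW
  refine Finset.measurable_prod _ fun i _ => ?_
  refine Measurable.ite ?_ measurable_const measurable_const
  have : {x : Fin N → Pt | ∀ k : Fin N, k < i → s ≤ dist (x k) (x i)}
      = ⋂ k : Fin N, ⋂ _ : k < i, {x : Fin N → Pt | s ≤ dist (x k) (x i)} := by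
    ext x; simp
  rw [this]
  refine MeasurableSet.iInter fun k => MeasurableSet.iInter fun _ => ?_
  exact measurableSet_le measurable_const ((measurable_pi_apply _).dist (measurable_pi_apply _))

private theorem rootW_pos {lam : ℝ} (h0 : 0 < lam) (s : ℝ) {N : ℕ} (x : Fin N → Pt) :
    0 < rootW lam s x := by
  unfold rootW
  refine Finset.prod_pos fun i _ => ?_
  split_ifs <;> positivity

private theorem rootW_le_one {lam : ℝ} (h0 : 0 < lam) (h1 : lam ≤ 1) (s : ℝ) {N : ℕ}
    (x : Fin N → Pt) : rootW lam s x ≤ 1 := by
  unfold rootW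
  refine Finset.prod_le_one (fun i _ => ?_) (fun i _ => ?_)
  · split_ifs <;> positivity
  · split_ifs <;> linarith

private theorem rootW_lb {lam s L : ℝ} (h0 : 0 < lam) (h1 : lam ≤ 1) (hs : 0 < s) {N : ℕ}
    (x : Fin N → Pt) (hx : ∀ i, x i ∈ cube L) :
    lam ^ (packingNumber (L / s)) ≤ rootW lam s x := by
  classical
  unfold rootW
  rw [Finset.prod_ite, Finset.prod_const_one, mul_one, Finset.prod_const]
  refine pow_le_pow_of_le_one h0.le h1 ?_
  set R := Finset.univ.filter (fun i : Fin N => ∀ k : Fin N, k < i → s ≤ dist (x k) (x i)) with hR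
  have hsep : ∀ i ∈ R, ∀ k ∈ R, i ≠ k → s ≤ dist (x i) (x k) := by
    intro i hi k hk hik
    simp only [hR, Finset.mem_filter, Finset.mem_univ, true_and] at hi hk
    rcases lt_or_gt_of_ne hik with h | h
    · exact hk i h
    · rw [dist_comm]; exact hi k h
  have hinj : Set.InjOn x (R : Set (Fin N)) := by
    intro i hi k hk hik
    by_contra hne
    have := hsep i hi k hk hne
    rw [hik, dist_self] at this
    linarith
  rw [← Finset.card_image_of_injOn hinj]
  refine card_le_packingNumber hs _ ?_ ?_
  · intro y hy
    obtain ⟨i, -, rfl⟩ := Finset.mem_image.mp hy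
    exact hx i
  · intro y hy z hz hne
    obtain ⟨i, hi, rfl⟩ := Finset.mem_image.mp hy
    obtain ⟨k, hk, rfl⟩ := Finset.mem_image.mp hz
    exact hsep i hi k hk (fun h => hne (by rw [h]))

private theorem energy_nonneg {N : ℕ} (x : Fin N → Pt) : 0 ≤ energy b.v x :=
  Finset.sum_nonneg fun _ _ => b.hv0 _

/-- The integrand of `I_N`. -/
private noncomputable def intgd (lam s β : ℝ) {N : ℕ} (x : Fin N → Pt) : ℝ :=
  rootW lam s x * Real.exp (-β * energy b.v x)

private theorem integrable_intgd {β L lam s : ℝ} (hβ : 0 ≤ β) (hlam0 : 0 < lam) (hlam1 : lam ≤ 1)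
    (N : ℕ) :
    IntegrableOn (fun x : Fin N → Pt => intgd b lam s β x)
      (Set.pi Set.univ (fun _ => cube L)) := by
  refine Measure.integrableOn_of_bounded (M := 1) ?_ ?_ ?_
  · rw [volume_pi, Measure.pi_pi]
    simp only [Finset.prod_const, Finset.card_univ, Fintype.card_fin]
    exact ENNReal.pow_ne_top (volume_cube_ne_top L)
  · refine (((measurable_rootW lam s N)).mul
      (Real.measurable_exp.comp ((measurable_energy b.hv N).const_mul (-β)))).aestronglyMeasurable
  · refine Filter.Eventually.of_forall fun x => ?_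
    unfold intgd
    rw [Real.norm_of_nonneg (mul_nonneg (rootW_pos hlam0 s x).le (Real.exp_pos _).le)]
    have h1 := rootW_le_one hlam0 hlam1 s x
    have h2 : Real.exp (-β * energy b.v x) ≤ 1 := by
      apply Real.exp_le_one_iff.mpr
      have := energy_nonneg b x
      nlinarith
    have h3 := rootW_pos hlam0 s x
    have h4 := Real.exp_pos (-β * energy b.v x)
    nlinarith

/-- One-particle bound. -/
private theorem inner_forest {β L lam : ℝ} (hβ : 0 ≤ β) (hL : 0 < L) (hlam0 : 0 < lam)
    (hlam1 : lam ≤ 1) {N : ℕ} (x : Fin N → Pt) :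
    ∫ y in cube L, (if (∀ k : Fin N, 1 - b.ζ ≤ dist (x k) y) then lam else 1)
        * Real.exp (-β * ∑ k, b.v (dist (x k) y)) ≤
      lam * L ^ 3 + N * (ballVol b.r₀ + Real.exp (-β * b.U) * ballVol 1) := by
  classical
  have hsm : 1 - b.ζ ≤ 1 := by linarith [b.hζ0]
  have hr0pos : 0 < b.r₀ := by linarith [b.hd₀, b.hd₀₁, b.hd₁₂, b.hd₂]
  set E := Real.exp (-β * b.U) with hE
  have hE0 : 0 < E := Real.exp_pos _
  set f : Fin N → Pt → ℝ := fun k y =>
    (Metric.closedBall (x k) b.r₀).indicator 1 y + E * (Metric.ball (x k) 1).indicator 1 y with hf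
  have hf0 : ∀ k y, 0 ≤ f k y := by
    intro k y
    simp only [hf]
    have h1 : (0 : ℝ) ≤ (Metric.closedBall (x k) b.r₀).indicator 1 y :=
      Set.indicator_nonneg (fun _ _ => zero_le_one) _
    have h2 : (0 : ℝ) ≤ (Metric.ball (x k) 1).indicator 1 y :=
      Set.indicator_nonneg (fun _ _ => zero_le_one) _
    positivity
  have hind1 : ∀ k, Integrable ((Metric.closedBall (x k) b.r₀).indicator (1 : Pt → ℝ)) := by
    intro k
    exact (integrableOn_const (C := (1 : ℝ)) (measure_closedBall_lt_top.ne)).integrable_indicator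
      Metric.isClosed_closedBall.measurableSet
  have hind2 : ∀ k, Integrable ((Metric.ball (x k) 1).indicator (1 : Pt → ℝ)) := by
    intro k
    exact (integrableOn_const (C := (1 : ℝ)) (measure_ball_lt_top.ne)).integrable_indicator
      Metric.isOpen_ball.measurableSet
  have hfint : ∀ k, Integrable (f k) := fun k => (hind1 k).add ((hind2 k).const_mul _)
  have hfval : ∀ k, ∫ y, f k y = ballVol b.r₀ + E * ballVol 1 := by
    intro k
    simp only [hf]
    rw [integral_add (hind1 k) ((hind2 k).const_mul _), integral_const_mul,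
      integral_indicator_one Metric.isClosed_closedBall.measurableSet,
      integral_indicator_one Metric.isOpen_ball.measurableSet]
    have h1 : volume.real (Metric.closedBall (x k) b.r₀) = ballVol b.r₀ := by
      rw [← ballVol_ball (x k) b.r₀, Measure.real, Measure.real,
        Measure.addHaar_closedBall_eq_addHaar_ball]
    rw [h1, ballVol_ball]
  set g : Pt → ℝ := fun y => (if (∀ k : Fin N, 1 - b.ζ ≤ dist (x k) y) then lam else 1)
        * Real.exp (-β * ∑ k, b.v (dist (x k) y)) with hg
  have hvsum : ∀ y, 0 ≤ ∑ k, b.v (dist (x k) y) := fun y => Finset.sum_nonneg fun k _ => b.hv0 _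
  have hpt : ∀ y, g y ≤ lam + ∑ k, f k y := by
    intro y
    simp only [hg]
    by_cases hsep : ∀ k : Fin N, 1 - b.ζ ≤ dist (x k) y
    · rw [if_pos hsep]
      have h1 : Real.exp (-β * ∑ k, b.v (dist (x k) y)) ≤ 1 := by
        apply Real.exp_le_one_iff.mpr
        have := hvsum y
        nlinarith
      have h2 : 0 ≤ ∑ k, f k y := Finset.sum_nonneg fun k _ => hf0 k y
      nlinarith
    · rw [if_neg hsep, one_mul]
      push Not at hsep
      obtain ⟨k₀, hk₀⟩ := hsep
      have h1 : Real.exp (-β * ∑ k, b.v (dist (x k) y)) ≤ Real.exp (-β * b.v (dist (x k₀) y)) := by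
        apply Real.exp_le_exp.mpr
        have : b.v (dist (x k₀) y) ≤ ∑ k, b.v (dist (x k) y) :=
          Finset.single_le_sum (f := fun k => b.v (dist (x k) y)) (fun k _ => b.hv0 _)
            (Finset.mem_univ k₀)
        nlinarith
      have h2 : Real.exp (-β * b.v (dist (x k₀) y)) ≤ f k₀ y := by
        simp only [hf]
        by_cases hd : dist (x k₀) y ≤ b.r₀
        · have hmem : y ∈ Metric.closedBall (x k₀) b.r₀ := by
            rw [Metric.mem_closedBall, dist_comm]; exact hd
          rw [Set.indicator_of_mem hmem]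
          have h3 : (0 : ℝ) ≤ (Metric.ball (x k₀) 1).indicator 1 y :=
            Set.indicator_nonneg (fun _ _ => zero_le_one) _
          have h4 : Real.exp (-β * b.v (dist (x k₀) y)) ≤ 1 := by
            apply Real.exp_le_one_iff.mpr
            have := b.hv0 (dist (x k₀) y)
            nlinarith
          have h5 : 0 ≤ E * (Metric.ball (x k₀) 1).indicator 1 y := by positivity
          simp only [Pi.one_apply]
          linarith
        · have hd' : b.r₀ < dist (x k₀) y := not_le.mp hd
          have hU : b.U ≤ b.v (dist (x k₀) y) := b.hexp _ dist_nonneg hk₀ (Or.inr hd')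
          have hmem : y ∈ Metric.ball (x k₀) 1 := by
            rw [Metric.mem_ball, dist_comm]; linarith
          rw [Set.indicator_of_mem hmem]
          have h3 : (0 : ℝ) ≤ (Metric.closedBall (x k₀) b.r₀).indicator 1 y :=
            Set.indicator_nonneg (fun _ _ => zero_le_one) _
          have h4 : Real.exp (-β * b.v (dist (x k₀) y)) ≤ E := by
            apply Real.exp_le_exp.mpr
            nlinarith
          simp only [Pi.one_apply, mul_one]
          linarith
      have h3 : f k₀ y ≤ ∑ k, f k y :=
        Finset.single_le_sum (f := fun k => f k y) (fun k _ => hf0 k y) (Finset.mem_univ k₀)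
      linarith
  have hmeasg : Measurable g := by
    refine Measurable.mul ?_ ?_
    · refine Measurable.ite ?_ measurable_const measurable_const
      have : {y : Pt | ∀ k : Fin N, 1 - b.ζ ≤ dist (x k) y}
          = ⋂ k : Fin N, {y : Pt | 1 - b.ζ ≤ dist (x k) y} := by
        ext y; simp
      rw [this]
      refine MeasurableSet.iInter fun k => ?_
      exact measurableSet_le measurable_const (measurable_const.dist measurable_id)
    · refine Real.measurable_exp.comp (Measurable.const_mul ?_ _)
      exact Finset.measurable_sum _ fun k _ => b.hv.comp (measurable_const.dist measurable_id)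
  have hgint : IntegrableOn g (cube L) := by
    refine Measure.integrableOn_of_bounded (M := 1) (volume_cube_ne_top L) hmeasg.aestronglyMeasurable ?_
    refine Filter.Eventually.of_forall fun y => ?_
    simp only [hg]
    have h1 : Real.exp (-β * ∑ k, b.v (dist (x k) y)) ≤ 1 := by
      apply Real.exp_le_one_iff.mpr
      have := hvsum y
      nlinarith
    have h2 := Real.exp_pos (-β * ∑ k, b.v (dist (x k) y))
    split_ifs
    · rw [Real.norm_of_nonneg (by positivity)]
      nlinarith
    · rw [Real.norm_of_nonneg (by positivity)]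
      linarith
  have hsumint : Integrable (fun y => ∑ k, f k y) := integrable_finsetSum _ fun k _ => hfint k
  calc ∫ y in cube L, g y
      ≤ ∫ y in cube L, (lam + ∑ k, f k y) :=
        integral_mono_ae hgint ((integrableOn_const (volume_cube_ne_top L)).add hsumint.integrableOn)
          (Filter.Eventually.of_forall hpt)
    _ = lam * L ^ 3 + ∫ y in cube L, ∑ k, f k y := by
        have hc : IntegrableOn (fun _ : Pt => lam) (cube L) := integrableOn_const (volume_cube_ne_top L)
        have hs : IntegrableOn (fun y => ∑ k, f k y) (cube L) := hsumint.integrableOn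
        rw [integral_add hc hs,
          setIntegral_const, volume_cube L hL.le, smul_eq_mul, mul_comm]
    _ ≤ lam * L ^ 3 + ∫ y, ∑ k, f k y := by
        have := setIntegral_le_integral (s := cube L) hsumint
          (Filter.Eventually.of_forall fun y => Finset.sum_nonneg fun k _ => hf0 k y)
        linarith
    _ = lam * L ^ 3 + N * (ballVol b.r₀ + E * ballVol 1) := by
        rw [integral_finsetSum _ fun k _ => hfint k]
        simp only [hfval, Finset.sum_const, Finset.card_univ, Fintype.card_fin, nsmul_eq_mul]

/-- Forest bound: with the number of "roots" at most `n₊`, for `λ ∈ (0,1]`,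
`λ^{n₊} ∫ e^{-β E} ≤ ∏_{m<N} (λ L³ + m w)`, `w = |B_{r₀}| + e^{-β U} |B₁|`.  A particle is a root if
it has no earlier particle at distance `< 1-ζ`; recursion on `N` for
`I_N = ∫ λ^{#roots} e^{-β E}`, integrating out the last particle. -/
theorem forest_bound {β L lam : ℝ} (hβ : 0 ≤ β) (hL : 0 < L) (hlam0 : 0 < lam) (hlam1 : lam ≤ 1)
    (N : ℕ) :
    lam ^ (packingNumber (L / (1 - b.ζ))) *
        ∫ x in Set.pi Set.univ (fun _ : Fin N => cube L), Real.exp (-β * energy b.v x) ≤
      ∏ m ∈ Finset.range N,
        (lam * L ^ 3 + m * (ballVol b.r₀ + Real.exp (-β * b.U) * ballVol 1)) := by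
  classical
  have hs : 0 < 1 - b.ζ := by linarith [b.hζ1]
  set s := 1 - b.ζ with hsdef
  set w := ballVol b.r₀ + Real.exp (-β * b.U) * ballVol 1 with hw
  have hmeas := measurableSet_cube L
  -- recursion
  have hrec : ∀ N : ℕ, ∫ x in Set.pi Set.univ (fun _ : Fin N => cube L), intgd b lam s β x
      ≤ ∏ m ∈ Finset.range N, (lam * L ^ 3 + m * w) := by
    intro N
    induction N with
    | zero =>
      have h : Set.pi Set.univ (fun _ : Fin 0 => cube L) = Set.univ := by
        ext x; simp
      rw [h, Measure.restrict_univ, volume_pi, Measure.pi_of_empty, integral_dirac]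
      simp [intgd, rootW, energy]
    | succ N ih =>
      obtain ⟨-, hsplit⟩ := setIntegral_snoc hmeas (fun x : Fin (N + 1) → Pt => intgd b lam s β x)
        (integrable_intgd b hβ hlam0 hlam1 (N + 1))
      rw [hsplit, Finset.prod_range_succ]
      have hin : ∀ x : Fin N → Pt, ∫ y in cube L, intgd b lam s β (Fin.snoc (α := fun _ => Pt) x y)
          ≤ intgd b lam s β x * (lam * L ^ 3 + N * w) := by
        intro x
        have hfac : ∀ y, intgd b lam s β (Fin.snoc (α := fun _ => Pt) x y)
            = intgd b lam s β x * ((if (∀ k : Fin N, s ≤ dist (x k) y) then lam else 1)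
              * Real.exp (-β * ∑ k, b.v (dist (x k) y))) := by
          intro y
          unfold intgd
          rw [rootW_succ, energy_snoc']
          simp only [Fin.snoc_castSucc, Fin.snoc_last]
          rw [mul_add, Real.exp_add]
          ring
        simp only [hfac]
        rw [integral_const_mul]
        refine mul_le_mul_of_nonneg_left (inner_forest b hβ hL hlam0 hlam1 x) ?_
        exact mul_nonneg (rootW_pos hlam0 s x).le (Real.exp_pos _).le
      have hinner_int := (setIntegral_snoc hmeas (fun x : Fin (N + 1) → Pt => intgd b lam s β x)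
        (integrable_intgd b hβ hlam0 hlam1 (N + 1))).1
      have hw0 : 0 ≤ lam * L ^ 3 + N * w := by
        have : 0 ≤ w := by
          have h1 : 0 ≤ ballVol b.r₀ := by unfold ballVol; exact measureReal_nonneg
          have h2 : 0 ≤ ballVol 1 := by unfold ballVol; exact measureReal_nonneg
          have h3 := Real.exp_pos (-β * b.U)
          positivity
        positivity
      calc ∫ x in Set.pi Set.univ (fun _ : Fin N => cube L), ∫ y in cube L,
              intgd b lam s β (Fin.snoc (α := fun _ => Pt) x y)
          ≤ ∫ x in Set.pi Set.univ (fun _ : Fin N => cube L),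
              intgd b lam s β x * (lam * L ^ 3 + N * w) :=
            integral_mono_ae hinner_int ((integrable_intgd b hβ hlam0 hlam1 N).mul_const _)
              (Filter.Eventually.of_forall hin)
        _ = (∫ x in Set.pi Set.univ (fun _ : Fin N => cube L), intgd b lam s β x)
              * (lam * L ^ 3 + N * w) := integral_mul_const _ _
        _ ≤ _ := mul_le_mul_of_nonneg_right ih hw0
  refine le_trans ?_ (hrec N)
  rw [← integral_const_mul]
  refine setIntegral_mono_on ?_ (integrable_intgd b hβ hlam0 hlam1 N)
    (MeasurableSet.univ_pi fun _ => hmeas) ?_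
  · refine Integrable.const_mul ?_ _
    refine Measure.integrableOn_of_bounded (M := 1) ?_ ?_ ?_
    · rw [volume_pi, Measure.pi_pi]
      simp only [Finset.prod_const, Finset.card_univ, Fintype.card_fin]
      exact ENNReal.pow_ne_top (volume_cube_ne_top L)
    · exact (Real.measurable_exp.comp ((measurable_energy b.hv N).const_mul (-β))).aestronglyMeasurable
    · refine Filter.Eventually.of_forall fun x => ?_
      rw [Real.norm_of_nonneg (Real.exp_pos _).le]
      apply Real.exp_le_one_iff.mpr
      have := energy_nonneg b x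
      nlinarith
  · intro x hx
    have hx' : ∀ i, x i ∈ cube L := fun i => hx i (Set.mem_univ i)
    unfold intgd
    exact mul_le_mul_of_nonneg_right (rootW_lb hlam0 hlam1 hs x hx') (Real.exp_pos _).le

end BaseV
end Crest.Agent.Lib.Gas
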