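import Crest.Agent.Lib.Gas.Base2
import Crest.Agent.Lib.Gas.Base3

/-! # Gas F4: upper bounds per volume. -/
namespace Crest.Agent.Lib.Gas
open MeasureTheory Set Filter Topology
open Crest.ProbabilityR.Continuum

theorem log_factorial_ge (N : ℕ) :
    (N : ℝ) * Real.log N - N ≤ Real.log (N.factorial : ℝ) := by
  rcases Nat.eq_zero_or_pos N with rfl | hN
  · simp
  have hN' : (0 : ℝ) < N := by exact_mod_cast hN
  have hf : (0 : ℝ) < (N.factorial : ℝ) := by positivity
  have h := Real.pow_div_factorial_le_exp (N : ℝ) hN'.le N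
  have h2 := Real.log_le_log (by positivity) h
  rw [Real.log_exp, Real.log_div (by positivity) hf.ne', Real.log_pow] at h2
  linarith

theorem tendsto_floor_div {ρ : ℝ} (hρ : 0 ≤ ρ) :
    Tendsto (fun L : ℝ => ((⌊ρ * L ^ 3⌋₊ : ℕ) : ℝ) / L ^ 3) atTop (𝓝 ρ) :=
  (tendsto_nat_floor_mul_div_atTop hρ).comp (tendsto_pow_atTop (by norm_num))

namespace BaseV
variable (b : BaseV)

theorem energy_nonneg {N : ℕ} (x : Fin N → Pt) : 0 ≤ energy b.v x :=
  Finset.sum_nonneg fun _ _ => b.hv0 _

theorem energy_ge_max {L : ℝ} {N : ℕ} (x : Fin N → Pt) (hx : ∀ i, x i ∈ cube L) :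
    b.U * max ((N : ℝ) - b.K * packingNumber (L / (1 - b.ζ))) 0 ≤ energy b.v x := by
  rcases le_total ((N : ℝ) - b.K * packingNumber (L / (1 - b.ζ))) 0 with h | h
  · rw [max_eq_right h, mul_zero]
    exact b.energy_nonneg x
  · rw [max_eq_left h]
    exact b.energy_penalty x hx

theorem tendsto_nplus {p : ℝ}
    (hp : Tendsto (fun L : ℝ => (packingNumber L : ℝ) / L ^ 3) atTop (𝓝 p)) :
    Tendsto (fun L : ℝ => (packingNumber (L / (1 - b.ζ)) : ℝ) / L ^ 3) atTop
      (𝓝 (p / (1 - b.ζ) ^ 3)) := by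
  have hz : 0 < 1 - b.ζ := by linarith [b.hζ1]
  have h1 := hp.comp (tendsto_id.atTop_div_const hz)
  have h2 := h1.div_const ((1 - b.ζ) ^ 3)
  refine h2.congr' ?_
  filter_upwards [eventually_gt_atTop (0 : ℝ)] with L hL
  simp only [Function.comp, id]
  field_simp

/-- From a bound on the integral to a bound on `Psi`. -/
theorem Psi_le_of_bound {β ρ A lam κ pp : ℝ} (hβ : 0 ≤ β) (hρ : 0 < ρ) (hlam : 0 < lam) (hκ : 0 < κ)
    (hpp : Tendsto (fun L : ℝ => (packingNumber (L / (1 - b.ζ)) : ℝ) / L ^ 3) atTop (𝓝 pp))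
    (hI : ∀ L : ℝ, 0 < L → lam ^ packingNumber (L / (1 - b.ζ)) *
        ∫ x in Set.pi Set.univ (fun _ : Fin ⌊ρ * L ^ 3⌋₊ => cube L), Real.exp (-β * energy b.v x)
      ≤ Real.exp (-A * max (((⌊ρ * L ^ 3⌋₊ : ℕ) : ℝ) - b.K * packingNumber (L / (1 - b.ζ))) 0) *
          (κ * L ^ 3) ^ ⌊ρ * L ^ 3⌋₊) :
    Psi b.v β ρ ≤ -A * max (ρ - b.K * pp) 0 - pp * Real.log lam
      + ρ * (Real.log κ - Real.log ρ + 1) := by
  have hlim := b.admissible.tendsto hβ hρ.le
  have ha := tendsto_floor_div hρ.le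
  set a : ℝ → ℝ := fun L : ℝ => ((⌊ρ * L ^ 3⌋₊ : ℕ) : ℝ) / L ^ 3 with haDef
  set c : ℝ → ℝ := fun L : ℝ => (packingNumber (L / (1 - b.ζ)) : ℝ) / L ^ 3 with hcDef
  have hbd : Tendsto (fun L : ℝ => -A * max (a L - b.K * c L) 0 - c L * Real.log lam
      + a L * (Real.log κ - Real.log (a L) + 1)) atTop
      (𝓝 (-A * max (ρ - b.K * pp) 0 - pp * Real.log lam
      + ρ * (Real.log κ - Real.log ρ + 1))) := by
    have h1 : Tendsto (fun L : ℝ => max (a L - b.K * c L) 0) atTop (𝓝 (max (ρ - b.K * pp) 0)) :=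
      (ha.sub (hpp.const_mul _)).max tendsto_const_nhds
    have h2 := ha.log hρ.ne'
    exact ((h1.const_mul _).sub (hpp.mul_const _)).add
      (ha.mul ((h2.const_sub _).add tendsto_const_nhds))
  refine le_of_tendsto_of_tendsto hlim hbd ?_
  have hNpos : ∀ᶠ L : ℝ in atTop, 0 < a L := ha.eventually (lt_mem_nhds hρ)
  filter_upwards [eventually_gt_atTop (0 : ℝ), hNpos] with L hL haL
  set N := ⌊ρ * L ^ 3⌋₊ with hN
  set n := packingNumber (L / (1 - b.ζ)) with hn
  have hL3 : 0 < L ^ 3 := by positivity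
  have hNR : (0 : ℝ) < N := by
    by_contra hcon
    have h0 : (N : ℝ) = 0 := le_antisymm (not_lt.mp hcon) (Nat.cast_nonneg _)
    simp only [haDef] at haL
    rw [h0, zero_div] at haL
    exact lt_irrefl _ haL
  have hZpos := b.admissible.zpos hβ hL N
  have hfac : (0 : ℝ) < (N.factorial : ℝ) := by positivity
  set I := ∫ x in Set.pi Set.univ (fun _ : Fin N => cube L), Real.exp (-β * energy b.v x) with hIdef
  have hZ : partitionFn b.v L N β = I / (N.factorial : ℝ) := by
    rw [partitionFn]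
    ring
  have hIpos : 0 < I := by
    rw [hZ] at hZpos
    exact (div_pos_iff_of_pos_right hfac).mp hZpos
  have hIb : lam ^ n * I ≤ Real.exp (-A * max ((N : ℝ) - b.K * n) 0) * (κ * L ^ 3) ^ N := hI L hL
  have hlog1 := Real.log_le_log (by positivity) hIb
  rw [Real.log_mul (by positivity) hIpos.ne', Real.log_pow,
    Real.log_mul (Real.exp_pos _).ne' (by positivity), Real.log_exp, Real.log_pow,
    Real.log_mul hκ.ne' hL3.ne'] at hlog1
  have hfacl := log_factorial_ge N
  have haN : (N : ℝ) = a L * L ^ 3 := by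
    simp only [haDef]
    field_simp
    rfl
  have hcN : (n : ℝ) = c L * L ^ 3 := by
    simp only [hcDef]
    field_simp
    rfl
  have hmax : max ((N : ℝ) - b.K * n) 0 = L ^ 3 * max (a L - b.K * c L) 0 := by
    rw [mul_max_of_nonneg _ _ hL3.le, mul_zero]
    congr 1
    rw [haN, hcN]
    ring
  have hloga : Real.log (a L) = Real.log N - Real.log (L ^ 3) := by
    simp only [haDef]
    rw [Real.log_div hNR.ne' hL3.ne']
  rw [hZ, Real.log_div hIpos.ne' hfac.ne', div_le_iff₀ hL3, hloga]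
  rw [hmax] at hlog1
  have hgoal : (-A * max (a L - b.K * c L) 0 - c L * Real.log lam +
        a L * (Real.log κ - (Real.log N - Real.log (L ^ 3)) + 1)) * L ^ 3 =
      -A * (L ^ 3 * max (a L - b.K * c L) 0) - (c L * L ^ 3) * Real.log lam +
        (a L * L ^ 3) * (Real.log κ + Real.log (L ^ 3)) -
          ((a L * L ^ 3) * Real.log N - (a L * L ^ 3)) := by
    ring
  rw [hgoal, ← haN, ← hcN]
  linarith

/-- Per-volume form of the upper bound for `pp ≤ ρ`, `ρ w ≤ 1`, `w` at `β/2`. -/
theorem Psi_ub_mid {p β ρ : ℝ} (hp : Tendsto (fun L : ℝ => (packingNumber L : ℝ) / L ^ 3) atTop (𝓝 p))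
    (hp0 : 0 < p) (hβ : 0 ≤ β) (hρ : p / (1 - b.ζ) ^ 3 ≤ ρ)
    (hw : ρ * (ballVol b.r₀ + Real.exp (-(β / 2) * b.U) * ballVol 1) ≤ 1) :
    Psi b.v β ρ ≤ -(β * b.U / 2) * max (ρ - b.K * (p / (1 - b.ζ) ^ 3)) 0
      + ρ * Real.log (2 * Real.exp 1) + (p / (1 - b.ζ) ^ 3) * Real.log (1 / ρ)
      + (ρ - p / (1 - b.ζ) ^ 3) * Real.log (ballVol b.r₀ + Real.exp (-(β / 2) * b.U) * ballVol 1) := by
  have hz : 0 < 1 - b.ζ := by linarith [b.hζ1]
  have hρpos : 0 < ρ := lt_of_lt_of_le (by positivity) hρ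
  have hr₀ : 0 < b.r₀ := by linarith [b.hd₀, b.hd₀₁, b.hd₁₂, b.hd₂]
  set w := ballVol b.r₀ + Real.exp (-(β / 2) * b.U) * ballVol 1 with hwdef
  have hwpos : 0 < w := by
    have h1 : 0 < ballVol b.r₀ := by
      rw [ballVol_eq _ hr₀.le]
      exact mul_pos ballVol_one_pos (by positivity)
    have h2 := ballVol_one_pos
    positivity
  have hlam : 0 < ρ * w := by positivity
  have hβ2 : 0 ≤ β / 2 := by positivity
  have hκ : 0 < 2 * (ρ * w) := by positivity
  have key := b.Psi_le_of_bound (A := β * b.U / 2) (lam := ρ * w) (κ := 2 * (ρ * w)) hβ hρpos hlam hκ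
    (b.tendsto_nplus hp) ?_
  · refine key.trans (le_of_eq ?_)
    rw [Real.log_mul (by norm_num) hlam.ne', Real.log_mul hρpos.ne' hwpos.ne',
      Real.log_mul (by norm_num) (Real.exp_pos _).ne', Real.log_exp, Real.log_div one_ne_zero hρpos.ne',
      Real.log_one]
    ring
  · intro L hL
    set N := ⌊ρ * L ^ 3⌋₊ with hN
    set n := packingNumber (L / (1 - b.ζ)) with hn
    have hL3 : 0 < L ^ 3 := by positivity
    set S := Set.pi Set.univ (fun _ : Fin N => cube L) with hS
    have hSm : MeasurableSet S := MeasurableSet.univ_pi fun _ => measurableSet_cube L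
    have hcm := measurableSet_cube L
    have hcf := volume_cube_ne_top L
    have hint1 := integrableOn_boltz (N := N) b.admissible.hφ b.admissible.hst hβ hcm hcf
    have hint2 := integrableOn_boltz (N := N) b.admissible.hφ b.admissible.hst hβ2 hcm hcf
    set M := max ((N : ℝ) - b.K * n) 0 with hM
    -- penalty
    have hpen : ∫ x in S, Real.exp (-β * energy b.v x) ≤
        Real.exp (-(β * b.U / 2) * M) * ∫ x in S, Real.exp (-(β / 2) * energy b.v x) := by
      rw [← integral_const_mul]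
      refine setIntegral_mono_on hint1 (hint2.const_mul _) hSm fun x hx => ?_
      rw [← Real.exp_add]
      apply Real.exp_le_exp.2
      have h1 := b.energy_ge_max (L := L) x (fun i => hx i (Set.mem_univ i))
      have h2 : (β / 2) * (b.U * M) ≤ (β / 2) * energy b.v x :=
        mul_le_mul_of_nonneg_left h1 hβ2
      nlinarith
    -- forest
    have hforest := b.forest_bound (β := β / 2) (lam := ρ * w) hβ2 hL hlam hw N
    have hprod : ∏ m ∈ Finset.range N, (ρ * w * L ^ 3 + m * w) ≤ (2 * (ρ * w) * L ^ 3) ^ N := by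
      calc ∏ m ∈ Finset.range N, (ρ * w * L ^ 3 + m * w)
          ≤ ∏ _m ∈ Finset.range N, (2 * (ρ * w) * L ^ 3) := by
            refine Finset.prod_le_prod (fun m _ => by positivity) fun m hm => ?_
            have hm' : (m : ℝ) ≤ ρ * L ^ 3 := by
              have h1 : (m : ℝ) ≤ N := by
                exact_mod_cast (Finset.mem_range.mp hm).le
              exact h1.trans (Nat.floor_le (by positivity))
            have := mul_le_mul_of_nonneg_right hm' hwpos.le
            nlinarith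
        _ = (2 * (ρ * w) * L ^ 3) ^ N := by
            rw [Finset.prod_const, Finset.card_range]
    have hexp : 0 < Real.exp (-(β * b.U / 2) * M) := Real.exp_pos _
    calc (ρ * w) ^ n * ∫ x in S, Real.exp (-β * energy b.v x)
        ≤ (ρ * w) ^ n * (Real.exp (-(β * b.U / 2) * M) *
            ∫ x in S, Real.exp (-(β / 2) * energy b.v x)) :=
          mul_le_mul_of_nonneg_left hpen (by positivity)
      _ = Real.exp (-(β * b.U / 2) * M) *
            ((ρ * w) ^ n * ∫ x in S, Real.exp (-(β / 2) * energy b.v x)) := by ring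
      _ ≤ Real.exp (-(β * b.U / 2) * M) * (2 * (ρ * w) * L ^ 3) ^ N :=
          mul_le_mul_of_nonneg_left (hforest.trans hprod) hexp.le

/-- Per-volume form of the penalty, all `ρ > 0`. -/
theorem Psi_ub_high {p β ρ : ℝ} (hp : Tendsto (fun L : ℝ => (packingNumber L : ℝ) / L ^ 3) atTop (𝓝 p))
    (hβ : 0 ≤ β) (hρ : 0 < ρ) :
    Psi b.v β ρ ≤ -(β * b.U) * max (ρ - b.K * (p / (1 - b.ζ) ^ 3)) 0 + ρ * (1 - Real.log ρ) := by
  have key := b.Psi_le_of_bound (A := β * b.U) (lam := 1) (κ := 1) hβ hρ one_pos one_pos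
    (b.tendsto_nplus hp) ?_
  · refine key.trans (le_of_eq ?_)
    rw [Real.log_one]
    ring
  · intro L hL
    set N := ⌊ρ * L ^ 3⌋₊ with hN
    set n := packingNumber (L / (1 - b.ζ)) with hn
    have hL3 : 0 < L ^ 3 := by positivity
    set S := Set.pi Set.univ (fun _ : Fin N => cube L) with hS
    have hSm : MeasurableSet S := MeasurableSet.univ_pi fun _ => measurableSet_cube L
    have hcm := measurableSet_cube L
    have hcf := volume_cube_ne_top L
    have hint1 := integrableOn_boltz (N := N) b.admissible.hφ b.admissible.hst hβ hcm hcf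
    set M := max ((N : ℝ) - b.K * n) 0 with hM
    have hSvol : volume S ≠ ⊤ := by
      rw [hS, volume_pi_pi]
      exact ENNReal.prod_ne_top fun _ _ => hcf
    have hSreal : volume.real S = (L ^ 3) ^ N := by
      rw [Measure.real, hS, volume_pi_pi, ENNReal.toReal_prod]
      simp only [Finset.prod_const, Finset.card_univ, Fintype.card_fin]
      congr 1
      exact volume_cube L hL.le
    have hconst : IntegrableOn (fun _ : Fin N → Pt => Real.exp (-(β * b.U) * M)) S :=
      integrableOn_const hSvol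
    rw [one_pow, one_mul, one_mul]
    calc ∫ x in S, Real.exp (-β * energy b.v x)
        ≤ ∫ _x in S, Real.exp (-(β * b.U) * M) := by
          refine setIntegral_mono_on hint1 hconst hSm fun x hx => ?_
          apply Real.exp_le_exp.2
          have h1 := b.energy_ge_max (L := L) x (fun i => hx i (Set.mem_univ i))
          have h2 := mul_le_mul_of_nonneg_left h1 hβ
          nlinarith
      _ = Real.exp (-(β * b.U) * M) * (L ^ 3) ^ N := by
          rw [setIntegral_const, smul_eq_mul, hSreal]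
          ring

end BaseV
end Crest.Agent.Lib.Gas
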