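import Crest.Agent.Lib.Gas.BaseDefs

/-! # Gas F5: cluster lower bound. -/
namespace Crest.Agent.Lib.Gas
open MeasureTheory Set Filter Topology
open Crest.ProbabilityR.Continuum

/-- The set of configurations of a cluster at `c`. -/
def clusterSet (c : Pt) (r₁ r₂ : ℝ) {k : ℕ} (y : Fin (k + 1) → Pt) : Set (Fin (k + 1) → Pt) :=
  {x | x 0 ∈ Metric.ball c r₁ ∧ ∀ a : Fin k, x a.succ ∈ Metric.ball (x 0 + y a.succ) r₂}

theorem measurableSet_clusterSet (c : Pt) (r₁ r₂ : ℝ) {k : ℕ} (y : Fin (k + 1) → Pt) :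
    MeasurableSet (clusterSet c r₁ r₂ y) := by
  apply IsOpen.measurableSet
  have h1 : IsOpen {x : Fin (k + 1) → Pt | x 0 ∈ Metric.ball c r₁} :=
    Metric.isOpen_ball.preimage (continuous_apply 0)
  have h2 : ∀ a : Fin k, IsOpen {x : Fin (k + 1) → Pt | x a.succ ∈ Metric.ball (x 0 + y a.succ) r₂} := by
    intro a
    simp only [Metric.mem_ball]
    exact isOpen_lt ((continuous_apply _).dist ((continuous_apply _).add continuous_const))
      continuous_const
  have h3 : clusterSet c r₁ r₂ y = {x : Fin (k + 1) → Pt | x 0 ∈ Metric.ball c r₁} ∩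
      ⋂ a : Fin k, {x : Fin (k + 1) → Pt | x a.succ ∈ Metric.ball (x 0 + y a.succ) r₂} := by
    ext x
    simp [clusterSet]
  rw [h3]
  exact h1.inter (isOpen_iInter_of_finite h2)

theorem volume_clusterSet (c : Pt) (r₁ r₂ : ℝ) {k : ℕ} (y : Fin (k + 1) → Pt) :
    volume (clusterSet c r₁ r₂ y) =
      volume (Metric.ball (0 : Pt) r₂) ^ k * volume (Metric.ball (0 : Pt) r₁) := by
  let α : Fin (k + 1) → Type := fun _ => Pt
  let T := MeasurableEquiv.piFinSuccAbove α 0
  have hT : MeasurePreserving T := volume_preserving_piFinSuccAbove α 0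
  let S' : Set (Pt × (Fin k → Pt)) :=
    {p | p.1 ∈ Metric.ball c r₁ ∧ ∀ a : Fin k, p.2 a ∈ Metric.ball (p.1 + y a.succ) r₂}
  have hS'm : MeasurableSet S' := by
    apply IsOpen.measurableSet
    have h1 : IsOpen {p : Pt × (Fin k → Pt) | p.1 ∈ Metric.ball c r₁} :=
      Metric.isOpen_ball.preimage continuous_fst
    have h2 : ∀ a : Fin k, IsOpen {p : Pt × (Fin k → Pt) | p.2 a ∈ Metric.ball (p.1 + y a.succ) r₂} := by
      intro a
      simp only [Metric.mem_ball]
      exact isOpen_lt (((continuous_apply a).comp continuous_snd).dist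
        (continuous_fst.add continuous_const)) continuous_const
    have h3 : S' = {p : Pt × (Fin k → Pt) | p.1 ∈ Metric.ball c r₁} ∩
        ⋂ a : Fin k, {p : Pt × (Fin k → Pt) | p.2 a ∈ Metric.ball (p.1 + y a.succ) r₂} := by
      ext x
      simp [S']
    rw [h3]
    exact h1.inter (isOpen_iInter_of_finite h2)
  have hpre : T ⁻¹' S' = clusterSet c r₁ r₂ y := by
    ext x
    simp only [S', T, clusterSet, Set.mem_preimage]
    simp [MeasurableEquiv.piFinSuccAbove]
    exact Iff.rfl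
  rw [← hpre, hT.measure_preimage hS'm.nullMeasurableSet, Measure.volume_eq_prod,
    Measure.prod_apply hS'm]
  have hslice : ∀ x : Pt, volume (Prod.mk x ⁻¹' S') =
      (Metric.ball c r₁).indicator (fun _ => volume (Metric.ball (0 : Pt) r₂) ^ k) x := by
    intro x
    by_cases hx : x ∈ Metric.ball c r₁
    · rw [Set.indicator_of_mem hx]
      have : Prod.mk x ⁻¹' S' = Set.pi Set.univ (fun a : Fin k => Metric.ball (x + y a.succ) r₂) := by
        ext z
        simp only [S', Set.mem_preimage, Set.mem_pi, Set.mem_univ, true_imp_iff]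
        exact ⟨fun h => h.2, fun h => ⟨hx, h⟩⟩
      rw [this, volume_pi_pi]
      simp only [Measure.addHaar_ball_center]
      simp
    · rw [Set.indicator_of_notMem hx]
      have : Prod.mk x ⁻¹' S' = ∅ := by
        ext z
        simp only [S', Set.mem_preimage, Set.mem_empty_iff_false, iff_false]
        exact fun h => hx h.1
      rw [this, measure_empty]
  simp only [hslice]
  rw [lintegral_indicator_const Metric.isOpen_ball.measurableSet,
    Measure.addHaar_ball_center volume c r₁]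

theorem volume_real_clusterSet (c : Pt) (r₁ r₂ : ℝ) {k : ℕ} (y : Fin (k + 1) → Pt) :
    volume.real (clusterSet c r₁ r₂ y) = ballVol r₁ * ballVol r₂ ^ k := by
  rw [Measure.real, volume_clusterSet, ENNReal.toReal_mul, ENNReal.toReal_pow, ballVol, ballVol,
    Measure.real, Measure.real]
  ring

namespace BaseV
variable (b : BaseV)

theorem r₀_pos : 0 < b.r₀ := by
  linarith [b.hd₀, b.hd₀₁, b.hd₁₂, b.hd₂]

/-- Energy vanishes on the cluster set, and the cluster set lies in the ball. -/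
theorem cluster_props {r₁ r₂ : ℝ} (hr₂ : 0 < r₂) (k : ℕ) (y : Fin (k + 1) → Pt) (hy0 : y 0 = 0)
    (hy : ∀ a c, a ≠ c → b.d₁ + 2 * r₂ ≤ dist (y a) (y c) ∧ dist (y a) (y c) + 2 * r₂ ≤ b.d₂)
    (c : Pt) {x : Fin (k + 1) → Pt} (hx : x ∈ clusterSet c r₁ r₂ y) :
    energy b.v x = 0 ∧ ∀ a, x a ∈ Metric.ball c (r₁ + b.r₀) := by
  have hr₀ := b.r₀_pos
  obtain ⟨hx0, hxa⟩ := hx
  have hdev : ∀ a, dist (x a) (x 0 + y a) ≤ r₂ := by
    intro a
    refine Fin.cases ?_ (fun a => ?_) a
    · simp [hy0, hr₂.le]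
    · exact (Metric.mem_ball.mp (hxa a)).le
  have hdev' : ∀ a : Fin (k + 1), a ≠ 0 → dist (x a) (x 0 + y a) < r₂ := by
    intro a ha
    obtain ⟨a, rfl⟩ := Fin.exists_succ_eq.mpr ha
    exact Metric.mem_ball.mp (hxa a)
  constructor
  · unfold energy
    refine Finset.sum_eq_zero fun p _ => ?_
    have hne : p.1.1 ≠ p.1.2 := ne_of_lt p.2
    obtain ⟨h1, h2⟩ := hy p.1.1 p.1.2 hne
    set a := p.1.1
    set e := p.1.2
    have hyd : dist (x 0 + y a) (x 0 + y e) = dist (y a) (y e) := dist_add_left _ _ _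
    apply b.hband
    · have t1 := dist_triangle4 (x 0 + y a) (x a) (x e) (x 0 + y e)
      have t2 := hdev a
      have t3 := hdev e
      rw [dist_comm] at t2
      rw [hyd] at t1
      linarith
    · have t1 := dist_triangle4 (x a) (x 0 + y a) (x 0 + y e) (x e)
      have t2 := hdev a
      have t3 := hdev e
      rw [dist_comm] at t3
      rw [hyd] at t1
      linarith
  · intro a
    rw [Metric.mem_ball] at hx0 ⊢
    by_cases ha : a = 0
    · subst ha
      linarith
    · have t1 := hdev' a ha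
      have t2 := (hy a 0 ha).2
      rw [hy0, dist_zero_right] at t2
      have t3 : dist (x 0 + y a) (x 0) = ‖y a‖ := by
        rw [dist_eq_norm]
        simp
      have t4 := dist_triangle4 (x a) (x 0 + y a) (x 0) c
      have t5 := b.hd₂
      linarith

/-- One-site bound. -/
theorem one_site {β r₁ r₂ : ℝ} (hβ : 0 ≤ β) (hr₂ : 0 < r₂) (k : ℕ) (y : Fin (k + 1) → Pt)
    (hy0 : y 0 = 0)
    (hy : ∀ a c, a ≠ c → b.d₁ + 2 * r₂ ≤ dist (y a) (y c) ∧ dist (y a) (y c) + 2 * r₂ ≤ b.d₂)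
    (c : Pt) :
    ballVol r₁ * ballVol r₂ ^ k / ((k + 1).factorial : ℝ) ≤
      zD b.v (Metric.ball c (r₁ + b.r₀)) (k + 1) β := by
  set D := Metric.ball c (r₁ + b.r₀) with hD
  have hDm : MeasurableSet D := Metric.isOpen_ball.measurableSet
  have hDfin : volume D ≠ ⊤ := measure_ball_lt_top.ne
  have hint := integrableOn_boltz (N := k + 1) b.admissible.hφ b.admissible.hst hβ hDm hDfin
  set S := clusterSet c r₁ r₂ y with hS
  have hSm : MeasurableSet S := measurableSet_clusterSet c r₁ r₂ y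
  have hsub : S ⊆ Set.pi Set.univ (fun _ : Fin (k + 1) => D) := fun x hx a _ =>
    (b.cluster_props hr₂ k y hy0 hy c hx).2 a
  have hmono : ∫ x in S, Real.exp (-β * energy b.v x) ≤
      ∫ x in Set.pi Set.univ (fun _ : Fin (k + 1) => D), Real.exp (-β * energy b.v x) :=
    setIntegral_mono_set hint (Filter.Eventually.of_forall fun x => (Real.exp_pos _).le)
      (Filter.Eventually.of_forall hsub)
  have hval : ∫ x in S, Real.exp (-β * energy b.v x) = ballVol r₁ * ballVol r₂ ^ k := by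
    rw [setIntegral_congr_fun (g := fun _ => (1 : ℝ)) hSm, setIntegral_const, smul_eq_mul, mul_one,
      hS, volume_real_clusterSet]
    intro x hx
    simp [(b.cluster_props hr₂ k y hy0 hy c hx).1]
  rw [hval] at hmono
  rw [zD, div_eq_mul_inv, mul_comm, ← one_div]
  have hf : (0 : ℝ) < ((k + 1).factorial : ℝ) := by positivity
  exact mul_le_mul_of_nonneg_left hmono (by positivity)

/-- Finite volume lower bound. -/
theorem Z_cluster {β r₁ r₂ s L : ℝ} (hβ : 0 ≤ β) (hr₁ : 0 < r₁) (hr₂ : 0 < r₂)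
    (hs : 1 + 2 * r₁ + 2 * b.r₀ ≤ s)
    (k : ℕ) (y : Fin (k + 1) → Pt) (hy0 : y 0 = 0)
    (hy : ∀ a c, a ≠ c → b.d₁ + 2 * r₂ ≤ dist (y a) (y c) ∧ dist (y a) (y c) + 2 * r₂ ≤ b.d₂)
    (hL : 2 * (r₁ + b.r₀) ≤ L) :
    (ballVol r₁ * ballVol r₂ ^ k / ((k + 1).factorial : ℝ)) ^
        packingNumber ((L - 2 * (r₁ + b.r₀)) / s) ≤
      partitionFn b.v L (packingNumber ((L - 2 * (r₁ + b.r₀)) / s) * (k + 1)) β := by
  have hr₀ := b.r₀_pos
  have hspos : 0 < s := by linarith
  set r := r₁ + b.r₀ with hr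
  have hrpos : 0 < r := by linarith
  obtain ⟨X, hXcard, hXcube, hXsep⟩ := exists_packing (L := L - 2 * r) hspos (by linarith)
  rw [← hXcard]
  let t : Pt := WithLp.toLp 2 (fun _ => r)
  have htc : ∀ j, t j = r := fun j => rfl
  let D : Pt → Set Pt := fun x => Metric.ball (x + t) r
  have hDm : ∀ c ∈ X, MeasurableSet (D c) := fun c _ => Metric.isOpen_ball.measurableSet
  have hDfin : ∀ c ∈ X, volume (D c) ≠ ⊤ := fun c _ => measure_ball_lt_top.ne
  have hdist : ∀ c ∈ X, ∀ c' ∈ X, c ≠ c' → s ≤ dist (c + t) (c' + t) := by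
    intro c hc c' hc' hne
    rw [dist_add_right]
    exact hXsep c hc c' hc' hne
  have hdisj : ∀ c ∈ X, ∀ c' ∈ X, c ≠ c' → Disjoint (D c) (D c') := by
    intro c hc c' hc' hne
    apply Metric.ball_disjoint_ball
    have := hdist c hc c' hc' hne
    linarith
  have hcross : ∀ c ∈ X, ∀ c' ∈ X, c ≠ c' → ∀ x ∈ D c, ∀ y ∈ D c', b.v (dist x y) ≤ 0 := by
    intro c hc c' hc' hne x hx x' hx'
    have h1 := hdist c hc c' hc' hne
    have h2 := dist_triangle4 (c + t) x x' (c' + t)
    rw [Metric.mem_ball] at hx hx'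
    rw [dist_comm] at hx
    apply le_of_eq
    apply b.hvfar
    linarith
  have hsplit := zD_split_finset (n := fun _ => k + 1) b.admissible.hφ b.admissible.hst hβ X D hDm
    hDfin hdisj hcross
  rw [Finset.sum_const, smul_eq_mul] at hsplit
  have hsubc : (⋃ c ∈ X, D c) ⊆ cube L := by
    intro z hz
    simp only [Set.mem_iUnion, exists_prop] at hz
    obtain ⟨c, hc, hz⟩ := hz
    intro j
    have h0 := hXcube c hc j
    have h1 : |z j - (c + t) j| ≤ dist z (c + t) := by
      rw [dist_eq_norm, ← Real.norm_eq_abs]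
      exact PiLp.norm_apply_le (z - (c + t)) j
    have h2 : dist z (c + t) < r := Metric.mem_ball.mp hz
    have h3 : (c + t) j = c j + r := rfl
    rw [h3] at h1
    have h4 := abs_lt.mp (lt_of_le_of_lt h1 h2)
    constructor <;> linarith [h0.1, h0.2, h4.1, h4.2]
  have hmono := zD_mono (N := X.card * (k + 1)) b.admissible.hφ b.admissible.hst hβ
    (measurableSet_cube L) (volume_cube_ne_top L)
    (Finset.measurableSet_biUnion X hDm) hsubc
  rw [partitionFn_eq_zD]
  refine le_trans ?_ (hsplit.trans hmono)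
  have hw0 : 0 ≤ ballVol r₁ * ballVol r₂ ^ k / ((k + 1).factorial : ℝ) := by
    have h1 : 0 ≤ ballVol r₁ := measureReal_nonneg
    have h2 : 0 ≤ ballVol r₂ := measureReal_nonneg
    positivity
  calc (ballVol r₁ * ballVol r₂ ^ k / ((k + 1).factorial : ℝ)) ^ X.card
      = ∏ _c ∈ X, (ballVol r₁ * ballVol r₂ ^ k / ((k + 1).factorial : ℝ)) := by
        rw [Finset.prod_const]
    _ ≤ ∏ c ∈ X, zD b.v (D c) (k + 1) β :=
        Finset.prod_le_prod (fun _ _ => hw0)
          (fun c _ => b.one_site hβ hr₂ k y hy0 hy (c + t))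

/-- Cluster lower bound: `k ≥ 1` particles per site, the first in `B(c, r₁)`, the others in
`B(x₁ + y_a, r₂)`; sites with separation `s`.  `Z(L, k n) ≥ [|B_{r₁}| |B_{r₂}|^{k-1} / k!]^n`;
`n = packingNumber ((L - 2 r)/s)` sites, `r = r₁ + r₀`; via `Admissible.fv` and continuity in `ρ`. -/
theorem Psi_lb_cluster {p β r₁ r₂ s : ℝ} (hp : Tendsto (fun L : ℝ => (packingNumber L : ℝ) / L ^ 3) atTop (𝓝 p))
    (hp0 : 0 < p) (hβ : 0 ≤ β) (hr₁ : 0 < r₁) (hr₂ : 0 < r₂) (hs : 1 + 2 * r₁ + 2 * b.r₀ ≤ s)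
    (k : ℕ) (y : Fin (k + 1) → Pt) (hy0 : y 0 = 0)
    (hy : ∀ a c, a ≠ c → b.d₁ + 2 * r₂ ≤ dist (y a) (y c) ∧ dist (y a) (y c) + 2 * r₂ ≤ b.d₂) :
    (p / s ^ 3) * (Real.log (ballVol r₁) + k * Real.log (ballVol r₂)
        - Real.log ((k + 1).factorial)) ≤
      Psi b.v β ((k + 1) * (p / s ^ 3)) := by
  have hr₀ := b.r₀_pos
  have hspos : 0 < s := by linarith
  have hV1 : 0 < ballVol r₁ := by
    rw [ballVol_eq r₁ hr₁.le]
    exact mul_pos ballVol_one_pos (by positivity)
  have hV2 : 0 < ballVol r₂ := by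
    rw [ballVol_eq r₂ hr₂.le]
    exact mul_pos ballVol_one_pos (by positivity)
  set r := r₁ + b.r₀ with hr
  set C := Real.log (ballVol r₁) + k * Real.log (ballVol r₂) - Real.log ((k + 1).factorial) with hC
  have hf : (0 : ℝ) < ((k + 1).factorial : ℝ) := by positivity
  have hw : 0 < ballVol r₁ * ballVol r₂ ^ k / ((k + 1).factorial : ℝ) := by positivity
  have hlogw : Real.log (ballVol r₁ * ballVol r₂ ^ k / ((k + 1).factorial : ℝ)) = C := by
    rw [Real.log_div (by positivity) hf.ne', Real.log_mul hV1.ne' (by positivity), Real.log_pow]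
  set fn : ℝ → ℕ := fun L => packingNumber ((L - 2 * r) / s) with hfn
  -- the density of sites
  have hinner : Tendsto (fun L : ℝ => (L - 2 * r) / s) atTop atTop :=
    (tendsto_atTop_add_const_right _ _ tendsto_id).atTop_div_const hspos
  have hratio : Tendsto (fun L : ℝ => ((L - 2 * r) / s) / (L + 1)) atTop (𝓝 (1 / s)) := by
    have h1 : Tendsto (fun L : ℝ => (L + 1)⁻¹) atTop (𝓝 0) :=
      tendsto_inv_atTop_zero.comp (tendsto_atTop_add_const_right _ _ tendsto_id)
    have h2 : Tendsto (fun L : ℝ => (1 / s) * (1 - (2 * r + 1) * (L + 1)⁻¹)) atTop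
        (𝓝 ((1 / s) * (1 - (2 * r + 1) * 0))) :=
      ((h1.const_mul _).const_sub _).const_mul _
    have h3 : (1 / s) * (1 - (2 * r + 1) * 0) = 1 / s := by ring
    rw [h3] at h2
    refine h2.congr' ?_
    filter_upwards [eventually_gt_atTop (0 : ℝ)] with L hL
    field_simp
    ring
  have hdens : Tendsto (fun L : ℝ => (fn L : ℝ) / (L + 1) ^ 3) atTop (𝓝 (p / s ^ 3)) := by
    have h1 := hp.comp hinner
    have h2 := hratio.pow 3
    have h3 := h1.mul h2
    have h4 : p * (1 / s) ^ 3 = p / s ^ 3 := by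
      field_simp
    rw [h4] at h3
    refine h3.congr' ?_
    filter_upwards [eventually_gt_atTop (2 * r), eventually_gt_atTop (0 : ℝ)] with L hL hL0
    have h5 : (L - 2 * r) / s ≠ 0 := by
      have : 0 < L - 2 * r := by linarith
      positivity
    have h6 : L + 1 ≠ 0 := by positivity
    simp only [Function.comp, hfn, div_pow]
    field_simp
  -- finite volume inequality
  have hfv : ∀ᶠ L : ℝ in atTop, ((fn L : ℝ) / (L + 1) ^ 3) * C ≤
      Psi b.v β ((k + 1) * ((fn L : ℝ) / (L + 1) ^ 3)) := by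
    filter_upwards [eventually_gt_atTop (2 * r), eventually_gt_atTop (0 : ℝ)] with L hL hL0
    have h1 := b.Z_cluster hβ hr₁ hr₂ hs k y hy0 hy (L := L) hL.le
    have hpos : 0 < partitionFn b.v L (fn L * (k + 1)) β :=
      b.admissible.zpos hβ hL0 _
    have h2 : (fn L : ℝ) * C ≤ Real.log (partitionFn b.v L (fn L * (k + 1)) β) := by
      rw [← hlogw, ← Real.log_pow]
      exact Real.log_le_log (pow_pos hw _) h1
    have h3 := b.admissible.fv hβ hL0 (fn L * (k + 1))
    have hL3 : 0 < (L + 1) ^ 3 := by positivity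
    have h4 : ((fn L : ℝ) / (L + 1) ^ 3) * C =
        ((fn L : ℝ) * C) / (L + 1) ^ 3 := by ring
    rw [h4, div_le_iff₀ hL3]
    have h5 : (((fn L * (k + 1) : ℕ) : ℝ)) / (L + 1) ^ 3 = (k + 1) * ((fn L : ℝ) / (L + 1) ^ 3) := by
      push_cast
      ring
    rw [h5] at h3
    linarith
  -- limit
  have hcont := b.admissible.continuous hβ
  have hmem : ((k : ℝ) + 1) * (p / s ^ 3) ∈ Set.Ici (0 : ℝ) := by
    simp only [Set.mem_Ici]
    positivity
  have hlim : Tendsto (fun L : ℝ => ((k : ℝ) + 1) * ((fn L : ℝ) / (L + 1) ^ 3)) atTop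
      (𝓝[Set.Ici 0] (((k : ℝ) + 1) * (p / s ^ 3))) := by
    refine tendsto_nhdsWithin_iff.2 ⟨hdens.const_mul _, ?_⟩
    filter_upwards [eventually_gt_atTop (0 : ℝ)] with L hL
    simp only [Set.mem_Ici]
    positivity
  have hlimPsi := (hcont _ hmem).tendsto.comp hlim
  have hlimL := hdens.mul_const C
  exact le_of_tendsto_of_tendsto hlimL hlimPsi hfv

end BaseV

end Crest.Agent.Lib.Gas
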