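import Crest.Agent.Lib.Gas.ThermoPot
import Crest.Agent.Lib.Gas.Kac
import Crest.Agent.Lib.Gas.Packing

/-! # Gas F0: double well data. -/
namespace Crest.Agent.Lib.Gas
open MeasureTheory Set Filter Topology
open Crest.ProbabilityR.Continuum

/-- Double well data. -/
structure BaseV where
  v : ℝ → ℝ
  U : ℝ
  ζ : ℝ
  d₀ : ℝ
  d₁ : ℝ
  d₂ : ℝ
  r₀ : ℝ
  K : ℕ
  V₁ : ℝ
  hv : Measurable v
  hv0 : ∀ r, 0 ≤ v r
  hvfar : ∀ r, 1 ≤ r → v r = 0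
  hint : Integrable (fun y : Pt => v ‖y‖)
  hV : ∫ y : Pt, v ‖y‖ ≤ V₁
  hU : 0 < U
  hζ0 : 0 < ζ
  hζ1 : ζ < 1
  hd₀ : 0 < d₀
  hd₀₁ : d₀ < d₁
  hd₁₂ : d₁ ≤ d₂
  hd₂ : d₂ < r₀
  hr₀ : 2 * r₀ < 1 - ζ
  /-- distance below `d₀` or in `(r₀, 1-ζ)` costs at least `U`. -/
  hexp : ∀ r, 0 ≤ r → r < 1 - ζ → (r < d₀ ∨ r₀ < r) → U ≤ v r
  hband : ∀ r, d₁ ≤ r → r ≤ d₂ → v r = 0
  /-- at most `K` points with all pairwise distances in the band. -/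
  hclique : ∀ (n : ℕ) (z : Fin n → Pt),
    (∀ i k, i ≠ k → d₀ ≤ dist (z i) (z k) ∧ dist (z i) (z k) ≤ r₀) → n ≤ K

namespace BaseV
variable (b : BaseV)

/-- `v` is admissible with `B = 0`. -/
theorem admissible : Admissible b.v b.v 0 b.V₁ where
  hφ := b.hv
  hB := le_rfl
  hst := by
    intro N x
    have : 0 ≤ energy b.v x := Finset.sum_nonneg fun p _ => b.hv0 _
    simpa using this
  hfar := fun r hr => (b.hvfar r hr).le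
  hv := b.hv
  hφv := fun _ => le_rfl
  hv0 := b.hv0
  hint := b.hint
  hV := b.hV

end BaseV
end Crest.Agent.Lib.Gas
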