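import Crest.Agent.Lib.Gas.Defs

/-! # Gas B1: basic facts on `zD`. -/
namespace Crest.Agent.Lib.Gas
open MeasureTheory Set Filter Topology
open Crest.ProbabilityR.Continuum

variable {φ ψ v : ℝ → ℝ} {D D₁ D₂ : Set Pt} {B β : ℝ}

/-- `energy` is the symmetric form. -/
theorem energy_eq_pairE (φ : ℝ → ℝ) {N : ℕ} (x : Fin N → Pt) : energy φ x = pairE φ x := by
  classical
  unfold energy pairE
  set f : Fin N → Fin N → ℝ := fun i k => φ (dist (x i) (x k)) with hf
  have hsymm : ∀ i k, f i k = f k i := fun i k => by simp only [hf, dist_comm]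
  have h1 : (∑ p : {p : Fin N × Fin N // p.1 < p.2}, φ (dist (x p.1.1) (x p.1.2)))
      = ∑ p : Fin N × Fin N, if p.1 < p.2 then f p.1 p.2 else 0 := by
    rw [← Finset.sum_filter]
    rw [← Finset.sum_subtype (p := fun p : Fin N × Fin N => p.1 < p.2)
      (Finset.filter (fun p : Fin N × Fin N => p.1 < p.2) Finset.univ) (by simp)
      (fun p => f p.1 p.2)]
  have h2 : (∑ p : Fin N × Fin N, if p.2 < p.1 then f p.1 p.2 else 0)
      = ∑ p : Fin N × Fin N, if p.1 < p.2 then f p.1 p.2 else 0 := by
    rw [← (Equiv.prodComm (Fin N) (Fin N)).sum_comp]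
    refine Finset.sum_congr rfl ?_
    rintro ⟨i, k⟩ -
    simp only [Equiv.prodComm_apply, Prod.fst_swap, Prod.snd_swap, hsymm k i]
  have h3 : (∑ i, ∑ k, if i = k then 0 else f i k)
      = ∑ p : Fin N × Fin N, ((if p.1 < p.2 then f p.1 p.2 else 0)
          + (if p.2 < p.1 then f p.1 p.2 else 0)) := by
    rw [Fintype.sum_prod_type]
    refine Finset.sum_congr rfl fun i _ => Finset.sum_congr rfl fun k _ => ?_
    simp only
    rcases lt_trichotomy i k with h | h | h
    · simp [h, h.ne, not_lt_of_gt h]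
    · simp [h]
    · simp [h, h.ne', not_lt_of_gt h]
  rw [h1, h3, Finset.sum_add_distrib, h2]
  ring

theorem pairE_reindex {ι κ : Type*} [Fintype ι] [DecidableEq ι] [Fintype κ] [DecidableEq κ]
    (e : ι ≃ κ) (φ : ℝ → ℝ) (x : κ → Pt) : pairE φ (x ∘ e) = pairE φ x := by
  unfold pairE
  congr 1
  rw [← e.sum_comp]
  refine Finset.sum_congr rfl fun i _ => ?_
  rw [← e.sum_comp]
  refine Finset.sum_congr rfl fun k _ => ?_
  simp [e.injective.eq_iff]

theorem measurable_energy (hφ : Measurable φ) (N : ℕ) :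
    Measurable (fun x : Fin N → Pt => energy φ x) := by
  unfold energy
  refine Finset.measurable_sum _ fun p _ => ?_
  exact hφ.comp ((measurable_pi_apply _).dist (measurable_pi_apply _))

private theorem measurableSet_piD (hD : MeasurableSet D) (N : ℕ) :
    MeasurableSet (Set.pi Set.univ (fun _ : Fin N => D)) :=
  MeasurableSet.univ_pi fun _ => hD

private theorem volume_piD (D : Set Pt) (N : ℕ) :
    volume (Set.pi Set.univ (fun _ : Fin N => D)) = (volume D) ^ N := by
  rw [volume_pi, Measure.pi_pi]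
  simp

private theorem boltz_le (hst : Stable φ B) (hβ : 0 ≤ β) {N : ℕ} (x : Fin N → Pt) :
    Real.exp (-β * energy φ x) ≤ Real.exp (β * B * N) := by
  apply Real.exp_le_exp.mpr
  have := hst N x
  nlinarith

/-- Boltzmann factor integrable on `D^N` if `D` has finite volume. -/
theorem integrableOn_boltz (hφ : Measurable φ) (hst : Stable φ B) (hβ : 0 ≤ β)
    (hD : MeasurableSet D) (hfin : volume D ≠ ⊤) (N : ℕ) :
    IntegrableOn (fun x : Fin N → Pt => Real.exp (-β * energy φ x))
      (Set.pi Set.univ (fun _ => D)) := by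
  refine Measure.integrableOn_of_bounded (M := Real.exp (β * B * N)) ?_ ?_ ?_
  · rw [volume_piD]
    exact ENNReal.pow_ne_top hfin
  · exact (Real.measurable_exp.comp ((measurable_energy hφ N).const_mul (-β))).aestronglyMeasurable
  · refine Filter.Eventually.of_forall fun x => ?_
    rw [Real.norm_of_nonneg (Real.exp_pos _).le]
    exact boltz_le hst hβ x

theorem zD_pos (hφ : Measurable φ) (hst : Stable φ B) (hβ : 0 ≤ β)
    (hD : MeasurableSet D) (hfin : volume D ≠ ⊤) (h0 : volume D ≠ 0) (N : ℕ) :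
    0 < zD φ D N β := by
  unfold zD
  refine mul_pos (by positivity) ?_
  rw [setIntegral_pos_iff_support_of_nonneg_ae (Filter.Eventually.of_forall fun x => (Real.exp_pos _).le)
    (integrableOn_boltz hφ hst hβ hD hfin N)]
  have hs : Function.support (fun x : Fin N → Pt => Real.exp (-β * energy φ x)) = Set.univ := by
    ext x; simp [(Real.exp_pos _).ne']
  rw [hs, Set.univ_inter, volume_piD]
  exact pos_iff_ne_zero.mpr (pow_ne_zero _ h0)

@[simp] theorem zD_zero (φ : ℝ → ℝ) (D : Set Pt) (β : ℝ) : zD φ D 0 β = 1 := by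
  unfold zD
  have h : Set.pi Set.univ (fun _ : Fin 0 => D) = Set.univ := by
    ext x; simp
  rw [h, Measure.restrict_univ, volume_pi, Measure.pi_of_empty]
  rw [integral_dirac]
  simp [energy]

theorem zD_mono (hφ : Measurable φ) (hst : Stable φ B) (hβ : 0 ≤ β)
    (hD' : MeasurableSet D₂) (hfin : volume D₂ ≠ ⊤) (hD : MeasurableSet D₁) (hsub : D₁ ⊆ D₂) (N : ℕ) :
    zD φ D₁ N β ≤ zD φ D₂ N β := by
  unfold zD
  refine mul_le_mul_of_nonneg_left ?_ (by positivity)
  refine setIntegral_mono_set (integrableOn_boltz hφ hst hβ hD' hfin N)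
    (Filter.Eventually.of_forall fun x => (Real.exp_pos _).le) ?_
  refine Filter.Eventually.of_forall ?_
  exact Set.pi_mono fun _ _ => hsub

/-- Translation invariance. -/
theorem zD_translate (φ : ℝ → ℝ) (a : Pt) (D : Set Pt) (N : ℕ) (β : ℝ) :
    zD φ ((fun y => a + y) '' D) N β = zD φ D N β := by
  classical
  unfold zD
  congr 1
  -- translate by the constant configuration `a`
  have henergy : ∀ x : Fin N → Pt, energy φ ((fun _ => a) + x) = energy φ x := by
    intro x
    unfold energy
    refine Finset.sum_congr rfl fun p _ => ?_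
    simp [dist_add_left]
  have hset : ∀ x : Fin N → Pt,
      ((fun _ => a) + x) ∈ Set.pi Set.univ (fun _ : Fin N => (fun y => a + y) '' D)
        ↔ x ∈ Set.pi Set.univ (fun _ : Fin N => D) := by
    intro x
    simp only [Set.mem_pi, Set.mem_univ, true_imp_iff, Pi.add_apply, Set.mem_image,
      add_right_inj, exists_eq_right]
  have h := (measurePreserving_add_left (volume : Measure (Fin N → Pt)) (fun _ => a)).setIntegral_preimage_emb
    (measurableEmbedding_addLeft (fun _ => a))
    (fun x : Fin N → Pt => Real.exp (-β * energy φ x))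
    (Set.pi Set.univ (fun _ : Fin N => (fun y => a + y) '' D))
  rw [← h]
  have hpre : (fun x : Fin N → Pt => (fun _ => a) + x) ⁻¹'
      (Set.pi Set.univ (fun _ : Fin N => (fun y => a + y) '' D))
      = Set.pi Set.univ (fun _ : Fin N => D) := by
    ext x; exact hset x
  rw [hpre]
  simp only [henergy]

/-- Crude bound from stability: `Z ≤ |D|^N e^{βBN} / N!`. -/
theorem zD_le_of_stable (hφ : Measurable φ) (hst : Stable φ B) (hβ : 0 ≤ β)
    (hD : MeasurableSet D) (hfin : volume D ≠ ⊤) (N : ℕ) :
    zD φ D N β ≤ (volume.real D) ^ N * Real.exp (β * B * N) / (Nat.factorial N : ℝ) := by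
  unfold zD
  rw [one_div, inv_mul_eq_div]
  refine div_le_div_of_nonneg_right ?_ (by positivity)
  have h := setIntegral_mono_on (μ := (volume : Measure (Fin N → Pt)))
    (s := Set.pi Set.univ (fun _ : Fin N => D))
    (f := fun x : Fin N → Pt => Real.exp (-β * energy φ x))
    (g := fun _ => Real.exp (β * B * N))
    (integrableOn_boltz hφ hst hβ hD hfin N)
    (integrableOn_const (by rw [volume_piD]; exact ENNReal.pow_ne_top hfin))
    (measurableSet_piD hD N) (fun x _ => boltz_le hst hβ x)
  refine h.trans (le_of_eq ?_)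
  rw [setIntegral_const, smul_eq_mul]
  congr 1
  rw [Measure.real, volume_piD, ENNReal.toReal_pow]
  rfl

/-- Monotonicity in `β` when `E ≥ -B N`: `log Z(β') ≤ log Z(β) + (β'-β) B N`. -/
theorem zD_beta_lip (hφ : Measurable φ) (hst : Stable φ B) {β' : ℝ} (hβ : 0 ≤ β) (hββ' : β ≤ β')
    (hD : MeasurableSet D) (hfin : volume D ≠ ⊤) (h0 : volume D ≠ 0) (N : ℕ) :
    zD φ D N β' ≤ zD φ D N β * Real.exp ((β' - β) * B * N) := by
  unfold zD
  rw [mul_assoc]
  refine mul_le_mul_of_nonneg_left ?_ (by positivity)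
  rw [← integral_mul_const]
  refine setIntegral_mono_on (integrableOn_boltz hφ hst (hβ.trans hββ') hD hfin N)
    ((integrableOn_boltz hφ hst hβ hD hfin N).mul_const _) (measurableSet_piD hD N) ?_
  intro x _
  rw [← Real.exp_add]
  apply Real.exp_le_exp.mpr
  have := hst N x
  have hpos : 0 ≤ β' - β := sub_nonneg.mpr hββ'
  nlinarith

end Crest.Agent.Lib.Gas
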