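import Crest.Agent.Lib.Gas.Config1

/-! # Gas B2: adding a particle (Jensen). -/
namespace Crest.Agent.Lib.Gas
open MeasureTheory Set Filter Topology
open Crest.ProbabilityR.Continuum

variable {φ ψ v : ℝ → ℝ} {D D₁ D₂ : Set Pt} {B β : ℝ}

private theorem phi_lb (hst : Stable φ B) (a b : Pt) : -2 * B ≤ φ (dist a b) := by
  have h := hst 2 ![a, b]
  rw [energy_eq_pairE] at h
  unfold pairE at h
  simp only [Fin.sum_univ_two, Fin.isValue, Matrix.cons_val_zero, Matrix.cons_val_one] at h
  norm_num at h
  rw [dist_comm b a] at h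
  linarith

private theorem energy_snoc (φ : ℝ → ℝ) {n : ℕ} (x : Fin (n + 1) → Pt) :
    energy φ x = energy φ (fun i => x (Fin.castSucc i))
      + ∑ k, φ (dist (x (Fin.castSucc k)) (x (Fin.last n))) := by
  classical
  rw [energy_eq_pairE, energy_eq_pairE]
  unfold pairE
  simp only [Fin.sum_univ_castSucc]
  have h1 : ∀ i k : Fin n, (Fin.castSucc i = Fin.castSucc k) ↔ i = k := fun i k => Fin.castSucc_inj
  have h2 : ∀ i : Fin n, Fin.castSucc i ≠ Fin.last n := fun i => (Fin.castSucc_lt_last i).ne
  have h3 : ∀ i : Fin n, Fin.last n ≠ Fin.castSucc i := fun i => (Fin.castSucc_lt_last i).ne'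
  simp only [h1, h2, h3, if_false, if_true, Finset.sum_add_distrib]
  simp only [dist_comm (x (Fin.last n)) _]
  ring

private theorem integrable_phi (hφ : Measurable φ) (hst : Stable φ B) (hv : Measurable v)
    (hφv : ∀ r, φ r ≤ v r) (hv0 : ∀ r, 0 ≤ v r)
    (hint : Integrable (fun y : Pt => v ‖y‖)) (hfin : volume D ≠ ⊤) (a : Pt) :
    IntegrableOn (fun y : Pt => φ (dist a y)) D := by
  have h1 : Integrable (fun y : Pt => v ‖y - a‖) := hint.comp_sub_right a
  have h2 : IntegrableOn (fun y : Pt => v ‖y - a‖ + 2 * |B|) D :=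
    (h1.integrableOn).add (integrableOn_const hfin)
  refine Integrable.mono' h2 ?_ ?_
  · exact (hφ.comp (measurable_const.dist measurable_id)).aestronglyMeasurable
  · refine Filter.Eventually.of_forall fun y => ?_
    rw [Real.norm_eq_abs, abs_le]
    have h3 := phi_lb hst a y
    have h4 := hφv (dist a y)
    have h5 := hv0 ‖y - a‖
    have h6 : dist a y = ‖y - a‖ := by rw [dist_comm, dist_eq_norm]
    rw [h6] at h3 h4
    rw [h6]
    have h7 := le_abs_self B
    have h8 := abs_nonneg B
    constructor <;> linarith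

private theorem integral_phi_le (hφ : Measurable φ) (hst : Stable φ B) (hv : Measurable v)
    (hφv : ∀ r, φ r ≤ v r) (hv0 : ∀ r, 0 ≤ v r)
    (hint : Integrable (fun y : Pt => v ‖y‖)) {V₁ : ℝ} (hV : ∫ y : Pt, v ‖y‖ ≤ V₁)
    (hfin : volume D ≠ ⊤) (a : Pt) :
    ∫ y in D, φ (dist a y) ≤ V₁ := by
  have h1 : Integrable (fun y : Pt => v ‖y - a‖) := hint.comp_sub_right a
  have h2 : ∫ y in D, φ (dist a y) ≤ ∫ y in D, v ‖y - a‖ := by
    refine integral_mono_ae (integrable_phi hφ hst hv hφv hv0 hint hfin a) h1.integrableOn ?_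
    refine Filter.Eventually.of_forall fun y => ?_
    have h6 : dist a y = ‖y - a‖ := by rw [dist_comm, dist_eq_norm]
    simp only [h6]
    exact hφv _
  have h3 : ∫ y in D, v ‖y - a‖ ≤ ∫ y, v ‖y - a‖ :=
    setIntegral_le_integral h1 (Filter.Eventually.of_forall fun y => hv0 _)
  have h4 : ∫ y : Pt, v ‖y - a‖ = ∫ y : Pt, v ‖y‖ :=
    integral_sub_right_eq_self (fun y : Pt => v ‖y‖) a
  linarith

private theorem inner_bound (hφ : Measurable φ) (hst : Stable φ B) (hβ : 0 ≤ β) (hv : Measurable v)
    (hφv : ∀ r, φ r ≤ v r) (hv0 : ∀ r, 0 ≤ v r)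
    (hint : Integrable (fun y : Pt => v ‖y‖)) {V₁ : ℝ} (hV : ∫ y : Pt, v ‖y‖ ≤ V₁)
    (hfin : volume D ≠ ⊤) (h0 : volume D ≠ 0) {n : ℕ} (x : Fin n → Pt) :
    volume.real D * Real.exp (-β * n * V₁ / volume.real D)
      ≤ ∫ y in D, Real.exp (-β * ∑ k, φ (dist (x k) y)) := by
  have hvol : 0 < volume.real D := by
    rw [Measure.real]
    exact ENNReal.toReal_pos h0 hfin
  set g : Pt → ℝ := fun y => -β * ∑ k, φ (dist (x k) y) with hg
  have hgm : Measurable g := by
    refine Measurable.const_mul ?_ _
    exact Finset.measurable_sum _ fun k _ => hφ.comp (measurable_const.dist measurable_id)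
  have hgi : IntegrableOn g D := by
    refine Integrable.const_mul ?_ _
    exact integrable_finsetSum _ fun k _ => integrable_phi hφ hst hv hφv hv0 hint hfin (x k)
  have hgub : ∀ y, g y ≤ β * n * (2 * |B|) := by
    intro y
    have h : -(n * (2 * |B|)) ≤ ∑ k, φ (dist (x k) y) := by
      have : ∑ _k : Fin n, (-(2 * |B|)) ≤ ∑ k, φ (dist (x k) y) := by
        refine Finset.sum_le_sum fun k _ => ?_
        have := phi_lb hst (x k) y
        have h7 := le_abs_self B
        linarith
      simpa using this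
    simp only [hg]
    nlinarith
  have hexpi : IntegrableOn (fun y => Real.exp (g y)) D := by
    refine Measure.integrableOn_of_bounded (M := Real.exp (β * n * (2 * |B|))) hfin ?_ ?_
    · exact (Real.measurable_exp.comp hgm).aestronglyMeasurable
    · refine Filter.Eventually.of_forall fun y => ?_
      rw [Real.norm_of_nonneg (Real.exp_pos _).le]
      exact Real.exp_le_exp.mpr (hgub y)
  set c : ℝ := (∫ y in D, g y) / volume.real D with hc
  have hgint : -β * n * V₁ ≤ ∫ y in D, g y := by
    simp only [hg]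
    rw [integral_const_mul, integral_finsetSum _
      (fun k _ => integrable_phi hφ hst hv hφv hv0 hint hfin (x k))]
    have : ∑ k, ∫ y in D, φ (dist (x k) y) ≤ n * V₁ := by
      have : ∑ k : Fin n, ∫ y in D, φ (dist (x k) y) ≤ ∑ _k : Fin n, V₁ :=
        Finset.sum_le_sum fun k _ => integral_phi_le hφ hst hv hφv hv0 hint hV hfin (x k)
      simpa using this
    nlinarith
  have hcge : -β * n * V₁ / volume.real D ≤ c := div_le_div_of_nonneg_right hgint hvol.le
  have hpt : ∀ y, Real.exp c * (g y - c + 1) ≤ Real.exp (g y) := by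
    intro y
    have h1 := Real.add_one_le_exp (g y - c)
    have h2 : Real.exp (g y) = Real.exp c * Real.exp (g y - c) := by
      rw [← Real.exp_add]; congr 1; ring
    rw [h2]
    exact mul_le_mul_of_nonneg_left h1 (Real.exp_pos _).le
  have hint2 : IntegrableOn (fun y => Real.exp c * (g y - c + 1)) D :=
    ((hgi.sub (integrableOn_const hfin)).add (integrableOn_const hfin)).const_mul _
  have h3 : ∫ y in D, Real.exp c * (g y - c + 1) ≤ ∫ y in D, Real.exp (g y) :=
    integral_mono_ae hint2 hexpi (Filter.Eventually.of_forall hpt)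
  have h4 : ∫ y in D, Real.exp c * (g y - c + 1) = Real.exp c * volume.real D := by
    have hi1 : IntegrableOn (fun y => g y - c) D := hgi.sub (integrableOn_const hfin)
    rw [integral_const_mul, integral_add hi1 (integrableOn_const hfin),
      integral_sub hgi (integrableOn_const hfin), setIntegral_const, setIntegral_const]
    simp only [smul_eq_mul, mul_one]
    have : c * volume.real D = ∫ y in D, g y := by
      rw [hc]; field_simp
    rw [mul_comm (volume.real D) c, this]
    ring
  calc volume.real D * Real.exp (-β * n * V₁ / volume.real D)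
      ≤ volume.real D * Real.exp c := by
        exact mul_le_mul_of_nonneg_left (Real.exp_le_exp.mpr hcge) hvol.le
    _ = Real.exp c * volume.real D := mul_comm _ _
    _ ≤ ∫ y in D, Real.exp (g y) := by rw [← h4]; exact h3

/-- Lower bound for adding a particle (Jensen). `φ ≤ v`, `v ≥ 0` integrable on `ℝ³`, `∫ v ≤ V₁`. -/
theorem zD_add (hφ : Measurable φ) (hst : Stable φ B) (hβ : 0 ≤ β) (hv : Measurable v)
    (hφv : ∀ r, φ r ≤ v r) (hv0 : ∀ r, 0 ≤ v r)
    (hint : Integrable (fun y : Pt => v ‖y‖)) {V₁ : ℝ} (hV : ∫ y : Pt, v ‖y‖ ≤ V₁)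
    (hD : MeasurableSet D) (hfin : volume D ≠ ⊤) (h0 : volume D ≠ 0) (n : ℕ) :
    zD φ D n β * (volume.real D / ((n : ℝ) + 1)) * Real.exp (-β * n * V₁ / volume.real D)
      ≤ zD φ D (n + 1) β := by
  classical
  set e := MeasurableEquiv.piFinSuccAbove (fun _ : Fin (n + 1) => Pt) (Fin.last n) with he
  have hmp : MeasurePreserving e volume volume :=
    volume_preserving_piFinSuccAbove (fun _ : Fin (n + 1) => Pt) (Fin.last n)
  set F : Pt × (Fin n → Pt) → ℝ := fun z => Real.exp (-β * energy φ (e.symm z)) with hF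
  have hFe : ∀ z, F z = Real.exp (-β * energy φ z.2)
      * Real.exp (-β * ∑ k, φ (dist (z.2 k) z.1)) := by
    rintro ⟨y, x⟩
    simp only [hF]
    rw [energy_snoc, ← Real.exp_add]
    congr 1
    have h1 : ∀ i : Fin n, e.symm (y, x) (Fin.castSucc i) = x i := by
      intro i
      simp [he, MeasurableEquiv.piFinSuccAbove, Fin.insertNthEquiv]
    have h2 : e.symm (y, x) (Fin.last n) = y := by
      simp [he, MeasurableEquiv.piFinSuccAbove, Fin.insertNthEquiv]
    simp only [h1, h2]
    ring
  have hpre : e.symm ⁻¹' (Set.pi Set.univ (fun _ : Fin (n + 1) => D))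
      = D ×ˢ (Set.pi Set.univ (fun _ : Fin n => D)) := by
    ext ⟨y, x⟩
    have h1 : ∀ i : Fin n, e.symm (y, x) (Fin.castSucc i) = x i := by
      intro i
      simp [he, MeasurableEquiv.piFinSuccAbove, Fin.insertNthEquiv]
    have h2 : e.symm (y, x) (Fin.last n) = y := by
      simp [he, MeasurableEquiv.piFinSuccAbove, Fin.insertNthEquiv]
    simp only [Set.mem_preimage, Set.mem_pi, Set.mem_univ, true_imp_iff, Set.mem_prod]
    constructor
    · intro h
      exact ⟨h2 ▸ h _, fun i => h1 i ▸ h _⟩
    · rintro ⟨hy, hx⟩ i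
      refine Fin.lastCases ?_ (fun j => ?_) i
      · rw [h2]; exact hy
      · rw [h1]; exact hx j
  have hmps := hmp.symm
  have hint0 := integrableOn_boltz hφ hst hβ hD hfin (n + 1)
  have hFint : IntegrableOn F (D ×ˢ (Set.pi Set.univ (fun _ : Fin n => D))) := by
    rw [← hpre]
    exact (hmps.integrableOn_comp_preimage e.symm.measurableEmbedding).mpr hint0
  have hsplit : ∫ x in Set.pi Set.univ (fun _ : Fin (n + 1) => D), Real.exp (-β * energy φ x)
      = ∫ z in D ×ˢ (Set.pi Set.univ (fun _ : Fin n => D)), F z := by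
    rw [← hpre]
    exact (hmps.setIntegral_preimage_emb e.symm.measurableEmbedding
      (fun x => Real.exp (-β * energy φ x)) _).symm
  have hFint' : Integrable F ((volume.restrict D).prod
      (volume.restrict (Set.pi Set.univ (fun _ : Fin n => D)))) := by
    rw [Measure.prod_restrict]
    exact hFint
  have hsplit2 : ∫ z in D ×ˢ (Set.pi Set.univ (fun _ : Fin n => D)), F z
      = ∫ x in Set.pi Set.univ (fun _ : Fin n => D), ∫ y in D, F (y, x) := by
    rw [Measure.volume_eq_prod, ← Measure.prod_restrict]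
    exact integral_prod_symm F hFint'
  set C : ℝ := volume.real D * Real.exp (-β * n * V₁ / volume.real D) with hC
  have hin : ∀ x : Fin n → Pt, Real.exp (-β * energy φ x) * C ≤ ∫ y in D, F (y, x) := by
    intro x
    have : ∫ y in D, F (y, x) = Real.exp (-β * energy φ x)
        * ∫ y in D, Real.exp (-β * ∑ k, φ (dist (x k) y)) := by
      simp only [hFe]
      rw [integral_const_mul]
    rw [this]
    exact mul_le_mul_of_nonneg_left (inner_bound hφ hst hβ hv hφv hv0 hint hV hfin h0 x)
      (Real.exp_pos _).le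
  have hmain : (∫ x in Set.pi Set.univ (fun _ : Fin n => D), Real.exp (-β * energy φ x)) * C
      ≤ ∫ x in Set.pi Set.univ (fun _ : Fin (n + 1) => D), Real.exp (-β * energy φ x) := by
    rw [hsplit, hsplit2, ← integral_mul_const]
    refine integral_mono_ae ((integrableOn_boltz hφ hst hβ hD hfin n).mul_const C)
      (MeasureTheory.Integrable.integral_prod_right hFint') (Filter.Eventually.of_forall hin)
  unfold zD
  have hpos : (0 : ℝ) < Nat.factorial (n + 1) := by positivity
  have hfac : (Nat.factorial (n + 1) : ℝ) = ((n : ℝ) + 1) * Nat.factorial n := by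
    rw [Nat.factorial_succ]; push_cast; ring
  calc (1 / (Nat.factorial n : ℝ)) * (∫ x in Set.pi Set.univ (fun _ : Fin n => D),
          Real.exp (-β * energy φ x)) * (volume.real D / ((n : ℝ) + 1))
        * Real.exp (-β * n * V₁ / volume.real D)
      = (1 / (Nat.factorial (n + 1) : ℝ)) * ((∫ x in Set.pi Set.univ (fun _ : Fin n => D),
          Real.exp (-β * energy φ x)) * C) := by
        rw [hfac, hC]
        have hn : (n : ℝ) + 1 ≠ 0 := by positivity
        have hf : (Nat.factorial n : ℝ) ≠ 0 := by positivity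
        field_simp
    _ ≤ _ := mul_le_mul_of_nonneg_left hmain (by positivity)

end Crest.Agent.Lib.Gas
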