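import Crest.Agent.Lib.Gas.Config1

/-! # Gas B3: superadditivity. -/
namespace Crest.Agent.Lib.Gas
open MeasureTheory Set Filter Topology
open Crest.ProbabilityR.Continuum

variable {φ ψ v : ℝ → ℝ} {D D₁ D₂ : Set Pt} {B β : ℝ}

/-- Reindexing a configuration integral. -/
private lemma setIntegral_reindex_aux {ι κ : Type*} [Fintype ι] [DecidableEq ι] [Fintype κ]
    [DecidableEq κ] (e : ι ≃ κ) (F : (κ → Pt) → ℝ) (D : κ → Set Pt) :
    ∫ x in Set.pi univ D, F x = ∫ y in Set.pi univ (fun i => D (e i)), F (y ∘ e.symm) := by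
  have mp := volume_measurePreserving_piCongrLeft (fun _ : κ => Pt) e
  have hT : ∀ y : ι → Pt, (MeasurableEquiv.piCongrLeft (fun _ : κ => Pt) e) y = y ∘ e.symm := by
    intro y
    funext j
    obtain ⟨i, rfl⟩ := e.surjective j
    simp [MeasurableEquiv.coe_piCongrLeft, Equiv.piCongrLeft_apply_apply]
  have hpre : (MeasurableEquiv.piCongrLeft (fun _ : κ => Pt) e) ⁻¹' (Set.pi univ D)
      = Set.pi univ (fun i => D (e i)) := by
    ext y
    simp only [Set.mem_preimage, Set.mem_pi, Set.mem_univ, true_implies, hT]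
    constructor
    · intro h i
      simpa using h (e i)
    · intro h j
      obtain ⟨i, rfl⟩ := e.surjective j
      simpa using h i
  have := mp.setIntegral_preimage_emb
    (MeasurableEquiv.piCongrLeft (fun _ : κ => Pt) e).measurableEmbedding F (Set.pi univ D)
  rw [← this, hpre]
  simp only [hT]

/-- Splitting a sum-indexed configuration integral into a product integral. -/
private lemma setIntegral_sum_aux {α γ : Type*} [Fintype α] [DecidableEq α] [Fintype γ]
    [DecidableEq γ] (F : (α ⊕ γ → Pt) → ℝ) (D₁ : α → Set Pt) (D₂ : γ → Set Pt) :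
    ∫ x in Set.pi univ (Sum.elim D₁ D₂), F x
      = ∫ z in (Set.pi univ D₁) ×ˢ (Set.pi univ D₂),
          F (Sum.elim z.1 z.2) ∂((volume : Measure (α → Pt)).prod (volume : Measure (γ → Pt))) := by
  have mp := volume_measurePreserving_sumPiEquivProdPi_symm (fun _ : α ⊕ γ => Pt)
  have hT : ∀ z : (α → Pt) × (γ → Pt),
      (MeasurableEquiv.sumPiEquivProdPi (fun _ : α ⊕ γ => Pt)).symm z = Sum.elim z.1 z.2 := by
    intro z
    funext t
    cases t <;> rfl
  have hpre : (MeasurableEquiv.sumPiEquivProdPi (fun _ : α ⊕ γ => Pt)).symm ⁻¹'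
      (Set.pi univ (Sum.elim D₁ D₂)) = (Set.pi univ D₁) ×ˢ (Set.pi univ D₂) := by
    ext z
    simp only [Set.mem_preimage, Set.mem_pi, Set.mem_univ, true_implies, hT, Set.mem_prod,
      Sum.forall, Sum.elim_inl, Sum.elim_inr]
  have := mp.setIntegral_preimage_emb
    (MeasurableEquiv.sumPiEquivProdPi (fun _ : α ⊕ γ => Pt)).symm.measurableEmbedding F
    (Set.pi univ (Sum.elim D₁ D₂))
  rw [← this, hpre]
  simp only [hT]
  rfl

/-- The energy of two groups with nonpositive cross interaction. -/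
private lemma pairE_sum_le_aux {α γ : Type*} [Fintype α] [DecidableEq α] [Fintype γ]
    [DecidableEq γ] (φ : ℝ → ℝ) (y : α → Pt) (z : γ → Pt)
    (h : ∀ i k, φ (dist (y i) (z k)) ≤ 0) :
    pairE φ (Sum.elim y z) ≤ pairE φ y + pairE φ z := by
  unfold pairE
  simp only [Fintype.sum_sum_type, Sum.elim_inl, Sum.elim_inr, Sum.inl.injEq, reduceCtorEq,
    if_false, Sum.inr.injEq]
  have h1 : ∑ i : α, ∑ k : γ, φ (dist (y i) (z k)) ≤ 0 :=
    Finset.sum_nonpos fun i _ => Finset.sum_nonpos fun k _ => h i k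
  have h2 : ∑ k : γ, ∑ i : α, φ (dist (z k) (y i)) ≤ 0 :=
    Finset.sum_nonpos fun k _ => Finset.sum_nonpos fun i _ => by
      rw [dist_comm]; exact h i k
  simp only [Finset.sum_add_distrib] at *
  linarith

private lemma exists_equiv_aux (n₁ n₂ : ℕ) (S : Finset (Fin (n₁ + n₂))) (hS : S.card = n₁) :
    ∃ e : Fin n₁ ⊕ Fin n₂ ≃ Fin (n₁ + n₂),
      (∀ i, e (Sum.inl i) ∈ S) ∧ (∀ j, e (Sum.inr j) ∉ S) := by
  classical
  have e₁ : {x // x ∈ S} ≃ Fin n₁ := S.equivFinOfCardEq hS
  have hc : Fintype.card {x // ¬ x ∈ S} = n₂ := by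
    rw [Fintype.card_subtype_compl, Fintype.card_coe, hS, Fintype.card_fin]
    omega
  have e₂ : {x // ¬ x ∈ S} ≃ Fin n₂ := Fintype.equivFinOfCardEq hc
  refine ⟨(Equiv.sumCongr e₁.symm e₂.symm).trans (Equiv.sumCompl (fun x => x ∈ S)), ?_, ?_⟩
  · intro i
    simp only [Equiv.trans_apply, Equiv.sumCongr_apply, Sum.map_inl, Equiv.sumCompl_apply_inl]
    exact (e₁.symm i).2
  · intro j
    simp only [Equiv.trans_apply, Equiv.sumCongr_apply, Sum.map_inr, Equiv.sumCompl_apply_inr]
    exact (e₂.symm j).2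

private lemma zD_nonneg_aux (φ : ℝ → ℝ) (D : Set Pt) (N : ℕ) (β : ℝ) : 0 ≤ zD φ D N β := by
  unfold zD
  have : 0 ≤ ∫ x in Set.pi Set.univ (fun _ : Fin N => D), Real.exp (-β * energy φ x) :=
    integral_nonneg fun x => (Real.exp_pos _).le
  positivity

/-- Superadditivity for two disjoint domains with non-positive cross interaction. -/
theorem zD_split (hφ : Measurable φ) (hst : Stable φ B) (hβ : 0 ≤ β)
    (hD₁ : MeasurableSet D₁) (hD₂ : MeasurableSet D₂)
    (hfin₁ : volume D₁ ≠ ⊤) (hfin₂ : volume D₂ ≠ ⊤) (hdisj : Disjoint D₁ D₂)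
    (hcross : ∀ x ∈ D₁, ∀ y ∈ D₂, φ (dist x y) ≤ 0) (n₁ n₂ : ℕ) :
    zD φ D₁ n₁ β * zD φ D₂ n₂ β ≤ zD φ (D₁ ∪ D₂) (n₁ + n₂) β := by
  classical
  set n := n₁ + n₂ with hn
  set G : (Fin n → Pt) → ℝ := fun x => Real.exp (-β * energy φ x) with hG
  set I₁ := ∫ x in Set.pi Set.univ (fun _ : Fin n₁ => D₁), Real.exp (-β * energy φ x) with hI₁
  set I₂ := ∫ x in Set.pi Set.univ (fun _ : Fin n₂ => D₂), Real.exp (-β * energy φ x) with hI₂
  set Iall := ∫ x in Set.pi Set.univ (fun _ : Fin n => D₁ ∪ D₂), G x with hIall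
  have hDm : MeasurableSet (D₁ ∪ D₂) := hD₁.union hD₂
  have hDfin : volume (D₁ ∪ D₂) ≠ ⊤ := by
    refine ne_of_lt (lt_of_le_of_lt (measure_union_le _ _) ?_)
    exact ENNReal.add_lt_top.mpr ⟨lt_top_iff_ne_top.mpr hfin₁, lt_top_iff_ne_top.mpr hfin₂⟩
  have hGint : IntegrableOn G (Set.pi Set.univ (fun _ : Fin n => D₁ ∪ D₂)) :=
    integrableOn_boltz hφ hst hβ hDm hDfin n
  -- the sets `A S`
  set A : Finset (Fin n) → Set (Fin n → Pt) :=
    fun S => Set.pi univ (fun i => if i ∈ S then D₁ else D₂) with hA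
  have hAsub : ∀ S, A S ⊆ Set.pi Set.univ (fun _ : Fin n => D₁ ∪ D₂) := by
    intro S x hx i hi
    have := hx i hi
    by_cases h : i ∈ S
    · simp only [h, if_true] at this; exact Or.inl this
    · simp only [h, if_false] at this; exact Or.inr this
  have hAm : ∀ S, MeasurableSet (A S) := by
    intro S
    refine MeasurableSet.univ_pi fun i => ?_
    by_cases h : i ∈ S
    · simp only [h, if_true]; exact hD₁
    · simp only [h, if_false]; exact hD₂
  -- lower bound on each `A S`
  have key : ∀ S ∈ (Finset.univ : Finset (Fin n)).powersetCard n₁,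
      I₁ * I₂ ≤ ∫ x in A S, G x := by
    intro S hS
    have hcard : S.card = n₁ := (Finset.mem_powersetCard.mp hS).2
    obtain ⟨e, he₁, he₂⟩ := exists_equiv_aux n₁ n₂ S hcard
    have hre := setIntegral_reindex_aux e G (fun i => if i ∈ S then D₁ else D₂)
    have hfam : (fun i => if e i ∈ S then D₁ else D₂)
        = Sum.elim (fun _ : Fin n₁ => D₁) (fun _ : Fin n₂ => D₂) := by
      funext t
      cases t with
      | inl i => simp [he₁ i]
      | inr j => simp [he₂ j]
    change ∫ x in A S, G x = _ at hre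
    rw [hre, hfam, setIntegral_sum_aux]
    have hprod := setIntegral_prod_mul (μ := (volume : Measure (Fin n₁ → Pt)))
      (ν := (volume : Measure (Fin n₂ → Pt)))
      (fun y : Fin n₁ → Pt => Real.exp (-β * energy φ y))
      (fun z : Fin n₂ → Pt => Real.exp (-β * energy φ z))
      (Set.pi Set.univ (fun _ : Fin n₁ => D₁)) (Set.pi Set.univ (fun _ : Fin n₂ => D₂))
    rw [hI₁, hI₂, ← hprod]
    -- integrability of the right side
    have hFint : IntegrableOn (fun x : Fin n₁ ⊕ Fin n₂ → Pt => G (x ∘ e.symm))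
        (Set.pi univ (Sum.elim (fun _ : Fin n₁ => D₁) (fun _ : Fin n₂ => D₂))) := by
      have mp := volume_measurePreserving_piCongrLeft (fun _ : Fin n => Pt) e
      have hT : ∀ y : Fin n₁ ⊕ Fin n₂ → Pt,
          (MeasurableEquiv.piCongrLeft (fun _ : Fin n => Pt) e) y = y ∘ e.symm := by
        intro y
        funext j
        obtain ⟨i, rfl⟩ := e.surjective j
        simp [MeasurableEquiv.coe_piCongrLeft, Equiv.piCongrLeft_apply_apply]
      have hGA : IntegrableOn G (A S) := hGint.mono_set (hAsub S)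
      have := (mp.integrableOn_comp_preimage
        (MeasurableEquiv.piCongrLeft (fun _ : Fin n => Pt) e).measurableEmbedding).mpr hGA
      have hpre : (MeasurableEquiv.piCongrLeft (fun _ : Fin n => Pt) e) ⁻¹' (A S)
          = Set.pi univ (Sum.elim (fun _ : Fin n₁ => D₁) (fun _ : Fin n₂ => D₂)) := by
        rw [← hfam]
        ext y
        simp only [hA, Set.mem_preimage, Set.mem_pi, Set.mem_univ, true_implies, hT]
        constructor
        · intro h i
          simpa using h (e i)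
        · intro h j
          obtain ⟨i, rfl⟩ := e.surjective j
          simpa using h i
      rw [hpre] at this
      refine this.congr_fun ?_ (MeasurableSet.univ_pi fun t => ?_)
      · intro y _
        simp [hT]
      · cases t with
        | inl i => exact hD₁
        | inr j => exact hD₂
    have hFint' : IntegrableOn (fun z : (Fin n₁ → Pt) × (Fin n₂ → Pt) =>
        G ((Sum.elim z.1 z.2) ∘ e.symm))
        ((Set.pi univ (fun _ : Fin n₁ => D₁)) ×ˢ (Set.pi univ (fun _ : Fin n₂ => D₂)))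
        ((volume : Measure (Fin n₁ → Pt)).prod (volume : Measure (Fin n₂ → Pt))) := by
      have mp := volume_measurePreserving_sumPiEquivProdPi_symm
        (fun _ : Fin n₁ ⊕ Fin n₂ => Pt)
      have hT : ∀ z : (Fin n₁ → Pt) × (Fin n₂ → Pt),
          (MeasurableEquiv.sumPiEquivProdPi (fun _ : Fin n₁ ⊕ Fin n₂ => Pt)).symm z
            = Sum.elim z.1 z.2 := by
        intro z
        funext t
        cases t <;> rfl
      have hpre : (MeasurableEquiv.sumPiEquivProdPi (fun _ : Fin n₁ ⊕ Fin n₂ => Pt)).symm ⁻¹'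
          (Set.pi univ (Sum.elim (fun _ : Fin n₁ => D₁) (fun _ : Fin n₂ => D₂)))
          = (Set.pi univ (fun _ : Fin n₁ => D₁)) ×ˢ (Set.pi univ (fun _ : Fin n₂ => D₂)) := by
        ext z
        simp only [Set.mem_preimage, Set.mem_pi, Set.mem_univ, true_implies, hT, Set.mem_prod,
          Sum.forall, Sum.elim_inl, Sum.elim_inr]
      have := (mp.integrableOn_comp_preimage
        (MeasurableEquiv.sumPiEquivProdPi (fun _ : Fin n₁ ⊕ Fin n₂ => Pt)).symm.measurableEmbedding).mpr
        hFint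
      rw [hpre] at this
      refine this.congr_fun ?_ ?_
      · intro z _
        simp [hT]
      · exact (MeasurableSet.univ_pi fun _ => hD₁).prod (MeasurableSet.univ_pi fun _ => hD₂)
    -- pointwise comparison
    refine integral_mono_of_nonneg ?_ hFint' ?_
    · exact Eventually.of_forall fun z => (mul_pos (Real.exp_pos _) (Real.exp_pos _)).le
    · have hm : MeasurableSet ((Set.pi univ (fun _ : Fin n₁ => D₁)) ×ˢ
          (Set.pi univ (fun _ : Fin n₂ => D₂))) :=
        (MeasurableSet.univ_pi fun _ => hD₁).prod (MeasurableSet.univ_pi fun _ => hD₂)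
      refine (ae_restrict_iff' hm).mpr (Eventually.of_forall ?_)
      rintro ⟨y, z⟩ ⟨hy, hz⟩
      simp only [hG, ← Real.exp_add]
      apply Real.exp_le_exp.mpr
      have h1 : energy φ ((Sum.elim y z) ∘ e.symm) = pairE φ (Sum.elim y z) := by
        rw [energy_eq_pairE]
        have := pairE_reindex e φ ((Sum.elim y z) ∘ e.symm)
        rw [← this]
        congr 1
        funext t
        simp
      have h2 : pairE φ (Sum.elim y z) ≤ pairE φ y + pairE φ z :=
        pairE_sum_le_aux φ y z fun i k => hcross _ (hy i (Set.mem_univ _)) _ (hz k (Set.mem_univ _))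
      rw [h1, energy_eq_pairE, energy_eq_pairE]
      nlinarith [mul_le_mul_of_nonneg_left h2 hβ]
  -- disjointness and the sum
  have hdisjA : Set.Pairwise ((Finset.univ : Finset (Fin n)).powersetCard n₁ : Set (Finset (Fin n)))
      (Function.onFun Disjoint A) := by
    intro S hS S' hS' hne
    have hc : S.card = n₁ := (Finset.mem_powersetCard.mp (Finset.mem_coe.mp hS)).2
    have hc' : S'.card = n₁ := (Finset.mem_powersetCard.mp (Finset.mem_coe.mp hS')).2
    have : ∃ i, i ∈ S ∧ i ∉ S' := by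
      by_contra hcon
      push Not at hcon
      exact hne (Finset.eq_of_subset_of_card_le (fun i hi => hcon i hi) (by omega))
    obtain ⟨i, hi, hi'⟩ := this
    refine Set.disjoint_left.mpr fun x hx hx' => ?_
    have h1 := hx i (Set.mem_univ _)
    have h2 := hx' i (Set.mem_univ _)
    simp only [hi, hi', if_true, if_false] at h1 h2
    exact Set.disjoint_left.mp hdisj h1 h2
  have hsum : ∑ S ∈ (Finset.univ : Finset (Fin n)).powersetCard n₁, ∫ x in A S, G x ≤ Iall := by
    rw [← integral_biUnion_finset _ (fun S _ => hAm S) hdisjA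
      (fun S _ => hGint.mono_set (hAsub S))]
    refine setIntegral_mono_set hGint ?_ ?_
    · exact Eventually.of_forall fun x => (Real.exp_pos _).le
    · exact LE.le.eventuallyLE (Set.iUnion₂_subset fun S _ => hAsub S)
  have hchoose : ((n.choose n₁ : ℕ) : ℝ) * (I₁ * I₂) ≤ Iall := by
    have h1 : ∑ S ∈ (Finset.univ : Finset (Fin n)).powersetCard n₁, (I₁ * I₂)
        ≤ ∑ S ∈ (Finset.univ : Finset (Fin n)).powersetCard n₁, ∫ x in A S, G x :=
      Finset.sum_le_sum key
    rw [Finset.sum_const, Finset.card_powersetCard, Finset.card_univ, Fintype.card_fin,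
      nsmul_eq_mul] at h1
    exact h1.trans hsum
  -- arithmetic
  have hfact : ((Nat.factorial n : ℕ) : ℝ) =
      ((n.choose n₁ : ℕ) : ℝ) * (Nat.factorial n₁ : ℝ) * (Nat.factorial n₂ : ℝ) := by
    have := Nat.add_choose_mul_factorial_mul_factorial n₁ n₂
    have hsymm : (n₁ + n₂).choose n₂ = (n₁ + n₂).choose n₁ := Nat.choose_symm_add.symm
    rw [hsymm, ← hn] at this
    exact_mod_cast this.symm
  have hf₁ : (0 : ℝ) < (Nat.factorial n₁ : ℝ) := by exact_mod_cast Nat.factorial_pos _
  have hf₂ : (0 : ℝ) < (Nat.factorial n₂ : ℝ) := by exact_mod_cast Nat.factorial_pos _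
  have hf : (0 : ℝ) < (Nat.factorial n : ℝ) := by exact_mod_cast Nat.factorial_pos _
  unfold zD
  rw [← hI₁, ← hI₂]
  change 1 / (Nat.factorial n₁ : ℝ) * I₁ * (1 / (Nat.factorial n₂ : ℝ) * I₂)
    ≤ 1 / (Nat.factorial n : ℝ) * Iall
  have hcp : (0 : ℝ) < ((n.choose n₁ : ℕ) : ℝ) := by
    exact_mod_cast Nat.choose_pos (by omega)
  rw [show 1 / (Nat.factorial n₁ : ℝ) * I₁ * (1 / (Nat.factorial n₂ : ℝ) * I₂)
      = (I₁ * I₂) / ((Nat.factorial n₁ : ℝ) * (Nat.factorial n₂ : ℝ)) by field_simp,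
    show 1 / (Nat.factorial n : ℝ) * Iall = Iall / (Nat.factorial n : ℝ) by ring,
    div_le_div_iff₀ (by positivity) hf, hfact]
  have := mul_le_mul_of_nonneg_right hchoose (by positivity :
    (0 : ℝ) ≤ (Nat.factorial n₁ : ℝ) * (Nat.factorial n₂ : ℝ))
  nlinarith [this]

/-- Finite family version of `zD_split` (induction on the finset). -/
theorem zD_split_finset {ι : Type*} [DecidableEq ι] (hφ : Measurable φ) (hst : Stable φ B)
    (hβ : 0 ≤ β) (s : Finset ι) (D : ι → Set Pt) (hD : ∀ c ∈ s, MeasurableSet (D c))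
    (hfin : ∀ c ∈ s, volume (D c) ≠ ⊤)
    (hdisj : ∀ c ∈ s, ∀ c' ∈ s, c ≠ c' → Disjoint (D c) (D c'))
    (hcross : ∀ c ∈ s, ∀ c' ∈ s, c ≠ c' → ∀ x ∈ D c, ∀ y ∈ D c', φ (dist x y) ≤ 0)
    (n : ι → ℕ) :
    ∏ c ∈ s, zD φ (D c) (n c) β ≤ zD φ (⋃ c ∈ s, D c) (∑ c ∈ s, n c) β := by
  classical
  induction s using Finset.induction_on with
  | empty => simp
  | insert a s ha ih =>
    have hDs : ∀ c ∈ s, MeasurableSet (D c) := fun c hc => hD c (Finset.mem_insert_of_mem hc)
    have hfins : ∀ c ∈ s, volume (D c) ≠ ⊤ := fun c hc => hfin c (Finset.mem_insert_of_mem hc)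
    have ih' := ih hDs hfins
      (fun c hc c' hc' => hdisj c (Finset.mem_insert_of_mem hc) c' (Finset.mem_insert_of_mem hc'))
      (fun c hc c' hc' => hcross c (Finset.mem_insert_of_mem hc) c' (Finset.mem_insert_of_mem hc'))
    rw [Finset.prod_insert ha, Finset.sum_insert ha, Finset.set_biUnion_insert]
    have hUm : MeasurableSet (⋃ c ∈ s, D c) :=
      Finset.measurableSet_biUnion s hDs
    have hUfin : volume (⋃ c ∈ s, D c) ≠ ⊤ := by
      refine ne_of_lt (lt_of_le_of_lt (measure_biUnion_finset_le s D) ?_)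
      exact ENNReal.sum_lt_top.mpr fun c hc => lt_top_iff_ne_top.mpr (hfins c hc)
    have hdU : Disjoint (D a) (⋃ c ∈ s, D c) := by
      refine Set.disjoint_iUnion₂_right.mpr fun c hc => ?_
      exact hdisj a (Finset.mem_insert_self _ _) c (Finset.mem_insert_of_mem hc)
        (by rintro rfl; exact ha hc)
    have hcU : ∀ x ∈ D a, ∀ y ∈ (⋃ c ∈ s, D c), φ (dist x y) ≤ 0 := by
      intro x hx y hy
      simp only [Set.mem_iUnion] at hy
      obtain ⟨c, hc, hyc⟩ := hy
      exact hcross a (Finset.mem_insert_self _ _) c (Finset.mem_insert_of_mem hc)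
        (by rintro rfl; exact ha hc) x hx y hyc
    calc zD φ (D a) (n a) β * ∏ c ∈ s, zD φ (D c) (n c) β
        ≤ zD φ (D a) (n a) β * zD φ (⋃ c ∈ s, D c) (∑ c ∈ s, n c) β :=
          mul_le_mul_of_nonneg_left ih' (zD_nonneg_aux _ _ _ _)
      _ ≤ _ := zD_split hφ hst hβ (hD a (Finset.mem_insert_self _ _)) hUm
          (hfin a (Finset.mem_insert_self _ _)) hUfin hdU hcU _ _

end Crest.Agent.Lib.Gas
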