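import Crest.Agent.Lib.Gas.Config1

/-! # Gas B4: log-convexity (Hölder). -/
namespace Crest.Agent.Lib.Gas
open MeasureTheory Set Filter Topology
open Crest.ProbabilityR.Continuum

variable {φ ψ v : ℝ → ℝ} {D D₁ D₂ : Set Pt} {B β : ℝ}

/-- log-convexity along an affine family of exponents (Hölder). -/
theorem log_integral_exp_convex {α : Type*} [MeasurableSpace α] (μ : Measure α) (h₀ h₁ : α → ℝ)
    (hh₀ : Measurable h₀) (hh₁ : Measurable h₁) {s₀ s₁ t : ℝ} (ht0 : 0 ≤ t) (ht1 : t ≤ 1)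
    (hi₀ : Integrable (fun a => Real.exp (h₀ a + s₀ * h₁ a)) μ)
    (hi₁ : Integrable (fun a => Real.exp (h₀ a + s₁ * h₁ a)) μ)
    (hp₀ : 0 < ∫ a, Real.exp (h₀ a + s₀ * h₁ a) ∂μ)
    (hp₁ : 0 < ∫ a, Real.exp (h₀ a + s₁ * h₁ a) ∂μ) :
    Real.log (∫ a, Real.exp (h₀ a + ((1 - t) * s₀ + t * s₁) * h₁ a) ∂μ) ≤
      (1 - t) * Real.log (∫ a, Real.exp (h₀ a + s₀ * h₁ a) ∂μ) +
        t * Real.log (∫ a, Real.exp (h₀ a + s₁ * h₁ a) ∂μ) := by
  have hμ : μ ≠ 0 := by
    rintro rfl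
    simp at hp₀
  haveI : NeZero μ := ⟨hμ⟩
  set A := ∫ a, Real.exp (h₀ a + s₀ * h₁ a) ∂μ with hA
  set B := ∫ a, Real.exp (h₀ a + s₁ * h₁ a) ∂μ with hB
  set c := (1 - t) * Real.log A + t * Real.log B with hc
  have ht' : 0 ≤ 1 - t := by linarith
  -- the pointwise bound
  have hpt : ∀ a, Real.exp (h₀ a + ((1 - t) * s₀ + t * s₁) * h₁ a) ≤
      Real.exp c * ((1 - t) * (Real.exp (h₀ a + s₀ * h₁ a) / A) +
        t * (Real.exp (h₀ a + s₁ * h₁ a) / B)) := by
    intro a
    set X := h₀ a + s₀ * h₁ a - Real.log A with hX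
    set Y := h₀ a + s₁ * h₁ a - Real.log B with hY
    have h1 := convexOn_exp.2 (mem_univ X) (mem_univ Y) ht' ht0 (by ring)
    simp only [smul_eq_mul] at h1
    have e1 : Real.exp (h₀ a + s₀ * h₁ a) / A = Real.exp X := by
      rw [hX, Real.exp_sub, Real.exp_log hp₀]
    have e2 : Real.exp (h₀ a + s₁ * h₁ a) / B = Real.exp Y := by
      rw [hY, Real.exp_sub, Real.exp_log hp₁]
    rw [e1, e2]
    have e3 : h₀ a + ((1 - t) * s₀ + t * s₁) * h₁ a = c + ((1 - t) * X + t * Y) := by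
      rw [hc, hX, hY]
      ring
    rw [e3, Real.exp_add]
    exact mul_le_mul_of_nonneg_left h1 (Real.exp_pos _).le
  have hdom : Integrable (fun a => Real.exp c * ((1 - t) * (Real.exp (h₀ a + s₀ * h₁ a) / A) +
        t * (Real.exp (h₀ a + s₁ * h₁ a) / B))) μ :=
    (((hi₀.div_const A).const_mul (1 - t)).add ((hi₁.div_const B).const_mul t)).const_mul _
  have hmeas : Measurable (fun a => Real.exp (h₀ a + ((1 - t) * s₀ + t * s₁) * h₁ a)) :=
    Real.measurable_exp.comp (hh₀.add (hh₁.const_mul _))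
  have hint : Integrable (fun a => Real.exp (h₀ a + ((1 - t) * s₀ + t * s₁) * h₁ a)) μ := by
    refine hdom.mono' hmeas.aestronglyMeasurable (Filter.Eventually.of_forall fun a => ?_)
    rw [Real.norm_eq_abs, abs_of_pos (Real.exp_pos _)]
    exact hpt a
  have hpos : 0 < ∫ a, Real.exp (h₀ a + ((1 - t) * s₀ + t * s₁) * h₁ a) ∂μ :=
    integral_exp_pos hint
  rw [Real.log_le_iff_le_exp hpos]
  have hle := integral_mono hint hdom hpt
  refine hle.trans (le_of_eq ?_)
  rw [integral_const_mul, integral_add ((hi₀.div_const A).const_mul (1 - t))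
    ((hi₁.div_const B).const_mul t), integral_const_mul, integral_const_mul, integral_div,
    integral_div, ← hA, ← hB, div_self hp₀.ne', div_self hp₁.ne']
  ring_nf

/-- `β ↦ log Z` is convex. -/
theorem log_zD_convex_beta (hφ : Measurable φ) (hst : Stable φ B)
    (hD : MeasurableSet D) (hfin : volume D ≠ ⊤) (h0 : volume D ≠ 0) (N : ℕ) :
    ConvexOn ℝ (Ici 0) (fun β => Real.log (zD φ D N β)) := by
  refine ⟨convex_Ici 0, ?_⟩
  intro β₀ hβ₀ β₁ hβ₁ a b ha hb hab
  have hβ₀' : (0 : ℝ) ≤ β₀ := hβ₀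
  have hβ₁' : (0 : ℝ) ≤ β₁ := hβ₁
  set μ : Measure (Fin N → Pt) := volume.restrict (Set.pi Set.univ (fun _ : Fin N => D)) with hμ
  set H : (Fin N → Pt) → ℝ := fun x => - energy φ x with hH
  have hHm : Measurable H := (measurable_energy hφ N).neg
  have hfac : (0 : ℝ) < 1 / (Nat.factorial N : ℝ) := by positivity
  have hZ : ∀ s : ℝ, zD φ D N s =
      (1 / (Nat.factorial N : ℝ)) * ∫ x, Real.exp ((0 : (Fin N → Pt) → ℝ) x + s * H x) ∂μ := by
    intro s
    unfold zD
    congr 1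
    refine integral_congr_ae (Filter.Eventually.of_forall fun x => ?_)
    simp [hH]
  have hint : ∀ s : ℝ, 0 ≤ s → Integrable (fun x => Real.exp ((0 : (Fin N → Pt) → ℝ) x + s * H x)) μ := by
    intro s hs
    have := integrableOn_boltz hφ hst hs hD hfin N
    refine this.congr (Filter.Eventually.of_forall fun x => ?_)
    simp [hH]
  have hpos : ∀ s : ℝ, 0 ≤ s → 0 < ∫ x, Real.exp ((0 : (Fin N → Pt) → ℝ) x + s * H x) ∂μ := by
    intro s hs
    have := zD_pos hφ hst hs hD hfin h0 N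
    rw [hZ s] at this
    exact (pos_iff_pos_of_mul_pos this).1 hfac
  have key := log_integral_exp_convex μ (0 : (Fin N → Pt) → ℝ) H measurable_const hHm hb
    (by linarith) (hint β₀ hβ₀') (hint β₁ hβ₁') (hpos β₀ hβ₀') (hpos β₁ hβ₁')
  have e1 : (1 - b) = a := by linarith
  rw [e1] at key
  simp only [smul_eq_mul]
  rw [hZ, hZ, hZ, Real.log_mul hfac.ne' (hpos β₀ hβ₀').ne', Real.log_mul hfac.ne' (hpos β₁ hβ₁').ne',
    Real.log_mul hfac.ne' (ne_of_gt (hpos _ (by positivity)))]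
  have : Real.log (1 / (Nat.factorial N : ℝ)) =
      a * Real.log (1 / (Nat.factorial N : ℝ)) + b * Real.log (1 / (Nat.factorial N : ℝ)) := by
    rw [← add_mul, hab, one_mul]
  nlinarith [key]

/-- `s ↦ log Z(v - s T)` is convex, for `v - s₀ T`, `v - s₁ T` stable. -/
theorem log_zD_convex_param {T : ℝ → ℝ} (hv : Measurable v) (hT : Measurable T) (hβ : 0 ≤ β)
    {B₀ B₁ s₀ s₁ t : ℝ} (hst₀ : Stable (fun r => v r - s₀ * T r) B₀)
    (hst₁ : Stable (fun r => v r - s₁ * T r) B₁) (ht0 : 0 ≤ t) (ht1 : t ≤ 1)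
    (hD : MeasurableSet D) (hfin : volume D ≠ ⊤) (h0 : volume D ≠ 0) (N : ℕ) :
    Real.log (zD (fun r => v r - ((1 - t) * s₀ + t * s₁) * T r) D N β) ≤
      (1 - t) * Real.log (zD (fun r => v r - s₀ * T r) D N β) +
        t * Real.log (zD (fun r => v r - s₁ * T r) D N β) := by
  set μ : Measure (Fin N → Pt) := volume.restrict (Set.pi Set.univ (fun _ : Fin N => D)) with hμ
  set h₀ : (Fin N → Pt) → ℝ := fun x => -β * energy v x with hh₀
  set h₁ : (Fin N → Pt) → ℝ := fun x => β * energy T x with hh₁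
  have hh₀m : Measurable h₀ := (measurable_energy hv N).const_mul _
  have hh₁m : Measurable h₁ := (measurable_energy hT N).const_mul _
  have hlin : ∀ (s : ℝ) (x : Fin N → Pt),
      energy (fun r => v r - s * T r) x = energy v x - s * energy T x := by
    intro s x
    unfold energy
    rw [Finset.mul_sum, ← Finset.sum_sub_distrib]
  have hfac : (0 : ℝ) < 1 / (Nat.factorial N : ℝ) := by positivity
  have hZ : ∀ s : ℝ, zD (fun r => v r - s * T r) D N β =
      (1 / (Nat.factorial N : ℝ)) * ∫ x, Real.exp (h₀ x + s * h₁ x) ∂μ := by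
    intro s
    unfold zD
    congr 1
    refine integral_congr_ae (Filter.Eventually.of_forall fun x => ?_)
    simp only [hlin, hh₀, hh₁]
    congr 1
    ring
  have hm : ∀ s : ℝ, Measurable (fun r => v r - s * T r) := fun s => hv.sub (hT.const_mul s)
  have hint₀ : Integrable (fun x => Real.exp (h₀ x + s₀ * h₁ x)) μ := by
    have := integrableOn_boltz (hm s₀) hst₀ hβ hD hfin N
    refine this.congr (Filter.Eventually.of_forall fun x => ?_)
    simp only [hlin, hh₀, hh₁]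
    congr 1
    ring
  have hint₁ : Integrable (fun x => Real.exp (h₀ x + s₁ * h₁ x)) μ := by
    have := integrableOn_boltz (hm s₁) hst₁ hβ hD hfin N
    refine this.congr (Filter.Eventually.of_forall fun x => ?_)
    simp only [hlin, hh₀, hh₁]
    congr 1
    ring
  have hpos₀ : 0 < ∫ x, Real.exp (h₀ x + s₀ * h₁ x) ∂μ := by
    have := zD_pos (hm s₀) hst₀ hβ hD hfin h0 N
    rw [hZ s₀] at this
    exact (pos_iff_pos_of_mul_pos this).1 hfac
  have hpos₁ : 0 < ∫ x, Real.exp (h₀ x + s₁ * h₁ x) ∂μ := by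
    have := zD_pos (hm s₁) hst₁ hβ hD hfin h0 N
    rw [hZ s₁] at this
    exact (pos_iff_pos_of_mul_pos this).1 hfac
  have key := log_integral_exp_convex μ h₀ h₁ hh₀m hh₁m ht0 ht1 hint₀ hint₁ hpos₀ hpos₁
  haveI : NeZero μ := ⟨by
    intro h
    rw [h] at hpos₀
    simp at hpos₀⟩
  have hposm : 0 < ∫ x, Real.exp (h₀ x + ((1 - t) * s₀ + t * s₁) * h₁ x) ∂μ := by
    by_contra hne
    have hle : ∫ x, Real.exp (h₀ x + ((1 - t) * s₀ + t * s₁) * h₁ x) ∂μ ≤ 0 := not_lt.1 hne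
    -- integrability via convexity: the integrand is bounded by the sum
    have hdom : Integrable (fun x => Real.exp (h₀ x + s₀ * h₁ x) + Real.exp (h₀ x + s₁ * h₁ x)) μ :=
      hint₀.add hint₁
    have hmeas : Measurable (fun x => Real.exp (h₀ x + ((1 - t) * s₀ + t * s₁) * h₁ x)) :=
      Real.measurable_exp.comp (hh₀m.add (hh₁m.const_mul _))
    have hint : Integrable (fun x => Real.exp (h₀ x + ((1 - t) * s₀ + t * s₁) * h₁ x)) μ := by
      refine hdom.mono' hmeas.aestronglyMeasurable (Filter.Eventually.of_forall fun x => ?_)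
      rw [Real.norm_eq_abs, abs_of_pos (Real.exp_pos _)]
      have h1 := convexOn_exp.2 (mem_univ (h₀ x + s₀ * h₁ x)) (mem_univ (h₀ x + s₁ * h₁ x))
        (show (0 : ℝ) ≤ 1 - t by linarith) ht0 (by ring)
      simp only [smul_eq_mul] at h1
      have e : (1 - t) * (h₀ x + s₀ * h₁ x) + t * (h₀ x + s₁ * h₁ x) =
          h₀ x + ((1 - t) * s₀ + t * s₁) * h₁ x := by ring
      rw [e] at h1
      have h2 := Real.exp_pos (h₀ x + s₀ * h₁ x)
      have h3 := Real.exp_pos (h₀ x + s₁ * h₁ x)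
      have : (1 - t) * Real.exp (h₀ x + s₀ * h₁ x) + t * Real.exp (h₀ x + s₁ * h₁ x) ≤
          Real.exp (h₀ x + s₀ * h₁ x) + Real.exp (h₀ x + s₁ * h₁ x) := by
        nlinarith
      linarith
    exact absurd (integral_exp_pos hint) (not_lt.2 hle)
  rw [hZ, hZ, hZ, Real.log_mul hfac.ne' hpos₀.ne', Real.log_mul hfac.ne' hpos₁.ne',
    Real.log_mul hfac.ne' hposm.ne']
  nlinarith [key]

end Crest.Agent.Lib.Gas
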