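import Crest.Agent.Lib.Gas.Config1

/-! # Gas B5: cell factorisation, stars and bars. -/
namespace Crest.Agent.Lib.Gas
open MeasureTheory Set Filter Topology
open Crest.ProbabilityR.Continuum

variable {φ ψ v : ℝ → ℝ} {D D₁ D₂ : Set Pt} {B β : ℝ}

/-- Energy of the part of `x` lying in a cell `c` (`σ = cellOf ∘ x`). -/
noncomputable def cellE {C : Type*} [DecidableEq C] (ψ : ℝ → ℝ) (cellOf : Pt → C) (c : C) {N : ℕ}
    (x : Fin N → Pt) : ℝ :=
  (1 / 2) * ∑ i, ∑ k, if cellOf (x i) = c ∧ cellOf (x k) = c ∧ i ≠ k then ψ (dist (x i) (x k)) else 0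

/-- Occupation number of a cell. -/
noncomputable def occ {C : Type*} [DecidableEq C] (cellOf : Pt → C) (c : C) {N : ℕ}
    (x : Fin N → Pt) : ℕ :=
  (Finset.univ.filter fun i => cellOf (x i) = c).card


/-- occupation vector of a cell assignment -/
def occV {C : Type*} [Fintype C] [DecidableEq C] {N : ℕ} (σ : Fin N → C) : C → ℕ :=
  fun c => (Finset.univ.filter fun i => σ i = c).card

theorem occV_mem {C : Type*} [Fintype C] [DecidableEq C] {N : ℕ} (σ : Fin N → C) :
    occV σ ∈ Finset.piAntidiag (Finset.univ : Finset C) N := by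
  rw [Finset.mem_piAntidiag]
  refine ⟨?_, fun i _ => Finset.mem_univ i⟩
  have := Finset.card_eq_sum_card_fiberwise (s := (Finset.univ : Finset (Fin N)))
    (t := (Finset.univ : Finset C)) (f := σ) (fun _ _ => Finset.mem_univ _)
  show (∑ c, (Finset.univ.filter fun i => σ i = c).card) = N
  simpa using this.symm

theorem prod_pow_occV {C R : Type*} [Fintype C] [DecidableEq C] [CommMonoid R] {N : ℕ} (σ : Fin N → C)
    (f : C → R) : ∏ i, f (σ i) = ∏ c, f c ^ occV σ c := by
  have := Finset.prod_fiberwise_of_maps_to (s := (Finset.univ : Finset (Fin N)))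
    (t := (Finset.univ : Finset C)) (g := σ) (fun _ _ => Finset.mem_univ _) (fun i => f (σ i))
  rw [← this]
  refine Finset.prod_congr rfl fun c _ => ?_
  rw [Finset.prod_congr rfl (g := fun _ => f c)]
  · simp [occV]
  · intro i hi
    rw [(Finset.mem_filter.mp hi).2]

/-- Number of assignments with given occupation is the multinomial coefficient. -/
theorem card_occV_fiber {C : Type*} [Fintype C] [DecidableEq C] {N : ℕ} {n : C → ℕ}
    (hn : n ∈ Finset.piAntidiag (Finset.univ : Finset C) N) :
    (Finset.univ.filter fun σ : Fin N → C => occV σ = n).card =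
      Nat.multinomial Finset.univ n := by
  classical
  let X : C → MvPolynomial C ℕ := MvPolynomial.X
  have h1 : (∑ c, X c) ^ N = ∑ k ∈ Finset.piAntidiag (Finset.univ : Finset C) N,
      (Nat.multinomial Finset.univ k : MvPolynomial C ℕ) * ∏ c, X c ^ k c :=
    Finset.sum_pow_eq_sum_piAntidiag _ _ _
  have h2 : (∑ c, X c) ^ N = ∑ σ : Fin N → C, ∏ c, X c ^ occV σ c := by
    have := Finset.prod_univ_sum (fun _ : Fin N => (Finset.univ : Finset C)) (fun _ c => X c)
    rw [Finset.prod_const, Finset.card_univ, Fintype.card_fin] at this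
    rw [this]
    simp only [Fintype.piFinset_univ]
    refine Finset.sum_congr rfl fun σ _ => ?_
    exact prod_pow_occV σ X
  let d : C →₀ ℕ := Finsupp.equivFunOnFinite.symm n
  have hd : ∀ k : C → ℕ, (d = Finsupp.indicator Finset.univ (fun i _ => k i)) ↔ k = n := by
    intro k
    constructor
    · intro h
      funext c
      have := DFunLike.congr_fun h c
      simpa [d] using this.symm
    · rintro rfl
      ext c
      simp [d]
  have h3 := congrArg (MvPolynomial.coeff d) (h2.symm.trans h1)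
  simp only [MvPolynomial.coeff_sum] at h3
  have h4 : ∀ k : C → ℕ, MvPolynomial.coeff d (∏ c, X c ^ k c) = if k = n then 1 else 0 := by
    intro k
    have := MvPolynomial.coeff_prod_X_pow (R := ℕ) d k Finset.univ
    simp only [X]
    rw [this]
    simp only [hd]
  have h5 : ∀ k : C → ℕ, MvPolynomial.coeff d ((Nat.multinomial Finset.univ k : MvPolynomial C ℕ) * ∏ c, X c ^ k c) =
      if k = n then Nat.multinomial Finset.univ n else 0 := by
    intro k
    rw [← MvPolynomial.C_eq_coe_nat, MvPolynomial.coeff_C_mul, h4]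
    split_ifs with h
    · rw [h, mul_one, Nat.cast_id]
    · rw [mul_zero]
  simp only [h4, h5] at h3
  rw [Finset.sum_ite_eq' _ n, if_pos hn] at h3
  rw [← h3, Finset.card_filter]

/-- Grouping a sum over assignments by occupation. -/
theorem sum_assign_eq {C : Type*} [Fintype C] [DecidableEq C] {N : ℕ} (a : C → ℕ → ℝ) :
    ∑ σ : Fin N → C, ∏ c, ((Nat.factorial (occV σ c) : ℝ) * a c (occV σ c)) =
      (Nat.factorial N : ℝ) * ∑ n ∈ Finset.piAntidiag (Finset.univ : Finset C) N, ∏ c, a c (n c) := by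
  rw [← Finset.sum_fiberwise_of_maps_to (t := Finset.piAntidiag (Finset.univ : Finset C) N)
    (g := occV) (fun σ _ => occV_mem σ), Finset.mul_sum]
  refine Finset.sum_congr rfl fun n hn => ?_
  rw [Finset.sum_congr rfl (g := fun _ => ∏ c, ((Nat.factorial (n c) : ℝ) * a c (n c)))]
  · rw [Finset.sum_const, nsmul_eq_mul, card_occV_fiber hn, Finset.prod_mul_distrib, ← mul_assoc]
    congr 1
    have hspec := Nat.multinomial_spec (s := (Finset.univ : Finset C)) (f := n)
    rw [(Finset.mem_piAntidiag.mp hn).1] at hspec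
    rw [← hspec]
    push_cast
    ring
  · intro σ hσ
    rw [(Finset.mem_filter.mp hσ).2]

/-- Stars and bars bound. -/
theorem card_piAntidiag_le {C : Type*} [Fintype C] [DecidableEq C] [Nonempty C] (N : ℕ) :
    ((Finset.piAntidiag (Finset.univ : Finset C) N).card : ℝ) ≤
      Real.exp ((Fintype.card C : ℝ) * (1 + Real.log (1 + (N : ℝ) / Fintype.card C))) := by
  classical
  set m := Fintype.card C with hm
  have hm0 : 0 < m := Fintype.card_pos
  have hm0' : (0 : ℝ) < m := by exact_mod_cast hm0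
  have hcard : (Finset.piAntidiag (Finset.univ : Finset C) N).card =
      (Finset.finsuppAntidiag (Finset.univ : Finset C) N).card := by
    simp [Finset.finsuppAntidiag]
  have h1 : (Finset.piAntidiag (Finset.univ : Finset C) N).card = (m + N - 1).choose N := by
    rw [hcard, Finset.card_finsuppAntidiag_nat_eq_choose, Finset.card_univ]
  have h2 : (m + N - 1).choose N ≤ (m + N).choose m := by
    rw [Nat.choose_symm_add]
    exact Nat.choose_le_choose N (by omega)
  have h3 : (((m + N).choose m : ℕ) : ℝ) ≤ ((m + N : ℕ) : ℝ) ^ m / (Nat.factorial m : ℝ) :=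
    Nat.choose_le_pow_div m (m + N)
  have h4 : ((m : ℝ)) ^ m / (Nat.factorial m : ℝ) ≤ Real.exp m := Real.pow_div_factorial_le_exp _ hm0'.le m
  have hlog : Real.exp ((m : ℝ) * (1 + Real.log (1 + (N : ℝ) / m))) =
      Real.exp m * (1 + (N : ℝ) / m) ^ m := by
    have hp : 0 < 1 + (N : ℝ) / m := by positivity
    rw [mul_add, mul_one, Real.exp_add, mul_comm (m : ℝ) (Real.log _), Real.exp_mul, Real.exp_log hp,
      Real.rpow_natCast]
  rw [hlog, h1]
  calc (((m + N - 1).choose N : ℕ) : ℝ) ≤ (((m + N).choose m : ℕ) : ℝ) := by exact_mod_cast h2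
    _ ≤ ((m + N : ℕ) : ℝ) ^ m / (Nat.factorial m : ℝ) := h3
    _ = ((m : ℝ) ^ m / (Nat.factorial m : ℝ)) * (1 + (N : ℝ) / m) ^ m := by
        have : ((m + N : ℕ) : ℝ) = m * (1 + (N : ℝ) / m) := by
          push_cast
          field_simp
        rw [this, mul_pow]
        ring
    _ ≤ Real.exp m * (1 + (N : ℝ) / m) ^ m := by
        apply mul_le_mul_of_nonneg_right h4
        positivity


/-- Restriction to fibres of an assignment, as a measurable equivalence. -/
def fibreEquiv {C : Type*} {N : ℕ} (σ : Fin N → C) :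
    (Fin N → Pt) ≃ᵐ ((c : C) → ({i // σ i = c} → Pt)) where
  toFun x c j := x j.1
  invFun y i := y (σ i) ⟨i, rfl⟩
  left_inv x := rfl
  right_inv y := by
    funext c ⟨i, hi⟩
    subst hi
    rfl
  measurable_toFun := by
    refine measurable_pi_iff.2 fun c => measurable_pi_iff.2 fun j => measurable_pi_apply _
  measurable_invFun := by
    show Measurable (fun (y : (c : C) → ({i // σ i = c} → Pt)) (i : Fin N) => y (σ i) ⟨i, rfl⟩)
    exact measurable_pi_iff.2 fun i =>
      (measurable_pi_apply (⟨i, rfl⟩ : {k // σ k = σ i})).comp (measurable_pi_apply (σ i))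

theorem fibreEquiv_symm_mp {C : Type*} [Fintype C] [DecidableEq C] {N : ℕ} (σ : Fin N → C) :
    MeasurePreserving (fibreEquiv σ).symm volume volume := by
  refine ⟨(fibreEquiv σ).symm.measurable, ?_⟩
  symm
  rw [volume_pi]
  apply Measure.pi_eq
  intro s hs
  rw [(fibreEquiv σ).symm.map_apply]
  have hpre : (fibreEquiv σ).symm ⁻¹' (Set.pi Set.univ s) =
      Set.pi Set.univ (fun c => Set.pi Set.univ (fun j : {i // σ i = c} => s j.1)) := by
    ext y
    simp only [Set.mem_preimage, Set.mem_pi, Set.mem_univ, true_imp_iff]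
    constructor
    · rintro h c ⟨i, rfl⟩
      exact h i
    · intro h i
      exact h (σ i) ⟨i, rfl⟩
  rw [hpre, volume_pi, Measure.pi_pi]
  have h2 : ∀ c, (volume : Measure ({i // σ i = c} → Pt))
      (Set.pi Set.univ (fun j : {i // σ i = c} => s j.1)) = ∏ j : {i // σ i = c}, volume (s j.1) := by
    intro c
    rw [volume_pi, Measure.pi_pi]
  simp only [h2]
  exact Fintype.prod_fiberwise σ (fun i => volume (s i))

theorem fibreEquiv_mp {C : Type*} [Fintype C] [DecidableEq C] {N : ℕ} (σ : Fin N → C) :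
    MeasurePreserving (fibreEquiv σ) volume volume :=
  MeasurePreserving.symm (fibreEquiv σ).symm (fibreEquiv_symm_mp σ)

theorem integral_fibre_prod {C : Type*} [Fintype C] [DecidableEq C] {N : ℕ} (σ : Fin N → C)
    (F : ∀ c, ({i // σ i = c} → Pt) → ℝ) :
    ∫ x : Fin N → Pt, ∏ c, F c (fun j => x j.1) = ∏ c, ∫ y, F c y := by
  have h := (fibreEquiv_mp σ).integral_comp (fibreEquiv σ).measurableEmbedding
    (fun y => ∏ c, F c (y c))
  exact h.trans (integral_fintype_prod_volume_eq_prod F)

theorem integrable_fibre_prod {C : Type*} [Fintype C] [DecidableEq C] {N : ℕ} (σ : Fin N → C)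
    (F : ∀ c, ({i // σ i = c} → Pt) → ℝ) (hF : ∀ c, Integrable (F c)) :
    Integrable (fun x : Fin N → Pt => ∏ c, F c (fun j => x j.1)) := by
  have h := (fibreEquiv_mp σ).integrable_comp_emb (fibreEquiv σ).measurableEmbedding
    (g := fun y => ∏ c, F c (y c))
  exact h.2 (Integrable.fintype_prod_dep hF)


theorem boltz_reindex (hψ : Measurable ψ) (hst : Stable ψ B) (hβ : 0 ≤ β) {A : Set Pt}
    (hA : MeasurableSet A) (hfin : volume A ≠ ⊤) {ι : Type*} [Fintype ι] [DecidableEq ι] {n : ℕ}
    (e : ι ≃ Fin n) :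
    IntegrableOn (fun y : ι → Pt => Real.exp (-β * pairE ψ y)) (Set.pi Set.univ fun _ => A) ∧
      ∫ y in Set.pi Set.univ (fun _ : ι => A), Real.exp (-β * pairE ψ y) =
        (Nat.factorial n : ℝ) * zD ψ A n β := by
  let P := MeasurableEquiv.piCongrLeft (fun _ : Fin n => Pt) e
  have hP : MeasurePreserving P volume volume :=
    volume_measurePreserving_piCongrLeft (fun _ : Fin n => Pt) e
  have hPapp : ∀ (x : ι → Pt) (i : ι), P x (e i) = x i := by
    intro x i
    exact Equiv.piCongrLeft_apply_apply (fun _ : Fin n => Pt) e x i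
  have hcomp : ∀ x : ι → Pt, (P x) ∘ e = x := fun x => funext (hPapp x)
  have hg : ∀ x : ι → Pt, Real.exp (-β * energy ψ (P x)) = Real.exp (-β * pairE ψ x) := by
    intro x
    rw [energy_eq_pairE, ← pairE_reindex e ψ (P x), hcomp]
  have hpre : P ⁻¹' (Set.pi Set.univ fun _ : Fin n => A) = Set.pi Set.univ fun _ : ι => A := by
    ext x
    simp only [Set.mem_preimage, Set.mem_pi, Set.mem_univ, true_imp_iff]
    constructor
    · intro h i
      rw [← hPapp x i]
      exact h _
    · intro h j
      obtain ⟨i, rfl⟩ := e.surjective j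
      rw [hPapp x i]
      exact h i
  constructor
  · have := (hP.integrableOn_comp_preimage P.measurableEmbedding
      (f := fun x : Fin n → Pt => Real.exp (-β * energy ψ x))
      (s := Set.pi Set.univ fun _ : Fin n => A)).2 (integrableOn_boltz hψ hst hβ hA hfin n)
    rw [hpre] at this
    refine this.congr_fun (fun x _ => hg x) (MeasurableSet.univ_pi fun _ => hA)
  · have := hP.setIntegral_preimage_emb P.measurableEmbedding
      (fun x : Fin n → Pt => Real.exp (-β * energy ψ x)) (Set.pi Set.univ fun _ : Fin n => A)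
    rw [hpre] at this
    simp only [hg] at this
    rw [this, zD]
    have : (Nat.factorial n : ℝ) ≠ 0 := by positivity
    field_simp

/-- Boltzmann factor of an assignment. -/
noncomputable def blockG {C : Type*} [Fintype C] [DecidableEq C] (ψ : ℝ → ℝ) (β κ : ℝ) {N : ℕ}
    (σ : Fin N → C) (x : Fin N → Pt) : ℝ :=
  ∏ c, (Real.exp (-β * pairE ψ (fun j : {i // σ i = c} => x j.1)) *
    Real.exp (κ * ((occV σ c : ℝ)) ^ 2))

theorem blockG_nonneg {C : Type*} [Fintype C] [DecidableEq C] (ψ : ℝ → ℝ) (β κ : ℝ) {N : ℕ}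
    (σ : Fin N → C) (x : Fin N → Pt) : 0 ≤ blockG ψ β κ σ x :=
  Finset.prod_nonneg fun _ _ => by positivity

theorem card_fibre {C : Type*} [DecidableEq C] {N : ℕ} [Fintype C] (σ : Fin N → C) (c : C) :
    Fintype.card {i // σ i = c} = occV σ c := by
  simp [occV, Fintype.card_subtype]

theorem block_integral {C : Type*} [Fintype C] [DecidableEq C]
    (hψ : Measurable ψ) (hst : Stable ψ B) (hβ : 0 ≤ β) (box : C → Set Pt)
    (hbox : ∀ c, MeasurableSet (box c)) (hboxfin : ∀ c, volume (box c) ≠ ⊤) (κ : ℝ) {N : ℕ}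
    (σ : Fin N → C) :
    IntegrableOn (blockG ψ β κ σ) (Set.pi Set.univ fun i => box (σ i)) ∧
      ∫ x in Set.pi Set.univ (fun i => box (σ i)), blockG ψ β κ σ x =
        ∏ c, ((Nat.factorial (occV σ c) : ℝ) *
          (zD ψ (box c) (occV σ c) β * Real.exp (κ * ((occV σ c : ℝ)) ^ 2))) := by
  have hBm : MeasurableSet (Set.pi Set.univ fun i => box (σ i)) :=
    MeasurableSet.univ_pi fun _ => hbox _
  have hbm : ∀ c, MeasurableSet (Set.pi Set.univ fun _ : {i // σ i = c} => box c) :=
    fun c => MeasurableSet.univ_pi fun _ => hbox _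
  let F : ∀ c, ({i // σ i = c} → Pt) → ℝ := fun c =>
    (Set.pi Set.univ fun _ : {i // σ i = c} => box c).indicator
      (fun y => Real.exp (-β * pairE ψ y) * Real.exp (κ * ((occV σ c : ℝ)) ^ 2))
  have hre := fun c => boltz_reindex hψ hst hβ (hbox c) (hboxfin c)
    (Fintype.equivFinOfCardEq (card_fibre σ c))
  have hFint : ∀ c, Integrable (F c) := by
    intro c
    rw [integrable_indicator_iff (hbm c)]
    exact (hre c).1.mul_const _
  have hFval : ∀ c, ∫ y, F c y = (Nat.factorial (occV σ c) : ℝ) *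
      (zD ψ (box c) (occV σ c) β * Real.exp (κ * ((occV σ c : ℝ)) ^ 2)) := by
    intro c
    rw [integral_indicator (hbm c), integral_mul_const, (hre c).2]
    ring
  have hprod : ∀ x : Fin N → Pt, ∏ c, F c (fun j => x j.1) =
      (Set.pi Set.univ fun i => box (σ i)).indicator (blockG ψ β κ σ) x := by
    intro x
    by_cases hx : x ∈ Set.pi Set.univ fun i => box (σ i)
    · rw [Set.indicator_of_mem hx, blockG]
      refine Finset.prod_congr rfl fun c _ => ?_
      show (Set.pi Set.univ fun _ : {i // σ i = c} => box c).indicator _ _ = _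
      rw [Set.indicator_of_mem]
      rintro ⟨i, rfl⟩ -
      exact hx i (Set.mem_univ i)
    · rw [Set.indicator_of_notMem hx]
      simp only [Set.mem_pi, Set.mem_univ, true_imp_iff, not_forall] at hx
      obtain ⟨i, hi⟩ := hx
      refine Finset.prod_eq_zero (Finset.mem_univ (σ i)) ?_
      show (Set.pi Set.univ fun _ : {k // σ k = σ i} => box (σ i)).indicator _ _ = _
      rw [Set.indicator_of_notMem]
      simp only [Set.mem_pi, Set.mem_univ, true_imp_iff, not_forall]
      exact ⟨⟨i, rfl⟩, hi⟩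
  have hprod' : (fun x : Fin N → Pt => ∏ c, F c (fun j => x j.1)) =
      (Set.pi Set.univ fun i => box (σ i)).indicator (blockG ψ β κ σ) := funext hprod
  constructor
  · rw [← integrable_indicator_iff hBm, ← hprod']
    exact integrable_fibre_prod σ F hFint
  · rw [← integral_indicator hBm, ← hprod', integral_fibre_prod σ F]
    exact Finset.prod_congr rfl fun c _ => hFval c

theorem cellE_eq {C : Type*} [DecidableEq C] (ψ : ℝ → ℝ) (cellOf : Pt → C) (c : C) {N : ℕ}
    (σ : Fin N → C) (x : Fin N → Pt) (hx : ∀ i, cellOf (x i) = σ i) :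
    cellE ψ cellOf c x = pairE ψ (fun j : {i // σ i = c} => x j.1) := by
  rw [cellE, pairE]
  congr 1
  simp only [hx]
  have hsub : ∀ f : Fin N → ℝ, ∑ i : {i // σ i = c}, f i.1 = ∑ i, if σ i = c then f i else 0 := by
    intro f
    rw [← Finset.sum_filter]
    exact (Finset.sum_subtype _ (fun i => by simp) f).symm
  have hin : ∀ i : {i // σ i = c}, (∑ k : {i // σ i = c}, if i = k then 0 else ψ (dist (x i.1) (x k.1))) =
      ∑ k : {i // σ i = c}, (if i.1 = k.1 then 0 else ψ (dist (x i.1) (x k.1))) := by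
    intro i
    refine Finset.sum_congr rfl fun k _ => ?_
    simp only [Subtype.ext_iff]
  simp only [hin]
  rw [hsub (fun i => ∑ k : {i // σ i = c}, (if i = k.1 then 0 else ψ (dist (x i) (x k.1))))]
  refine Finset.sum_congr rfl fun i _ => ?_
  rw [hsub (fun k => if i = k then 0 else ψ (dist (x i) (x k)))]
  by_cases hi : σ i = c
  · simp only [hi, if_true, true_and]
    refine Finset.sum_congr rfl fun k _ => ?_
    by_cases hk : σ k = c <;> by_cases hik : i = k <;> simp [hk, hik]
  · simp [hi]

theorem occ_eq {C : Type*} [Fintype C] [DecidableEq C] (cellOf : Pt → C) (c : C) {N : ℕ}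
    (σ : Fin N → C) (x : Fin N → Pt) (hx : ∀ i, cellOf (x i) = σ i) :
    occ cellOf c x = occV σ c := by
  simp only [occ, occV, hx]

/-- **Cell factorisation** (exponential formula, upper bound). `cellOf` has measurable fibres, every
point of `D` lies in the box of its cell.  -/
theorem integral_cell_factor {C : Type*} [Fintype C] [DecidableEq C] [Nonempty C]
    (hψ : Measurable ψ) (hst : Stable ψ B) (hβ : 0 ≤ β) (cellOf : Pt → C)
    (hcell : ∀ c, MeasurableSet (cellOf ⁻¹' {c})) (box : C → Set Pt)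
    (hbox : ∀ c, MeasurableSet (box c)) (hboxfin : ∀ c, volume (box c) ≠ ⊤)
    (hbox0 : ∀ c, volume (box c) ≠ 0)
    (hD : MeasurableSet D) (hDbox : ∀ y ∈ D, y ∈ box (cellOf y)) (κ : ℝ) (N : ℕ) :
    ∫ x in Set.pi Set.univ (fun _ : Fin N => D),
        ∏ c, Real.exp (-β * cellE ψ cellOf c x + κ * ((occ cellOf c x : ℝ)) ^ 2) ≤
      (Nat.factorial N : ℝ) * ∑ n ∈ Finset.piAntidiag (Finset.univ : Finset C) N,
        ∏ c, (zD ψ (box c) (n c) β * Real.exp (κ * ((n c : ℝ)) ^ 2)) := by
  set G : (Fin N → Pt) → ℝ := fun x =>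
    ∏ c, Real.exp (-β * cellE ψ cellOf c x + κ * ((occ cellOf c x : ℝ)) ^ 2) with hG
  let A : (Fin N → C) → Set (Fin N → Pt) := fun σ =>
    (Set.pi Set.univ fun _ : Fin N => D) ∩ {x | ∀ i, cellOf (x i) = σ i}
  have hAm : ∀ σ, MeasurableSet (A σ) := by
    intro σ
    refine (MeasurableSet.univ_pi fun _ => hD).inter ?_
    have : {x : Fin N → Pt | ∀ i, cellOf (x i) = σ i} =
        ⋂ i, (fun x : Fin N → Pt => x i) ⁻¹' (cellOf ⁻¹' {σ i}) := by
      ext x
      simp
    rw [this]
    exact MeasurableSet.iInter fun i => (measurable_pi_apply i) (hcell (σ i))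
  have hAdisj : Set.Pairwise (↑(Finset.univ : Finset (Fin N → C))) (Function.onFun Disjoint A) := by
    intro σ _ τ _ hne
    refine Set.disjoint_left.2 fun x hxσ hxτ => hne ?_
    funext i
    rw [← hxσ.2 i, hxτ.2 i]
  have hAunion : (Set.pi Set.univ fun _ : Fin N => D) = ⋃ σ ∈ (Finset.univ : Finset (Fin N → C)), A σ := by
    ext x
    simp only [Set.mem_iUnion, Finset.mem_univ, exists_true_left, A, Set.mem_inter_iff]
    constructor
    · intro hx
      exact ⟨fun i => cellOf (x i), hx, fun _ => rfl⟩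
    · rintro ⟨_, hx, _⟩
      exact hx
  have hABsub : ∀ σ, A σ ⊆ Set.pi Set.univ fun i => box (σ i) := by
    intro σ x hx i _
    show x i ∈ box (σ i)
    rw [← hx.2 i]
    exact hDbox _ (hx.1 i (Set.mem_univ i))
  have hGeq : ∀ σ, Set.EqOn G (blockG ψ β κ σ) (A σ) := by
    intro σ x hx
    simp only [hG, blockG]
    refine Finset.prod_congr rfl fun c _ => ?_
    rw [Real.exp_add, cellE_eq ψ cellOf c σ x hx.2, occ_eq cellOf c σ x hx.2]
  have hblock := fun σ : Fin N → C => block_integral hψ hst hβ box hbox hboxfin κ σ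
  have hAint : ∀ σ, IntegrableOn G (A σ) := by
    intro σ
    exact (((hblock σ).1.mono_set (hABsub σ))).congr_fun (fun x hx => (hGeq σ hx).symm) (hAm σ)
  rw [hAunion, integral_biUnion_finset Finset.univ (fun σ _ => hAm σ) hAdisj (fun σ _ => hAint σ)]
  have hstep : ∀ σ, ∫ x in A σ, G x ≤
      ∏ c, ((Nat.factorial (occV σ c) : ℝ) *
          (zD ψ (box c) (occV σ c) β * Real.exp (κ * ((occV σ c : ℝ)) ^ 2))) := by
    intro σ
    rw [setIntegral_congr_fun (hAm σ) (hGeq σ), ← (hblock σ).2]
    refine setIntegral_mono_set (hblock σ).1 ?_ (Filter.Eventually.of_forall (hABsub σ))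
    exact Filter.Eventually.of_forall fun x => blockG_nonneg ψ β κ σ x
  refine (Finset.sum_le_sum fun σ _ => hstep σ).trans (le_of_eq ?_)
  exact sum_assign_eq (fun c m => zD ψ (box c) m β * Real.exp (κ * ((m : ℝ)) ^ 2))

end Crest.Agent.Lib.Gas
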