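import Mathlib
import Crest.Prelude.Def_PairPotential
import Crest.Prelude.Def_UnitPacking

/-!
# Gas: basic definitions for S0209/S0210

Generalised partition function on a domain, and the symmetric form of the energy.
-/

namespace Crest.Agent.Lib.Gas
open MeasureTheory Set Filter Topology
open Crest.ProbabilityR.Continuum

/-- Symmetric pair energy for an arbitrary finite index set. -/
noncomputable def pairE {ι : Type*} [Fintype ι] [DecidableEq ι] (φ : ℝ → ℝ) (x : ι → Pt) : ℝ :=
  (1 / 2) * ∑ i, ∑ k, if i = k then 0 else φ (dist (x i) (x k))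

/-- Partition function of `N` particles on a domain `D`. -/
noncomputable def zD (φ : ℝ → ℝ) (D : Set Pt) (N : ℕ) (β : ℝ) : ℝ :=
  (1 / (Nat.factorial N : ℝ)) *
    ∫ x in Set.pi Set.univ (fun _ : Fin N => D), Real.exp (-β * energy φ x)

theorem partitionFn_eq_zD (φ : ℝ → ℝ) (L : ℝ) (N : ℕ) (β : ℝ) :
    partitionFn φ L N β = zD φ (cube L) N β := rfl

/-- Stability with constant `B`. -/
def Stable (φ : ℝ → ℝ) (B : ℝ) : Prop :=
  ∀ (N : ℕ) (x : Fin N → Pt), -B * N ≤ energy φ x

end Crest.Agent.Lib.Gas
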