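import Crest.Agent.Lib.Gas.Defs

/-! # Gas D1: the Kac kernel `J R r = |B_R(0) ∩ B_R(r e₀)| / |B_R|²`. -/
namespace Crest.Agent.Lib.Gas
open MeasureTheory Set Filter Topology Metric
open Crest.ProbabilityR.Continuum

/-- Volume of the ball of radius `R` in `ℝ³`. -/
noncomputable def ballVol (R : ℝ) : ℝ := volume.real (ball (0 : Pt) R)

/-- First basis vector. -/
noncomputable def e₀ : Pt := EuclideanSpace.single 0 1

/-- The kernel. -/
noncomputable def J (R r : ℝ) : ℝ :=
  volume.real (ball (0 : Pt) R ∩ ball (r • e₀) R) / (ballVol R) ^ 2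

private lemma norm_e₀_aux : ‖e₀‖ = 1 := by
  simp [e₀]

private lemma finrank_Pt_aux : Module.finrank ℝ Pt = 3 := by
  simp

theorem ballVol_eq (R : ℝ) (hR : 0 ≤ R) : ballVol R = ballVol 1 * R ^ 3 := by
  unfold ballVol
  have h1 := Measure.addHaar_ball (volume : Measure Pt) (0 : Pt) hR
  have h2 := Measure.addHaar_ball (volume : Measure Pt) (0 : Pt) (zero_le_one' ℝ)
  rw [finrank_Pt_aux] at h1 h2
  simp only [Measure.real]
  rw [h1, h2]
  simp only [one_pow, ENNReal.ofReal_one, one_mul, ENNReal.toReal_mul]
  rw [ENNReal.toReal_ofReal (by positivity)]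
  ring

theorem ballVol_one_pos : 0 < ballVol 1 := by
  unfold ballVol
  simp only [Measure.real]
  exact ENNReal.toReal_pos (measure_ball_pos _ _ one_pos).ne' measure_ball_lt_top.ne

private lemma ballVol_pos_aux (R : ℝ) (hR : 0 < R) : 0 < ballVol R := by
  rw [ballVol_eq R hR.le]
  exact mul_pos ballVol_one_pos (by positivity)

theorem ballVol_ball (x : Pt) (R : ℝ) : volume.real (ball x R) = ballVol R := by
  unfold ballVol
  simp only [Measure.real]
  rw [Measure.addHaar_ball_center]

theorem J_nonneg (R r : ℝ) : 0 ≤ J R r := by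
  unfold J
  exact div_nonneg measureReal_nonneg (sq_nonneg _)

private lemma measureReal_inter_le_aux (R : ℝ) (u v : Pt) :
    volume.real (ball u R ∩ ball v R) ≤ ballVol R := by
  rw [← ballVol_ball u R]
  exact measureReal_mono inter_subset_left measure_ball_lt_top.ne

theorem J_le (R r : ℝ) (hR : 0 < R) : J R r ≤ 1 / ballVol R := by
  unfold J
  have h := ballVol_pos_aux R hR
  rw [div_le_div_iff₀ (by positivity) h]
  have := measureReal_inter_le_aux R 0 (r • e₀)
  nlinarith

theorem J_zero (R : ℝ) (hR : 0 < R) : J R 0 = 1 / ballVol R := by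
  unfold J
  have h := ballVol_pos_aux R hR
  simp only [zero_smul, inter_self]
  change ballVol R / ballVol R ^ 2 = _
  field_simp

theorem J_eq_zero (R r : ℝ) (hR : 0 < R) (hr : 2 * R ≤ r) : J R r = 0 := by
  unfold J
  have hd : Disjoint (ball (0 : Pt) R) (ball (r • e₀) R) := by
    apply ball_disjoint_ball
    rw [dist_zero_left, norm_smul, norm_e₀_aux, mul_one, Real.norm_eq_abs,
      abs_of_nonneg (by linarith)]
    linarith
  rw [hd.inter_eq]
  simp

/-- Lower bound used for the attractive interval. -/
theorem J_lb (R r : ℝ) (hR : 2 ≤ R) (hr0 : 0 ≤ r) (hr2 : r ≤ 2) :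
    ballVol (R - 1) / (ballVol R) ^ 2 ≤ J R r := by
  unfold J
  apply div_le_div_of_nonneg_right _ (sq_nonneg _)
  rw [← ballVol_ball ((r / 2) • e₀) (R - 1)]
  refine measureReal_mono ?_ ?_
  · intro y hy
    rw [mem_ball] at hy
    have h1 : dist ((r / 2) • e₀) (0 : Pt) = r / 2 := by
      rw [dist_zero_right, norm_smul, norm_e₀_aux, mul_one, Real.norm_eq_abs,
        abs_of_nonneg (by linarith)]
    have h2 : dist ((r / 2) • e₀) (r • e₀) = r / 2 := by
      rw [dist_eq_norm, ← sub_smul, norm_smul, norm_e₀_aux, mul_one, Real.norm_eq_abs,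
        show r / 2 - r = -(r / 2) by ring, abs_neg, abs_of_nonneg (by linarith)]
    constructor
    · rw [mem_ball]
      have := dist_triangle y ((r / 2) • e₀) 0
      linarith
    · rw [mem_ball]
      have := dist_triangle y ((r / 2) • e₀) (r • e₀)
      linarith
  · exact (lt_of_le_of_lt (measure_mono inter_subset_left) measure_ball_lt_top).ne

/-- One-sided Lipschitz bound for the overlap volume. -/
private lemma overlap_sub_le (R : ℝ) (hR : 0 < R) (r r' : ℝ) :
    volume.real (ball (0 : Pt) R ∩ ball (r • e₀) R) -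
      volume.real (ball (0 : Pt) R ∩ ball (r' • e₀) R) ≤
      (3 * R ^ 2 * ballVol 1) * |r - r'| := by
  set h := |r - r'| with hh
  have h0 : 0 ≤ h := abs_nonneg _
  have hb1 := ballVol_one_pos
  by_cases hcase : h ≤ R
  · -- inclusion
    have hsub : ball (0 : Pt) R ∩ ball (r • e₀) R ⊆
        (ball (0 : Pt) R ∩ ball (r' • e₀) R) ∪ (ball (r • e₀) R \ ball (r • e₀) (R - h)) := by
      rintro y ⟨hy0, hy⟩
      by_cases hy' : y ∈ ball (r • e₀) (R - h)
      · left
        refine ⟨hy0, ?_⟩
        rw [mem_ball] at hy' ⊢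
        have h2 : dist (r • e₀) (r' • e₀) = h := by
          rw [dist_eq_norm, ← sub_smul, norm_smul, norm_e₀_aux, mul_one, Real.norm_eq_abs]
        have := dist_triangle y (r • e₀) (r' • e₀)
        linarith
      · right
        exact ⟨hy, hy'⟩
    have hfin1 : volume (ball (0 : Pt) R ∩ ball (r' • e₀) R) ≠ ⊤ :=
      (lt_of_le_of_lt (measure_mono inter_subset_left) measure_ball_lt_top).ne
    have hfin2 : volume (ball (r • e₀) R \ ball (r • e₀) (R - h)) ≠ ⊤ :=
      (lt_of_le_of_lt (measure_mono sdiff_subset) measure_ball_lt_top).ne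
    have h1 := measureReal_mono hsub
      (measure_union_ne_top hfin1 hfin2)
    have h2 := measureReal_union_le (μ := (volume : Measure Pt))
      (ball (0 : Pt) R ∩ ball (r' • e₀) R) (ball (r • e₀) R \ ball (r • e₀) (R - h))
    have h3 : volume.real (ball (r • e₀) R \ ball (r • e₀) (R - h)) =
        ballVol R - ballVol (R - h) := by
      rw [measureReal_sdiff (ball_subset_ball (by linarith)) measurableSet_ball
        measure_ball_lt_top.ne, ballVol_ball, ballVol_ball]
    rw [h3] at h2
    rw [ballVol_eq R hR.le, ballVol_eq (R - h) (by linarith)] at h2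
    have h4 : R ^ 3 - (R - h) ^ 3 ≤ 3 * R ^ 2 * h := by
      have : (R - h) ^ 3 = R ^ 3 - 3 * R ^ 2 * h + 3 * R * h ^ 2 - h ^ 3 := by ring
      rw [this]
      have h5 : h ^ 3 ≤ 3 * R * h ^ 2 := by
        have : h ^ 3 = h * h ^ 2 := by ring
        rw [this]
        have := sq_nonneg h
        nlinarith
      linarith
    have h6 := mul_le_mul_of_nonneg_left h4 hb1.le
    nlinarith
  · push Not at hcase
    have h1 := measureReal_inter_le_aux R 0 (r • e₀)
    have h2 : 0 ≤ volume.real (ball (0 : Pt) R ∩ ball (r' • e₀) R) := measureReal_nonneg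
    rw [ballVol_eq R hR.le] at h1
    have h3 : R ^ 3 ≤ 3 * R ^ 2 * h := by
      have : R ^ 3 = R ^ 2 * R := by ring
      rw [this]
      have := sq_nonneg R
      nlinarith
    have h6 := mul_le_mul_of_nonneg_left h3 hb1.le
    nlinarith

theorem J_continuous (R : ℝ) (hR : 0 < R) : Continuous (J R) := by
  have hL : LipschitzWith (Real.toNNReal (3 * R ^ 2 * ballVol 1))
      (fun r : ℝ => volume.real (ball (0 : Pt) R ∩ ball (r • e₀) R)) := by
    apply LipschitzWith.of_dist_le_mul
    intro r r'
    rw [Real.dist_eq, Real.dist_eq, Real.coe_toNNReal _ (by have := ballVol_one_pos; positivity)]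
    rw [abs_le]
    constructor
    · have := overlap_sub_le R hR r' r
      rw [abs_sub_comm r' r] at this
      linarith
    · exact overlap_sub_le R hR r r'
  unfold J
  exact hL.continuous.div_const _

/-- `J` computes the overlap of balls. -/
theorem volume_inter_ball (R : ℝ) (hR : 0 < R) (x y : Pt) :
    volume.real (ball x R ∩ ball y R) = J R (dist x y) * (ballVol R) ^ 2 := by
  have hb := ballVol_pos_aux R hR
  unfold J
  rw [div_mul_cancel₀ _ (by positivity)]
  -- the reflection sending `y - x` to `dist x y • e₀`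
  set d := dist x y with hd
  set u : Pt := y - x with hu
  set w : Pt := d • e₀ with hw
  have hnorm : ‖u‖ = ‖w‖ := by
    rw [hw, norm_smul, norm_e₀_aux, mul_one, Real.norm_eq_abs, abs_of_nonneg dist_nonneg, hu,
      dist_comm, dist_eq_norm]
  set ρ : Pt ≃ₗᵢ[ℝ] Pt := Submodule.reflection (ℝ ∙ (u - w))ᗮ with hρ
  have hρu : ρ u = w := Submodule.reflection_sub hnorm
  -- measure preserving map
  have hmp : MeasurePreserving (fun z : Pt => ρ (z - x)) volume volume := by
    have h1 : MeasurePreserving (fun z : Pt => z - x) volume volume :=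
      measurePreserving_sub_right volume x
    exact ρ.measurePreserving.comp h1
  have hpre : (fun z : Pt => ρ (z - x)) ⁻¹' (ball (0 : Pt) R ∩ ball w R) = ball x R ∩ ball y R := by
    ext z
    simp only [mem_preimage, mem_inter_iff, mem_ball]
    have h1 : dist (ρ (z - x)) 0 = dist z x := by
      rw [dist_zero_right, LinearIsometryEquiv.norm_map, dist_eq_norm]
    have h2 : dist (ρ (z - x)) w = dist z y := by
      rw [← hρu, LinearIsometryEquiv.dist_map, hu, dist_sub_right]
    rw [h1, h2]
  have hms : MeasurableSet (ball (0 : Pt) R ∩ ball w R) :=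
    measurableSet_ball.inter measurableSet_ball
  have := hmp.measure_preimage hms.nullMeasurableSet
  simp only [Measure.real]
  rw [← hpre, this]

end Crest.Agent.Lib.Gas
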