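import Crest.Agent.Lib.Gas.Kac1

/-! # Gas D2: mean-field lower bound. -/
namespace Crest.Agent.Lib.Gas
open MeasureTheory Set Filter Topology Metric
open Crest.ProbabilityR.Continuum

/-- The overlap function `m y = #{i : |y - x i| < R}`. -/
noncomputable def ballCount (R : ℝ) {N : ℕ} (x : Fin N → Pt) (y : Pt) : ℝ :=
  ∑ i, (ball (x i) R).indicator (fun _ => (1 : ℝ)) y

theorem integrable_ball_indicator (x : Pt) (R : ℝ) :
    Integrable ((ball x R).indicator (fun _ => (1 : ℝ))) := by
  rw [integrable_indicator_iff measurableSet_ball]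
  exact integrableOn_const (measure_ball_lt_top.ne)

theorem integrable_ballCount (R : ℝ) {N : ℕ} (x : Fin N → Pt) :
    Integrable (ballCount R x) := by
  unfold ballCount
  exact integrable_finsetSum _ fun i _ => integrable_ball_indicator (x i) R

/-- `m² ` expanded. -/
theorem ballCount_sq (R : ℝ) {N : ℕ} (x : Fin N → Pt) (y : Pt) :
    ballCount R x y ^ 2 =
      ∑ i, ∑ k, (ball (x i) R ∩ ball (x k) R).indicator (fun _ => (1 : ℝ)) y := by
  unfold ballCount
  rw [sq, Finset.sum_mul_sum]
  refine Finset.sum_congr rfl fun i _ => Finset.sum_congr rfl fun k _ => ?_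
  by_cases h1 : y ∈ ball (x i) R <;> by_cases h2 : y ∈ ball (x k) R <;>
    simp [Set.indicator, h1, h2]

theorem integrable_ballCount_sq (R : ℝ) {N : ℕ} (x : Fin N → Pt) :
    Integrable (fun y => ballCount R x y ^ 2) := by
  simp_rw [ballCount_sq]
  refine integrable_finsetSum _ fun i _ => integrable_finsetSum _ fun k _ => ?_
  rw [integrable_indicator_iff (measurableSet_ball.inter measurableSet_ball)]
  exact integrableOn_const
    (lt_of_le_of_lt (measure_mono inter_subset_left) measure_ball_lt_top).ne

theorem integral_ballCount (R : ℝ) {N : ℕ} (x : Fin N → Pt) :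
    ∫ y, ballCount R x y = (N : ℝ) * ballVol R := by
  unfold ballCount
  rw [integral_finsetSum _ fun i _ => integrable_ball_indicator (x i) R]
  simp_rw [integral_indicator_const _ measurableSet_ball, smul_eq_mul, mul_one, ballVol_ball]
  simp

theorem integral_ballCount_sq (R : ℝ) (hR : 0 < R) {N : ℕ} (x : Fin N → Pt) :
    ∫ y, ballCount R x y ^ 2 = (ballVol R) ^ 2 * ∑ i, ∑ k, J R (dist (x i) (x k)) := by
  simp_rw [ballCount_sq]
  rw [integral_finsetSum]
  · have : ∀ i : Fin N, ∫ y, ∑ k, (ball (x i) R ∩ ball (x k) R).indicator (fun _ => (1 : ℝ)) y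
        = (ballVol R) ^ 2 * ∑ k, J R (dist (x i) (x k)) := by
      intro i
      rw [integral_finsetSum]
      · rw [Finset.mul_sum]
        refine Finset.sum_congr rfl fun k _ => ?_
        rw [integral_indicator_const _ (measurableSet_ball.inter measurableSet_ball),
          smul_eq_mul, mul_one, volume_inter_ball R hR]
        ring
      · intro k _
        rw [integrable_indicator_iff (measurableSet_ball.inter measurableSet_ball)]
        exact integrableOn_const
          (lt_of_le_of_lt (measure_mono inter_subset_left) measure_ball_lt_top).ne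
    simp_rw [this]
    rw [Finset.mul_sum]
  · intro i _
    refine integrable_finsetSum _ fun k _ => ?_
    rw [integrable_indicator_iff (measurableSet_ball.inter measurableSet_ball)]
    exact integrableOn_const
      (lt_of_le_of_lt (measure_mono inter_subset_left) measure_ball_lt_top).ne

/-- The enclosing box. -/
private def boxAux (a b : ℝ) : Set Pt := {y | ∀ k : Fin 3, a ≤ y k ∧ y k ≤ b}

private lemma boxAux_eq (a b : ℝ) :
    boxAux a b = (WithLp.ofLp : Pt → (Fin 3 → ℝ)) ⁻¹' (Icc (fun _ => a) (fun _ => b)) := by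
  ext y
  simp only [boxAux, mem_ofPred_eq, mem_preimage, mem_Icc, Pi.le_def, forall_and]

private lemma volume_boxAux (a b : ℝ) (h : a ≤ b) : volume.real (boxAux a b) = (b - a) ^ 3 := by
  have hmp := PiLp.volume_preserving_ofLp (Fin 3)
  have hm : MeasurableSet (Icc (fun _ : Fin 3 => a) (fun _ => b)) := measurableSet_Icc
  simp only [Measure.real]
  rw [boxAux_eq, hmp.measure_preimage hm.nullMeasurableSet, Real.volume_Icc_pi]
  simp [ENNReal.toReal_ofReal, sub_nonneg.mpr h]

private lemma measurableSet_boxAux (a b : ℝ) : MeasurableSet (boxAux a b) := by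
  rw [boxAux_eq]
  exact (PiLp.volume_preserving_ofLp (Fin 3)).measurable measurableSet_Icc

/-- Cauchy-Schwarz on a set. -/
private lemma sq_integral_le {f : Pt → ℝ} (hf : Integrable f) (hf2 : Integrable fun y => f y ^ 2)
    {S : Set Pt} (hS : MeasurableSet S) (hvol : 0 < volume.real S)
    (hsupp : ∀ y, y ∉ S → f y = 0) :
    (∫ y, f y) ^ 2 ≤ volume.real S * ∫ y, f y ^ 2 := by
  have hfin : volume S ≠ ⊤ := by
    intro h
    simp [Measure.real, h] at hvol
  have h1 : ∫ y in S, f y = ∫ y, f y :=
    setIntegral_eq_integral_of_forall_compl_eq_zero (fun y hy => hsupp y hy)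
  have h2 : ∫ y in S, f y ^ 2 = ∫ y, f y ^ 2 :=
    setIntegral_eq_integral_of_forall_compl_eq_zero (fun y hy => by simp [hsupp y hy])
  set c := (∫ y, f y) / volume.real S with hc
  have h3 : 0 ≤ ∫ y in S, (f y - c) ^ 2 := integral_nonneg fun y => sq_nonneg _
  have hexp : ∫ y in S, (f y - c) ^ 2 =
      (∫ y, f y ^ 2) - 2 * c * (∫ y, f y) + c ^ 2 * volume.real S := by
    have e : ∀ y, (f y - c) ^ 2 = f y ^ 2 - (2 * c) * f y + c ^ 2 := fun y => by ring
    simp_rw [e]
    have i1 : IntegrableOn (fun y => f y ^ 2) S := hf2.integrableOn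
    have i2 : IntegrableOn (fun y => (2 * c) * f y) S := hf.integrableOn.const_mul _
    have i3 : IntegrableOn (fun _ : Pt => c ^ 2) S := integrableOn_const hfin
    have i12 : IntegrableOn (fun y => f y ^ 2 - (2 * c) * f y) S := i1.sub i2
    rw [integral_add i12 i3, integral_sub i1 i2, integral_const_mul, h1, h2,
      setIntegral_const, smul_eq_mul]
    ring
  rw [hexp] at h3
  have hv := hvol.ne'
  have h4 : c * volume.real S = ∫ y, f y := by
    rw [hc]; field_simp
  have h5 : 0 ≤ (∫ y, f y ^ 2) * volume.real S - (∫ y, f y) ^ 2 := by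
    have : ((∫ y, f y ^ 2) - 2 * c * (∫ y, f y) + c ^ 2 * volume.real S) * volume.real S
        = (∫ y, f y ^ 2) * volume.real S - (∫ y, f y) ^ 2 := by
      rw [← h4]
      ring
    rw [← this]
    exact mul_nonneg h3 hvol.le
  linarith

/-- Mean-field lower bound (Cauchy-Schwarz for `m(y) = #{i : |y - x i| < R}`). -/
theorem sum_J_lower (R L : ℝ) (hR : 0 < R) (hL : 0 ≤ L) {N : ℕ} (x : Fin N → Pt)
    (hx : ∀ i, x i ∈ cube L) :
    (N : ℝ) ^ 2 / (L + 2 * R) ^ 3 ≤ ∑ i, ∑ k, J R (dist (x i) (x k)) := by
  have hV : 0 < ballVol R := by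
    rw [ballVol_eq R hR.le]
    exact mul_pos ballVol_one_pos (by positivity)
  have hLR : 0 < L + 2 * R := by linarith
  have hsupp : ∀ y, y ∉ boxAux (-R) (L + R) → ballCount R x y = 0 := by
    intro y hy
    unfold ballCount
    refine Finset.sum_eq_zero fun i _ => ?_
    refine Set.indicator_of_notMem ?_ _
    intro hb
    apply hy
    intro k
    rw [mem_ball] at hb
    have h1 : |y k - x i k| ≤ dist y (x i) := by
      rw [dist_eq_norm]
      have := PiLp.norm_apply_le (y - x i) k
      simpa [Real.norm_eq_abs] using this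
    have h2 := hx i k
    rw [abs_le] at h1
    constructor <;> linarith [h1.1, h1.2, h2.1, h2.2]
  have hvol := volume_boxAux (-R) (L + R) (by linarith)
  have hvolpos : 0 < volume.real (boxAux (-R) (L + R)) := by
    rw [hvol]
    have : L + R - -R = L + 2 * R := by ring
    rw [this]
    positivity
  have hcs := sq_integral_le (integrable_ballCount R x) (integrable_ballCount_sq R x)
    (measurableSet_boxAux _ _) hvolpos hsupp
  rw [integral_ballCount, integral_ballCount_sq R hR, hvol,
    show L + R - -R = L + 2 * R by ring] at hcs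
  rw [div_le_iff₀ (by positivity)]
  have h3 : (ballVol R) ^ 2 * (N : ℝ) ^ 2 ≤
      (ballVol R) ^ 2 * ((∑ i, ∑ k, J R (dist (x i) (x k))) * (L + 2 * R) ^ 3) := by
    calc (ballVol R) ^ 2 * (N : ℝ) ^ 2 = ((N : ℝ) * ballVol R) ^ 2 := by ring
      _ ≤ _ := hcs
      _ = _ := by ring
  exact le_of_mul_le_mul_left h3 (by positivity)

end Crest.Agent.Lib.Gas
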