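import Crest.Agent.Lib.Gas.Kac1
import Crest.Agent.Lib.Gas.Kac2

/-! # Gas D3: Schur upper bound. -/
namespace Crest.Agent.Lib.Gas
open MeasureTheory Set Filter Topology Metric
open Crest.ProbabilityR.Continuum

/-- Grid cell of side `ℓ` and shift `τ` of a point. -/
noncomputable def gridCell (ℓ τ : ℝ) (y : Pt) : Fin 3 → ℤ := fun k => ⌊(y k - τ) / ℓ⌋

private lemma gridCell_coord_bound {ℓ τ : ℝ} (hℓ : 0 < ℓ) {z z' : Pt}
    (h : gridCell ℓ τ z = gridCell ℓ τ z') (k : Fin 3) : |z k - z' k| < ℓ := by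
  have hk : ⌊(z k - τ) / ℓ⌋ = ⌊(z' k - τ) / ℓ⌋ := congrFun h k
  have h1 := Int.floor_le ((z k - τ) / ℓ)
  have h2 := Int.lt_floor_add_one ((z k - τ) / ℓ)
  have h3 := Int.floor_le ((z' k - τ) / ℓ)
  have h4 := Int.lt_floor_add_one ((z' k - τ) / ℓ)
  rw [← hk] at h3 h4
  set a : ℝ := ((⌊(z k - τ) / ℓ⌋ : ℤ) : ℝ) with ha
  rw [le_div_iff₀ hℓ] at h1 h3
  rw [div_lt_iff₀ hℓ] at h2 h4
  rw [abs_lt]
  constructor <;> nlinarith

private lemma dist_lt_of_gridCell_eq {ℓ τ : ℝ} (hℓ : 0 < ℓ) {z z' : Pt}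
    (h : gridCell ℓ τ z = gridCell ℓ τ z') : dist z z' < Real.sqrt 3 * ℓ := by
  rw [EuclideanSpace.dist_eq]
  have hs : ∑ k, dist (z k) (z' k) ^ 2 < 3 * ℓ ^ 2 := by
    have : ∀ k : Fin 3, dist (z k) (z' k) ^ 2 < ℓ ^ 2 := by
      intro k
      rw [Real.dist_eq]
      have := gridCell_coord_bound hℓ h k
      have h0 := abs_nonneg (z k - z' k)
      nlinarith
    simp only [Fin.sum_univ_three]
    linarith [this 0, this 1, this 2]
  have h3 : Real.sqrt 3 * ℓ = Real.sqrt (3 * ℓ ^ 2) := by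
    rw [Real.sqrt_mul (by norm_num), Real.sqrt_sq hℓ.le]
  rw [h3]
  exact Real.sqrt_lt_sqrt (Finset.sum_nonneg fun _ _ => sq_nonneg _) hs

/-- The cell with index `c`. -/
private def cellBox (ℓ τ : ℝ) (c : Fin 3 → ℤ) : Set Pt := {z | gridCell ℓ τ z = c}

private lemma cellBox_eq {ℓ τ : ℝ} (hℓ : 0 < ℓ) (c : Fin 3 → ℤ) :
    cellBox ℓ τ c = (WithLp.ofLp : Pt → (Fin 3 → ℝ)) ⁻¹'
      (Set.pi univ fun k => Ico (τ + c k * ℓ) (τ + (c k + 1) * ℓ)) := by
  ext z
  simp only [cellBox, mem_ofPred_eq, mem_preimage, Set.mem_pi, mem_univ, true_implies, mem_Ico]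
  constructor
  · intro h k
    have hk : ⌊(z k - τ) / ℓ⌋ = c k := congrFun h k
    rw [Int.floor_eq_iff, le_div_iff₀ hℓ, div_lt_iff₀ hℓ] at hk
    constructor
    · change τ + c k * ℓ ≤ z k
      linarith [hk.1]
    · change z k < τ + (c k + 1) * ℓ
      linarith [hk.2]
  · intro h
    funext k
    change ⌊(z k - τ) / ℓ⌋ = c k
    rw [Int.floor_eq_iff, le_div_iff₀ hℓ, div_lt_iff₀ hℓ]
    have h1 : τ + c k * ℓ ≤ z k := (h k).1
    have h2 : z k < τ + (c k + 1) * ℓ := (h k).2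
    constructor <;> linarith

private lemma measurableSet_cellBox {ℓ τ : ℝ} (hℓ : 0 < ℓ) (c : Fin 3 → ℤ) :
    MeasurableSet (cellBox ℓ τ c) := by
  rw [cellBox_eq hℓ]
  exact (PiLp.volume_preserving_ofLp (Fin 3)).measurable
    (MeasurableSet.univ_pi fun _ => measurableSet_Ico)

private lemma volume_cellBox {ℓ τ : ℝ} (hℓ : 0 < ℓ) (c : Fin 3 → ℤ) :
    volume.real (cellBox ℓ τ c) = ℓ ^ 3 := by
  have hmp := PiLp.volume_preserving_ofLp (Fin 3)
  have hm : MeasurableSet (Set.pi univ fun k => Ico (τ + c k * ℓ) (τ + (c k + 1) * ℓ)) :=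
    MeasurableSet.univ_pi fun _ => measurableSet_Ico
  simp only [Measure.real]
  rw [cellBox_eq hℓ, hmp.measure_preimage hm.nullMeasurableSet]
  have := Real.volume_pi_Ico (ι := Fin 3) (a := fun k => τ + c k * ℓ)
    (b := fun k => τ + (c k + 1) * ℓ)
  rw [this]
  have hd : ∀ k, τ + (c k + 1 : ℝ) * ℓ - (τ + c k * ℓ) = ℓ := fun k => by ring
  simp only [hd]
  simp [ENNReal.toReal_ofReal hℓ.le]

private lemma card_mul_le {ℓ τ : ℝ} (hℓ : 0 < ℓ) (T : Finset (Fin 3 → ℤ)) (y : Pt) (ρ : ℝ)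
    (hT : ∀ c ∈ T, cellBox ℓ τ c ⊆ ball y ρ) :
    (T.card : ℝ) * ℓ ^ 3 ≤ ballVol ρ := by
  have hdisj : Set.PairwiseDisjoint (↑T) (cellBox ℓ τ) := by
    intro c _ c' _ hne
    refine Set.disjoint_left.mpr fun z hz hz' => hne ?_
    exact hz.symm.trans hz'
  have h1 := measureReal_biUnion_finset (μ := (volume : Measure Pt)) hdisj
    (fun c _ => measurableSet_cellBox hℓ c)
    (fun c hc => (lt_of_le_of_lt (measure_mono (hT c hc)) measure_ball_lt_top).ne)
  simp only [volume_cellBox hℓ, Finset.sum_const, nsmul_eq_mul] at h1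
  rw [← h1, ← ballVol_ball y ρ]
  exact measureReal_mono (Set.iUnion₂_subset hT) measure_ball_lt_top.ne

/-- **Schur bound**: `∑ J ≤ (1 + √3 ℓ/R)^6 ℓ⁻³ ∑_cells n_c²`.
`m(y)² ≤ |C(y)| ∑_{c ∈ C(y)} n_c²`, with `C(y)` the cells at distance `< R` of `y`, which are
disjoint and lie in `B(y, R + √3 ℓ)`; `{y : c ∈ C(y)}` lies in a ball of radius `R + √3 ℓ`. -/
theorem sum_J_upper (R ℓ τ : ℝ) (hR : 0 < R) (hℓ : 0 < ℓ) {N : ℕ} (x : Fin N → Pt) :
    ∑ i, ∑ k, J R (dist (x i) (x k)) ≤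
      (1 + Real.sqrt 3 * ℓ / R) ^ 6 / ℓ ^ 3 *
        ∑ m ∈ Finset.univ.image (fun i => gridCell ℓ τ (x i)),
          (((Finset.univ.filter fun i => gridCell ℓ τ (x i) = m).card : ℕ) : ℝ) ^ 2 := by
  classical
  set M := Finset.univ.image (fun i => gridCell ℓ τ (x i)) with hM
  set n : (Fin 3 → ℤ) → ℝ :=
    fun m => (((Finset.univ.filter fun i => gridCell ℓ τ (x i) = m).card : ℕ) : ℝ) with hn
  set ρ := R + Real.sqrt 3 * ℓ with hρ
  have hρpos : 0 < ρ := by positivity
  have hb1 := ballVol_one_pos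
  have hV : ballVol R = ballVol 1 * R ^ 3 := ballVol_eq R hR.le
  have hV₁ : ballVol ρ = ballVol 1 * ρ ^ 3 := ballVol_eq ρ hρpos.le
  have hVpos : 0 < ballVol R := by rw [hV]; positivity
  have hV₁pos : 0 < ballVol ρ := by rw [hV₁]; positivity
  -- representatives
  set z : (Fin 3 → ℤ) → Pt :=
    fun c => if h : ∃ i, gridCell ℓ τ (x i) = c then x h.choose else 0 with hz
  have hzc : ∀ c ∈ M, gridCell ℓ τ (z c) = c := by
    intro c hc
    have h : ∃ i, gridCell ℓ τ (x i) = c := by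
      obtain ⟨i, _, hi⟩ := Finset.mem_image.mp hc
      exact ⟨i, hi⟩
    simp only [hz, h, dif_pos]
    exact h.choose_spec
  -- pointwise bound
  set U : Pt → ℝ := fun y => ballVol ρ / ℓ ^ 3 *
    ∑ c ∈ M, n c ^ 2 * (ball (z c) ρ).indicator (fun _ => (1 : ℝ)) y with hU
  have hpt : ∀ y, ballCount R x y ^ 2 ≤ U y := by
    intro y
    set C := M.filter (fun c => ∃ i, gridCell ℓ τ (x i) = c ∧ dist y (x i) < R) with hC
    -- cells in C lie in the big ball
    have hCball : ∀ c ∈ C, cellBox ℓ τ c ⊆ ball y ρ := by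
      intro c hc w hw
      obtain ⟨_, i, hi, hd⟩ := Finset.mem_filter.mp hc
      have h1 : dist w (x i) < Real.sqrt 3 * ℓ :=
        dist_lt_of_gridCell_eq hℓ (show gridCell ℓ τ w = gridCell ℓ τ (x i) from hw.trans hi.symm)
      rw [mem_ball]
      have := dist_triangle w (x i) y
      rw [dist_comm (x i) y] at this
      linarith
    have hcard := card_mul_le hℓ C y ρ hCball
    have hcard' : (C.card : ℝ) ≤ ballVol ρ / ℓ ^ 3 := by
      rw [le_div_iff₀ (by positivity)]
      exact hcard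
    -- m equals the number of close particles
    set I := Finset.univ.filter (fun i => dist y (x i) < R) with hI
    have hm : ballCount R x y = (I.card : ℝ) := by
      unfold ballCount
      rw [hI, Finset.card_filter]
      push_cast
      refine Finset.sum_congr rfl fun i _ => ?_
      by_cases h : dist y (x i) < R
      · simp [Set.indicator, mem_ball, h]
      · simp [Set.indicator, mem_ball, h]
    have hmaps : ∀ i ∈ I, gridCell ℓ τ (x i) ∈ C := by
      intro i hi
      refine Finset.mem_filter.mpr ⟨Finset.mem_image_of_mem _ (Finset.mem_univ _), i, rfl, ?_⟩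
      exact (Finset.mem_filter.mp hi).2
    have hIcard : (I.card : ℝ) ≤ ∑ c ∈ C, n c := by
      rw [Finset.card_eq_sum_card_fiberwise hmaps]
      push_cast
      refine Finset.sum_le_sum fun c _ => ?_
      simp only [hn]
      exact_mod_cast Finset.card_le_card (fun i hi => by
        simp only [Finset.mem_filter, Finset.mem_univ, true_and] at hi ⊢
        exact hi.2)
    have hn0 : ∀ c, 0 ≤ n c := fun c => by simp only [hn]; positivity
    have hsq : ballCount R x y ^ 2 ≤ (C.card : ℝ) * ∑ c ∈ C, n c ^ 2 := by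
      rw [hm]
      calc (I.card : ℝ) ^ 2 ≤ (∑ c ∈ C, n c) ^ 2 := by
            apply pow_le_pow_left₀ (by positivity) hIcard
        _ ≤ _ := sq_sum_le_card_mul_sum_sq
    have hsum : ∑ c ∈ C, n c ^ 2 ≤
        ∑ c ∈ M, n c ^ 2 * (ball (z c) ρ).indicator (fun _ => (1 : ℝ)) y := by
      calc ∑ c ∈ C, n c ^ 2
          = ∑ c ∈ C, n c ^ 2 * (ball (z c) ρ).indicator (fun _ => (1 : ℝ)) y := by
            refine Finset.sum_congr rfl fun c hc => ?_
            have hcM : c ∈ M := (Finset.mem_filter.mp hc).1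
            obtain ⟨_, i, hi, hd⟩ := Finset.mem_filter.mp hc
            have h1 : dist (x i) (z c) < Real.sqrt 3 * ℓ :=
              dist_lt_of_gridCell_eq hℓ (hi.trans (hzc c hcM).symm)
            have h2 : y ∈ ball (z c) ρ := by
              rw [mem_ball]
              have := dist_triangle y (x i) (z c)
              linarith
            simp [Set.indicator_of_mem h2]
        _ ≤ _ := by
            refine Finset.sum_le_sum_of_subset_of_nonneg (Finset.filter_subset _ _) ?_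
            intro c _ _
            refine mul_nonneg (sq_nonneg _) (Set.indicator_nonneg (fun _ _ => zero_le_one) _)
    calc ballCount R x y ^ 2 ≤ (C.card : ℝ) * ∑ c ∈ C, n c ^ 2 := hsq
      _ ≤ ballVol ρ / ℓ ^ 3 * ∑ c ∈ C, n c ^ 2 :=
          mul_le_mul_of_nonneg_right hcard' (Finset.sum_nonneg fun _ _ => sq_nonneg _)
      _ ≤ U y := mul_le_mul_of_nonneg_left hsum (by positivity)
  -- integrate
  have hUint : Integrable U := by
    refine Integrable.const_mul ?_ _
    exact integrable_finsetSum _ fun c _ =>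
      (integrable_ball_indicator (z c) ρ).const_mul _
  have hint : ∫ y, U y = ballVol ρ / ℓ ^ 3 * (∑ c ∈ M, n c ^ 2 * ballVol ρ) := by
    simp only [hU]
    rw [integral_const_mul, integral_finsetSum]
    · congr 1
      refine Finset.sum_congr rfl fun c _ => ?_
      rw [integral_const_mul, integral_indicator_const _ measurableSet_ball, smul_eq_mul, mul_one,
        ballVol_ball]
    · intro c _
      exact (integrable_ball_indicator (z c) ρ).const_mul _
  have hmain := integral_mono (integrable_ballCount_sq R x) hUint hpt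
  rw [integral_ballCount_sq R hR, hint] at hmain
  -- arithmetic
  have hratio : (1 + Real.sqrt 3 * ℓ / R) ^ 6 = (ballVol ρ) ^ 2 / (ballVol R) ^ 2 := by
    rw [hV, hV₁, hρ]
    field_simp
  rw [hratio]
  have hS : 0 ≤ ∑ c ∈ M, n c ^ 2 := Finset.sum_nonneg fun _ _ => sq_nonneg _
  rw [← Finset.sum_mul] at hmain
  have hℓ3 : 0 < ℓ ^ 3 := by positivity
  have : (∑ i, ∑ k, J R (dist (x i) (x k))) ≤
      (ballVol ρ / ℓ ^ 3 * ((∑ c ∈ M, n c ^ 2) * ballVol ρ)) / (ballVol R) ^ 2 := by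
    rw [le_div_iff₀ (by positivity)]
    linarith
  refine this.trans (le_of_eq ?_)
  field_simp
  rfl

end Crest.Agent.Lib.Gas
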