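import Crest.Agent.Lib.Gas.Setup

/-! # Gas E5: level comparison, lower bound. -/
namespace Crest.Agent.Lib.Gas
open MeasureTheory Set Filter Topology
open Crest.ProbabilityR.Continuum

namespace GasSetup
variable {G : GasSetup} {c c' : ℕ → ℝ}

private lemma z_compare (hc : CoefOK c) (hc' : CoefOK c') (hcc' : CoefOK (c + c')) (F : Finset ℕ)
    {β L : ℝ} (hβ : 0 ≤ β) (hL : 0 < L) (N : ℕ) :
    Real.log (partitionFn (G.φc c) L N β) +
        β * ((1 / 2) * ∑ l ∈ F, c' l * G.a l *
          ((N : ℝ) ^ 2 / (L + 2 * G.R l) ^ 3 - N / ballVol (G.R l)))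
      ≤ Real.log (partitionFn (G.φc (c + c')) L N β) := by
  set W := (1 / 2) * ∑ l ∈ F, c' l * G.a l *
          ((N : ℝ) ^ 2 / (L + 2 * G.R l) ^ 3 - N / ballVol (G.R l)) with hW
  have hadm := admissible_φc (G := G) hc
  have hadm' := admissible_φc (G := G) hcc'
  have hz := hadm.zpos hβ hL N
  have hmeas : MeasurableSet (Set.pi Set.univ (fun _ : Fin N => cube L)) :=
    MeasurableSet.univ_pi fun _ => measurableSet_cube L
  have hint : (∫ x in Set.pi Set.univ (fun _ : Fin N => cube L),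
        Real.exp (-β * energy (G.φc c) x)) * Real.exp (β * W) ≤
      ∫ x in Set.pi Set.univ (fun _ : Fin N => cube L),
        Real.exp (-β * energy (G.φc (c + c')) x) := by
    rw [← integral_mul_const]
    refine setIntegral_mono_on
      ((integrableOn_boltz hadm.hφ hadm.hst hβ (measurableSet_cube L)
        (volume_cube_ne_top L) N).mul_const _)
      (integrableOn_boltz hadm'.hφ hadm'.hst hβ (measurableSet_cube L)
        (volume_cube_ne_top L) N) hmeas ?_
    intro x hx
    have hxc : ∀ i, x i ∈ cube L := fun i => hx i (Set.mem_univ i)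
    rw [← Real.exp_add]
    apply Real.exp_le_exp.2
    rw [energy_φc_add hc hc' hcc' x]
    have := energy_tail_lower (G := G) hc' F hL.le x hxc
    nlinarith
  have hZ : partitionFn (G.φc c) L N β * Real.exp (β * W) ≤ partitionFn (G.φc (c + c')) L N β := by
    unfold partitionFn
    rw [mul_assoc]
    exact mul_le_mul_of_nonneg_left hint (by positivity)
  have h1 := Real.log_le_log (by positivity) hZ
  rw [Real.log_mul hz.ne' (Real.exp_pos _).ne', Real.log_exp] at h1
  exact h1

private lemma tendsto_u (K : ℝ) : Tendsto (fun L : ℝ => L ^ 3 / (L + K) ^ 3) atTop (𝓝 1) := by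
  have h1 : Tendsto (fun L : ℝ => 1 - K / (L + K)) atTop (𝓝 (1 - 0)) :=
    tendsto_const_nhds.sub
      (Tendsto.const_div_atTop (tendsto_atTop_add_const_right _ _ tendsto_id) K)
  rw [sub_zero] at h1
  have h2 : Tendsto (fun L : ℝ => L / (L + K)) atTop (𝓝 1) := by
    refine h1.congr' ?_
    filter_upwards [eventually_gt_atTop (-K)] with L hL
    have : L + K ≠ 0 := by linarith
    field_simp
    ring
  have h3 := h2.pow 3
  simp only [one_pow] at h3
  refine h3.congr fun L => ?_
  rw [div_pow]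

private lemma finite_level (hc : CoefOK c) (hc' : CoefOK c') (hcc' : CoefOK (c + c')) (F : Finset ℕ)
    {β ρ : ℝ} (hβ : 0 ≤ β) (hρ : 0 ≤ ρ) :
    Psi (G.φc c) β ρ + (β / 2) * ∑ l ∈ F, c' l * G.a l * (ρ ^ 2 - ρ / ballVol (G.R l))
      ≤ Psi (G.φc (c + c')) β ρ := by
  have hadm := admissible_φc (G := G) hc
  have hadm' := admissible_φc (G := G) hcc'
  have hr := ThermoAux.tendsto_r hρ
  have hsum : Tendsto (fun L : ℝ => ∑ l ∈ F, c' l * G.a l *
      (((⌊ρ * L ^ 3⌋₊ : ℝ) / L ^ 3) ^ 2 * (L ^ 3 / (L + 2 * G.R l) ^ 3) -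
        ((⌊ρ * L ^ 3⌋₊ : ℝ) / L ^ 3) / ballVol (G.R l))) atTop
      (𝓝 (∑ l ∈ F, c' l * G.a l * (ρ ^ 2 * 1 - ρ / ballVol (G.R l)))) := by
    refine tendsto_finsetSum _ fun l _ => ?_
    exact (((hr.pow 2).mul (tendsto_u _)).sub (hr.div_const _)).const_mul _
  simp only [mul_one] at hsum
  refine le_of_tendsto_of_tendsto ((hadm.tendsto hβ hρ).add (hsum.const_mul (β / 2)))
    (hadm'.tendsto hβ hρ) ?_
  filter_upwards [eventually_gt_atTop 0] with L hL
  have hx : 0 < L ^ 3 := by positivity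
  have h1 := z_compare (G := G) hc hc' hcc' F hβ hL ⌊ρ * L ^ 3⌋₊
  set N := ⌊ρ * L ^ 3⌋₊ with hN
  have h2 := div_le_div_of_nonneg_right h1 hx.le
  refine le_trans (le_of_eq ?_) h2
  rw [add_div]
  congr 1
  rw [Finset.mul_sum, Finset.mul_sum, Finset.mul_sum, Finset.sum_div]
  refine Finset.sum_congr rfl fun l _ => ?_
  have hRpos : 0 < G.R l := by linarith [G.hR l]
  have hK : L + 2 * G.R l ≠ 0 := by positivity
  field_simp

/-- **Level comparison, lower bound.** Deterministic mean-field bound `energy_tail_lower` for a finite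
set of scales, `L → ∞`, then let the finite set grow. -/
theorem Psi_level_lb (hc : CoefOK c) (hc' : CoefOK c') (hcc' : CoefOK (c + c')) {β ρ : ℝ}
    (hβ : 0 ≤ β) (hρ : 0 ≤ ρ) :
    Psi (G.φc c) β ρ + (β / 2) * (∑' l, c' l * G.a l) * ρ ^ 2
        - (β * ρ / 2) * (∑' l, c' l * G.a l / ballVol (G.R l)) ≤ Psi (G.φc (c + c')) β ρ := by
  -- summability
  have hs1 : Summable fun l => c' l * G.a l := by
    refine Summable.of_nonneg_of_le (fun l => mul_nonneg (hc' l).1 (G.ha l).le) (fun l => ?_)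
      (G.hA.summable.mul_left 2)
    exact mul_le_mul_of_nonneg_right (hc' l).2 (G.ha l).le
  have hs2 : Summable fun l => c' l * G.a l / ballVol (G.R l) := by
    refine Summable.of_nonneg_of_le (fun l => ?_) (fun l => ?_) (hs1.mul_right (1 / ballVol 1))
    · have hRpos : 0 ≤ G.R l := by linarith [G.hR l]
      have : 0 < ballVol (G.R l) := by
        rw [ballVol_eq _ hRpos]
        have := ballVol_one_pos
        have h5 := G.hR l
        positivity
      exact div_nonneg (mul_nonneg (hc' l).1 (G.ha l).le) this.le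
    · have hR5 := G.hR l
      have hRpos : 0 ≤ G.R l := by linarith
      have h1 := ballVol_one_pos
      have h2 : (1 : ℝ) ≤ G.R l ^ 3 := one_le_pow₀ (by linarith)
      rw [div_eq_mul_one_div]
      apply mul_le_mul_of_nonneg_left _ (mul_nonneg (hc' l).1 (G.ha l).le)
      apply one_div_le_one_div_of_le h1
      rw [ballVol_eq _ hRpos]
      nlinarith
  have hs3 : Summable fun l => (β / 2) * (c' l * G.a l * (ρ ^ 2 - ρ / ballVol (G.R l))) := by
    have e : (fun l => (β / 2) * (c' l * G.a l * (ρ ^ 2 - ρ / ballVol (G.R l)))) =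
        fun l => (β / 2 * ρ ^ 2) * (c' l * G.a l) - (β * ρ / 2) * (c' l * G.a l / ballVol (G.R l)) := by
      ext l
      ring
    rw [e]
    exact (hs1.mul_left _).sub (hs2.mul_left _)
  have hle : ∑' l, (β / 2) * (c' l * G.a l * (ρ ^ 2 - ρ / ballVol (G.R l))) ≤
      Psi (G.φc (c + c')) β ρ - Psi (G.φc c) β ρ := by
    refine hs3.tsum_le_of_sum_le fun F => ?_
    have := finite_level (G := G) hc hc' hcc' F hβ hρ
    rw [← Finset.mul_sum]
    linarith
  have e2 : ∑' l, (β / 2) * (c' l * G.a l * (ρ ^ 2 - ρ / ballVol (G.R l))) =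
      (β / 2) * (∑' l, c' l * G.a l) * ρ ^ 2 -
        (β * ρ / 2) * (∑' l, c' l * G.a l / ballVol (G.R l)) := by
    have e : (fun l => (β / 2) * (c' l * G.a l * (ρ ^ 2 - ρ / ballVol (G.R l)))) =
        fun l => (β / 2 * ρ ^ 2) * (c' l * G.a l) - (β * ρ / 2) * (c' l * G.a l / ballVol (G.R l)) := by
      ext l
      ring
    rw [e, (hs1.mul_left _).tsum_sub (hs2.mul_left _), tsum_mul_left, tsum_mul_left]
    ring
  rw [e2] at hle
  linarith

end GasSetup
end Crest.Agent.Lib.Gas
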