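import Crest.Agent.Lib.Gas.Setup

/-! # Gas E6: counting shifts. -/
namespace Crest.Agent.Lib.Gas
open MeasureTheory Set Filter Topology
open Crest.ProbabilityR.Continuum

namespace GasSetup
variable {G : GasSetup} {c c' : ℕ → ℝ}

private lemma shift_count_aux {q : ℕ} (hq : 0 < q) {ℓ D s t : ℝ} (hℓ : 0 < ℓ) (hst : s ≤ t)
    (hD : t - s ≤ D) :
    (((Finset.univ : Finset (Fin q)).filter fun i : Fin q =>
        ⌊(s - ((i : ℕ) : ℝ) * ℓ / q) / ℓ⌋ ≠ ⌊(t - ((i : ℕ) : ℝ) * ℓ / q) / ℓ⌋).card : ℝ)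
      ≤ D * q / ℓ + 1 := by
  classical
  have hq' : (0 : ℝ) < q := by exact_mod_cast hq
  set h : ℝ := ℓ / q with hh
  have hpos : 0 < h := by positivity
  set S := (Finset.univ : Finset (Fin q)).filter fun i : Fin q =>
        ⌊(s - ((i : ℕ) : ℝ) * ℓ / q) / ℓ⌋ ≠ ⌊(t - ((i : ℕ) : ℝ) * ℓ / q) / ℓ⌋ with hS
  -- the multiple of `h` attached to a shift
  let w : Fin q → ℤ := fun i => ⌊(t - ((i : ℕ) : ℝ) * ℓ / q) / ℓ⌋ * q + (i : ℕ)
  have hmaps : ∀ i ∈ S, w i ∈ Finset.Ioc ⌊s / h⌋ ⌊t / h⌋ := by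
    intro i hi
    have hne := (Finset.mem_filter.1 hi).2
    set j := ⌊(t - ((i : ℕ) : ℝ) * ℓ / q) / ℓ⌋ with hj
    have hle : ⌊(s - ((i : ℕ) : ℝ) * ℓ / q) / ℓ⌋ ≤ j := by
      apply Int.floor_le_floor
      apply div_le_div_of_nonneg_right _ hℓ.le
      linarith
    have hlt : ⌊(s - ((i : ℕ) : ℝ) * ℓ / q) / ℓ⌋ < j := lt_of_le_of_ne hle hne
    have h1 : (s - ((i : ℕ) : ℝ) * ℓ / q) / ℓ < j := Int.floor_lt.1 hlt
    have h2 : (j : ℝ) ≤ (t - ((i : ℕ) : ℝ) * ℓ / q) / ℓ := Int.floor_le _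
    rw [div_lt_iff₀ hℓ] at h1
    rw [le_div_iff₀ hℓ] at h2
    have hwr : ((w i : ℤ) : ℝ) * h = (j : ℝ) * ℓ + ((i : ℕ) : ℝ) * ℓ / q := by
      simp only [w, hh, ← hj]
      push_cast
      field_simp
    rw [Finset.mem_Ioc]
    constructor
    · rw [Int.floor_lt, div_lt_iff₀ hpos, hwr]
      linarith
    · rw [Int.le_floor, le_div_iff₀ hpos, hwr]
      linarith
  have hinj : Set.InjOn w S := by
    intro i _ i' _ hw
    have h1 : ((i : ℕ) : ℤ) ≡ ((i' : ℕ) : ℤ) [ZMOD q] := by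
      have hww : ⌊(t - ((i : ℕ) : ℝ) * ℓ / q) / ℓ⌋ * q + (i : ℕ) =
          ⌊(t - ((i' : ℕ) : ℝ) * ℓ / q) / ℓ⌋ * q + (i' : ℕ) := hw
      rw [Int.modEq_iff_dvd]
      refine ⟨⌊(t - ((i : ℕ) : ℝ) * ℓ / q) / ℓ⌋ - ⌊(t - ((i' : ℕ) : ℝ) * ℓ / q) / ℓ⌋, ?_⟩
      linarith
    have h2 : (i : ℕ) ≡ (i' : ℕ) [MOD q] := (Int.natCast_modEq_iff).1 h1
    exact Fin.ext (Nat.ModEq.eq_of_lt_of_lt h2 i.2 i'.2)
  have hcard : S.card ≤ (Finset.Ioc ⌊s / h⌋ ⌊t / h⌋).card :=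
    Finset.card_le_card_of_injOn w hmaps hinj
  rw [Int.card_Ioc] at hcard
  have hfl : ⌊s / h⌋ ≤ ⌊t / h⌋ :=
    Int.floor_le_floor (div_le_div_of_nonneg_right hst hpos.le)
  have h3 : ((⌊t / h⌋ - ⌊s / h⌋).toNat : ℝ) = (⌊t / h⌋ : ℝ) - ⌊s / h⌋ := by
    rw [← Int.cast_natCast, Int.toNat_of_nonneg (by omega)]
    push_cast
    ring
  have h4 : (S.card : ℝ) ≤ (⌊t / h⌋ : ℝ) - ⌊s / h⌋ := by
    rw [← h3]
    exact_mod_cast hcard
  have h5 := Int.floor_le (t / h)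
  have h6 := Int.lt_floor_add_one (s / h)
  have h7 : t / h - s / h = (t - s) * q / ℓ := by
    rw [hh]
    field_simp
  have h8 : (t - s) * q / ℓ ≤ D * q / ℓ := by
    gcongr
  linarith

/-- Number of shifts separating two reals, `i ∈ Fin q`, shift `i ℓ / q`. -/
theorem shift_count {q : ℕ} (hq : 0 < q) {ℓ D s t : ℝ} (hℓ : 0 < ℓ) (hD : |s - t| ≤ D) :
    (((Finset.univ : Finset (Fin q)).filter fun i : Fin q =>
        ⌊(s - ((i : ℕ) : ℝ) * ℓ / q) / ℓ⌋ ≠ ⌊(t - ((i : ℕ) : ℝ) * ℓ / q) / ℓ⌋).card : ℝ)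
      ≤ D * q / ℓ + 1 := by
  rcases le_total s t with hst | hst
  · exact shift_count_aux hq hℓ hst (by rw [abs_sub_comm] at hD; exact (le_abs_self _).trans hD)
  · have := shift_count_aux hq (D := D) hℓ hst ((le_abs_self _).trans hD)
    refine le_trans (le_of_eq ?_) this
    congr 2
    ext i
    simp only [Finset.mem_filter, Finset.mem_univ, true_and]
    exact ne_comm

end GasSetup
end Crest.Agent.Lib.Gas
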