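import Crest.Agent.Lib.Gas.Level3Aux

/-! # Gas E7: decoupling at finite volume. -/
namespace Crest.Agent.Lib.Gas
open MeasureTheory Set Filter Topology
open Crest.ProbabilityR.Continuum

namespace GasSetup
variable {G : GasSetup} {c c' : ℕ → ℝ}

theorem lvl_coef (j l : ℕ) : 0 ≤ lvl j l ∧ lvl j l ≤ 1 := by
  unfold lvl; split_ifs <;> norm_num

theorem coefOK_lvl (j : ℕ) : CoefOK (lvl j) :=
  fun l => ⟨(lvl_coef j l).1, by linarith [(lvl_coef j l).2]⟩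

theorem Tc_const_mul (G : GasSetup) (s : ℝ) (c : ℕ → ℝ) (r : ℝ) :
    G.Tc (fun l => s * c l) r = s * G.Tc c r := by
  unfold Tc
  rw [← tsum_mul_left]
  congr 1
  ext l
  ring

theorem Tc_lvl_zero {j : ℕ} {Rm r : ℝ} (hRmj : ∀ l, l < j → G.R l ≤ Rm) (hr : 2 * Rm ≤ r) :
    G.Tc (lvl j) r = 0 := by
  unfold Tc
  have : ∀ l, lvl j l * G.a l * J (G.R l) r = 0 := by
    intro l
    by_cases hl : l < j
    · have hRl := G.hR l
      rw [J_eq_zero (G.R l) r (by linarith) (by linarith [hRmj l hl])]; ring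
    · simp [lvl, hl]
  simp [this]

/-- The tail bound (`sum_J_upper` for all the scales). -/
theorem tail_bound (hc' : ∀ l, 0 ≤ c' l ∧ c' l ≤ 1) {Rp ℓ τ : ℝ} (hRp : 0 < Rp)
    (hRpj : ∀ l, c' l ≠ 0 → Rp ≤ G.R l) (hℓ : 0 < ℓ) {N : ℕ} (x : Fin N → Pt) :
    ∑ a, ∑ b, G.Tc c' (dist (x a) (x b)) ≤
      ((∑' l, c' l * G.a l) * (1 + Real.sqrt 3 * ℓ / Rp) ^ 6 / ℓ ^ 3) *
        ∑ a, ∑ b, if gridCell ℓ τ (x a) = gridCell ℓ τ (x b) then (1 : ℝ) else 0 := by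
  have hok : CoefOK c' := fun l => ⟨(hc' l).1, by linarith [(hc' l).2]⟩
  rw [sum_Tc hok x]
  set S : ℝ := ∑ a, ∑ b, if gridCell ℓ τ (x a) = gridCell ℓ τ (x b) then (1 : ℝ) else 0 with hS
  set κ : ℝ := (1 + Real.sqrt 3 * ℓ / Rp) ^ 6 with hκ
  have hS0 : 0 ≤ S := Finset.sum_nonneg fun a _ => Finset.sum_nonneg fun b _ => by split_ifs <;> norm_num
  have hκ0 : 0 ≤ κ := by positivity
  have hsumm : Summable fun l => c' l * G.a l := by
    refine Summable.of_nonneg_of_le (fun l => mul_nonneg (hc' l).1 (G.ha l).le) (fun l => ?_)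
      G.hA.summable
    have := G.ha l
    nlinarith [(hc' l).2]
  have hterm : ∀ l, c' l * G.a l * ∑ a, ∑ b, J (G.R l) (dist (x a) (x b)) ≤
      (c' l * G.a l) * (κ / ℓ ^ 3 * S) := by
    intro l
    by_cases hl : c' l = 0
    · simp [hl]
    · refine mul_le_mul_of_nonneg_left ?_ (mul_nonneg (hc' l).1 (G.ha l).le)
      have hRl : 0 < G.R l := by linarith [G.hR l]
      have h1 := sum_J_upper (G.R l) ℓ τ hRl hℓ x
      rw [sum_image_sq] at h1
      refine h1.trans ?_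
      refine mul_le_mul_of_nonneg_right ?_ hS0
      refine div_le_div_of_nonneg_right ?_ (by positivity)
      apply pow_le_pow_left₀ (by positivity)
      have h2 : Real.sqrt 3 * ℓ / G.R l ≤ Real.sqrt 3 * ℓ / Rp := by
        apply div_le_div_of_nonneg_left (by positivity) hRp (hRpj l hl)
      linarith
  have hnn : ∀ l, 0 ≤ c' l * G.a l * ∑ a, ∑ b, J (G.R l) (dist (x a) (x b)) := fun l =>
    mul_nonneg (mul_nonneg (hc' l).1 (G.ha l).le)
      (Finset.sum_nonneg fun a _ => Finset.sum_nonneg fun b _ => J_nonneg _ _)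
  have hsumm2 : Summable fun l => (c' l * G.a l) * (κ / ℓ ^ 3 * S) := hsumm.mul_right _
  have hle := Summable.tsum_le_tsum hterm (Summable.of_nonneg_of_le hnn hterm hsumm2) hsumm2
  refine hle.trans (le_of_eq ?_)
  rw [tsum_mul_right]
  ring

/-- The energy inequality, averaged over the shifts. -/
theorem energy_shift_ineq {j : ℕ} (hc' : ∀ l, 0 ≤ c' l ∧ c' l ≤ 1) (hcj : ∀ l, l < j → c' l = 0)
    {Rm Rp ℓ : ℝ} (hRm : 1 ≤ Rm) (hRmj : ∀ l, l < j → G.R l ≤ Rm)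
    (hRp : 0 < Rp) (hRpj : ∀ l, c' l ≠ 0 → Rp ≤ G.R l) (hℓ : 0 < ℓ) {q : ℕ} (hq : 0 < q)
    (hε : 6 * Rm / ℓ + 3 / (q : ℝ) ≤ 1 / 2) (M : ℕ) {N : ℕ} (x : Fin N → Pt) :
    ∑ i : Fin q,
      (∑ m, cellE (G.φc (fun l => (1 / (1 - (6 * Rm / ℓ + 3 / (q : ℝ)))) * lvl j l))
          (cellOfS ℓ (((i : ℕ) : ℝ) * ℓ / q) M) m x
        - ((∑' l, c' l * G.a l) * (1 + Real.sqrt 3 * ℓ / Rp) ^ 6 / 2 / ℓ ^ 3) *
          ∑ m, ((occ (cellOfS ℓ (((i : ℕ) : ℝ) * ℓ / q) M) m x : ℕ) : ℝ) ^ 2)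
      ≤ (q : ℝ) * energy (G.φc (lvl j + c')) x := by
  classical
  set ε : ℝ := 6 * Rm / ℓ + 3 / (q : ℝ) with hεdef
  set s : ℝ := 1 / (1 - ε) with hs
  set ψ := G.φc (fun l => s * lvl j l) with hψ
  set T := G.Tc (lvl j) with hT
  set T' := G.Tc c' with hT'
  set K : ℝ := (∑' l, c' l * G.a l) * (1 + Real.sqrt 3 * ℓ / Rp) ^ 6 / ℓ ^ 3 with hK
  have hok' : CoefOK c' := fun l => ⟨(hc' l).1, by linarith [(hc' l).2]⟩
  have hokl := coefOK_lvl j
  have hokadd : CoefOK (lvl j + c') := by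
    intro l
    simp only [Pi.add_apply]
    by_cases hl : l < j
    · rw [hcj l hl]
      have := lvl_coef j l
      constructor <;> linarith [this.1, this.2]
    · have h0 : lvl j l = 0 := by simp [lvl, hl]
      rw [h0]
      constructor <;> linarith [(hc' l).1, (hc' l).2]
  have hq' : (0 : ℝ) < q := by exact_mod_cast hq
  -- part 1
  have hψval : ∀ r, ψ r = G.v r - s * T r := by
    intro r
    rw [hψ]
    show G.v r - G.Tc (fun l => s * lvl j l) r = _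
    rw [Tc_const_mul]
  have hφval : ∀ r, G.φc (lvl j) r = G.v r - T r := fun r => rfl
  have hTnn : ∀ r, 0 ≤ T r := fun r => Tc_nonneg hokl r
  have hpart1 : ∑ i : Fin q, ∑ m, cellE ψ (cellOfS ℓ (((i : ℕ) : ℝ) * ℓ / q) M) m x ≤
      (q : ℝ) * energy (G.φc (lvl j)) x := by
    rw [energy_eq_pairE]
    unfold pairE
    simp_rw [sum_cellE]
    rw [← Finset.mul_sum, mul_left_comm]
    refine mul_le_mul_of_nonneg_left ?_ (by norm_num)
    rw [Finset.mul_sum]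
    rw [Finset.sum_comm]
    refine Finset.sum_le_sum fun a _ => ?_
    rw [Finset.mul_sum, Finset.sum_comm]
    refine Finset.sum_le_sum fun b _ => ?_
    by_cases hab : a = b
    · simp [hab]
    · rw [if_neg hab, hφval]
      have hpair := pair_ineq (q := q) (v := G.v (dist (x a) (x b))) (T := T (dist (x a) (x b)))
        (ε := ε) (fun i : Fin q => cellOfS ℓ (((i : ℕ) : ℝ) * ℓ / q) M (x a) =
          cellOfS ℓ (((i : ℕ) : ℝ) * ℓ / q) M (x b)) (G.hv0 _) (hTnn _) (by linarith) ?_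
      · refine le_trans (le_of_eq ?_) hpair
        refine Finset.sum_congr rfl fun i _ => ?_
        by_cases hs' : cellOfS ℓ (((i : ℕ) : ℝ) * ℓ / q) M (x a) =
            cellOfS ℓ (((i : ℕ) : ℝ) * ℓ / q) M (x b)
        · rw [if_pos ⟨hs', hab⟩, if_pos hs', hψval]
        · rw [if_neg (fun h => hs' h.1), if_neg hs']
      · intro hT0
        have hr : dist (x a) (x b) ≤ 2 * Rm := by
          by_contra hcon
          exact hT0 (Tc_lvl_zero hRmj (by linarith))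
        have hcount := shift_count_pt (q := q) hq hℓ (M := M) hr
        refine hcount.trans (le_of_eq ?_)
        rw [hεdef]
        field_simp
        ring
  -- part 2
  have hpart2 : ∀ i : Fin q, energy T' x ≤ (K / 2) *
      ∑ m, ((occ (cellOfS ℓ (((i : ℕ) : ℝ) * ℓ / q) M) m x : ℕ) : ℝ) ^ 2 := by
    intro i
    set τ : ℝ := ((i : ℕ) : ℝ) * ℓ / q with hτ
    have h1 := tail_bound (G := G) (τ := τ) hc' hRp hRpj hℓ x
    have hK0 : 0 ≤ K := by
      have : 0 ≤ ∑' l, c' l * G.a l := tsum_nonneg fun l => mul_nonneg (hc' l).1 (G.ha l).le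
      rw [hK]
      positivity
    have h2 : (∑ a, ∑ b, if gridCell ℓ τ (x a) = gridCell ℓ τ (x b) then (1 : ℝ) else 0) ≤
        ∑ m, ((occ (cellOfS ℓ τ M) m x : ℕ) : ℝ) ^ 2 := by
      rw [sum_occ_sq]
      refine Finset.sum_le_sum fun a _ => Finset.sum_le_sum fun b _ => ?_
      by_cases hab : gridCell ℓ τ (x a) = gridCell ℓ τ (x b)
      · rw [if_pos hab, if_pos (cellOfS_eq_of_gridCell_eq hab)]
      · rw [if_neg hab]; split_ifs <;> norm_num
    have h3 : energy T' x ≤ (1 / 2) * ∑ a, ∑ b, T' (dist (x a) (x b)) := by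
      rw [energy_eq_pairE]
      unfold pairE
      refine mul_le_mul_of_nonneg_left ?_ (by norm_num)
      refine Finset.sum_le_sum fun a _ => Finset.sum_le_sum fun b _ => ?_
      split_ifs
      · exact Tc_nonneg hok' _
      · exact le_rfl
    have h4 := mul_le_mul_of_nonneg_left h2 hK0
    linarith
  -- assembly
  have hadd := energy_φc_add (G := G) hokl hok' hokadd x
  rw [hadd]
  have hsumsub : ∑ i : Fin q, (∑ m, cellE ψ (cellOfS ℓ (((i : ℕ) : ℝ) * ℓ / q) M) m x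
        - ((∑' l, c' l * G.a l) * (1 + Real.sqrt 3 * ℓ / Rp) ^ 6 / 2 / ℓ ^ 3) *
          ∑ m, ((occ (cellOfS ℓ (((i : ℕ) : ℝ) * ℓ / q) M) m x : ℕ) : ℝ) ^ 2) ≤
      (∑ i : Fin q, ∑ m, cellE ψ (cellOfS ℓ (((i : ℕ) : ℝ) * ℓ / q) M) m x)
        - ∑ _i : Fin q, energy T' x := by
    rw [← Finset.sum_sub_distrib]
    refine Finset.sum_le_sum fun i _ => ?_
    have := hpart2 i
    have hKK : (∑' l, c' l * G.a l) * (1 + Real.sqrt 3 * ℓ / Rp) ^ 6 / 2 / ℓ ^ 3 = K / 2 := by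
      rw [hK]; ring
    rw [hKK]
    linarith
  refine hsumsub.trans ?_
  simp only [Finset.sum_const, Finset.card_univ, Fintype.card_fin, nsmul_eq_mul]
  rw [mul_sub]
  linarith

/-- **Decoupling at finite volume.** Cells of side `ℓ`, `q` shifts `i ℓ/q` (same shift in the three
coordinates), `ε = 6 R⁻/ℓ + 3/q ≤ 1/2`, `s = 1/(1-ε)`.  For all `L > 0`, with `M = ⌈L/ℓ⌉₊ + 2`:
`Z(lvl j + c', L, N) ≤ ∑_{n} ∏_cells Z(s • lvl j, ℓ, n_c) exp(β (A' κ / 2) n_c²/ℓ³)`,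
`A' = ∑ c' a`, `κ = (1 + √3 ℓ/R⁺)^6`.
Proof: for each config `q E_{lvl j + c'}(x) ≥ ∑_i [∑_c E_{s lvl j}(x|c) - (A' κ/(2ℓ³)) ∑_c n_{c,i}²]`
(`v ≥ 0`; a pair at distance `< 2 R⁻` is split by at most `ε q` shifts, `shift_count`; `sum_J_upper`
for the scales in `c'`).  Jensen on `exp` over the shifts, then `integral_cell_factor` for each
shift and `zD_translate`, `zD_mono` for the boxes. -/
theorem level_decouple {j : ℕ} (hc' : ∀ l, 0 ≤ c' l ∧ c' l ≤ 1) (hcj : ∀ l, l < j → c' l = 0)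
    {Rm Rp ℓ : ℝ} (hRm : 1 ≤ Rm) (hRmj : ∀ l, l < j → G.R l ≤ Rm)
    (hRp : 0 < Rp) (hRpj : ∀ l, c' l ≠ 0 → Rp ≤ G.R l) (hℓ : 0 < ℓ) {q : ℕ} (hq : 0 < q)
    (hε : 6 * Rm / ℓ + 3 / (q : ℝ) ≤ 1 / 2) {β : ℝ} (hβ : 0 ≤ β) {L : ℝ} (hL : 0 < L) (N : ℕ) :
    partitionFn (G.φc (lvl j + c')) L N β ≤
      ∑ n ∈ Finset.piAntidiag (Finset.univ : Finset (Fin 3 → Fin (⌈L / ℓ⌉₊ + 2))) N,
        ∏ m, (partitionFn (G.φc (fun l => (1 / (1 - (6 * Rm / ℓ + 3 / (q : ℝ)))) * lvl j l)) ℓ (n m) β *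
          Real.exp (β * ((∑' l, c' l * G.a l) * (1 + Real.sqrt 3 * ℓ / Rp) ^ 6 / 2)
            * ((n m : ℝ)) ^ 2 / ℓ ^ 3)) := by
  classical
  obtain ⟨ε, hεdef⟩ : ∃ ε : ℝ, ε = 6 * Rm / ℓ + 3 / (q : ℝ) := ⟨_, rfl⟩
  obtain ⟨K₂, hK₂⟩ : ∃ K₂ : ℝ, K₂ = (∑' l, c' l * G.a l) * (1 + Real.sqrt 3 * ℓ / Rp) ^ 6 / 2 :=
    ⟨_, rfl⟩
  rw [← hεdef, ← hK₂]
  have hq' : (0 : ℝ) < q := by exact_mod_cast hq
  have hε1 : 0 ≤ ε := by rw [hεdef]; positivity
  have hε2 : ε ≤ 1 / 2 := by rw [hεdef]; exact hε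
  obtain ⟨s, hs⟩ : ∃ s : ℝ, s = 1 / (1 - ε) := ⟨_, rfl⟩
  rw [← hs]
  have hs12 : 0 ≤ s ∧ s ≤ 2 := by
    have h1 : 0 < 1 - ε := by linarith
    refine ⟨by rw [hs]; positivity, ?_⟩
    rw [hs, div_le_iff₀ h1]
    linarith
  have hokψ : CoefOK (fun l => s * lvl j l) := by
    intro l
    have := lvl_coef j l
    constructor
    · exact mul_nonneg hs12.1 this.1
    · nlinarith [hs12.1, hs12.2, this.1, this.2]
  obtain ⟨ψ, hψdef⟩ : ∃ ψ : ℝ → ℝ, ψ = G.φc (fun l => s * lvl j l) := ⟨_, rfl⟩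
  rw [← hψdef]
  have hψm : Measurable ψ := hψdef ▸ φc_measurable hokψ
  have hψst : Stable ψ (G.U / 2) := hψdef ▸ stable_φc hokψ
  have hokadd : CoefOK (lvl j + c') := by
    intro l
    simp only [Pi.add_apply]
    by_cases hl : l < j
    · rw [hcj l hl]
      have := lvl_coef j l
      constructor <;> linarith [this.1, this.2]
    · have h0 : lvl j l = 0 := by simp [lvl, hl]
      rw [h0]
      constructor <;> linarith [(hc' l).1, (hc' l).2]
  obtain ⟨κ', hκ'⟩ : ∃ κ' : ℝ, κ' = β * K₂ / ℓ ^ 3 := ⟨_, rfl⟩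
  have hRt : ∀ n : (Fin 3 → Fin (⌈L / ℓ⌉₊ + 2)) → ℕ, ∀ m, Real.exp (β * K₂ * ((n m : ℝ)) ^ 2 / ℓ ^ 3) =
      Real.exp (κ' * ((n m : ℝ)) ^ 2) := by
    intro n m
    congr 1
    rw [hκ']
    ring
  simp_rw [hRt]
  obtain ⟨R, hR⟩ : ∃ R : ℝ, R = ∑ n ∈ Finset.piAntidiag
      (Finset.univ : Finset (Fin 3 → Fin (⌈L / ℓ⌉₊ + 2))) N,
        ∏ m, (partitionFn ψ ℓ (n m) β * Real.exp (κ' * ((n m : ℝ)) ^ 2)) := ⟨_, rfl⟩
  rw [← hR]
  have hDset : MeasurableSet (Set.pi Set.univ (fun _ : Fin N => cube L)) :=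
    MeasurableSet.univ_pi fun _ => measurableSet_cube L
  let f : Fin q → Pt → (Fin 3 → Fin (⌈L / ℓ⌉₊ + 2)) :=
    fun i => cellOfS ℓ (((i : ℕ) : ℝ) * ℓ / q) ⌈L / ℓ⌉₊
  let Gi : Fin q → (Fin N → Pt) → ℝ := fun i x =>
    ∏ m, Real.exp (-β * cellE ψ (f i) m x + κ' * ((occ (f i) m x : ℝ)) ^ 2)
  -- pointwise Jensen
  have hpoint : ∀ x : Fin N → Pt, Real.exp (-β * energy (G.φc (lvl j + c')) x) ≤
      (1 / (q : ℝ)) * ∑ i, Gi i x := by
    intro x
    have hen := energy_shift_ineq (G := G) hc' hcj hRm hRmj hRp hRpj hℓ hq hε ⌈L / ℓ⌉₊ x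
    rw [← hεdef, ← hs, ← hψdef] at hen
    have h1 := exp_le_avg hq hβ _ hen
    refine h1.trans (le_of_eq ?_)
    congr 1
    refine Finset.sum_congr rfl fun i _ => ?_
    show Real.exp _ = ∏ m, Real.exp (-β * cellE ψ (f i) m x + κ' * ((occ (f i) m x : ℝ)) ^ 2)
    rw [← Real.exp_sum]
    congr 1
    rw [Finset.sum_add_distrib, ← Finset.mul_sum, ← Finset.mul_sum, hκ']
    have : (∑' l, c' l * G.a l) * (1 + Real.sqrt 3 * ℓ / Rp) ^ 6 / 2 / ℓ ^ 3 = K₂ / ℓ ^ 3 := by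
      rw [hK₂]
    rw [this]
    ring
  have hGi_int : ∀ i, IntegrableOn (Gi i) (Set.pi Set.univ (fun _ => cube L)) := fun i =>
    integrableOn_cellProd hψm hψst hβ (f i) (measurable_cellOfS _ _ _) (volume_cube_ne_top L) κ' N
  have hcell : ∀ i : Fin q, ∫ x in Set.pi Set.univ (fun _ : Fin N => cube L), Gi i x ≤
      (Nat.factorial N : ℝ) * R := by
    intro i
    have hτ0 : 0 ≤ ((i : ℕ) : ℝ) * ℓ / q := by positivity
    have hτ1 : ((i : ℕ) : ℝ) * ℓ / q < ℓ := by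
      rw [div_lt_iff₀ hq']
      have : ((i : ℕ) : ℝ) < q := by exact_mod_cast i.2
      nlinarith
    rw [hR]
    exact cell_bound hψm hψst hβ hℓ hτ0 hτ1 κ' N
  have hfact : (0 : ℝ) < (Nat.factorial N : ℝ) := by exact_mod_cast Nat.factorial_pos N
  have h1 : ∫ x in Set.pi Set.univ (fun _ : Fin N => cube L),
      Real.exp (-β * energy (G.φc (lvl j + c')) x) ≤
      ∫ x in Set.pi Set.univ (fun _ : Fin N => cube L), (1 / (q : ℝ)) * ∑ i, Gi i x := by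
    refine setIntegral_mono_on
      (integrableOn_boltz (φc_measurable hokadd) (stable_φc hokadd) hβ (measurableSet_cube L)
        (volume_cube_ne_top L) N)
      ?_ hDset (fun x _ => hpoint x)
    exact (integrable_finsetSum _ fun i _ => hGi_int i).const_mul _
  have h2 : ∫ x in Set.pi Set.univ (fun _ : Fin N => cube L), (1 / (q : ℝ)) * ∑ i, Gi i x =
      (1 / (q : ℝ)) * ∑ i, ∫ x in Set.pi Set.univ (fun _ : Fin N => cube L), Gi i x := by
    rw [integral_const_mul, integral_finsetSum _ fun i _ => hGi_int i]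
  have h3 : (1 / (q : ℝ)) * ∑ i, ∫ x in Set.pi Set.univ (fun _ : Fin N => cube L), Gi i x ≤
      (Nat.factorial N : ℝ) * R := by
    have h4 : ∑ i, ∫ x in Set.pi Set.univ (fun _ : Fin N => cube L), Gi i x ≤
        ∑ _i : Fin q, (Nat.factorial N : ℝ) * R := Finset.sum_le_sum fun i _ => hcell i
    have h5 : ∑ _i : Fin q, (Nat.factorial N : ℝ) * R = (q : ℝ) * ((Nat.factorial N : ℝ) * R) := by
      simp
    rw [h5] at h4
    calc _ ≤ (1 / (q : ℝ)) * ((q : ℝ) * ((Nat.factorial N : ℝ) * R)) :=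
          mul_le_mul_of_nonneg_left h4 (by positivity)
      _ = _ := by field_simp
  unfold partitionFn
  calc (1 / (Nat.factorial N : ℝ)) * ∫ x in Set.pi Set.univ (fun _ : Fin N => cube L),
        Real.exp (-β * energy (G.φc (lvl j + c')) x)
      ≤ (1 / (Nat.factorial N : ℝ)) * ((Nat.factorial N : ℝ) * R) := by
        refine mul_le_mul_of_nonneg_left ?_ (by positivity)
        rw [h2] at h1
        exact h1.trans h3
    _ = R := by field_simp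

end GasSetup
end Crest.Agent.Lib.Gas
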