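import Crest.Agent.Lib.Gas.Level2

/-! # Gas E7, auxiliary: cells of a shifted grid and the combinatorics of the energy inequality. -/
namespace Crest.Agent.Lib.Gas
open MeasureTheory Set Filter Topology
open Crest.ProbabilityR.Continuum

/-- cell index along one coordinate, clamped to `[0, M+1]`. -/
noncomputable def cellIdx (ℓ τ : ℝ) (M : ℕ) (t : ℝ) : Fin (M + 2) :=
  ⟨min (M + 1) (⌊(t - τ) / ℓ⌋ + 1).toNat, by omega⟩

/-- the cell of a point, for the grid of side `ℓ` shifted by `τ` -/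
noncomputable def cellOfS (ℓ τ : ℝ) (M : ℕ) (y : Pt) : Fin 3 → Fin (M + 2) :=
  fun k => cellIdx ℓ τ M (y k)

theorem measurable_cellIdx (ℓ τ : ℝ) (M : ℕ) : Measurable (cellIdx ℓ τ M) := by
  have h1 : Measurable fun t : ℝ => ⌊(t - τ) / ℓ⌋ :=
    Int.measurable_floor.comp ((measurable_id.sub_const τ).div_const ℓ)
  exact (Measurable.of_discrete
    (f := fun n : ℤ => (⟨min (M + 1) (n + 1).toNat, by omega⟩ : Fin (M + 2)))).comp h1

theorem measurable_coord (k : Fin 3) : Measurable (fun y : Pt => y k) :=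
  (EuclideanSpace.proj k : Pt →L[ℝ] ℝ).continuous.measurable

theorem measurable_cellOfS (ℓ τ : ℝ) (M : ℕ) : Measurable (cellOfS ℓ τ M) := by
  refine measurable_pi_lambda _ fun k => ?_
  exact (measurable_cellIdx ℓ τ M).comp (measurable_coord k)

theorem measurableSet_cellOfS (ℓ τ : ℝ) (M : ℕ) (c : Fin 3 → Fin (M + 2)) :
    MeasurableSet (cellOfS ℓ τ M ⁻¹' {c}) :=
  measurable_cellOfS ℓ τ M (measurableSet_singleton c)

/-- The value of the index for points of `[0,L]`. -/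
theorem cellIdx_val {ℓ τ L t : ℝ} (hℓ : 0 < ℓ) (hτ0 : 0 ≤ τ) (hτ1 : τ < ℓ) (ht0 : 0 ≤ t)
    (htL : t ≤ L) :
    (((cellIdx ℓ τ ⌈L / ℓ⌉₊ t : Fin (⌈L / ℓ⌉₊ + 2)) : ℕ) : ℝ) = (⌊(t - τ) / ℓ⌋ : ℝ) + 1 := by
  have hn1 : (-1 : ℤ) ≤ ⌊(t - τ) / ℓ⌋ := by
    apply Int.le_floor.mpr
    have : -1 ≤ (t - τ) / ℓ := by
      rw [le_div_iff₀ hℓ]; linarith
    simpa using this
  have hn2 : ⌊(t - τ) / ℓ⌋ ≤ (⌈L / ℓ⌉₊ : ℤ) := by
    have h1 : (⌊(t - τ) / ℓ⌋ : ℝ) ≤ (t - τ) / ℓ := Int.floor_le _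
    have h2 : (t - τ) / ℓ ≤ L / ℓ := by
      apply div_le_div_of_nonneg_right _ hℓ.le; linarith
    have h3 : L / ℓ ≤ (⌈L / ℓ⌉₊ : ℝ) := Nat.le_ceil _
    have : (⌊(t - τ) / ℓ⌋ : ℝ) ≤ ((⌈L / ℓ⌉₊ : ℤ) : ℝ) := by
      push_cast; linarith
    exact_mod_cast this
  set n := ⌊(t - τ) / ℓ⌋ with hn
  have h0 : 0 ≤ n + 1 := by omega
  have hval : ((cellIdx ℓ τ ⌈L / ℓ⌉₊ t : Fin (⌈L / ℓ⌉₊ + 2)) : ℕ) = (n + 1).toNat := by
    show min (⌈L / ℓ⌉₊ + 1) (⌊(t - τ) / ℓ⌋ + 1).toNat = _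
    rw [← hn]
    apply min_eq_right
    omega
  rw [hval]
  have : (((n + 1).toNat : ℤ) : ℝ) = ((n + 1 : ℤ) : ℝ) := by
    rw [Int.toNat_of_nonneg h0]
  push_cast at this ⊢
  exact this

/-- Corner of a box. -/
noncomputable def cornerS (ℓ τ : ℝ) (M : ℕ) (m : Fin 3 → Fin (M + 2)) : Pt :=
  WithLp.toLp 2 fun k => τ + (((m k : ℕ) : ℝ) - 1) * ℓ

/-- The box of a cell: translate of the cube of side `ℓ`. -/
noncomputable def boxS (ℓ τ : ℝ) (M : ℕ) (m : Fin 3 → Fin (M + 2)) : Set Pt :=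
  (fun y => cornerS ℓ τ M m + y) '' cube ℓ

theorem mem_boxS {ℓ τ L : ℝ} (hℓ : 0 < ℓ) (hτ0 : 0 ≤ τ) (hτ1 : τ < ℓ) {y : Pt} (hy : y ∈ cube L) :
    y ∈ boxS ℓ τ ⌈L / ℓ⌉₊ (cellOfS ℓ τ ⌈L / ℓ⌉₊ y) := by
  refine ⟨y - cornerS ℓ τ ⌈L / ℓ⌉₊ (cellOfS ℓ τ ⌈L / ℓ⌉₊ y), ?_, by simp⟩
  intro k
  have hv := cellIdx_val (ℓ := ℓ) (τ := τ) (L := L) (t := y k) hℓ hτ0 hτ1 (hy k).1 (hy k).2
  have h1 : (⌊(y k - τ) / ℓ⌋ : ℝ) ≤ (y k - τ) / ℓ := Int.floor_le _
  have h2 : (y k - τ) / ℓ < (⌊(y k - τ) / ℓ⌋ : ℝ) + 1 := Int.lt_floor_add_one _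
  rw [le_div_iff₀ hℓ] at h1
  rw [div_lt_iff₀ hℓ] at h2
  have hc : (y - cornerS ℓ τ ⌈L / ℓ⌉₊ (cellOfS ℓ τ ⌈L / ℓ⌉₊ y)) k =
      y k - (τ + (((cellIdx ℓ τ ⌈L / ℓ⌉₊ (y k) : Fin (⌈L / ℓ⌉₊ + 2)) : ℕ) - 1) * ℓ) := by
    simp [cornerS, cellOfS]
  rw [hc, hv]
  constructor <;> nlinarith

theorem measurableSet_boxS (ℓ τ : ℝ) (M : ℕ) (m : Fin 3 → Fin (M + 2)) :
    MeasurableSet (boxS ℓ τ M m) := by
  have := (Homeomorph.addLeft (cornerS ℓ τ M m)).measurableEmbedding.measurableSet_image.mpr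
    (measurableSet_cube ℓ)
  exact this

theorem volume_boxS (ℓ τ : ℝ) (M : ℕ) (m : Fin 3 → Fin (M + 2)) :
    volume (boxS ℓ τ M m) = volume (cube ℓ) := by
  unfold boxS
  rw [Set.image_add_left, measure_preimage_add]

theorem volume_cube_ne_zero {ℓ : ℝ} (hℓ : 0 < ℓ) : volume (cube ℓ) ≠ 0 := by
  intro h
  have := volume_cube ℓ hℓ.le
  rw [Measure.real, h] at this
  simp at this
  have h3 : ℓ ^ 3 ≠ 0 := by positivity
  exact h3 this.symm

/-- Sum over the cells of a cell energy. -/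
theorem sum_cellE {C : Type*} [Fintype C] [DecidableEq C] (ψ : ℝ → ℝ) (f : Pt → C) {N : ℕ}
    (x : Fin N → Pt) :
    ∑ c, cellE ψ f c x =
      (1 / 2) * ∑ a, ∑ b, if f (x a) = f (x b) ∧ a ≠ b then ψ (dist (x a) (x b)) else 0 := by
  unfold cellE
  rw [← Finset.mul_sum]
  congr 1
  rw [Finset.sum_comm]
  refine Finset.sum_congr rfl fun a _ => ?_
  rw [Finset.sum_comm]
  refine Finset.sum_congr rfl fun b _ => ?_
  by_cases h : f (x a) = f (x b) ∧ a ≠ b
  · rw [if_pos h, Finset.sum_eq_single (f (x a))]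
    · rw [if_pos ⟨rfl, h.1.symm, h.2⟩]
    · intro c _ hc
      rw [if_neg]
      exact fun hh => hc hh.1.symm
    · simp
  · rw [if_neg h]
    refine Finset.sum_eq_zero fun c _ => ?_
    rw [if_neg]
    rintro ⟨h1, h2, h3⟩
    exact h ⟨h1.trans h2.symm, h3⟩

/-- Sum of squares of occupations. -/
theorem sum_occ_sq {C : Type*} [Fintype C] [DecidableEq C] (f : Pt → C) {N : ℕ} (x : Fin N → Pt) :
    ∑ c, ((occ f c x : ℕ) : ℝ) ^ 2 = ∑ a, ∑ b, if f (x a) = f (x b) then (1 : ℝ) else 0 := by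
  have hocc : ∀ c, ((occ f c x : ℕ) : ℝ) = ∑ a, if f (x a) = c then (1 : ℝ) else 0 := by
    intro c
    unfold occ
    rw [Finset.card_filter]
    push_cast
    rfl
  simp_rw [hocc, sq, Finset.sum_mul_sum]
  rw [Finset.sum_comm]
  refine Finset.sum_congr rfl fun a _ => ?_
  rw [Finset.sum_comm]
  refine Finset.sum_congr rfl fun b _ => ?_
  rw [Finset.sum_eq_single (f (x a))]
  · simp [eq_comm]
  · intro c _ hc
    simp [Ne.symm hc]
  · simp

/-- Sum of squares over the image. -/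
theorem sum_image_sq {Y : Type*} [DecidableEq Y] {N : ℕ} (g : Fin N → Y) :
    ∑ m ∈ Finset.univ.image g, (((Finset.univ.filter fun i => g i = m).card : ℕ) : ℝ) ^ 2 =
      ∑ a, ∑ b, if g a = g b then (1 : ℝ) else 0 := by
  have hocc : ∀ c, (((Finset.univ.filter fun i => g i = c).card : ℕ) : ℝ) =
      ∑ a, if g a = c then (1 : ℝ) else 0 := by
    intro c
    rw [Finset.card_filter]
    push_cast
    rfl
  simp_rw [hocc, sq, Finset.sum_mul_sum]
  rw [Finset.sum_comm]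
  refine Finset.sum_congr rfl fun a _ => ?_
  rw [Finset.sum_comm]
  refine Finset.sum_congr rfl fun b _ => ?_
  rw [Finset.sum_eq_single (g a)]
  · simp [eq_comm]
  · intro c _ hc
    simp [Ne.symm hc]
  · simp

/-- Equal grid cells give equal clamped cells. -/
theorem cellOfS_eq_of_gridCell_eq {ℓ τ : ℝ} {M : ℕ} {y z : Pt}
    (h : gridCell ℓ τ y = gridCell ℓ τ z) : cellOfS ℓ τ M y = cellOfS ℓ τ M z := by
  funext k
  have hk : ⌊(y k - τ) / ℓ⌋ = ⌊(z k - τ) / ℓ⌋ := congrFun h k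
  unfold cellOfS cellIdx
  simp only [hk]

/-- Different clamped cells give a coordinate with different floors. -/
theorem exists_floor_ne_of_cellOfS_ne {ℓ τ : ℝ} {M : ℕ} {y z : Pt}
    (h : cellOfS ℓ τ M y ≠ cellOfS ℓ τ M z) : ∃ k : Fin 3, ⌊(y k - τ) / ℓ⌋ ≠ ⌊(z k - τ) / ℓ⌋ := by
  by_contra hh
  push Not at hh
  exact h (cellOfS_eq_of_gridCell_eq (funext hh))

/-- Coordinates are dominated by the distance. -/
theorem abs_coord_sub_le (x y : Pt) (k : Fin 3) : |x k - y k| ≤ dist x y := by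
  have := PiLp.norm_apply_le (x - y) k
  simpa [dist_eq_norm, Real.norm_eq_abs] using this

/-- Number of shifts separating two points. -/
theorem shift_count_pt {q : ℕ} (hq : 0 < q) {ℓ D : ℝ} (hℓ : 0 < ℓ) {M : ℕ} {y z : Pt}
    (hD : dist y z ≤ D) :
    (((Finset.univ : Finset (Fin q)).filter fun i : Fin q =>
        ¬ cellOfS ℓ (((i : ℕ) : ℝ) * ℓ / q) M y = cellOfS ℓ (((i : ℕ) : ℝ) * ℓ / q) M z).card : ℝ)
      ≤ 3 * (D * q / ℓ + 1) := by
  classical
  have hsub : ((Finset.univ : Finset (Fin q)).filter fun i : Fin q =>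
        ¬ cellOfS ℓ (((i : ℕ) : ℝ) * ℓ / q) M y = cellOfS ℓ (((i : ℕ) : ℝ) * ℓ / q) M z) ⊆
      (Finset.univ : Finset (Fin 3)).biUnion fun k =>
        (Finset.univ : Finset (Fin q)).filter fun i : Fin q =>
          ⌊(y k - ((i : ℕ) : ℝ) * ℓ / q) / ℓ⌋ ≠ ⌊(z k - ((i : ℕ) : ℝ) * ℓ / q) / ℓ⌋ := by
    intro i hi
    simp only [Finset.mem_filter, Finset.mem_univ, true_and] at hi
    obtain ⟨k, hk⟩ := exists_floor_ne_of_cellOfS_ne hi
    simp only [Finset.mem_biUnion, Finset.mem_filter, Finset.mem_univ, true_and]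
    exact ⟨k, hk⟩
  have h1 := (Finset.card_le_card hsub).trans Finset.card_biUnion_le
  have h2 : ((((Finset.univ : Finset (Fin q)).filter fun i : Fin q =>
        ¬ cellOfS ℓ (((i : ℕ) : ℝ) * ℓ / q) M y = cellOfS ℓ (((i : ℕ) : ℝ) * ℓ / q) M z).card : ℕ) : ℝ)
      ≤ ∑ k : Fin 3, (((Finset.univ : Finset (Fin q)).filter fun i : Fin q =>
          ⌊(y k - ((i : ℕ) : ℝ) * ℓ / q) / ℓ⌋ ≠ ⌊(z k - ((i : ℕ) : ℝ) * ℓ / q) / ℓ⌋).card : ℝ) := by
    exact_mod_cast h1
  refine h2.trans ?_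
  have h3 : ∀ k : Fin 3, (((Finset.univ : Finset (Fin q)).filter fun i : Fin q =>
          ⌊(y k - ((i : ℕ) : ℝ) * ℓ / q) / ℓ⌋ ≠ ⌊(z k - ((i : ℕ) : ℝ) * ℓ / q) / ℓ⌋).card : ℝ)
        ≤ D * q / ℓ + 1 := fun k =>
    GasSetup.shift_count hq hℓ ((abs_coord_sub_le y z k).trans hD)
  calc _ ≤ ∑ _k : Fin 3, (D * q / ℓ + 1) := Finset.sum_le_sum fun k _ => h3 k
    _ = _ := by simp; ring

/-- The pair inequality. -/
theorem pair_ineq {q : ℕ} {v T ε : ℝ} (same : Fin q → Prop) [DecidablePred same]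
    (hv : 0 ≤ v) (hT : 0 ≤ T) (hε : ε < 1)
    (hcount : T ≠ 0 → (((Finset.univ : Finset (Fin q)).filter fun i => ¬ same i).card : ℝ) ≤ q * ε) :
    ∑ i, (if same i then v - (1 / (1 - ε)) * T else 0) ≤ q * (v - T) := by
  have hsum : ∑ i, (if same i then v - (1 / (1 - ε)) * T else 0) =
      ((Finset.univ.filter same).card : ℝ) * (v - (1 / (1 - ε)) * T) := by
    rw [← Finset.sum_filter, Finset.sum_const, nsmul_eq_mul]
  rw [hsum]
  have hc : ((Finset.univ.filter same).card : ℝ) + ((Finset.univ.filter fun i => ¬ same i).card : ℝ)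
      = q := by
    have := Finset.card_filter_add_card_filter_not (s := (Finset.univ : Finset (Fin q))) same
    simp only [Finset.card_univ, Fintype.card_fin] at this
    exact_mod_cast this
  set A : ℝ := ((Finset.univ.filter same).card : ℝ) with hA
  set A' : ℝ := ((Finset.univ.filter fun i => ¬ same i).card : ℝ) with hA'
  have hA0 : 0 ≤ A := by positivity
  have hA'0 : 0 ≤ A' := by positivity
  have h1ε : 0 < 1 - ε := by linarith
  by_cases hT0 : T = 0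
  · subst hT0
    simp only [mul_zero, sub_zero]
    nlinarith
  · have hcnt := hcount hT0
    have hAq : (q : ℝ) * (1 - ε) ≤ A := by nlinarith
    have hq' : (q : ℝ) ≤ A * (1 / (1 - ε)) := by
      rw [mul_one_div, le_div_iff₀ h1ε]; exact hAq
    have h2 : (q : ℝ) * T ≤ A * (1 / (1 - ε)) * T := mul_le_mul_of_nonneg_right hq' hT
    nlinarith

/-- Lower bound on the energy of a cell, from stability. -/
theorem cellE_ge {C : Type*} [DecidableEq C] {ψ : ℝ → ℝ} {B : ℝ} (hst : Stable ψ B) (f : Pt → C)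
    (c : C) {N : ℕ} (x : Fin N → Pt) : -B * (occ f c x : ℝ) ≤ cellE ψ f c x := by
  classical
  set S : Finset (Fin N) := Finset.univ.filter fun i => f (x i) = c with hS
  have hocc : occ f c x = S.card := rfl
  let e : Fin S.card ≃ S := S.equivFin.symm
  let y : Fin S.card → Pt := fun i => x (e i).1
  have h1 := hst S.card y
  rw [energy_eq_pairE] at h1
  have h2 : pairE ψ y = pairE ψ (fun i : S => x i.1) :=
    pairE_reindex e ψ (fun i : S => x i.1)
  rw [h2] at h1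
  rw [hocc]
  refine h1.trans (le_of_eq ?_)
  unfold pairE cellE
  congr 1
  have h3 : ∀ g : Fin N → ℝ, ∑ i : S, g i.1 = ∑ i, if f (x i) = c then g i else 0 := by
    intro g
    rw [Finset.sum_coe_sort S g, hS, Finset.sum_filter]
  have h4 : ∀ i : Fin N, ∑ k : S, (if i = k.1 then (0 : ℝ) else ψ (dist (x i) (x k.1))) =
      ∑ k, if f (x k) = c then (if i = k then (0 : ℝ) else ψ (dist (x i) (x k))) else 0 := by
    intro i
    exact h3 (fun k => if i = k then (0 : ℝ) else ψ (dist (x i) (x k)))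
  have h5 : ∑ i : S, ∑ k : S, (if i = k then (0 : ℝ) else ψ (dist (x i.1) (x k.1))) =
      ∑ i : S, ∑ k : S, (if i.1 = k.1 then (0 : ℝ) else ψ (dist (x i.1) (x k.1))) := by
    refine Finset.sum_congr rfl fun i _ => Finset.sum_congr rfl fun k _ => ?_
    simp only [Subtype.ext_iff]
  rw [h5]
  simp_rw [h4]
  rw [h3 (fun i => ∑ k, if f (x k) = c then (if i = k then (0 : ℝ) else ψ (dist (x i) (x k))) else 0)]
  refine Finset.sum_congr rfl fun i _ => ?_
  by_cases hi : f (x i) = c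
  · rw [if_pos hi]
    refine Finset.sum_congr rfl fun k _ => ?_
    by_cases hk : f (x k) = c <;> by_cases hik : i = k <;> simp [hi, hk, hik]
  · rw [if_neg hi]
    symm
    refine Finset.sum_eq_zero fun k _ => ?_
    simp [hi]

theorem measurable_cellE {C : Type*} [DecidableEq C] [MeasurableSpace C]
    [MeasurableSingletonClass C] {ψ : ℝ → ℝ} (hψ : Measurable ψ)
    (f : Pt → C) (hf : Measurable f) (c : C) {N : ℕ} :
    Measurable (fun x : Fin N → Pt => cellE ψ f c x) := by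
  unfold cellE
  refine Measurable.const_mul ?_ _
  refine Finset.measurable_sum _ fun i _ => Finset.measurable_sum _ fun k _ => ?_
  refine Measurable.ite ?_ ?_ measurable_const
  · have h1 : MeasurableSet {x : Fin N → Pt | f (x i) = c} :=
      (hf.comp (measurable_pi_apply i)) (measurableSet_singleton c)
    have h2 : MeasurableSet {x : Fin N → Pt | f (x k) = c} :=
      (hf.comp (measurable_pi_apply k)) (measurableSet_singleton c)
    by_cases hik : i ≠ k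
    · have h3 : {x : Fin N → Pt | f (x i) = c ∧ f (x k) = c ∧ i ≠ k} =
          {x | f (x i) = c} ∩ {x | f (x k) = c} := by
        ext x; simp [hik]
      rw [h3]; exact h1.inter h2
    · have h3 : {x : Fin N → Pt | f (x i) = c ∧ f (x k) = c ∧ i ≠ k} = ∅ := by
        ext x; simp only [Set.mem_ofPred_eq, mem_empty_iff_false, iff_false]; tauto
      rw [h3]; exact MeasurableSet.empty
  · exact hψ.comp ((measurable_pi_apply i).dist (measurable_pi_apply k))

theorem measurable_occ {C : Type*} [DecidableEq C] [MeasurableSpace C]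
    [MeasurableSingletonClass C] (f : Pt → C) (hf : Measurable f) (c : C) {N : ℕ} :
    Measurable (fun x : Fin N → Pt => ((occ f c x : ℕ) : ℝ)) := by
  have hocc : ∀ x : Fin N → Pt, ((occ f c x : ℕ) : ℝ) = ∑ a, if f (x a) = c then (1 : ℝ) else 0 := by
    intro x
    unfold occ
    rw [Finset.card_filter]
    push_cast
    rfl
  simp_rw [hocc]
  refine Finset.measurable_sum _ fun i _ => ?_
  refine Measurable.ite ?_ measurable_const measurable_const
  exact (hf.comp (measurable_pi_apply i)) (measurableSet_singleton c)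

theorem occ_le {C : Type*} [DecidableEq C] (f : Pt → C) (c : C) {N : ℕ} (x : Fin N → Pt) :
    occ f c x ≤ N := by
  unfold occ
  calc _ ≤ (Finset.univ : Finset (Fin N)).card := Finset.card_filter_le _ _
    _ = N := by simp

/-- The integrand of the cell factorisation is integrable. -/
theorem integrableOn_cellProd {C : Type*} [Fintype C] [DecidableEq C] [MeasurableSpace C]
    [MeasurableSingletonClass C] {ψ : ℝ → ℝ} {B β : ℝ} {D : Set Pt} (hψ : Measurable ψ)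
    (hst : Stable ψ B) (hβ : 0 ≤ β) (f : Pt → C) (hf : Measurable f) (hfin : volume D ≠ ⊤)
    (κ : ℝ) (N : ℕ) :
    IntegrableOn (fun x : Fin N → Pt =>
        ∏ c, Real.exp (-β * cellE ψ f c x + κ * ((occ f c x : ℝ)) ^ 2))
      (Set.pi Set.univ (fun _ => D)) := by
  have hfinpi : volume (Set.pi Set.univ (fun _ : Fin N => D)) ≠ ⊤ := by
    rw [volume_pi_pi]
    exact ENNReal.prod_ne_top fun _ _ => hfin
  have hmeas : Measurable (fun x : Fin N → Pt =>
      ∏ c, Real.exp (-β * cellE ψ f c x + κ * ((occ f c x : ℝ)) ^ 2)) := by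
    refine Finset.measurable_prod _ fun c _ => ?_
    refine Real.measurable_exp.comp ?_
    exact ((measurable_cellE hψ f hf c).const_mul _).add
      (((measurable_occ f hf c).pow_const 2).const_mul _)
  refine Measure.integrableOn_of_bounded (M := ∏ _c : C, Real.exp (β * |B| * N + |κ| * (N : ℝ) ^ 2))
    hfinpi hmeas.aestronglyMeasurable (Filter.Eventually.of_forall fun x => ?_)
  rw [Real.norm_of_nonneg (Finset.prod_nonneg fun _ _ => (Real.exp_pos _).le)]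
  refine Finset.prod_le_prod (fun _ _ => (Real.exp_pos _).le) fun c _ => ?_
  apply Real.exp_le_exp.mpr
  have h1 := cellE_ge hst f c x
  have h2 : ((occ f c x : ℕ) : ℝ) ≤ N := by exact_mod_cast occ_le f c x
  have h3 : (0 : ℝ) ≤ (occ f c x : ℕ) := by positivity
  have h4 : -β * cellE ψ f c x ≤ β * (B * (occ f c x : ℝ)) := by nlinarith
  have h5 : B * ((occ f c x : ℕ) : ℝ) ≤ |B| * N := by
    calc _ ≤ |B| * ((occ f c x : ℕ) : ℝ) := mul_le_mul_of_nonneg_right (le_abs_self B) h3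
      _ ≤ _ := mul_le_mul_of_nonneg_left h2 (abs_nonneg B)
  have h6 : β * (B * ((occ f c x : ℕ) : ℝ)) ≤ β * |B| * N := by
    rw [mul_assoc]; exact mul_le_mul_of_nonneg_left h5 hβ
  have h7 : ((occ f c x : ℕ) : ℝ) ^ 2 ≤ (N : ℝ) ^ 2 := by gcongr
  have h8 : κ * ((occ f c x : ℕ) : ℝ) ^ 2 ≤ |κ| * (N : ℝ) ^ 2 := by
    calc _ ≤ |κ| * ((occ f c x : ℕ) : ℝ) ^ 2 :=
          mul_le_mul_of_nonneg_right (le_abs_self κ) (by positivity)
      _ ≤ _ := mul_le_mul_of_nonneg_left h7 (abs_nonneg κ)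
  linarith

/-- Jensen over the shifts. -/
theorem exp_le_avg {q : ℕ} (hq : 0 < q) {β E : ℝ} (hβ : 0 ≤ β) (H : Fin q → ℝ)
    (h : ∑ i, H i ≤ (q : ℝ) * E) :
    Real.exp (-β * E) ≤ (1 / (q : ℝ)) * ∑ i, Real.exp (-β * H i) := by
  have hq' : (0 : ℝ) < q := by exact_mod_cast hq
  have hjensen := convexOn_exp.map_sum_le (t := (Finset.univ : Finset (Fin q)))
    (w := fun _ => 1 / (q : ℝ)) (p := fun i => -β * H i)
    (fun _ _ => by positivity) (by simp; field_simp) (fun _ _ => Set.mem_univ _)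
  simp only [smul_eq_mul] at hjensen
  rw [← Finset.mul_sum, ← Finset.mul_sum, ← Finset.mul_sum] at hjensen
  refine le_trans (Real.exp_le_exp.mpr ?_) hjensen
  have h2 := mul_le_mul_of_nonneg_left h hβ
  have h3 : -β * E = (1 / (q : ℝ)) * (-(β * ((q : ℝ) * E))) := by
    field_simp
  rw [h3]
  have h4 : 1 / (q : ℝ) * (-β * ∑ i, H i) = 1 / (q : ℝ) * (-(β * ∑ i, H i)) := by ring
  rw [h4]
  apply mul_le_mul_of_nonneg_left _ (by positivity)
  linarith

/-- One shift: the cell factorisation for the boxes of a shifted grid. -/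
theorem cell_bound {ψ : ℝ → ℝ} {B β : ℝ} (hψ : Measurable ψ) (hst : Stable ψ B) (hβ : 0 ≤ β)
    {ℓ L τ : ℝ} (hℓ : 0 < ℓ) (hτ0 : 0 ≤ τ) (hτ1 : τ < ℓ) (κ : ℝ) (N : ℕ) :
    ∫ x in Set.pi Set.univ (fun _ : Fin N => cube L),
        ∏ m, Real.exp (-β * cellE ψ (cellOfS ℓ τ ⌈L / ℓ⌉₊) m x +
          κ * ((occ (cellOfS ℓ τ ⌈L / ℓ⌉₊) m x : ℝ)) ^ 2) ≤
      (Nat.factorial N : ℝ) * ∑ n ∈ Finset.piAntidiag
          (Finset.univ : Finset (Fin 3 → Fin (⌈L / ℓ⌉₊ + 2))) N,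
        ∏ m, (partitionFn ψ ℓ (n m) β * Real.exp (κ * ((n m : ℝ)) ^ 2)) := by
  have h1 := integral_cell_factor (ψ := ψ) (B := B) (β := β) (D := cube L) hψ hst hβ
    (cellOf := cellOfS ℓ τ ⌈L / ℓ⌉₊)
    (measurableSet_cellOfS ℓ τ _) (boxS ℓ τ _) (measurableSet_boxS ℓ τ _)
    (fun c => by rw [volume_boxS]; exact volume_cube_ne_top ℓ)
    (fun c => by rw [volume_boxS]; exact volume_cube_ne_zero hℓ)
    (measurableSet_cube L) (fun y hy => mem_boxS hℓ hτ0 hτ1 hy) κ N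
  refine h1.trans (le_of_eq ?_)
  congr 1
  refine Finset.sum_congr rfl fun n _ => Finset.prod_congr rfl fun m _ => ?_
  congr 1
  rw [boxS, zD_translate]
  rfl

end Crest.Agent.Lib.Gas
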