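import Crest.Agent.Lib.Gas.Level3

/-! # Gas E8: level comparison, upper bound. -/
namespace Crest.Agent.Lib.Gas
open MeasureTheory Set Filter Topology
open Crest.ProbabilityR.Continuum

namespace GasSetup
variable {G : GasSetup} {c c' : ℕ → ℝ}

/-- Density cap. -/
noncomputable def rhoMax (ℓ₀ : ℝ) : ℝ := 32 / ℓ₀ ^ 3

private lemma lvl_nonneg (j l : ℕ) : 0 ≤ lvl j l := by
  unfold lvl; split_ifs <;> norm_num

private lemma lvl_le_one (j l : ℕ) : lvl j l ≤ 1 := by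
  unfold lvl; split_ifs <;> norm_num

private lemma coef_smul_lvl {s : ℝ} (h0 : 0 ≤ s) (h2 : s ≤ 2) (j : ℕ) :
    CoefOK (fun l => s * lvl j l) := by
  intro l
  have h1 := lvl_nonneg j l
  have h3 := lvl_le_one j l
  constructor
  · positivity
  · nlinarith

private lemma coef_lvl (j : ℕ) : CoefOK (lvl j) := by
  intro l
  have h1 := lvl_nonneg j l
  have h3 := lvl_le_one j l
  constructor <;> linarith

private lemma coef_lvl_add {j : ℕ} (hc' : ∀ l, 0 ≤ c' l ∧ c' l ≤ 1) (hcj : ∀ l, l < j → c' l = 0) :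
    CoefOK (lvl j + c') := by
  intro l
  have h1 := lvl_nonneg j l
  have h3 := lvl_le_one j l
  have h4 := hc' l
  simp only [Pi.add_apply]
  constructor
  · linarith [h4.1]
  · linarith [h4.2]

private lemma φc_smul (G : GasSetup) (j : ℕ) (s : ℝ) :
    G.φc (fun l => s * lvl j l) = fun r => G.v r - s * G.Tc (lvl j) r := by
  funext r
  unfold φc Tc
  congr 1
  rw [← tsum_mul_left]
  congr 1
  funext l
  ring

private lemma φc_one (G : GasSetup) (j : ℕ) :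
    G.φc (lvl j) = fun r => G.v r - (1 : ℝ) * G.Tc (lvl j) r := by
  have := φc_smul G j 1
  simpa using this

private lemma A_pos (G : GasSetup) : 0 < G.A := by
  have h := G.hA
  have h0 : G.a 0 ≤ G.A := by
    rw [← h.tsum_eq]
    exact h.summable.le_tsum 0 (fun l _ => (G.ha l).le)
  linarith [G.ha 0]

private lemma A'_bounds (G : GasSetup) (hc' : ∀ l, 0 ≤ c' l ∧ c' l ≤ 1) :
    0 ≤ ∑' l, c' l * G.a l ∧ ∑' l, c' l * G.a l ≤ G.A := by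
  have hs : Summable fun l => c' l * G.a l := by
    refine Summable.of_nonneg_of_le (fun l => mul_nonneg (hc' l).1 (G.ha l).le) (fun l => ?_)
      G.hA.summable
    have := (hc' l).2
    have := G.ha l
    nlinarith
  constructor
  · exact tsum_nonneg fun l => mul_nonneg (hc' l).1 (G.ha l).le
  · rw [← G.hA.tsum_eq]
    refine hs.tsum_le_tsum (fun l => ?_) G.hA.summable
    have := (hc' l).2
    have := G.ha l
    nlinarith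

private lemma kappa_bounds {y : ℝ} (h0 : 0 ≤ y) (h1 : y ≤ 0.12) :
    (1 + y) ^ 6 ≤ 1 + 8.2 * y := by
  have e : (1 + y) ^ 6 = 1 + 6 * y + 15 * y ^ 2 + 20 * y ^ 3 + 15 * y ^ 4 + 6 * y ^ 5 + y ^ 6 := by
    ring
  have y2 : y ^ 2 ≤ 0.12 * y := by nlinarith
  have y3 : y ^ 3 ≤ 0.0144 * y := by
    have : y ^ 3 = y ^ 2 * y := by ring
    nlinarith [mul_nonneg h0 h0]
  have y4 : y ^ 4 ≤ 0.001728 * y := by
    have : y ^ 4 = y ^ 3 * y := by ring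
    nlinarith [pow_nonneg h0 3, mul_nonneg h0 h0]
  have y5 : y ^ 5 ≤ 0.00020736 * y := by
    have : y ^ 5 = y ^ 4 * y := by ring
    nlinarith [pow_nonneg h0 4, mul_nonneg h0 h0]
  have y6 : y ^ 6 ≤ 0.0000248832 * y := by
    have : y ^ 6 = y ^ 5 * y := by ring
    nlinarith [pow_nonneg h0 5, mul_nonneg h0 h0]
  rw [e]
  linarith

private lemma w_bound {ℓ : ℝ} (hℓ : 1 ≤ ℓ) : ((ℓ + 1) / ℓ) ^ 3 ≤ 1 + 7 / ℓ := by
  have hℓ0 : 0 < ℓ := by linarith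
  have hx : (1 : ℝ) / ℓ ≤ 1 := by rw [div_le_one hℓ0]; exact hℓ
  have hx0 : 0 < (1 : ℝ) / ℓ := by positivity
  have e : (ℓ + 1) / ℓ = 1 + 1 / ℓ := by field_simp
  have e2 : 7 / ℓ = 7 * (1 / ℓ) := by ring
  rw [e, e2]
  set x := (1 : ℝ) / ℓ
  have : (1 + x) ^ 3 = 1 + 3 * x + 3 * x ^ 2 + x ^ 3 := by ring
  rw [this]
  have x2 : x ^ 2 ≤ x := by nlinarith
  have x3 : x ^ 3 ≤ x := by
    have : x ^ 3 = x ^ 2 * x := by ring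
    nlinarith [sq_nonneg x]
  linarith

private lemma w_ge {ℓ : ℝ} (hℓ : 0 < ℓ) : 1 ≤ ((ℓ + 1) / ℓ) ^ 3 := by
  apply one_le_pow₀
  rw [one_le_div hℓ]
  linarith

private lemma x_one_sub_log_le {x : ℝ} (hx : 0 < x) : x * (1 - Real.log x) ≤ 1 := by
  have h := Real.one_sub_inv_le_log_of_pos hx
  have h2 : 1 - Real.log x ≤ x⁻¹ := by linarith
  calc x * (1 - Real.log x) ≤ x * x⁻¹ := mul_le_mul_of_nonneg_left h2 hx.le
    _ = 1 := mul_inv_cancel₀ hx.ne'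

private lemma log_bound {R ℓ : ℝ} (hR : 0 ≤ R) (hℓ : 1 ≤ ℓ) :
    Real.log (1 + R * ℓ ^ 3) ≤ Real.log (1 + R) + 3 * ℓ := by
  have hℓ0 : 0 < ℓ := by linarith
  have h1 : (1 : ℝ) ≤ ℓ ^ 3 := one_le_pow₀ hℓ
  have h2 : 1 + R * ℓ ^ 3 ≤ (1 + R) * ℓ ^ 3 := by nlinarith
  have h3 : 0 < 1 + R * ℓ ^ 3 := by positivity
  calc Real.log (1 + R * ℓ ^ 3) ≤ Real.log ((1 + R) * ℓ ^ 3) := Real.log_le_log h3 h2
    _ = Real.log (1 + R) + 3 * Real.log ℓ := by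
        rw [Real.log_mul (by positivity) (by positivity), Real.log_pow]; norm_num
    _ ≤ Real.log (1 + R) + 3 * ℓ := by
        have := Real.log_le_sub_one_of_pos hℓ0
        linarith

/-- Convexity in the coupling: `Psi` at `s = 1 + t` is at most `Psi` at `1` plus `t` times a fixed
bound. -/
private lemma psi_s_le (G : GasSetup) (j : ℕ) {β ρ t : ℝ} (hβ0 : 0 ≤ β) (hβ2 : β ≤ 2)
    (hρ : 0 ≤ ρ) (ht0 : 0 ≤ t) (ht1 : t ≤ 1) :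
    Psi (G.φc (fun l => (1 + t) * lvl j l)) β ρ ≤
      Psi (G.φc (lvl j)) β ρ + t * (G.U * ρ + G.V₁ * ρ ^ 2) := by
  have hT : Measurable (G.Tc (lvl j)) := Tc_measurable (coef_lvl j)
  have ad1 := admissible_φc (G := G) (coef_lvl j)
  have ad2 := admissible_φc (G := G) (coef_smul_lvl (s := 2) (by norm_num) le_rfl j)
  have ads := admissible_φc (G := G) (coef_smul_lvl (s := 1 + t) (by linarith) (by linarith) j)
  have e1 : (fun r => G.v r - (1 : ℝ) * G.Tc (lvl j) r) = G.φc (lvl j) := (φc_one G j).symm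
  have e2 : (fun r => G.v r - (2 : ℝ) * G.Tc (lvl j) r) = G.φc (fun l => (2 : ℝ) * lvl j l) :=
    (φc_smul G j 2).symm
  have es : (fun r => G.v r - ((1 - t) * 1 + t * 2) * G.Tc (lvl j) r)
      = G.φc (fun l => (1 + t) * lvl j l) := by
    rw [φc_smul]; funext r; ring
  have key := Psi_param_convex (v := G.v) (B := G.U / 2) (V₁ := G.V₁) (T := G.Tc (lvl j))
    (s₀ := 1) (s₁ := 2) (t := t) (β := β) (ρ := ρ) hT (by rw [e1]; exact ad1) (by rw [e2]; exact ad2)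
    (by rw [es]; exact ads) ht0 ht1 hβ0 hρ
  rw [es, e1, e2] at key
  have hdiff : Psi (G.φc (fun l => (2 : ℝ) * lvl j l)) β ρ - Psi (G.φc (lvl j)) β ρ ≤
      G.U * ρ + G.V₁ * ρ ^ 2 := by
    rcases hρ.eq_or_lt with h | h
    · subst h
      rw [ad1.psi_zero hβ0, ad2.psi_zero hβ0]
      simp
    · have hub := ad2.ub hβ0 h
      have hlb := ad1.lb hβ0 h
      have hV := ad1.V₁_nonneg
      have hU := G.hU
      have : β * (G.U / 2) * ρ ≤ G.U * ρ := by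
        have : β * (G.U / 2) ≤ G.U := by nlinarith
        exact mul_le_mul_of_nonneg_right this h.le
      have h2 : β * G.V₁ * ρ ^ 2 / 2 ≤ G.V₁ * ρ ^ 2 := by
        have : 0 ≤ G.V₁ * ρ ^ 2 := by positivity
        nlinarith
      nlinarith
  nlinarith

private lemma rhoMax_pos (G : GasSetup) : 0 < rhoMax G.ℓ₀ := by
  have := G.hℓ₀
  unfold rhoMax; positivity

private lemma cell_bound (G : GasSetup) {M₀ : ℝ}
    (hUM : 4 * (1 + M₀) + 64 * G.A / G.ℓ₀ ^ 3 ≤ G.U) (j : ℕ) {ℓ β μ t A' κ : ℝ}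
    (hℓ : 1 ≤ ℓ) (hβ : β ∈ Icc (1 / 2 : ℝ) 2) (hμ : |μ| ≤ M₀) (ht0 : 0 ≤ t) (ht1 : t ≤ 1)
    (hA'0 : 0 ≤ A') (hA' : A' ≤ G.A) (hκ1 : 1 ≤ κ) (hκ2 : κ ≤ 2)
    {F : ℝ} (hF : ∀ ρ' ∈ Icc 0 (rhoMax G.ℓ₀),
      Psi (G.φc (lvl j)) β ρ' + (β / 2) * A' * ρ' ^ 2 + μ * ρ' ≤ F)
    (hF0 : 0 ≤ F) (n : ℕ) :
    Real.log (partitionFn (G.φc (fun l => (1 + t) * lvl j l)) ℓ n β)
        + β * (A' * κ / 2) * (n : ℝ) ^ 2 / ℓ ^ 3 + μ * n ≤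
      (ℓ + 1) ^ 3 * (F + t * (rhoMax G.ℓ₀ * (G.U + G.V₁ * rhoMax G.ℓ₀))
        + G.A * rhoMax G.ℓ₀ ^ 2 * (κ * ((ℓ + 1) / ℓ) ^ 3 - 1)) := by
  have hℓ0 : 0 < ℓ := by linarith
  have hRpos := rhoMax_pos G
  set R := rhoMax G.ℓ₀ with hR
  have hU := G.hU
  have hApos := A_pos G
  have hβ0 : 0 ≤ β := by linarith [hβ.1]
  have hβ2 : β ≤ 2 := hβ.2
  have hcs : CoefOK (fun l => (1 + t) * lvl j l) := coef_smul_lvl (by linarith) (by linarith) j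
  have ads := admissible_φc (G := G) hcs
  have ad1 := admissible_φc (G := G) (coef_lvl j)
  have hV := ad1.V₁_nonneg
  have hw1 := w_ge hℓ0
  have hκw : 0 ≤ κ * ((ℓ + 1) / ℓ) ^ 3 - 1 := by nlinarith
  have hC5 : 0 ≤ R * (G.U + G.V₁ * R) := by positivity
  have hC7 : 0 ≤ G.A * R ^ 2 := by positivity
  by_cases hn : R ≤ (n : ℝ) / ℓ ^ 3
  · -- high density
    have hd := highDensity (G := G) hcs hUM (ℓ := ℓ) (β := β) (μ := μ)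
      (κ := A' * κ / G.A) hℓ hβ hμ (by positivity) (by
        rw [div_le_iff₀ hApos]; nlinarith) (n := n) hn
    have e : G.A * (A' * κ / G.A) = A' * κ := by field_simp
    rw [e] at hd
    have : 0 ≤ (ℓ + 1) ^ 3 * (F + t * (R * (G.U + G.V₁ * R))
        + G.A * R ^ 2 * (κ * ((ℓ + 1) / ℓ) ^ 3 - 1)) := by
      apply mul_nonneg (by positivity)
      have := mul_nonneg ht0 hC5
      have := mul_nonneg hC7 hκw
      linarith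
    linarith
  · push Not at hn
    have hℓ10 : 0 < ℓ + 1 := by linarith
    set ρn : ℝ := (n : ℝ) / (ℓ + 1) ^ 3 with hρn
    have hρ0 : 0 ≤ ρn := by positivity
    have hρR : ρn ≤ R := by
      have : ρn ≤ (n : ℝ) / ℓ ^ 3 := by
        apply div_le_div_of_nonneg_left (by positivity) (by positivity)
        exact pow_le_pow_left₀ hℓ0.le (by linarith) 3
      linarith
    have hfv := ads.fv hβ0 hℓ0 n
    have hs := psi_s_le G j hβ0 hβ2 hρ0 ht0 ht1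
    have hFρ := hF ρn ⟨hρ0, hρR⟩
    have hbd : G.U * ρn + G.V₁ * ρn ^ 2 ≤ R * (G.U + G.V₁ * R) := by
      have h1 : G.U * ρn ≤ G.U * R := mul_le_mul_of_nonneg_left hρR hU.le
      have h2 : ρn ^ 2 ≤ R ^ 2 := pow_le_pow_left₀ hρ0 hρR 2
      have h3 : G.V₁ * ρn ^ 2 ≤ G.V₁ * R ^ 2 := mul_le_mul_of_nonneg_left h2 hV
      nlinarith
    have hPsi : Psi (G.φc (fun l => (1 + t) * lvl j l)) β ρn ≤
        Psi (G.φc (lvl j)) β ρn + t * (R * (G.U + G.V₁ * R)) := by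
      have := mul_le_mul_of_nonneg_left hbd ht0
      linarith
    have hnρ : (n : ℝ) = ρn * (ℓ + 1) ^ 3 := by
      rw [hρn]; field_simp
    have e1 : β * (A' * κ / 2) * (n : ℝ) ^ 2 / ℓ ^ 3 =
        (ℓ + 1) ^ 3 * ((β / 2) * A' * ρn ^ 2 * (κ * ((ℓ + 1) / ℓ) ^ 3)) := by
      rw [hnρ]; field_simp
    have e2 : μ * (n : ℝ) = (ℓ + 1) ^ 3 * (μ * ρn) := by rw [hnρ]; ring
    rw [e1, e2]
    have hmain : (β / 2) * A' * ρn ^ 2 * (κ * ((ℓ + 1) / ℓ) ^ 3 - 1) ≤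
        G.A * R ^ 2 * (κ * ((ℓ + 1) / ℓ) ^ 3 - 1) := by
      apply mul_le_mul_of_nonneg_right _ hκw
      have h2 : ρn ^ 2 ≤ R ^ 2 := pow_le_pow_left₀ hρ0 hρR 2
      have h3 : (β / 2) * A' ≤ G.A := by nlinarith
      have h4 : 0 ≤ ρn ^ 2 := by positivity
      calc (β / 2) * A' * ρn ^ 2 ≤ G.A * ρn ^ 2 := mul_le_mul_of_nonneg_right h3 h4
        _ ≤ G.A * R ^ 2 := mul_le_mul_of_nonneg_left h2 hApos.le
    have hle : Psi (G.φc (fun l => (1 + t) * lvl j l)) β ρn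
          + (β / 2) * A' * ρn ^ 2 * (κ * ((ℓ + 1) / ℓ) ^ 3) + μ * ρn ≤
        F + t * (R * (G.U + G.V₁ * R)) + G.A * R ^ 2 * (κ * ((ℓ + 1) / ℓ) ^ 3 - 1) := by
      have e3 : (β / 2) * A' * ρn ^ 2 * (κ * ((ℓ + 1) / ℓ) ^ 3) =
          (β / 2) * A' * ρn ^ 2 + (β / 2) * A' * ρn ^ 2 * (κ * ((ℓ + 1) / ℓ) ^ 3 - 1) := by ring
      rw [e3]
      linarith
    have := mul_le_mul_of_nonneg_left hle (by positivity : (0 : ℝ) ≤ (ℓ + 1) ^ 3)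
    rw [mul_add, mul_add] at this
    linarith [hfv]

private lemma fv_bound (G : GasSetup) {j : ℕ} {c' : ℕ → ℝ} (hc' : ∀ l, 0 ≤ c' l ∧ c' l ≤ 1)
    (hcj : ∀ l, l < j → c' l = 0)
    {Rm Rp ℓ : ℝ} (hRm : 1 ≤ Rm) (hRmj : ∀ l, l < j → G.R l ≤ Rm)
    (hRp : 0 < Rp) (hRpj : ∀ l, c' l ≠ 0 → Rp ≤ G.R l) (hℓ : 0 < ℓ) {q : ℕ} (hq : 0 < q)
    (hε : 6 * Rm / ℓ + 3 / (q : ℝ) ≤ 1 / 2) {β μ C : ℝ} (hβ : 0 ≤ β)
    (hs : CoefOK (fun l => (1 / (1 - (6 * Rm / ℓ + 3 / (q : ℝ)))) * lvl j l))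
    (hcell : ∀ n : ℕ,
      Real.log (partitionFn (G.φc (fun l => (1 / (1 - (6 * Rm / ℓ + 3 / (q : ℝ)))) * lvl j l)) ℓ n β)
        + β * ((∑' l, c' l * G.a l) * (1 + Real.sqrt 3 * ℓ / Rp) ^ 6 / 2) * (n : ℝ) ^ 2 / ℓ ^ 3
        + μ * n ≤ C)
    {L : ℝ} (hL : 0 < L) (N : ℕ) :
    Real.log (partitionFn (G.φc (lvl j + c')) L N β) + μ * N ≤
      (((⌈L / ℓ⌉₊ + 2 : ℕ) : ℝ)) ^ 3 * (1 + Real.log (1 + (N : ℝ) / (((⌈L / ℓ⌉₊ + 2 : ℕ) : ℝ)) ^ 3))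
        + (((⌈L / ℓ⌉₊ + 2 : ℕ) : ℝ)) ^ 3 * C := by
  have hdec := level_decouple (G := G) hc' hcj hRm hRmj hRp hRpj hℓ hq hε hβ hL N
  set M : ℕ := ⌈L / ℓ⌉₊ + 2 with hM
  have hcoef := coef_lvl_add (c' := c') (j := j) hc' hcj
  have adm := admissible_φc (G := G) hcoef
  have hZpos := adm.zpos hβ hL N
  have ads := admissible_φc (G := G) hs
  have hcard : Fintype.card (Fin 3 → Fin M) = M ^ 3 := by simp
  have hcardR : ((Fintype.card (Fin 3 → Fin M) : ℕ) : ℝ) = (M : ℝ) ^ 3 := by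
    rw [hcard]; push_cast; ring
  haveI : Nonempty (Fin M) := ⟨⟨0, by omega⟩⟩
  have hcb := card_piAntidiag_le (C := Fin 3 → Fin M) N
  rw [hcardR] at hcb
  -- each term
  have hterm : ∀ n ∈ Finset.piAntidiag (Finset.univ : Finset (Fin 3 → Fin M)) N,
      ∏ m, (partitionFn (G.φc (fun l => (1 / (1 - (6 * Rm / ℓ + 3 / (q : ℝ)))) * lvl j l)) ℓ (n m) β *
          Real.exp (β * ((∑' l, c' l * G.a l) * (1 + Real.sqrt 3 * ℓ / Rp) ^ 6 / 2)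
            * ((n m : ℝ)) ^ 2 / ℓ ^ 3)) ≤ Real.exp ((M : ℝ) ^ 3 * C - μ * N) := by
    intro n hn
    have hsum : ∑ m, n m = N := (Finset.mem_piAntidiag.1 hn).1
    have hsumR : ∑ m, (n m : ℝ) = (N : ℝ) := by exact_mod_cast hsum
    have h1 : ∀ m ∈ (Finset.univ : Finset (Fin 3 → Fin M)),
        partitionFn (G.φc (fun l => (1 / (1 - (6 * Rm / ℓ + 3 / (q : ℝ)))) * lvl j l)) ℓ (n m) β *
          Real.exp (β * ((∑' l, c' l * G.a l) * (1 + Real.sqrt 3 * ℓ / Rp) ^ 6 / 2)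
            * ((n m : ℝ)) ^ 2 / ℓ ^ 3) ≤ Real.exp (C - μ * (n m : ℝ)) := by
      intro m _
      have hz := ads.zpos hβ hℓ (n m)
      nth_rewrite 1 [← Real.exp_log hz]
      rw [← Real.exp_add]
      apply Real.exp_le_exp.2
      have := hcell (n m)
      linarith
    have h0 : ∀ m ∈ (Finset.univ : Finset (Fin 3 → Fin M)),
        0 ≤ partitionFn (G.φc (fun l => (1 / (1 - (6 * Rm / ℓ + 3 / (q : ℝ)))) * lvl j l)) ℓ (n m) β *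
          Real.exp (β * ((∑' l, c' l * G.a l) * (1 + Real.sqrt 3 * ℓ / Rp) ^ 6 / 2)
            * ((n m : ℝ)) ^ 2 / ℓ ^ 3) := by
      intro m _
      have hz := ads.zpos hβ hℓ (n m)
      positivity
    refine (Finset.prod_le_prod h0 h1).trans ?_
    rw [← Real.exp_sum]
    apply Real.exp_le_exp.2
    rw [Finset.sum_sub_distrib, ← Finset.mul_sum, hsumR]
    simp only [Finset.sum_const, Finset.card_univ, nsmul_eq_mul]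
    rw [hcardR]
  have hsumle := Finset.sum_le_card_nsmul _ _ _ hterm
  rw [nsmul_eq_mul] at hsumle
  have hZ : partitionFn (G.φc (lvl j + c')) L N β ≤
      Real.exp ((M : ℝ) ^ 3 * (1 + Real.log (1 + (N : ℝ) / (M : ℝ) ^ 3))) *
        Real.exp ((M : ℝ) ^ 3 * C - μ * N) := by
    refine hdec.trans (hsumle.trans ?_)
    exact mul_le_mul_of_nonneg_right hcb (Real.exp_pos _).le
  rw [← Real.exp_add] at hZ
  have := (Real.log_le_iff_le_exp hZpos).2 hZ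
  linarith

private lemma limit_step (G : GasSetup) {φ : ℝ → ℝ} {v : ℝ → ℝ} {B V₁ : ℝ}
    (adm : Admissible φ v B V₁) {β μ ρ R ℓ C : ℝ} (hβ : 0 ≤ β) (hρ : 0 ≤ ρ) (hρR : ρ ≤ R)
    (hℓ : 0 < ℓ)
    (hfv : ∀ L : ℝ, 0 < L → ∀ N : ℕ, Real.log (partitionFn φ L N β) + μ * N ≤
      (((⌈L / ℓ⌉₊ + 2 : ℕ) : ℝ)) ^ 3 * (1 + Real.log (1 + (N : ℝ) / (((⌈L / ℓ⌉₊ + 2 : ℕ) : ℝ)) ^ 3))
        + (((⌈L / ℓ⌉₊ + 2 : ℕ) : ℝ)) ^ 3 * C) :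
    Psi φ β ρ + μ * ρ ≤ (1 / ℓ) ^ 3 * (1 + Real.log (1 + R * ℓ ^ 3) + C) := by
  have hR : 0 ≤ R := hρ.trans hρR
  have hcube : Tendsto (fun L : ℝ => L ^ 3) atTop atTop :=
    tendsto_pow_atTop (by norm_num)
  have h1 := adm.tendsto hβ hρ
  have h2 : Tendsto (fun L : ℝ => (⌊ρ * L ^ 3⌋₊ : ℝ) / L ^ 3) atTop (𝓝 ρ) :=
    (tendsto_nat_floor_mul_div_atTop hρ).comp hcube
  have h3 : Tendsto (fun L : ℝ => ((⌈L / ℓ⌉₊ + 2 : ℕ) : ℝ) / L) atTop (𝓝 (1 / ℓ)) := by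
    have a1 : Tendsto (fun L : ℝ => (⌈(1 / ℓ) * L⌉₊ : ℝ) / L) atTop (𝓝 (1 / ℓ)) :=
      tendsto_nat_ceil_mul_div_atTop (by positivity)
    have a2 : Tendsto (fun L : ℝ => (2 : ℝ) / L) atTop (𝓝 0) :=
      tendsto_const_nhds.div_atTop tendsto_id
    have a3 := a1.add a2
    rw [add_zero] at a3
    refine a3.congr (fun L => ?_)
    have : L / ℓ = (1 / ℓ) * L := by ring
    rw [this]
    push_cast
    ring
  have hlim : Tendsto (fun L : ℝ => Real.log (partitionFn φ L ⌊ρ * L ^ 3⌋₊ β) / L ^ 3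
      + μ * ((⌊ρ * L ^ 3⌋₊ : ℝ) / L ^ 3)) atTop (𝓝 (Psi φ β ρ + μ * ρ)) :=
    h1.add (h2.const_mul μ)
  have hrhs : Tendsto (fun L : ℝ => (((⌈L / ℓ⌉₊ + 2 : ℕ) : ℝ) / L) ^ 3 *
      (1 + Real.log (1 + R * ℓ ^ 3) + C)) atTop
      (𝓝 ((1 / ℓ) ^ 3 * (1 + Real.log (1 + R * ℓ ^ 3) + C))) :=
    (h3.pow 3).mul_const _
  refine le_of_tendsto_of_tendsto hlim hrhs ?_
  filter_upwards [eventually_gt_atTop (0 : ℝ)] with L hL
  set N : ℕ := ⌊ρ * L ^ 3⌋₊ with hN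
  set M : ℝ := ((⌈L / ℓ⌉₊ + 2 : ℕ) : ℝ) with hM
  have hL3 : 0 < L ^ 3 := by positivity
  have hMge : L / ℓ ≤ M := by
    rw [hM]; push_cast
    have := Nat.le_ceil (L / ℓ)
    linarith
  have hMpos : 0 < M := lt_of_lt_of_le (by positivity) hMge
  have hM3 : L ^ 3 / ℓ ^ 3 ≤ M ^ 3 := by
    have : (L / ℓ) ^ 3 ≤ M ^ 3 := pow_le_pow_left₀ (by positivity) hMge 3
    rwa [div_pow] at this
  have hNle : (N : ℝ) ≤ R * L ^ 3 := by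
    have : (N : ℝ) ≤ ρ * L ^ 3 := Nat.floor_le (by positivity)
    have h4 : ρ * L ^ 3 ≤ R * L ^ 3 := mul_le_mul_of_nonneg_right hρR hL3.le
    linarith
  have hratio : (N : ℝ) / M ^ 3 ≤ R * ℓ ^ 3 := by
    rw [div_le_iff₀ (by positivity)]
    have h5 : R * L ^ 3 = R * ℓ ^ 3 * (L ^ 3 / ℓ ^ 3) := by field_simp
    have h6 : 0 ≤ R * ℓ ^ 3 := by positivity
    have := mul_le_mul_of_nonneg_left hM3 h6
    linarith
  have hlog : Real.log (1 + (N : ℝ) / M ^ 3) ≤ Real.log (1 + R * ℓ ^ 3) := by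
    apply Real.log_le_log (by positivity)
    linarith
  have hb := hfv L hL N
  rw [← hM] at hb
  have hb2 : Real.log (partitionFn φ L N β) + μ * N ≤
      M ^ 3 * (1 + Real.log (1 + R * ℓ ^ 3) + C) := by
    have : M ^ 3 * (1 + Real.log (1 + (N : ℝ) / M ^ 3)) ≤ M ^ 3 * (1 + Real.log (1 + R * ℓ ^ 3)) :=
      mul_le_mul_of_nonneg_left (by linarith) (by positivity)
    nlinarith
  have e : Real.log (partitionFn φ L N β) / L ^ 3 + μ * ((N : ℝ) / L ^ 3) =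
      (Real.log (partitionFn φ L N β) + μ * N) / L ^ 3 := by
    field_simp
  rw [e, div_pow, div_le_iff₀ hL3]
  have : M ^ 3 / L ^ 3 * (1 + Real.log (1 + R * ℓ ^ 3) + C) * L ^ 3 =
      M ^ 3 * (1 + Real.log (1 + R * ℓ ^ 3) + C) := by
    field_simp
  rw [this]
  exact hb2

/-- The constant. -/
private noncomputable def CsOf (U V₁ A ℓ₀ M₀ : ℝ) : ℝ :=
  |4 + Real.log (1 + rhoMax ℓ₀)| + 7 * |1 + U * rhoMax ℓ₀ + A * rhoMax ℓ₀ ^ 2 + M₀ * rhoMax ℓ₀|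
    + 30 * |rhoMax ℓ₀ * (U + V₁ * rhoMax ℓ₀)| + 68 * |A * rhoMax ℓ₀ ^ 2|

private lemma kappa_facts {ℓ Rp : ℝ} (hℓ0 : 0 < ℓ) (hRp : 0 < Rp) (h15 : 15 * ℓ ≤ Rp) :
    1 ≤ (1 + Real.sqrt 3 * ℓ / Rp) ^ 6 ∧ (1 + Real.sqrt 3 * ℓ / Rp) ^ 6 ≤ 2 ∧
      (1 + Real.sqrt 3 * ℓ / Rp) ^ 6 - 1 ≤ 20 * (ℓ / Rp) := by
  have hs3 : Real.sqrt 3 ≤ 1.74 := by
    rw [Real.sqrt_le_left (by norm_num)]; norm_num
  have hs30 : 0 ≤ Real.sqrt 3 := Real.sqrt_nonneg 3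
  have hℓRp : ℓ / Rp ≤ 1 / 15 := by
    rw [div_le_iff₀ hRp]; linarith
  have hℓRp0 : 0 ≤ ℓ / Rp := by positivity
  have hy0 : 0 ≤ Real.sqrt 3 * ℓ / Rp := by positivity
  have hye : Real.sqrt 3 * ℓ / Rp = Real.sqrt 3 * (ℓ / Rp) := by ring
  have hy2 : Real.sqrt 3 * (ℓ / Rp) ≤ 1.74 * (ℓ / Rp) :=
    mul_le_mul_of_nonneg_right hs3 hℓRp0
  have hy1 : Real.sqrt 3 * ℓ / Rp ≤ 0.12 := by
    rw [hye]; linarith
  have hκ8 := kappa_bounds hy0 hy1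
  refine ⟨one_le_pow₀ (by linarith), by linarith, ?_⟩
  rw [hye] at hκ8
  rw [hye]
  linarith

private lemma shift_facts {Rm ℓ : ℝ} (hRm : 1 ≤ Rm) (h24 : 24 * Rm ≤ ℓ) :
    0 < ⌈ℓ / Rm⌉₊ ∧ 6 * Rm / ℓ + 3 / ((⌈ℓ / Rm⌉₊ : ℕ) : ℝ) ≤ 1 / 2 ∧
      0 ≤ 1 / (1 - (6 * Rm / ℓ + 3 / ((⌈ℓ / Rm⌉₊ : ℕ) : ℝ))) - 1 ∧
      1 / (1 - (6 * Rm / ℓ + 3 / ((⌈ℓ / Rm⌉₊ : ℕ) : ℝ))) - 1 ≤ 1 ∧
      1 / (1 - (6 * Rm / ℓ + 3 / ((⌈ℓ / Rm⌉₊ : ℕ) : ℝ))) - 1 ≤ 15 * (Rm / ℓ) := by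
  have hRm0 : 0 < Rm := by linarith
  have hℓ0 : 0 < ℓ := by linarith
  have hq : 0 < ⌈ℓ / Rm⌉₊ := Nat.ceil_pos.2 (by positivity)
  have hqR : (0 : ℝ) < ((⌈ℓ / Rm⌉₊ : ℕ) : ℝ) := by exact_mod_cast hq
  have hq3 : 3 / ((⌈ℓ / Rm⌉₊ : ℕ) : ℝ) ≤ 3 * Rm / ℓ := by
    have h1 : ℓ / Rm ≤ ((⌈ℓ / Rm⌉₊ : ℕ) : ℝ) := Nat.le_ceil _
    rw [div_le_div_iff₀ hqR hℓ0]
    rw [div_le_iff₀ hRm0] at h1
    linarith
  generalize hεdef : 6 * Rm / ℓ + 3 / ((⌈ℓ / Rm⌉₊ : ℕ) : ℝ) = ε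
  have hε0 : 0 ≤ ε := by rw [← hεdef]; positivity
  have hε9 : ε ≤ 9 * (Rm / ℓ) := by
    have e1 : 6 * Rm / ℓ = 6 * (Rm / ℓ) := by ring
    have e2 : 3 * Rm / ℓ = 3 * (Rm / ℓ) := by ring
    rw [← hεdef, e1]; rw [e2] at hq3; linarith
  have hRmℓ : Rm / ℓ ≤ 1 / 24 := by
    rw [div_le_iff₀ hℓ0]; linarith
  have hε38 : ε ≤ 3 / 8 := by linarith
  have h1ε : 0 < 1 - ε := by linarith
  have ht_eq : 1 / (1 - ε) - 1 = ε / (1 - ε) := by field_simp; ring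
  have ht0 : 0 ≤ ε / (1 - ε) := by positivity
  have ht85 : ε / (1 - ε) ≤ ε * (8 / 5) := by
    rw [div_le_iff₀ h1ε]; nlinarith
  refine ⟨hq, by linarith, ?_, ?_, ?_⟩
  · rw [ht_eq]; exact ht0
  · rw [ht_eq]; linarith
  · rw [ht_eq]; linarith

private lemma F_upper {Ψ β μ A' Ak U R M₀ ρs : ℝ} (hβ0 : 0 ≤ β) (hβ2 : β ≤ 2) (hA'0 : 0 ≤ A')
    (hA'le : A' ≤ Ak) (hμ : μ ≤ M₀) (hM₀ : 0 ≤ M₀) (h0 : 0 ≤ ρs) (h1 : ρs ≤ R)
    (hΨ : Ψ ≤ 1 + U * R) :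
    Ψ + (β / 2) * A' * ρs ^ 2 + μ * ρs ≤ 1 + U * R + Ak * R ^ 2 + M₀ * R := by
  have h2 : (β / 2) * A' * ρs ^ 2 ≤ Ak * R ^ 2 := by
    have h3 : ρs ^ 2 ≤ R ^ 2 := pow_le_pow_left₀ h0 h1 2
    have h4 : (β / 2) * A' ≤ Ak := by nlinarith
    have h5 : 0 ≤ ρs ^ 2 := by positivity
    have hAk : 0 ≤ Ak := hA'0.trans hA'le
    calc (β / 2) * A' * ρs ^ 2 ≤ Ak * ρs ^ 2 := mul_le_mul_of_nonneg_right h4 h5
      _ ≤ Ak * R ^ 2 := mul_le_mul_of_nonneg_left h3 hAk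
  have h3 : μ * ρs ≤ M₀ * R := by
    have h4 : μ * ρs ≤ M₀ * ρs := mul_le_mul_of_nonneg_right hμ h0
    have h5 : M₀ * ρs ≤ M₀ * R := mul_le_mul_of_nonneg_left h1 hM₀
    linarith
  linarith

private lemma final_ineq {C1 C6 C5 C7 a b c : ℝ} (hC10 : 0 ≤ C1) (hC60 : 0 ≤ C6) (hC50 : 0 ≤ C5)
    (hC70 : 0 ≤ C7) (ha0 : 0 ≤ a) (hb0 : 0 ≤ b) (hc0 : 0 ≤ c) :
    C1 * c + 7 * c * C6 + 2 * (15 * a * C5 + C7 * (14 * c + 20 * b)) ≤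
      (C1 + 7 * C6 + 30 * C5 + 68 * C7) * (a + b + c) := by
  nlinarith [mul_nonneg hC10 ha0, mul_nonneg hC10 hb0, mul_nonneg hC60 ha0, mul_nonneg hC60 hb0,
      mul_nonneg hC50 hb0, mul_nonneg hC50 hc0, mul_nonneg hC70 ha0, mul_nonneg hC70 hb0,
      mul_nonneg hC70 hc0]

private lemma final_arith {ℓ Rm Rp R F t κ C5 C7 C6 L P : ℝ}
    (hℓ1 : 24 ≤ ℓ) (hRm0 : 0 < Rm) (hRp : 0 < Rp) (hR : 0 ≤ R) (hF0 : 0 ≤ F) (hF6 : F ≤ C6)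
    (ht0 : 0 ≤ t) (ht15 : t ≤ 15 * (Rm / ℓ)) (hκ1 : 1 ≤ κ) (hκ2 : κ ≤ 2)
    (hκ20 : κ - 1 ≤ 20 * (ℓ / Rp)) (hC50 : 0 ≤ C5) (hC70 : 0 ≤ C7)
    (hL : L = 1 + Real.log (1 + R * ℓ ^ 3))
    (hP : P ≤ (1 / ℓ) ^ 3 * (L + (ℓ + 1) ^ 3 * (F + t * C5 + C7 * (κ * ((ℓ + 1) / ℓ) ^ 3 - 1)))) :
    P ≤ F + ((4 + Real.log (1 + R)) + 7 * C6 + 30 * C5 + 68 * C7) *
      (Rm / ℓ + ℓ / Rp + 1 / ℓ) := by
  have hℓ0 : 0 < ℓ := by linarith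
  have hℓ11 : 1 ≤ ℓ := by linarith
  have hw7 := w_bound hℓ11
  have hw1 := w_ge hℓ0
  generalize hwdef : ((ℓ + 1) / ℓ) ^ 3 = w at *
  have h7ℓ : 7 / ℓ ≤ 1 := by rw [div_le_one hℓ0]; linarith
  have hw2 : w ≤ 2 := by linarith
  have hlogR : 0 ≤ Real.log (1 + R) := Real.log_nonneg (by linarith)
  have hC10 : 0 ≤ 4 + Real.log (1 + R) := by linarith
  have hC60 : 0 ≤ C6 := hF0.trans hF6
  have ha0 : 0 ≤ Rm / ℓ := by positivity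
  have hb0 : 0 ≤ ℓ / Rp := by positivity
  have hc0 : 0 < 1 / ℓ := by positivity
  have hcℓ : (1 / ℓ) * ℓ = 1 := by field_simp
  have hc1 : 1 / ℓ ≤ 1 := by rw [div_le_one hℓ0]; exact hℓ11
  have h7c : 7 / ℓ = 7 * (1 / ℓ) := by ring
  rw [h7c] at hw7
  have hwe : (1 / ℓ) ^ 3 * (ℓ + 1) ^ 3 = w := by
    rw [← hwdef, div_pow, div_pow]; field_simp
  generalize hadef : Rm / ℓ = a at *
  generalize hbdef : ℓ / Rp = b at *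
  generalize hcdef : 1 / ℓ = c at *
  have a1 : c ^ 3 * L ≤ (4 + Real.log (1 + R)) * c := by
    have h1 := log_bound hR hℓ11
    rw [hL]
    have h2 : c ^ 3 * (1 + Real.log (1 + R * ℓ ^ 3)) ≤ c ^ 3 * (1 + Real.log (1 + R) + 3 * ℓ) :=
      mul_le_mul_of_nonneg_left (by linarith) (by positivity)
    have h3 : c ^ 3 * (3 * ℓ) = 3 * c ^ 2 := by
      have : c ^ 3 * (3 * ℓ) = 3 * c ^ 2 * (c * ℓ) := by ring
      rw [this, hcℓ, mul_one]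
    have h4 : c ^ 2 ≤ c := by
      have : c * c ≤ 1 * c := mul_le_mul_of_nonneg_right hc1 hc0.le
      rw [sq]; linarith
    have h5 : c ^ 3 ≤ c := by
      have e : c ^ 3 = c ^ 2 * c := by ring
      have : c ^ 2 * c ≤ 1 * c := mul_le_mul_of_nonneg_right (h4.trans hc1) hc0.le
      rw [e]; linarith
    have h6 : c ^ 3 * (1 + Real.log (1 + R)) ≤ c * (1 + Real.log (1 + R)) :=
      mul_le_mul_of_nonneg_right h5 (by linarith)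
    have h7 : c ^ 3 * (1 + Real.log (1 + R) + 3 * ℓ) =
        c ^ 3 * (1 + Real.log (1 + R)) + c ^ 3 * (3 * ℓ) := by ring
    rw [h7, h3] at h2
    have h8 : (4 + Real.log (1 + R)) * c = c * (1 + Real.log (1 + R)) + 3 * c := by ring
    rw [h8]
    linarith
  have hκw : κ * w - 1 ≤ 14 * c + 20 * b := by
    have h1 : κ * w - 1 = κ * (w - 1) + (κ - 1) := by ring
    have h2 : κ * (w - 1) ≤ 2 * (7 * c) := by
      have h3 : w - 1 ≤ 7 * c := by linarith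
      have h4 : 0 ≤ w - 1 := by linarith
      calc κ * (w - 1) ≤ 2 * (w - 1) := mul_le_mul_of_nonneg_right hκ2 h4
        _ ≤ 2 * (7 * c) := by linarith
    linarith
  have hκw0 : 0 ≤ κ * w - 1 := by
    have := one_le_mul_of_one_le_of_one_le hκ1 hw1
    linarith
  generalize hEdef : t * C5 + C7 * (κ * w - 1) = E at *
  have hE0 : 0 ≤ E := by
    rw [← hEdef]; positivity
  have hE2 : E ≤ 15 * a * C5 + C7 * (14 * c + 20 * b) := by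
    have h1 : t * C5 ≤ 15 * a * C5 := mul_le_mul_of_nonneg_right ht15 hC50
    have h2 : C7 * (κ * w - 1) ≤ C7 * (14 * c + 20 * b) := mul_le_mul_of_nonneg_left hκw hC70
    rw [← hEdef]; linarith
  have hrhs : c ^ 3 * (L + (ℓ + 1) ^ 3 * (F + t * C5 + C7 * (κ * w - 1)))
      = c ^ 3 * L + w * (F + E) := by
    have h1 : c ^ 3 * (L + (ℓ + 1) ^ 3 * (F + t * C5 + C7 * (κ * w - 1)))
      = c ^ 3 * L + (c ^ 3 * (ℓ + 1) ^ 3) * (F + (t * C5 + C7 * (κ * w - 1))) := by ring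
    rw [h1, hwe, hEdef]
  rw [hrhs] at hP
  have hwF : w * F ≤ F + 7 * c * C6 := by
    have h1 : w * F ≤ (1 + 7 * c) * F := mul_le_mul_of_nonneg_right hw7 hF0
    have h2 : 7 * c * F ≤ 7 * c * C6 := mul_le_mul_of_nonneg_left hF6 (by positivity)
    have h3 : (1 + 7 * c) * F = F + 7 * c * F := by ring
    linarith
  have hwE : w * E ≤ 2 * E := mul_le_mul_of_nonneg_right hw2 hE0
  have hfinal := final_ineq hC10 hC60 hC50 hC70 ha0 hb0 hc0.le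
  have hsplit : w * (F + E) = w * F + w * E := by ring
  rw [hsplit] at hP
  linarith

private lemma level_ub_core (G : GasSetup) {M₀ : ℝ} (hM₀ : 0 ≤ M₀)
    (hUM : 4 * (1 + M₀) + 64 * G.A / G.ℓ₀ ^ 3 ≤ G.U) (j : ℕ) (c' : ℕ → ℝ) (Rm Rp ℓ : ℝ)
    (hc' : ∀ l, 0 ≤ c' l ∧ c' l ≤ 1) (hcj : ∀ l, l < j → c' l = 0)
    (hRm : 1 ≤ Rm) (hRmj : ∀ l, l < j → G.R l ≤ Rm) (hRp : 0 < Rp)
    (hRpj : ∀ l, c' l ≠ 0 → Rp ≤ G.R l) (h24 : 24 * Rm ≤ ℓ) (h15 : 15 * ℓ ≤ Rp)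
    (β μ ρ : ℝ) (hβ : β ∈ Icc (1 / 2 : ℝ) 2) (hμ : |μ| ≤ M₀) (hρ : ρ ∈ Icc 0 (rhoMax G.ℓ₀)) :
    ∃ ρ', ρ' ∈ Icc 0 (rhoMax G.ℓ₀) ∧
      Psi (G.φc (lvl j + c')) β ρ + μ * ρ ≤
        Psi (G.φc (lvl j)) β ρ' + (β / 2) * (∑' l, c' l * G.a l) * ρ' ^ 2 + μ * ρ' +
          CsOf G.U G.V₁ G.A G.ℓ₀ M₀ * (Rm / ℓ + ℓ / Rp + 1 / ℓ) := by
  have hRpos := rhoMax_pos G
  have hApos := A_pos G
  have hU := G.hU
  have hβ0 : 0 ≤ β := by linarith [hβ.1]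
  have hβ2 : β ≤ 2 := hβ.2
  have hℓ24 : 24 ≤ ℓ := by linarith
  have hℓ0 : 0 < ℓ := by linarith
  have hℓ1 : 1 ≤ ℓ := by linarith
  have hRm0 : 0 < Rm := by linarith
  obtain ⟨hA'0, hA'le⟩ := A'_bounds G hc'
  have ad1 := admissible_φc (G := G) (coef_lvl j)
  have hV := ad1.V₁_nonneg
  have hcoef := coef_lvl_add (c' := c') (j := j) hc' hcj
  have adm := admissible_φc (G := G) hcoef
  -- the maximiser
  have hcont : ContinuousOn (fun ρ' => Psi (G.φc (lvl j)) β ρ' +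
      (β / 2) * (∑' l, c' l * G.a l) * ρ' ^ 2 + μ * ρ') (Icc 0 (rhoMax G.ℓ₀)) := by
    have h1 : ContinuousOn (Psi (G.φc (lvl j)) β) (Icc 0 (rhoMax G.ℓ₀)) :=
      (ad1.continuous hβ0).mono (fun x hx => hx.1)
    have h2 : ContinuousOn (fun ρ' : ℝ => (β / 2) * (∑' l, c' l * G.a l) * ρ' ^ 2 + μ * ρ')
        (Icc 0 (rhoMax G.ℓ₀)) :=
      (by fun_prop : Continuous fun ρ' : ℝ =>
        (β / 2) * (∑' l, c' l * G.a l) * ρ' ^ 2 + μ * ρ').continuousOn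
    refine (h1.add h2).congr (fun x _ => ?_)
    simp only [Pi.add_apply]; ring
  obtain ⟨ρs, hρs, hmax⟩ := isCompact_Icc.exists_isMaxOn (nonempty_Icc.2 hRpos.le) hcont
  generalize hFdef : Psi (G.φc (lvl j)) β ρs +
      (β / 2) * (∑' l, c' l * G.a l) * ρs ^ 2 + μ * ρs = F
  have hF : ∀ ρ' ∈ Icc 0 (rhoMax G.ℓ₀), Psi (G.φc (lvl j)) β ρ' +
      (β / 2) * (∑' l, c' l * G.a l) * ρ' ^ 2 + μ * ρ' ≤ F := by
    intro ρ' h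
    rw [← hFdef]
    exact hmax h
  have hF0 : 0 ≤ F := by
    have := hF 0 ⟨le_rfl, hRpos.le⟩
    rw [ad1.psi_zero hβ0] at this
    simpa using this
  have hμabs := abs_le.1 hμ
  have hFC6 : F ≤ 1 + G.U * rhoMax G.ℓ₀ + G.A * rhoMax G.ℓ₀ ^ 2 + M₀ * rhoMax G.ℓ₀ := by
    have h1 : Psi (G.φc (lvl j)) β ρs ≤ 1 + G.U * rhoMax G.ℓ₀ := by
      rcases hρs.1.eq_or_lt with h | h
      · rw [← h, ad1.psi_zero hβ0]; positivity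
      · have hub := ad1.ub hβ0 h
        have h2 := x_one_sub_log_le h
        have h3 : ρs * (β * (G.U / 2)) ≤ G.U * rhoMax G.ℓ₀ := by
          have h4 : β * (G.U / 2) ≤ G.U := by nlinarith
          have h5 : ρs * (β * (G.U / 2)) ≤ ρs * G.U := mul_le_mul_of_nonneg_left h4 h.le
          have h6 : ρs * G.U ≤ rhoMax G.ℓ₀ * G.U := mul_le_mul_of_nonneg_right hρs.2 hU.le
          linarith
        have e : ρs * (1 + β * (G.U / 2) - Real.log ρs) =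
          ρs * (1 - Real.log ρs) + ρs * (β * (G.U / 2)) := by ring
        rw [e] at hub
        linarith
    rw [← hFdef]
    exact F_upper hβ0 hβ2 hA'0 hA'le hμabs.2 hM₀ hρs.1 hρs.2 h1
  -- the number of shifts
  obtain ⟨hq, hε, ht0, ht1, ht15⟩ := shift_facts hRm h24
  obtain ⟨hκ1, hκ2, hκ20⟩ := kappa_facts hℓ0 hRp h15
  have hts : ∀ t : ℝ, t = 1 / (1 - (6 * Rm / ℓ + 3 / ((⌈ℓ / Rm⌉₊ : ℕ) : ℝ))) - 1 →
      1 + t = 1 / (1 - (6 * Rm / ℓ + 3 / ((⌈ℓ / Rm⌉₊ : ℕ) : ℝ))) := by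
    intro t ht; rw [ht]; ring
  generalize htdef : 1 / (1 - (6 * Rm / ℓ + 3 / ((⌈ℓ / Rm⌉₊ : ℕ) : ℝ))) - 1 = t at ht0 ht1 ht15
  have hts' := hts t htdef.symm
  -- the cell bound
  have hcell0 := cell_bound G hUM j hℓ1 hβ hμ ht0 ht1 hA'0 hA'le hκ1 hκ2 hF hF0
  rw [show (fun l => (1 + t) * lvl j l) =
    (fun l => (1 / (1 - (6 * Rm / ℓ + 3 / ((⌈ℓ / Rm⌉₊ : ℕ) : ℝ)))) * lvl j l) by rw [hts']] at hcell0
  have hcs : CoefOK (fun l => (1 / (1 - (6 * Rm / ℓ + 3 / ((⌈ℓ / Rm⌉₊ : ℕ) : ℝ)))) * lvl j l) := by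
    rw [← hts']; exact coef_smul_lvl (by linarith) (by linarith) j
  have hfv := fun (L : ℝ) (hL : 0 < L) (N : ℕ) =>
    fv_bound G hc' hcj hRm hRmj hRp hRpj hℓ0 hq hε hβ0 hcs (μ := μ) hcell0 hL N
  have hlim := limit_step G adm hβ0 hρ.1 hρ.2 hℓ0 hfv
  refine ⟨ρs, hρs, ?_⟩
  rw [hFdef]
  have hC50 : 0 ≤ rhoMax G.ℓ₀ * (G.U + G.V₁ * rhoMax G.ℓ₀) := by positivity
  have hC70 : 0 ≤ G.A * rhoMax G.ℓ₀ ^ 2 := by positivity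
  have hC60 : 0 ≤ 1 + G.U * rhoMax G.ℓ₀ + G.A * rhoMax G.ℓ₀ ^ 2 + M₀ * rhoMax G.ℓ₀ := hF0.trans hFC6
  have hlogR : 0 ≤ Real.log (1 + rhoMax G.ℓ₀) := Real.log_nonneg (by linarith)
  have hC10 : 0 ≤ 4 + Real.log (1 + rhoMax G.ℓ₀) := by linarith
  unfold CsOf
  rw [abs_of_nonneg hC10, abs_of_nonneg hC60, abs_of_nonneg hC50, abs_of_nonneg hC70]
  have hlim' : Psi (G.φc (lvl j + c')) β ρ + μ * ρ ≤ (1 / ℓ) ^ 3 *
      ((1 + Real.log (1 + rhoMax G.ℓ₀ * ℓ ^ 3)) + (ℓ + 1) ^ 3 *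
        (F + t * (rhoMax G.ℓ₀ * (G.U + G.V₁ * rhoMax G.ℓ₀)) + G.A * rhoMax G.ℓ₀ ^ 2 *
          ((1 + Real.sqrt 3 * ℓ / Rp) ^ 6 * ((ℓ + 1) / ℓ) ^ 3 - 1))) := by
    convert hlim using 2
  exact final_arith hℓ24 hRm0 hRp hRpos.le hF0 hFC6 ht0 ht15 hκ1 hκ2 hκ20 hC50 hC70 rfl hlim'

/-- **Level comparison, upper bound**, with a constant `Cs` depending only on
`U, V₁, A, ℓ₀, M₀`.  From `level_decouple`, `card_piAntidiag_le`, `highDensity` for `n/ℓ³ ≥ rhoMax`,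
and for the other `n`: `Admissible.fv`, `Psi_param_convex` with `s = (1-ε') 1 + ε' 2`, `Admissible.ub`
for `2 lvl j`, `Admissible.lb` for `lvl j` (difference `≤ ρ (β U/2 + β V₁ ρ/2)`), then `L → ∞`
with `M³/L³ → ℓ⁻³`. -/
theorem Psi_level_ub (U V₁ A ℓ₀ M₀ : ℝ) (hM₀ : 0 ≤ M₀) (hUM : 4 * (1 + M₀) + 64 * A / ℓ₀ ^ 3 ≤ U) :
    ∃ Cs : ℝ, 0 ≤ Cs ∧ ∀ (G : GasSetup), G.U = U → G.V₁ = V₁ → G.A = A → G.ℓ₀ = ℓ₀ →
      ∀ (j : ℕ) (c' : ℕ → ℝ) (Rm Rp ℓ : ℝ), (∀ l, 0 ≤ c' l ∧ c' l ≤ 1) → (∀ l, l < j → c' l = 0) →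
        1 ≤ Rm → (∀ l, l < j → G.R l ≤ Rm) → 0 < Rp → (∀ l, c' l ≠ 0 → Rp ≤ G.R l) →
        24 * Rm ≤ ℓ → 15 * ℓ ≤ Rp →
        ∀ β μ ρ, β ∈ Icc (1 / 2 : ℝ) 2 → |μ| ≤ M₀ → ρ ∈ Icc 0 (rhoMax ℓ₀) →
        ∃ ρ', ρ' ∈ Icc 0 (rhoMax ℓ₀) ∧
          Psi (G.φc (lvl j + c')) β ρ + μ * ρ ≤
            Psi (G.φc (lvl j)) β ρ' + (β / 2) * (∑' l, c' l * G.a l) * ρ' ^ 2 + μ * ρ' +
              Cs * (Rm / ℓ + ℓ / Rp + 1 / ℓ) := by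
  refine ⟨CsOf U V₁ A ℓ₀ M₀, by unfold CsOf; positivity, ?_⟩
  intro G hU hV hA hℓ₀ j c' Rm Rp ℓ hc' hcj hRm hRmj hRp hRpj h24 h15 β μ ρ hβ hμ hρ
  subst hU hV hA hℓ₀
  exact level_ub_core G hM₀ hUM j c' Rm Rp ℓ hc' hcj hRm hRmj hRp hRpj h24 h15 β μ ρ hβ hμ hρ

end GasSetup
end Crest.Agent.Lib.Gas
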