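import Crest.Agent.Lib.Gas.ThermoPot
import Crest.Agent.Lib.Gas.Kac

/-! # Gas E1: the potential class `φc c = v - ∑ c_l a_l J_{R_l}`. -/
namespace Crest.Agent.Lib.Gas
open MeasureTheory Set Filter Topology
open Crest.ProbabilityR.Continuum

/-- Base potential + Kac scales. `v ≥ U` on `[0, √3 ℓ₀]`. -/
structure GasSetup where
  v : ℝ → ℝ
  U : ℝ
  ℓ₀ : ℝ
  V₁ : ℝ
  A : ℝ
  a : ℕ → ℝ
  R : ℕ → ℝ
  hv : Measurable v
  hv0 : ∀ r, 0 ≤ v r
  hvfar : ∀ r, 1 ≤ r → v r = 0
  hint : Integrable (fun y : Pt => v ‖y‖)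
  hV : ∫ y : Pt, v ‖y‖ ≤ V₁
  hU : 0 < U
  hℓ₀ : 0 < ℓ₀
  hℓ₀' : ℓ₀ ≤ 1 / 4
  hcore : ∀ r, 0 ≤ r → r ≤ Real.sqrt 3 * ℓ₀ → U ≤ v r
  ha : ∀ l, 0 < a l
  hA : HasSum a A
  hR : ∀ l, 5 ≤ R l
  hUA : 8 * A ≤ U * ℓ₀ ^ 3

/-- Coefficients in `[0, 2]`. -/
def CoefOK (c : ℕ → ℝ) : Prop := ∀ l, 0 ≤ c l ∧ c l ≤ 2

/-- Level `j`: the first `j` scales. -/
noncomputable def lvl (j : ℕ) (l : ℕ) : ℝ := if l < j then 1 else 0

namespace GasSetup
variable (G : GasSetup)

/-- The attractive tail with coefficients `c`. -/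
noncomputable def Tc (c : ℕ → ℝ) (r : ℝ) : ℝ := ∑' l, c l * G.a l * J (G.R l) r

/-- The potential with coefficients `c`. -/
noncomputable def φc (c : ℕ → ℝ) (r : ℝ) : ℝ := G.v r - G.Tc c r

variable {G}
variable {c c' : ℕ → ℝ}

private lemma one_div_ballVol_le {R : ℝ} (hR : 5 ≤ R) : 1 / ballVol R ≤ 1 / ballVol 1 := by
  have h0 := ballVol_one_pos
  rw [ballVol_eq R (by linarith)]
  have h1 : (1 : ℝ) ≤ R ^ 3 := one_le_pow₀ (by linarith)
  apply one_div_le_one_div_of_le h0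
  nlinarith

private lemma term_nonneg (hc : CoefOK c) (l : ℕ) (r : ℝ) : 0 ≤ c l * G.a l * J (G.R l) r :=
  mul_nonneg (mul_nonneg (hc l).1 (G.ha l).le) (J_nonneg _ _)

private lemma term_le (hc : CoefOK c) (l : ℕ) (r : ℝ) :
    c l * G.a l * J (G.R l) r ≤ 2 / ballVol 1 * G.a l := by
  have hR : 5 ≤ G.R l := G.hR l
  have hRpos : 0 < G.R l := by linarith
  have h1 : J (G.R l) r ≤ 1 / ballVol 1 := (J_le _ _ hRpos).trans (one_div_ballVol_le hR)
  have h2 := J_nonneg (G.R l) r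
  have h3 := (hc l).2
  have h4 := (hc l).1
  have h5 := G.ha l
  have h6 : c l * J (G.R l) r ≤ 2 * (1 / ballVol 1) := by
    apply mul_le_mul h3 h1 h2 (by norm_num)
  calc c l * G.a l * J (G.R l) r = (c l * J (G.R l) r) * G.a l := by ring
    _ ≤ (2 * (1 / ballVol 1)) * G.a l := mul_le_mul_of_nonneg_right h6 h5.le
    _ = 2 / ballVol 1 * G.a l := by ring

private lemma summable_bound : Summable fun l => 2 / ballVol 1 * G.a l :=
  G.hA.summable.mul_left _

theorem summable_Tc (hc : CoefOK c) (r : ℝ) : Summable fun l => c l * G.a l * J (G.R l) r :=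
  Summable.of_nonneg_of_le (fun l => term_nonneg hc l r) (fun l => term_le hc l r) summable_bound

theorem Tc_nonneg (hc : CoefOK c) (r : ℝ) : 0 ≤ G.Tc c r :=
  tsum_nonneg fun l => term_nonneg hc l r

theorem Tc_continuous (hc : CoefOK c) : Continuous (G.Tc c) := by
  refine continuous_tsum (fun l => ?_) (summable_bound (G := G)) (fun l r => ?_)
  · have hRpos : 0 < G.R l := by linarith [G.hR l]
    exact continuous_const.mul (J_continuous _ hRpos)
  · rw [Real.norm_of_nonneg (term_nonneg hc l r)]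
    exact term_le hc l r

theorem Tc_measurable (hc : CoefOK c) : Measurable (G.Tc c) :=
  (Tc_continuous hc).measurable

theorem φc_measurable (hc : CoefOK c) : Measurable (G.φc c) :=
  G.hv.sub (Tc_measurable hc)

/-- Pair sum of the tail in terms of pair sums of `J`. -/
theorem sum_Tc (hc : CoefOK c) {N : ℕ} (x : Fin N → Pt) :
    ∑ i, ∑ k, G.Tc c (dist (x i) (x k)) =
      ∑' l, c l * G.a l * ∑ i, ∑ k, J (G.R l) (dist (x i) (x k)) := by
  have h1 : ∀ l, c l * G.a l * ∑ i, ∑ k, J (G.R l) (dist (x i) (x k)) =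
      ∑ i, ∑ k, c l * G.a l * J (G.R l) (dist (x i) (x k)) := by
    intro l
    rw [Finset.mul_sum]
    refine Finset.sum_congr rfl fun i _ => ?_
    rw [Finset.mul_sum]
  simp_rw [h1]
  rw [Summable.tsum_finsetSum]
  · refine Finset.sum_congr rfl fun i _ => ?_
    rw [Summable.tsum_finsetSum]
    · rfl
    · exact fun k _ => summable_Tc hc _
  · intro i _
    exact summable_sum fun k _ => summable_Tc hc _

theorem energy_φc_add (hc : CoefOK c) (hc' : CoefOK c') (hcc' : CoefOK (c + c')) {N : ℕ}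
    (x : Fin N → Pt) :
    energy (G.φc (c + c')) x = energy (G.φc c) x - energy (G.Tc c') x := by
  unfold energy
  rw [← Finset.sum_sub_distrib]
  refine Finset.sum_congr rfl fun p _ => ?_
  set r := dist (x p.1.1) (x p.1.2)
  have h : G.Tc (c + c') r = G.Tc c r + G.Tc c' r := by
    unfold Tc
    rw [← (summable_Tc hc r).tsum_add (summable_Tc hc' r)]
    refine tsum_congr fun l => ?_
    simp only [Pi.add_apply]
    ring
  unfold φc
  rw [h]
  ring

end GasSetup
end Crest.Agent.Lib.Gas
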