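import Crest.Agent.Lib.Gas.Setup1

/-! # Gas E2: superstability, stability. -/
namespace Crest.Agent.Lib.Gas
open MeasureTheory Set Filter Topology
open Crest.ProbabilityR.Continuum

namespace GasSetup
variable {G : GasSetup} {c c' : ℕ → ℝ}

/-- Counting pairs in the same cell. -/
theorem sum_sum_ite_cell {N : ℕ} {β : Type*} [DecidableEq β] (cell : Fin N → β) :
    ∑ i, ∑ k, (if cell i = cell k then (1 : ℝ) else 0) =
      ∑ m ∈ Finset.univ.image cell, (((Finset.univ.filter fun i => cell i = m).card : ℕ) : ℝ) ^ 2 := by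
  have h1 : ∀ i, ∑ k, (if cell i = cell k then (1 : ℝ) else 0) =
      ((Finset.univ.filter fun k => cell k = cell i).card : ℝ) := by
    intro i
    rw [Finset.sum_boole]
    congr 2
    ext k
    simp [eq_comm]
  simp_rw [h1]
  rw [← Finset.sum_fiberwise_of_maps_to (t := Finset.univ.image cell) (g := cell)
    (fun i _ => Finset.mem_image_of_mem _ (Finset.mem_univ i))]
  refine Finset.sum_congr rfl fun m _ => ?_
  have h2 : ∀ i ∈ Finset.univ.filter (fun i => cell i = m),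
      ((Finset.univ.filter fun k => cell k = cell i).card : ℝ) =
        ((Finset.univ.filter fun k => cell k = m).card : ℝ) := by
    intro i hi
    rw [(Finset.mem_filter.1 hi).2]
  rw [Finset.sum_congr rfl h2, Finset.sum_const, nsmul_eq_mul]
  ring

theorem sum_sum_ite_eq {N : ℕ} : ∑ i : Fin N, ∑ k : Fin N, (if i = k then (1 : ℝ) else 0) = N := by
  simp

/-- Points of a grid cell are close. -/
theorem dist_le_of_gridCell_eq {ℓ τ : ℝ} (hℓ : 0 < ℓ) {x y : Pt}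
    (h : gridCell ℓ τ x = gridCell ℓ τ y) : dist x y ≤ Real.sqrt 3 * ℓ := by
  have hk : ∀ k : Fin 3, dist (x k) (y k) ≤ ℓ := by
    intro k
    have h1 : ⌊(x k - τ) / ℓ⌋ = ⌊(y k - τ) / ℓ⌋ := congrFun h k
    have h2 := Int.abs_sub_lt_one_of_floor_eq_floor h1
    have h3 : (x k - τ) / ℓ - (y k - τ) / ℓ = (x k - y k) / ℓ := by
      ring
    rw [h3, abs_div, abs_of_pos hℓ, div_lt_one hℓ] at h2
    rw [Real.dist_eq]
    exact h2.le
  rw [EuclideanSpace.dist_eq]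
  have h4 : ∑ i, dist (x i) (y i) ^ 2 ≤ 3 * ℓ ^ 2 := by
    have : ∀ k : Fin 3, dist (x k) (y k) ^ 2 ≤ ℓ ^ 2 := fun k => by
      have := hk k
      have h0 := dist_nonneg (x := x k) (y := y k)
      gcongr
    calc ∑ i, dist (x i) (y i) ^ 2 ≤ ∑ _i : Fin 3, ℓ ^ 2 := Finset.sum_le_sum fun k _ => this k
      _ = 3 * ℓ ^ 2 := by simp
  calc Real.sqrt (∑ i, dist (x i) (y i) ^ 2) ≤ Real.sqrt (3 * ℓ ^ 2) := Real.sqrt_le_sqrt h4
    _ = Real.sqrt 3 * ℓ := by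
      rw [Real.sqrt_mul (by norm_num), Real.sqrt_sq hℓ.le]

/-- The energy of the core part. -/
private lemma energy_v_lower {N : ℕ} (x : Fin N → Pt) :
    (G.U / 2) * (∑ m ∈ Finset.univ.image (fun i => gridCell G.ℓ₀ 0 (x i)),
        (((Finset.univ.filter fun i => gridCell G.ℓ₀ 0 (x i) = m).card : ℕ) : ℝ) ^ 2 - N)
      ≤ energy G.v x := by
  rw [← sum_sum_ite_cell (fun i => gridCell G.ℓ₀ 0 (x i)), energy_eq_pairE, pairE]
  have hU := G.hU
  have hpt : ∀ i k : Fin N,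
      G.U * (if gridCell G.ℓ₀ 0 (x i) = gridCell G.ℓ₀ 0 (x k) then (1 : ℝ) else 0)
        - G.U * (if i = k then (1 : ℝ) else 0) ≤
      (if i = k then 0 else G.v (dist (x i) (x k))) := by
    intro i k
    by_cases hik : i = k
    · subst hik
      simp
    · simp only [hik, if_false, mul_zero, sub_zero]
      by_cases hc : gridCell G.ℓ₀ 0 (x i) = gridCell G.ℓ₀ 0 (x k)
      · simp only [hc, if_true, mul_one]
        exact G.hcore _ dist_nonneg (dist_le_of_gridCell_eq G.hℓ₀ hc)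
      · simp only [hc, if_false, mul_zero]
        exact G.hv0 _
  have h1 : ∑ i, ∑ k, (G.U * (if gridCell G.ℓ₀ 0 (x i) = gridCell G.ℓ₀ 0 (x k) then (1 : ℝ) else 0)
        - G.U * (if i = k then (1 : ℝ) else 0)) ≤
      ∑ i, ∑ k, (if i = k then 0 else G.v (dist (x i) (x k))) :=
    Finset.sum_le_sum fun i _ => Finset.sum_le_sum fun k _ => hpt i k
  have h2 : ∑ i, ∑ k, (G.U * (if gridCell G.ℓ₀ 0 (x i) = gridCell G.ℓ₀ 0 (x k) then (1 : ℝ) else 0)
        - G.U * (if i = k then (1 : ℝ) else 0)) =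
      G.U * (∑ i, ∑ k, (if gridCell G.ℓ₀ 0 (x i) = gridCell G.ℓ₀ 0 (x k) then (1 : ℝ) else 0)) -
        G.U * N := by
    rw [← sum_sum_ite_eq (N := N), Finset.mul_sum, Finset.mul_sum, ← Finset.sum_sub_distrib]
    refine Finset.sum_congr rfl fun i _ => ?_
    rw [Finset.mul_sum, Finset.mul_sum, ← Finset.sum_sub_distrib]
  rw [h2] at h1
  linarith

private lemma A_nonneg' : 0 ≤ G.A := G.hA.nonneg fun l => (G.ha l).le

private lemma kappa_le (l : ℕ) : (1 + Real.sqrt 3 * G.ℓ₀ / G.R l) ^ 6 ≤ 2 := by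
  have hR := G.hR l
  have hℓ := G.hℓ₀
  have hℓ' := G.hℓ₀'
  have hs : Real.sqrt 3 ≤ 7 / 4 := by
    rw [Real.sqrt_le_left (by norm_num)]
    norm_num
  have hs0 := Real.sqrt_nonneg 3
  have h1 : Real.sqrt 3 * G.ℓ₀ / G.R l ≤ 7 / 80 := by
    rw [div_le_iff₀ (by linarith)]
    have : Real.sqrt 3 * G.ℓ₀ ≤ 7 / 4 * (1 / 4) := by gcongr
    nlinarith
  have h0 : 0 ≤ Real.sqrt 3 * G.ℓ₀ / G.R l := by
    apply div_nonneg (by positivity) (by linarith)
  calc (1 + Real.sqrt 3 * G.ℓ₀ / G.R l) ^ 6 ≤ (1 + 7 / 80) ^ 6 := by gcongr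
    _ ≤ 2 := by norm_num

/-- The energy of the tail. -/
private lemma energy_T_upper (hc : CoefOK c) {N : ℕ} (x : Fin N → Pt) :
    energy (G.Tc c) x ≤ (2 * G.A / G.ℓ₀ ^ 3) *
      ∑ m ∈ Finset.univ.image (fun i => gridCell G.ℓ₀ 0 (x i)),
        (((Finset.univ.filter fun i => gridCell G.ℓ₀ 0 (x i) = m).card : ℕ) : ℝ) ^ 2 := by
  set S := ∑ m ∈ Finset.univ.image (fun i => gridCell G.ℓ₀ 0 (x i)),
        (((Finset.univ.filter fun i => gridCell G.ℓ₀ 0 (x i) = m).card : ℕ) : ℝ) ^ 2 with hS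
  have hS0 : 0 ≤ S := Finset.sum_nonneg fun m _ => by positivity
  have hℓ := G.hℓ₀
  have hℓ3 : 0 < G.ℓ₀ ^ 3 := by positivity
  rw [energy_eq_pairE, pairE]
  have h1 : ∑ i, ∑ k, (if i = k then 0 else G.Tc c (dist (x i) (x k))) ≤
      ∑ i, ∑ k, G.Tc c (dist (x i) (x k)) := by
    refine Finset.sum_le_sum fun i _ => Finset.sum_le_sum fun k _ => ?_
    split_ifs
    · exact Tc_nonneg hc _
    · exact le_rfl
  rw [sum_Tc hc x] at h1
  have hbd : ∀ l, c l * G.a l * ∑ i, ∑ k, J (G.R l) (dist (x i) (x k)) ≤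
      (4 / G.ℓ₀ ^ 3 * S) * G.a l := by
    intro l
    have hRpos : 0 < G.R l := by linarith [G.hR l]
    have h2 := sum_J_upper (G.R l) G.ℓ₀ 0 hRpos G.hℓ₀ x
    rw [← hS] at h2
    have h3 : (1 + Real.sqrt 3 * G.ℓ₀ / G.R l) ^ 6 / G.ℓ₀ ^ 3 * S ≤ 2 / G.ℓ₀ ^ 3 * S :=
      mul_le_mul_of_nonneg_right (div_le_div_of_nonneg_right (kappa_le l) hℓ3.le) hS0
    have h4 : ∑ i, ∑ k, J (G.R l) (dist (x i) (x k)) ≤ 2 / G.ℓ₀ ^ 3 * S := h2.trans h3
    have h5 : 0 ≤ ∑ i, ∑ k, J (G.R l) (dist (x i) (x k)) :=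
      Finset.sum_nonneg fun i _ => Finset.sum_nonneg fun k _ => J_nonneg _ _
    have h6 := (hc l).1
    have h7 := (hc l).2
    have h8 := G.ha l
    have h9 : c l * ∑ i, ∑ k, J (G.R l) (dist (x i) (x k)) ≤ 2 * (2 / G.ℓ₀ ^ 3 * S) :=
      mul_le_mul h7 h4 h5 (by norm_num)
    calc c l * G.a l * ∑ i, ∑ k, J (G.R l) (dist (x i) (x k))
        = (c l * ∑ i, ∑ k, J (G.R l) (dist (x i) (x k))) * G.a l := by ring
      _ ≤ (2 * (2 / G.ℓ₀ ^ 3 * S)) * G.a l := mul_le_mul_of_nonneg_right h9 h8.le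
      _ = (4 / G.ℓ₀ ^ 3 * S) * G.a l := by ring
  have hnn : ∀ l, 0 ≤ c l * G.a l * ∑ i, ∑ k, J (G.R l) (dist (x i) (x k)) := fun l =>
    mul_nonneg (mul_nonneg (hc l).1 (G.ha l).le)
      (Finset.sum_nonneg fun i _ => Finset.sum_nonneg fun k _ => J_nonneg _ _)
  have hsum : HasSum (fun l => (4 / G.ℓ₀ ^ 3 * S) * G.a l) ((4 / G.ℓ₀ ^ 3 * S) * G.A) :=
    G.hA.mul_left _
  have h10 : ∑' l, c l * G.a l * ∑ i, ∑ k, J (G.R l) (dist (x i) (x k)) ≤
      (4 / G.ℓ₀ ^ 3 * S) * G.A := by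
    rw [← hsum.tsum_eq]
    exact Summable.tsum_le_tsum hbd (Summable.of_nonneg_of_le hnn hbd hsum.summable) hsum.summable
  have h11 : (4 / G.ℓ₀ ^ 3 * S) * G.A = 2 * ((2 * G.A / G.ℓ₀ ^ 3) * S) := by
    ring
  linarith

/-- **Superstability**: with `n_m` the occupations of the grid of side `ℓ₀`,
`E ≥ (U/4) ∑ n_m² - (U/2) N`.  (Same cell ⇒ distance `≤ √3 ℓ₀` ⇒ cost `≥ U`; `sum_J_upper` with
`(1 + √3 ℓ₀/R)^6 ≤ 2`, `U ≥ 8 A ℓ₀⁻³`.) -/
theorem superstable (hc : CoefOK c) {N : ℕ} (x : Fin N → Pt) :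
    (G.U / 4) * ∑ m ∈ Finset.univ.image (fun i => gridCell G.ℓ₀ 0 (x i)),
        (((Finset.univ.filter fun i => gridCell G.ℓ₀ 0 (x i) = m).card : ℕ) : ℝ) ^ 2
      - (G.U / 2) * N ≤ energy (G.φc c) x := by
  have h1 := energy_v_lower (G := G) x
  have h2 := energy_T_upper (G := G) hc x
  set S := ∑ m ∈ Finset.univ.image (fun i => gridCell G.ℓ₀ 0 (x i)),
        (((Finset.univ.filter fun i => gridCell G.ℓ₀ 0 (x i) = m).card : ℕ) : ℝ) ^ 2 with hS
  have hS0 : 0 ≤ S := Finset.sum_nonneg fun m _ => by positivity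
  have hℓ := G.hℓ₀
  have hℓ3 : 0 < G.ℓ₀ ^ 3 := by positivity
  have h3 : 2 * G.A / G.ℓ₀ ^ 3 ≤ G.U / 4 := by
    rw [div_le_iff₀ hℓ3]
    have := G.hUA
    linarith
  have h4 : (2 * G.A / G.ℓ₀ ^ 3) * S ≤ (G.U / 4) * S := mul_le_mul_of_nonneg_right h3 hS0
  have e : energy (G.φc c) x = energy G.v x - energy (G.Tc c) x := by
    unfold energy φc
    rw [Finset.sum_sub_distrib]
  rw [e]
  linarith

theorem stable_φc (hc : CoefOK c) : Stable (G.φc c) (G.U / 2) := by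
  intro N x
  have h1 := superstable (G := G) hc x
  have hS0 : 0 ≤ ∑ m ∈ Finset.univ.image (fun i => gridCell G.ℓ₀ 0 (x i)),
        (((Finset.univ.filter fun i => gridCell G.ℓ₀ 0 (x i) = m).card : ℕ) : ℝ) ^ 2 :=
    Finset.sum_nonneg fun m _ => by positivity
  have h2 := mul_nonneg (div_nonneg G.hU.le (by norm_num : (0 : ℝ) ≤ 4)) hS0
  linarith

theorem admissible_φc (hc : CoefOK c) : Admissible (G.φc c) G.v (G.U / 2) G.V₁ where
  hφ := φc_measurable hc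
  hB := by
    have := G.hU
    positivity
  hst := stable_φc hc
  hfar := by
    intro r hr
    unfold φc
    rw [G.hvfar r hr]
    have := Tc_nonneg (G := G) hc r
    linarith
  hv := G.hv
  hφv := by
    intro r
    unfold φc
    have := Tc_nonneg (G := G) hc r
    linarith
  hv0 := G.hv0
  hint := G.hint
  hV := G.hV

end GasSetup
end Crest.Agent.Lib.Gas
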