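import Crest.Agent.Lib.Gas.Setup2

/-! # Gas E3: finite volume superstability, high density. -/
namespace Crest.Agent.Lib.Gas
open MeasureTheory Set Filter Topology
open Crest.ProbabilityR.Continuum

namespace GasSetup
variable {G : GasSetup} {c c' : ℕ → ℝ}

private lemma card_image_le {ℓ ℓ₀ : ℝ} (hℓ₀ : 0 < ℓ₀) (hℓ : ℓ₀ ≤ ℓ) {N : ℕ} (x : Fin N → Pt)
    (hx : ∀ i, x i ∈ cube ℓ) :
    ((Finset.univ.image (fun i => gridCell ℓ₀ 0 (x i))).card : ℝ) ≤ 8 * ℓ ^ 3 / ℓ₀ ^ 3 := by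
  classical
  have hsub : Finset.univ.image (fun i => gridCell ℓ₀ 0 (x i)) ⊆
      Fintype.piFinset (fun _ : Fin 3 => Finset.Icc (0 : ℤ) ⌊ℓ / ℓ₀⌋) := by
    intro m hm
    obtain ⟨i, -, rfl⟩ := Finset.mem_image.1 hm
    rw [Fintype.mem_piFinset]
    intro k
    have h := hx i k
    simp only [gridCell, sub_zero, Finset.mem_Icc]
    constructor
    · exact Int.floor_nonneg.2 (div_nonneg h.1 hℓ₀.le)
    · exact Int.floor_le_floor (div_le_div_of_nonneg_right h.2 hℓ₀.le)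
  have hq : 1 ≤ ℓ / ℓ₀ := (one_le_div hℓ₀).2 hℓ
  have hfl : (0 : ℤ) ≤ ⌊ℓ / ℓ₀⌋ := Int.floor_nonneg.2 (by linarith)
  have hcard : ((Fintype.piFinset (fun _ : Fin 3 => Finset.Icc (0 : ℤ) ⌊ℓ / ℓ₀⌋)).card : ℝ) =
      ((⌊ℓ / ℓ₀⌋ : ℝ) + 1) ^ 3 := by
    rw [Fintype.card_piFinset]
    simp only [Int.card_Icc, Finset.prod_const, Finset.card_univ, Fintype.card_fin]
    have h1 : ((⌊ℓ / ℓ₀⌋ + 1 - 0).toNat : ℤ) = ⌊ℓ / ℓ₀⌋ + 1 := by
      rw [Int.toNat_of_nonneg (by omega)]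
      omega
    have h2 : (((⌊ℓ / ℓ₀⌋ + 1 - 0).toNat : ℕ) : ℝ) = (⌊ℓ / ℓ₀⌋ : ℝ) + 1 := by
      rw [← Int.cast_natCast, h1]
      push_cast
      ring
    push_cast
    rw [h2]
  have h3 : ((Finset.univ.image (fun i => gridCell ℓ₀ 0 (x i))).card : ℝ) ≤
      ((⌊ℓ / ℓ₀⌋ : ℝ) + 1) ^ 3 := by
    rw [← hcard]
    exact_mod_cast Finset.card_le_card hsub
  have h4 : (⌊ℓ / ℓ₀⌋ : ℝ) + 1 ≤ 2 * (ℓ / ℓ₀) := by
    have := Int.floor_le (ℓ / ℓ₀)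
    linarith
  have h5 : (0 : ℝ) ≤ (⌊ℓ / ℓ₀⌋ : ℝ) + 1 := by
    have : (0 : ℝ) ≤ (⌊ℓ / ℓ₀⌋ : ℝ) := by exact_mod_cast hfl
    linarith
  calc ((Finset.univ.image (fun i => gridCell ℓ₀ 0 (x i))).card : ℝ)
      ≤ ((⌊ℓ / ℓ₀⌋ : ℝ) + 1) ^ 3 := h3
    _ ≤ (2 * (ℓ / ℓ₀)) ^ 3 := pow_le_pow_left₀ h5 h4 3
    _ = 8 * ℓ ^ 3 / ℓ₀ ^ 3 := by
      rw [mul_pow, div_pow]
      ring

private lemma scalar_key {U A L3 M₀ β μ κ ρ n lρ : ℝ} (hL3 : 0 < L3) (hA : 0 ≤ A) (hM₀0 : 0 ≤ M₀)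
    (hM₀ : 4 * (1 + M₀) + 64 * A / L3 ≤ U) (hβ1 : 1 / 2 ≤ β) (hμ : μ ≤ M₀) (hκ : κ ≤ 2)
    (hρ : 32 / L3 ≤ ρ) (hlρ : 0 ≤ lρ) (hn : 0 ≤ n) :
    n - n * lρ - β * ((U / 32) * L3 * (ρ * n) - (U / 2) * n) + β * (A * κ / 2) * (ρ * n) + μ * n
      ≤ 0 := by
  have hβ0 : 0 < β := by linarith
  obtain ⟨y, hy⟩ : ∃ y, y = ρ * L3 / 32 := ⟨_, rfl⟩
  have hy1 : 1 ≤ y := by
    rw [hy, le_div_iff₀ (by norm_num : (0 : ℝ) < 32)]
    have := (div_le_iff₀ hL3).1 hρ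
    linarith
  have hρy : ρ = 32 * y / L3 := by
    rw [hy]
    field_simp
  have h1 : (U / 32) * L3 * ρ = U * y := by
    rw [hy]
    ring
  have hU : 0 ≤ U := by
    have : 0 ≤ 64 * A / L3 := by positivity
    linarith
  have h2 : (A * κ / 2) * ρ ≤ y * (U / 2 - 2 * (1 + M₀)) := by
    have h3 : 64 * A / L3 ≤ U - 4 * (1 + M₀) := by linarith
    have h4 : (A * κ / 2) * ρ = (κ / 2) * (y * (32 * A / L3)) := by
      rw [hρy]
      field_simp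
    have h5 : 0 ≤ 32 * A / L3 := by positivity
    have h6 : (κ / 2) * (y * (32 * A / L3)) ≤ 1 * (y * (32 * A / L3)) :=
      mul_le_mul_of_nonneg_right (by linarith) (by positivity)
    have h7 : 32 * A / L3 ≤ U / 2 - 2 * (1 + M₀) := by
      have : 32 * A / L3 = (64 * A / L3) / 2 := by
        ring
      rw [this]
      linarith
    have h8 : y * (32 * A / L3) ≤ y * (U / 2 - 2 * (1 + M₀)) :=
      mul_le_mul_of_nonneg_left h7 (by linarith)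
    linarith
  have hkey : 1 - lρ - β * (U * y) + β * (U / 2) + β * ((A * κ / 2) * ρ) + μ ≤ 0 := by
    have h3 : β * ((A * κ / 2) * ρ) ≤ β * (y * (U / 2 - 2 * (1 + M₀))) :=
      mul_le_mul_of_nonneg_left h2 hβ0.le
    have h4 : 1 ≤ 2 * β * y := by
      nlinarith
    have h5 : 0 ≤ (1 + M₀) * (2 * β * y - 1) := mul_nonneg (by linarith) (by linarith)
    have h6 : 0 ≤ β * (U / 2) * (y - 1) := by
      have : 0 ≤ y - 1 := by linarith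
      positivity
    nlinarith
  have hkey2 := mul_le_mul_of_nonneg_right hkey hn
  have e3 : (1 - lρ - β * (U * y) + β * (U / 2) + β * ((A * κ / 2) * ρ) + μ) * n =
      n - n * lρ - β * ((U / 32) * L3 * (ρ * n) - (U / 2) * n) +
        β * (A * κ / 2) * (ρ * n) + μ * n := by
    rw [← h1]
    ring
  rw [e3, zero_mul] at hkey2
  exact hkey2

/-- Finite volume form of superstability: in a cube of side `ℓ ≥ ℓ₀`,
`E ≥ (U/32) ℓ₀³ n²/ℓ³ - (U/2) n` (Cauchy-Schwarz; at most `(2 ℓ/ℓ₀)³` cells meet the cube). -/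
theorem superstable_cube (hc : CoefOK c) {ℓ : ℝ} (hℓ : G.ℓ₀ ≤ ℓ) {N : ℕ} (x : Fin N → Pt)
    (hx : ∀ i, x i ∈ cube ℓ) :
    (G.U / 32) * G.ℓ₀ ^ 3 * (N : ℝ) ^ 2 / ℓ ^ 3 - (G.U / 2) * N ≤ energy (G.φc c) x := by
  classical
  have hss := superstable (G := G) hc x
  have hℓ₀ := G.hℓ₀
  have hℓpos : 0 < ℓ := by linarith
  have hU := G.hU
  set cell := fun i => gridCell G.ℓ₀ 0 (x i) with hcell
  set S := ∑ m ∈ Finset.univ.image cell,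
    (((Finset.univ.filter fun i => cell i = m).card : ℕ) : ℝ) ^ 2 with hS
  have hN : (N : ℝ) = ∑ m ∈ Finset.univ.image cell,
      (((Finset.univ.filter fun i => cell i = m).card : ℕ) : ℝ) := by
    have := Finset.card_eq_sum_card_image cell (Finset.univ : Finset (Fin N))
    simp only [Finset.card_univ, Fintype.card_fin] at this
    exact_mod_cast this
  have hCS : (N : ℝ) ^ 2 ≤ ((Finset.univ.image cell).card : ℝ) * S := by
    rw [hN]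
    exact sq_sum_le_card_mul_sum_sq
  have hcard := card_image_le hℓ₀ hℓ x hx
  have hS0 : 0 ≤ S := Finset.sum_nonneg fun m _ => by positivity
  have h1 : (N : ℝ) ^ 2 ≤ (8 * ℓ ^ 3 / G.ℓ₀ ^ 3) * S :=
    hCS.trans (mul_le_mul_of_nonneg_right hcard hS0)
  have h2 : (G.U / 32) * G.ℓ₀ ^ 3 * (N : ℝ) ^ 2 / ℓ ^ 3 ≤ (G.U / 4) * S := by
    have hℓ3 : 0 < ℓ ^ 3 := by positivity
    have hℓ₀3 : 0 < G.ℓ₀ ^ 3 := by positivity
    rw [div_le_iff₀ hℓ3]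
    have h3 : (G.U / 32) * G.ℓ₀ ^ 3 * (N : ℝ) ^ 2 ≤
        (G.U / 32) * G.ℓ₀ ^ 3 * ((8 * ℓ ^ 3 / G.ℓ₀ ^ 3) * S) :=
      mul_le_mul_of_nonneg_left h1 (by positivity)
    have h4 : (G.U / 32) * G.ℓ₀ ^ 3 * ((8 * ℓ ^ 3 / G.ℓ₀ ^ 3) * S) = G.U / 4 * S * ℓ ^ 3 := by
      field_simp
      ring
    linarith
  linarith

/-- The partition function bound implied by `superstable_cube`, for `n/ℓ³ ≥ 32/ℓ₀³`:
`log Z + β (A κ/2) n²/ℓ³ + μ n ≤ 0` when `β ∈ [1/2,2]`, `|μ| ≤ M₀`, `κ ≤ 2`,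
`4 (1 + M₀) + 64 A/ℓ₀³ ≤ U`. (`Z ≤ (ℓ³)^n/n! exp(-β E_min)`, `n! ≥ (n/e)^n`,
`log(1/ρ) ≤ 0` since `ρ ≥ 1`.) -/
theorem highDensity (hc : CoefOK c) {M₀ : ℝ} (hM₀ : 4 * (1 + M₀) + 64 * G.A / G.ℓ₀ ^ 3 ≤ G.U)
    {ℓ β μ κ : ℝ} (hℓ : 1 ≤ ℓ) (hβ : β ∈ Icc (1 / 2 : ℝ) 2) (hμ : |μ| ≤ M₀) (hκ0 : 0 ≤ κ)
    (hκ : κ ≤ 2) {n : ℕ} (hn : 32 / G.ℓ₀ ^ 3 ≤ (n : ℝ) / ℓ ^ 3) :
    Real.log (partitionFn (G.φc c) ℓ n β) + β * (G.A * κ / 2) * (n : ℝ) ^ 2 / ℓ ^ 3 + μ * n ≤ 0 := by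
  have hℓ₀ := G.hℓ₀
  have hℓ₀' := G.hℓ₀'
  have hℓpos : 0 < ℓ := by linarith
  have hℓ3 : 0 < ℓ ^ 3 := by positivity
  have hℓ₀3 : 0 < G.ℓ₀ ^ 3 := by positivity
  have hU := G.hU
  have hA : 0 ≤ G.A := G.hA.nonneg fun l => (G.ha l).le
  have hβ0 : 0 < β := by linarith [hβ.1]
  have hM₀0 : 0 ≤ M₀ := (abs_nonneg μ).trans hμ
  -- density
  set ρ := (n : ℝ) / ℓ ^ 3 with hρ
  have hρpos : 0 < ρ := lt_of_lt_of_le (by positivity) hn
  have hn0 : (0 : ℝ) < n := by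
    have : (n : ℝ) = ρ * ℓ ^ 3 := by
      rw [hρ]
      field_simp
    rw [this]
    positivity
  have hn1 : 0 < n := by exact_mod_cast hn0
  have hℓ₀4 : G.ℓ₀ ^ 3 ≤ (1 / 4) ^ 3 := pow_le_pow_left₀ hℓ₀.le hℓ₀' 3
  have hρ1 : 1 ≤ ρ := by
    refine le_trans ?_ hn
    rw [le_div_iff₀ hℓ₀3]
    norm_num at hℓ₀4 ⊢
    linarith
  have hlogρ : 0 ≤ Real.log ρ := Real.log_nonneg hρ1
  -- the bound on the partition function
  have hadm := admissible_φc (G := G) hc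
  have hzpos := hadm.zpos hβ0.le hℓpos n
  set Emin := (G.U / 32) * G.ℓ₀ ^ 3 * (n : ℝ) ^ 2 / ℓ ^ 3 - (G.U / 2) * n with hEmin
  have hmeas : MeasurableSet (Set.pi Set.univ (fun _ : Fin n => cube ℓ)) :=
    MeasurableSet.univ_pi fun _ => measurableSet_cube ℓ
  have hfin : volume (Set.pi Set.univ (fun _ : Fin n => cube ℓ)) ≠ ⊤ := by
    rw [volume_pi_pi]
    exact (ENNReal.prod_lt_top fun _ _ => (volume_cube_ne_top ℓ).lt_top).ne
  have hint : ∫ x in Set.pi Set.univ (fun _ : Fin n => cube ℓ),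
      Real.exp (-β * energy (G.φc c) x) ≤ (ℓ ^ 3) ^ n * Real.exp (-β * Emin) := by
    have h1 : ∫ x in Set.pi Set.univ (fun _ : Fin n => cube ℓ),
        Real.exp (-β * energy (G.φc c) x) ≤
        ∫ _x in Set.pi Set.univ (fun _ : Fin n => cube ℓ), Real.exp (-β * Emin) := by
      refine setIntegral_mono_on
        (integrableOn_boltz hadm.hφ hadm.hst hβ0.le (measurableSet_cube ℓ)
          (volume_cube_ne_top ℓ) n) ?_ hmeas ?_
      · exact integrableOn_const hfin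
      · intro x hx
        apply Real.exp_le_exp.2
        have hxc : ∀ i, x i ∈ cube ℓ := fun i => hx i (Set.mem_univ i)
        have := superstable_cube (G := G) hc (ℓ := ℓ) (by linarith) x hxc
        nlinarith
    refine h1.trans (le_of_eq ?_)
    rw [setIntegral_const, smul_eq_mul]
    congr 1
    rw [Measure.real, volume_pi_pi, ENNReal.toReal_prod]
    simp only [Finset.prod_const, Finset.card_univ, Fintype.card_fin]
    congr 1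
    exact volume_cube ℓ hℓpos.le
  have hf : (0 : ℝ) < (Nat.factorial n : ℝ) := by exact_mod_cast Nat.factorial_pos n
  have hZ : partitionFn (G.φc c) ℓ n β ≤
      (1 / (Nat.factorial n : ℝ)) * ((ℓ ^ 3) ^ n * Real.exp (-β * Emin)) :=
    mul_le_mul_of_nonneg_left hint (by positivity)
  have hlogZ := Real.log_le_log hzpos hZ
  rw [Real.log_mul (by positivity) (by positivity), Real.log_mul (by positivity) (by positivity),
    Real.log_pow, Real.log_exp, one_div, Real.log_inv] at hlogZ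
  have hfac := ThermoAux.log_factorial_ge n
  have hlogn : Real.log (n : ℝ) = Real.log ρ + Real.log (ℓ ^ 3) := by
    rw [hρ, Real.log_div hn0.ne' hℓ3.ne']
    ring
  -- everything is `n` times an expression in `ρ`
  have hn2 : (n : ℝ) ^ 2 / ℓ ^ 3 = ρ * n := by
    rw [hρ]
    ring
  have e1 : β * (G.A * κ / 2) * (n : ℝ) ^ 2 / ℓ ^ 3 = β * (G.A * κ / 2) * (ρ * n) := by
    rw [mul_div_assoc, hn2]
  have e2 : Emin = (G.U / 32) * G.ℓ₀ ^ 3 * (ρ * n) - (G.U / 2) * n := by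
    rw [hEmin, mul_div_assoc, hn2]
  rw [e1]
  rw [e2] at hlogZ
  rw [hlogn] at hfac
  have hscal := scalar_key (U := G.U) (A := G.A) (κ := κ) hℓ₀3 hA hM₀0 hM₀ hβ.1
    ((le_abs_self μ).trans hμ) hκ hn hlogρ hn0.le
  linarith

end GasSetup
end Crest.Agent.Lib.Gas
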