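import Crest.Agent.Lib.Gas.Setup1

/-! # Gas E4: mean-field lower bound on the energy of the tail. -/
namespace Crest.Agent.Lib.Gas
open MeasureTheory Set Filter Topology
open Crest.ProbabilityR.Continuum

namespace GasSetup
variable {G : GasSetup} {c c' : ℕ → ℝ}

/-- Pair energy of `φc` is `≥ 0` plus... : the mean field lower bound on the tail.
`∑_{i≠k} T ≥ ∑_l c_l a_l (N²/(L+2R_l)³ - N/|B_{R_l}|)` for a finite set of scales. -/
theorem energy_tail_lower (hc : CoefOK c) (F : Finset ℕ) {L : ℝ} (hL : 0 ≤ L) {N : ℕ}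
    (x : Fin N → Pt) (hx : ∀ i, x i ∈ cube L) :
    (1 / 2) * ∑ l ∈ F, c l * G.a l *
        ((N : ℝ) ^ 2 / (L + 2 * G.R l) ^ 3 - N / ballVol (G.R l)) ≤ energy (G.Tc c) x := by
  rw [energy_eq_pairE, pairE]
  apply mul_le_mul_of_nonneg_left _ (by norm_num)
  -- termwise expansion
  have hterm : ∀ i k : Fin N, Summable fun l =>
      (if i = k then 0 else c l * G.a l * J (G.R l) (dist (x i) (x k))) := by
    intro i k
    by_cases h : i = k
    · simp only [h, if_true]
      exact summable_zero
    · simp only [h, if_false]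
      exact summable_Tc hc _
  have h1 : ∑ i, ∑ k, (if i = k then 0 else G.Tc c (dist (x i) (x k))) =
      ∑' l, ∑ i, ∑ k, (if i = k then 0 else c l * G.a l * J (G.R l) (dist (x i) (x k))) := by
    rw [Summable.tsum_finsetSum (fun i _ => summable_sum fun k _ => hterm i k)]
    refine Finset.sum_congr rfl fun i _ => ?_
    rw [Summable.tsum_finsetSum (fun k _ => hterm i k)]
    refine Finset.sum_congr rfl fun k _ => ?_
    by_cases h : i = k
    · simp [h]
    · simp only [h, if_false]
      rfl
  rw [h1]
  have hsum : Summable fun l =>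
      ∑ i, ∑ k, (if i = k then 0 else c l * G.a l * J (G.R l) (dist (x i) (x k))) :=
    summable_sum fun i _ => summable_sum fun k _ => hterm i k
  have hnn : ∀ l, 0 ≤
      ∑ i, ∑ k, (if i = k then 0 else c l * G.a l * J (G.R l) (dist (x i) (x k))) := by
    intro l
    refine Finset.sum_nonneg fun i _ => Finset.sum_nonneg fun k _ => ?_
    split_ifs
    · exact le_rfl
    · exact mul_nonneg (mul_nonneg (hc l).1 (G.ha l).le) (J_nonneg _ _)
  refine le_trans (Finset.sum_le_sum fun l _ => ?_) (hsum.sum_le_tsum F fun l _ => hnn l)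
  -- one scale
  have hRpos : 0 < G.R l := by linarith [G.hR l]
  have h2 := sum_J_lower (G.R l) L hRpos hL x hx
  have h3 : ∑ i, ∑ k, (if i = k then 0 else c l * G.a l * J (G.R l) (dist (x i) (x k))) =
      c l * G.a l * (∑ i, ∑ k, J (G.R l) (dist (x i) (x k)) - N / ballVol (G.R l)) := by
    have h4 : ∀ i : Fin N, ∑ k, (if i = k then 0 else c l * G.a l * J (G.R l) (dist (x i) (x k))) =
        c l * G.a l * (∑ k, J (G.R l) (dist (x i) (x k)) - 1 / ballVol (G.R l)) := by
      intro i
      have h5 : ∀ k, (if i = k then 0 else c l * G.a l * J (G.R l) (dist (x i) (x k))) =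
          c l * G.a l * J (G.R l) (dist (x i) (x k)) -
            (if i = k then c l * G.a l * (1 / ballVol (G.R l)) else 0) := by
        intro k
        by_cases h : i = k
        · subst h
          simp [J_zero _ hRpos]
        · simp [h]
      simp_rw [h5]
      rw [Finset.sum_sub_distrib, Finset.sum_ite_eq Finset.univ i, mul_sub, Finset.mul_sum]
      simp
    simp_rw [h4]
    rw [← Finset.mul_sum, Finset.sum_sub_distrib]
    simp only [Finset.sum_const, Finset.card_univ, Fintype.card_fin, nsmul_eq_mul]
    congr 2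
    ring
  rw [h3]
  apply mul_le_mul_of_nonneg_left _ (mul_nonneg (hc l).1 (G.ha l).le)
  linarith

end GasSetup
end Crest.Agent.Lib.Gas
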