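import Mathlib

/-!
# Gas, module C: abstract thermodynamic limit (real analysis only).
`z L n` plays the role of `log Z(φ, L, n, β)`.
-/

namespace Crest.Agent.Lib.Gas
open Set Filter Topology

/-- Hypotheses on `z`. -/
structure ThermoData (z : ℝ → ℕ → ℝ) (b c : ℝ) : Prop where
  hb : 0 ≤ b
  hc : 0 ≤ c
  hzero : ∀ L : ℝ, 0 < L → z L 0 = 0
  /-- superadditivity: `m³` cells of side `L`, corridors of width `1`, arbitrary occupations. -/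
  hsuper : ∀ L : ℝ, 0 < L → ∀ m : ℕ, 0 < m → ∀ n : Fin m × Fin m × Fin m → ℕ,
    ∑ c, z L (n c) ≤ z (m * (L + 1)) (∑ c, n c)
  hmono : ∀ (L L' : ℝ) (n : ℕ), 0 < L → L ≤ L' → z L n ≤ z L' n
  /-- adding a particle. -/
  hadd : ∀ (L : ℝ) (n : ℕ), 0 < L →
    z L n + Real.log (L ^ 3 / ((n : ℝ) + 1)) - c * n / L ^ 3 ≤ z L (n + 1)
  /-- stability bound. -/
  hub : ∀ (L : ℝ) (n : ℕ), 0 < L →
    z L n ≤ n * Real.log (L ^ 3) + b * n - Real.log (Nat.factorial n)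

namespace ThermoAux

lemma log_factorial_ge (n : ℕ) :
    (n : ℝ) * Real.log n - n ≤ Real.log (Nat.factorial n) := by
  rcases Nat.eq_zero_or_pos n with rfl | hn
  · simp
  have hn' : (0 : ℝ) < n := by exact_mod_cast hn
  have h := Real.pow_div_factorial_le_exp (x := (n : ℝ)) hn'.le n
  have hf : (0 : ℝ) < (Nat.factorial n : ℝ) := by exact_mod_cast Nat.factorial_pos n
  have hpos : 0 < (n : ℝ) ^ n / (Nat.factorial n : ℝ) := by positivity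
  have := Real.log_le_log hpos h
  rw [Real.log_exp, Real.log_div (by positivity) (by positivity), Real.log_pow] at this
  linarith

lemma log_factorial_le (n : ℕ) (hn : 1 ≤ n) :
    Real.log (Nat.factorial n) ≤ (n : ℝ) * Real.log n - n + Real.log n + 1 := by
  induction n, hn using Nat.le_induction with
  | base => simp
  | succ n hn ih =>
    have hn' : (0 : ℝ) < n := by exact_mod_cast hn
    have hf : (0 : ℝ) < (Nat.factorial n : ℝ) := by exact_mod_cast Nat.factorial_pos n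
    have hs : (0 : ℝ) < (n : ℝ) + 1 := by positivity
    rw [Nat.factorial_succ]
    push_cast
    rw [Real.log_mul hs.ne' hf.ne']
    have hlog : 1 - (((n : ℝ) + 1) / n)⁻¹ ≤ Real.log (((n : ℝ) + 1) / n) :=
      Real.one_sub_inv_le_log_of_pos (by positivity)
    rw [Real.log_div hs.ne' hn'.ne', inv_div] at hlog
    have h1 : 1 - (n : ℝ) / ((n : ℝ) + 1) = 1 / ((n : ℝ) + 1) := by
      field_simp
      ring
    rw [h1] at hlog
    have h2 : 1 ≤ ((n : ℝ) + 1) * (Real.log ((n : ℝ) + 1) - Real.log n) := by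
      have := mul_le_mul_of_nonneg_left hlog hs.le
      rwa [mul_one_div_cancel hs.ne'] at this
    nlinarith

variable {z : ℝ → ℕ → ℝ} {b c : ℝ}

lemma z_upper (h : ThermoData z b c) {L : ℝ} (hL : 0 < L) {n : ℕ} (hn : 0 < n) :
    z L n / L ^ 3 ≤ ((n : ℝ) / L ^ 3) * (1 + b - Real.log ((n : ℝ) / L ^ 3)) := by
  have hn' : (0 : ℝ) < n := by exact_mod_cast hn
  have hx : 0 < L ^ 3 := by positivity
  have h1 := h.hub L n hL
  have h2 := log_factorial_ge n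
  rw [Real.log_div hn'.ne' hx.ne', div_mul_eq_mul_div]
  apply div_le_div_of_nonneg_right _ hx.le
  nlinarith

lemma z_lower (h : ThermoData z b c) {L : ℝ} (hL : 0 < L) (n : ℕ) :
    (n : ℝ) * Real.log (L ^ 3) - Real.log (Nat.factorial n) - c * (n : ℝ) ^ 2 / (2 * L ^ 3)
      ≤ z L n := by
  have hx : 0 < L ^ 3 := by positivity
  induction n with
  | zero => simp [h.hzero L hL]
  | succ n ih =>
    have h1 := h.hadd L n hL
    have hf : (0 : ℝ) < (Nat.factorial n : ℝ) := by exact_mod_cast Nat.factorial_pos n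
    have hs : (0 : ℝ) < (n : ℝ) + 1 := by positivity
    rw [Real.log_div hx.ne' hs.ne'] at h1
    rw [Nat.factorial_succ]
    push_cast
    rw [Real.log_mul hs.ne' hf.ne']
    have h3 : c * ((n : ℝ) + 1) ^ 2 / (2 * L ^ 3) =
        c * (n : ℝ) ^ 2 / (2 * L ^ 3) + c * n / L ^ 3 + c / (2 * L ^ 3) := by
      field_simp
      ring
    have h4 : 0 ≤ c / (2 * L ^ 3) := div_nonneg h.hc (by positivity)
    rw [h3]
    nlinarith

/-- Adding many particles. -/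
lemma z_add_many (h : ThermoData z b c) {L : ℝ} (hL : 0 < L) {ρ : ℝ} (hρ : 0 < ρ) {n n' : ℕ}
    (hn : n ≤ n') (hn' : (n' : ℝ) ≤ ρ * L ^ 3) :
    z L n - ((n' : ℝ) - n) * (|Real.log ρ| + c * ρ) ≤ z L n' := by
  have hx : 0 < L ^ 3 := by positivity
  induction n', hn using Nat.le_induction with
  | base => simp
  | succ n' hn ih =>
    push_cast at hn' ⊢
    have ih' := ih (by linarith)
    have h1 := h.hadd L n' hL
    have hs : (0 : ℝ) < (n' : ℝ) + 1 := by positivity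
    -- log term
    have h2 : -|Real.log ρ| ≤ Real.log (L ^ 3 / ((n' : ℝ) + 1)) := by
      have h3 : ρ⁻¹ ≤ L ^ 3 / ((n' : ℝ) + 1) := by
        rw [inv_eq_one_div, div_le_div_iff₀ hρ hs]
        linarith
      have h4 := Real.log_le_log (by positivity) h3
      rw [Real.log_inv] at h4
      have := neg_abs_le (Real.log ρ)
      have := le_abs_self (Real.log ρ)
      linarith
    have h5 : c * n' / L ^ 3 ≤ c * ρ := by
      rw [div_le_iff₀ hx]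
      have : (n' : ℝ) ≤ ρ * L ^ 3 := by linarith
      have := mul_le_mul_of_nonneg_left this h.hc
      linarith
    nlinarith

lemma sum_ite_const {α β : Type*} [Fintype α] [DecidableEq α] [AddCommMonoid β] (S : Finset α)
    (A B : β) :
    ∑ c, (if c ∈ S then A else B) = S.card • A + (Fintype.card α - S.card) • B := by
  rw [Finset.sum_ite]
  simp [Finset.filter_notMem_eq_sdiff, Finset.card_sdiff]

lemma z_super_two (h : ThermoData z b c) {L : ℝ} (hL : 0 < L) {m : ℕ} (hm : 0 < m) {k k' : ℕ}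
    (hk : k + k' = m ^ 3) (n₁ n₂ : ℕ) :
    (k : ℝ) * z L n₁ + (k' : ℝ) * z L n₂ ≤ z (m * (L + 1)) (k * n₁ + k' * n₂) := by
  classical
  have hcard : Fintype.card (Fin m × Fin m × Fin m) = m ^ 3 := by
    simp [Fintype.card_prod]
    ring
  obtain ⟨S, -, hS⟩ := Finset.exists_subset_card_eq (s := (Finset.univ : Finset (Fin m × Fin m × Fin m)))
    (n := k) (by rw [Finset.card_univ, hcard]; omega)
  have h0 := h.hsuper L hL m hm (fun c => if c ∈ S then n₁ else n₂)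
  have h1 : ∑ c, z L (if c ∈ S then n₁ else n₂) = (k : ℝ) * z L n₁ + (k' : ℝ) * z L n₂ := by
    have : ∀ c, z L (if c ∈ S then n₁ else n₂) = if c ∈ S then z L n₁ else z L n₂ := by
      intro c
      split_ifs <;> rfl
    simp_rw [this]
    rw [sum_ite_const, hS, hcard]
    have : m ^ 3 - k = k' := by omega
    rw [this]
    simp
  have h2 : ∑ c, (if c ∈ S then n₁ else n₂) = k * n₁ + k' * n₂ := by
    rw [sum_ite_const, hS, hcard]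
    have : m ^ 3 - k = k' := by omega
    rw [this]
    simp
  rw [h1, h2] at h0
  exact h0

lemma tendsto_r {ρ : ℝ} (hρ : 0 ≤ ρ) :
    Tendsto (fun L : ℝ => (⌊ρ * L ^ 3⌋₊ : ℝ) / L ^ 3) atTop (𝓝 ρ) :=
  (tendsto_nat_floor_mul_div_atTop hρ).comp (tendsto_pow_atTop (by norm_num))

lemma tendsto_div_succ : Tendsto (fun L : ℝ => L / (L + 1)) atTop (𝓝 1) := by
  have h : Tendsto (fun L : ℝ => 1 - (L + 1)⁻¹) atTop (𝓝 (1 - 0)) :=
    tendsto_const_nhds.sub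
      (tendsto_inv_atTop_zero.comp (tendsto_atTop_add_const_right _ _ tendsto_id))
  rw [sub_zero] at h
  refine h.congr' ?_
  filter_upwards [eventually_gt_atTop 0] with L hL
  have : L + 1 ≠ 0 := by positivity
  field_simp
  ring

lemma tendsto_u : Tendsto (fun L : ℝ => L ^ 3 / (L + 1) ^ 3) atTop (𝓝 1) := by
  have h := tendsto_div_succ.pow 3
  simp only [one_pow] at h
  refine h.congr ?_
  intro L
  rw [div_pow]

/-- Eventual almost monotonicity implies convergence. -/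
lemma tendsto_of_almost_mono {f : ℝ → ℝ} {B : ℝ} (hB : ∀ᶠ L in atTop, f L ≤ B)
    (h : ∀ ε > 0, ∀ᶠ L₀ in atTop, ∀ᶠ L in atTop, f L₀ - ε ≤ f L) :
    ∃ ℓ, Tendsto f atTop (𝓝 ℓ) := by
  have hbd : IsBoundedUnder (· ≤ ·) atTop f := isBoundedUnder_of_eventually_le hB
  have hcobd : IsCoboundedUnder (· ≤ ·) atTop f := by
    obtain ⟨L₀, hL₀⟩ := (h 1 one_pos).exists
    exact IsBoundedUnder.isCoboundedUnder_le (isBoundedUnder_of_eventually_ge hL₀)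
  refine ⟨limsup f atTop, tendsto_order.2 ⟨fun a ha => ?_, fun b hb => ?_⟩⟩
  · set ε := (limsup f atTop - a) / 2 with hε
    have hεpos : 0 < ε := by
      rw [hε]
      linarith
    have h1 : a + ε < limsup f atTop := by
      rw [hε]
      linarith
    have h2 := frequently_lt_of_lt_limsup hcobd h1
    obtain ⟨L₀, hL₀, hL₀'⟩ := (h2.and_eventually (h ε hεpos)).exists
    filter_upwards [hL₀'] with L hL
    linarith
  · exact eventually_lt_of_limsup_lt hb hbd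


/-- Key superadditive inequality at a general volume. -/
lemma key_super (h : ThermoData z b c) {ρ : ℝ} (hρ : 0 < ρ) {L₀ L : ℝ} (hL₀ : 0 < L₀)
    (hL : L₀ + 1 ≤ L) :
    (((⌊(L₀ + 1)⁻¹ * L⌋₊ : ℝ) / L) ^ 3) * z L₀ ⌊ρ * L₀ ^ 3⌋₊ -
        (ρ - (((⌊(L₀ + 1)⁻¹ * L⌋₊ : ℝ) / L) ^ 3) * (⌊ρ * L₀ ^ 3⌋₊ : ℝ)) * (|Real.log ρ| + c * ρ)
      ≤ z L ⌊ρ * L ^ 3⌋₊ / L ^ 3 := by
  have hD : 0 < L₀ + 1 := by positivity
  have hLpos : 0 < L := by linarith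
  have hx : 0 < L ^ 3 := by positivity
  set m := ⌊(L₀ + 1)⁻¹ * L⌋₊ with hm
  set n₀ := ⌊ρ * L₀ ^ 3⌋₊ with hn₀
  set M := ⌊ρ * L ^ 3⌋₊ with hM
  have hge1 : 1 ≤ (L₀ + 1)⁻¹ * L := by
    rw [inv_mul_eq_div, one_le_div hD]
    exact hL
  have hmpos : 0 < m := Nat.floor_pos.2 hge1
  have hmle : (m : ℝ) * (L₀ + 1) ≤ L := by
    have := Nat.floor_le (by positivity : 0 ≤ (L₀ + 1)⁻¹ * L)
    rw [← hm] at this
    calc (m : ℝ) * (L₀ + 1) ≤ ((L₀ + 1)⁻¹ * L) * (L₀ + 1) := by gcongr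
      _ = L := by field_simp
  have hm' : (0 : ℝ) < m := by exact_mod_cast hmpos
  have hs := z_super_two h hL₀ hmpos (k := m ^ 3) (k' := 0) (by simp) n₀ 0
  simp only [Nat.cast_pow, Nat.cast_zero, zero_mul, add_zero] at hs
  have hmono := h.hmono (m * (L₀ + 1)) L (m ^ 3 * n₀) (by positivity) hmle
  have hn₀le : (n₀ : ℝ) ≤ ρ * L₀ ^ 3 := Nat.floor_le (by positivity)
  have hNle : ((m ^ 3 * n₀ : ℕ) : ℝ) ≤ ρ * L ^ 3 := by
    push_cast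
    have h1 : (m : ℝ) * L₀ ≤ L := by nlinarith
    have h2 : ((m : ℝ) * L₀) ^ 3 ≤ L ^ 3 := by gcongr
    calc (m : ℝ) ^ 3 * n₀ ≤ (m : ℝ) ^ 3 * (ρ * L₀ ^ 3) := by gcongr
      _ = ρ * ((m : ℝ) * L₀) ^ 3 := by ring
      _ ≤ ρ * L ^ 3 := by gcongr
  have hNM : m ^ 3 * n₀ ≤ M := Nat.le_floor hNle
  have hMle : (M : ℝ) ≤ ρ * L ^ 3 := Nat.floor_le (by positivity)
  have hadd := z_add_many h hLpos hρ hNM hMle
  set C := |Real.log ρ| + c * ρ with hC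
  have hC0 : 0 ≤ C := add_nonneg (abs_nonneg _) (mul_nonneg h.hc hρ.le)
  rw [le_div_iff₀ hx]
  have e1 : (((m : ℝ) / L) ^ 3 * z L₀ n₀ - (ρ - ((m : ℝ) / L) ^ 3 * (n₀ : ℝ)) * C) * L ^ 3
      = (m : ℝ) ^ 3 * z L₀ n₀ - (ρ * L ^ 3 - (m : ℝ) ^ 3 * n₀) * C := by
    field_simp
  rw [e1]
  push_cast at hadd
  have h3 : ((M : ℝ) - (m : ℝ) ^ 3 * n₀) * C ≤ (ρ * L ^ 3 - (m : ℝ) ^ 3 * n₀) * C := by
    gcongr
  linarith

lemma r_pos_floor {x : ℝ} {n : ℕ} (h : 0 < (n : ℝ) / x) : 0 < n := by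
  rcases Nat.eq_zero_or_pos n with h0 | h0
  · rw [h0] at h
    simp at h
  · exact h0

lemma eventually_upper (h : ThermoData z b c) {ρ : ℝ} (hρ : 0 < ρ) :
    ∀ᶠ L : ℝ in atTop, z L ⌊ρ * L ^ 3⌋₊ / L ^ 3 ≤
      ((⌊ρ * L ^ 3⌋₊ : ℝ) / L ^ 3) * (1 + b - Real.log ((⌊ρ * L ^ 3⌋₊ : ℝ) / L ^ 3)) := by
  filter_upwards [eventually_gt_atTop 0, (tendsto_r hρ.le).eventually (lt_mem_nhds hρ)]
    with L hL hr
  exact z_upper h hL (r_pos_floor hr)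

lemma tendsto_upper {ρ : ℝ} (hρ : 0 < ρ) :
    Tendsto (fun L : ℝ => ((⌊ρ * L ^ 3⌋₊ : ℝ) / L ^ 3) *
      (1 + b - Real.log ((⌊ρ * L ^ 3⌋₊ : ℝ) / L ^ 3))) atTop (𝓝 (ρ * (1 + b - Real.log ρ))) :=
  (tendsto_r hρ.le).mul (tendsto_const_nhds.sub ((tendsto_r hρ.le).log hρ.ne'))

lemma eventually_lower (h : ThermoData z b c) {ρ : ℝ} (hρ : 0 < ρ) :
    ∀ᶠ L : ℝ in atTop,
      ((⌊ρ * L ^ 3⌋₊ : ℝ) / L ^ 3) * (1 - Real.log ((⌊ρ * L ^ 3⌋₊ : ℝ) / L ^ 3))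
        - (Real.log ((⌊ρ * L ^ 3⌋₊ : ℝ) / L ^ 3) + Real.log (L ^ 3) + 1) / L ^ 3
        - c * ((⌊ρ * L ^ 3⌋₊ : ℝ) / L ^ 3) ^ 2 / 2
      ≤ z L ⌊ρ * L ^ 3⌋₊ / L ^ 3 := by
  filter_upwards [eventually_gt_atTop 0, (tendsto_r hρ.le).eventually (lt_mem_nhds hρ)]
    with L hL hr
  have hn := r_pos_floor hr
  set n := ⌊ρ * L ^ 3⌋₊ with hndef
  have hn' : (0 : ℝ) < n := by exact_mod_cast hn
  have hx : 0 < L ^ 3 := by positivity
  have h1 := z_lower h hL n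
  have h2 := log_factorial_le n hn
  have h3 : Real.log ((n : ℝ) / L ^ 3) = Real.log n - Real.log (L ^ 3) :=
    Real.log_div hn'.ne' hx.ne'
  rw [h3, le_div_iff₀ hx]
  have e1 : (((n : ℝ) / L ^ 3) * (1 - (Real.log n - Real.log (L ^ 3)))
        - (Real.log n - Real.log (L ^ 3) + Real.log (L ^ 3) + 1) / L ^ 3
        - c * ((n : ℝ) / L ^ 3) ^ 2 / 2) * L ^ 3
      = (n : ℝ) * (1 - (Real.log n - Real.log (L ^ 3)))
        - (Real.log n - Real.log (L ^ 3) + Real.log (L ^ 3) + 1)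
        - c * (n : ℝ) ^ 2 / (2 * L ^ 3) := by
    field_simp
  rw [e1]
  nlinarith

lemma tendsto_lower {ρ : ℝ} (hρ : 0 < ρ) :
    Tendsto (fun L : ℝ =>
      ((⌊ρ * L ^ 3⌋₊ : ℝ) / L ^ 3) * (1 - Real.log ((⌊ρ * L ^ 3⌋₊ : ℝ) / L ^ 3))
        - (Real.log ((⌊ρ * L ^ 3⌋₊ : ℝ) / L ^ 3) + Real.log (L ^ 3) + 1) / L ^ 3
        - c * ((⌊ρ * L ^ 3⌋₊ : ℝ) / L ^ 3) ^ 2 / 2)
      atTop (𝓝 (ρ * (1 - Real.log ρ) - c * ρ ^ 2 / 2)) := by
  have hr := tendsto_r hρ.le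
  have hx : Tendsto (fun L : ℝ => L ^ 3) atTop atTop := tendsto_pow_atTop (by norm_num)
  have h1 : Tendsto (fun x : ℝ => Real.log x / x) atTop (𝓝 0) :=
    Real.isLittleO_log_id_atTop.tendsto_div_nhds_zero
  have h2 := h1.comp hx
  have h3 := ((hr.log hρ.ne').add_const 1).div_atTop hx
  have h4 : Tendsto (fun L : ℝ =>
      (Real.log ((⌊ρ * L ^ 3⌋₊ : ℝ) / L ^ 3) + Real.log (L ^ 3) + 1) / L ^ 3) atTop (𝓝 0) := by
    have := h3.add h2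
    rw [add_zero] at this
    refine this.congr ?_
    intro L
    simp only [Function.comp_apply]
    ring
  have h5 := (hr.mul ((tendsto_const_nhds (x := (1 : ℝ))).sub (hr.log hρ.ne'))).sub h4
  have h6 := h5.sub (((hr.pow 2).const_mul c).div_const 2)
  simpa using h6

lemma exists_limit (h : ThermoData z b c) {ρ : ℝ} (hρ : 0 < ρ) :
    ∃ ℓ, Tendsto (fun L : ℝ => z L ⌊ρ * L ^ 3⌋₊ / L ^ 3) atTop (𝓝 ℓ) := by
  set K := ρ * (1 + b - Real.log ρ) with hK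
  have hB : ∀ᶠ L : ℝ in atTop, z L ⌊ρ * L ^ 3⌋₊ / L ^ 3 ≤ K + 1 := by
    filter_upwards [eventually_upper h hρ,
      (tendsto_upper (b := b) hρ).eventually (gt_mem_nhds (lt_add_one K))] with L h1 h2
    exact h1.trans h2.le
  refine tendsto_of_almost_mono hB fun ε hε => ?_
  set C := |Real.log ρ| + c * ρ with hC
  set B' := max (K + 1) 0 with hB'
  have hB'0 : 0 ≤ B' := le_max_right _ _
  have hu := tendsto_u
  have hE : Tendsto (fun L₀ : ℝ => B' * (1 - L₀ ^ 3 / (L₀ + 1) ^ 3) +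
      (ρ - ((⌊ρ * L₀ ^ 3⌋₊ : ℝ) / L₀ ^ 3) * (L₀ ^ 3 / (L₀ + 1) ^ 3)) * C) atTop (𝓝 0) := by
    have h1 := (tendsto_const_nhds (x := (1 : ℝ))).sub hu
    have h2 := h1.const_mul B'
    have h3 := ((tendsto_const_nhds (x := ρ)).sub ((tendsto_r hρ.le).mul hu)).mul_const C
    have := h2.add h3
    simpa using this
  filter_upwards [hB, eventually_gt_atTop 0, hE.eventually (gt_mem_nhds (half_pos hε))]
    with L₀ hfL₀ hL₀ hEL₀
  set n₀ := ⌊ρ * L₀ ^ 3⌋₊ with hn₀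
  set z₀ := z L₀ n₀ with hz₀
  set D := (L₀ + 1) ^ 3 with hD
  have hDpos : 0 < D := by positivity
  have hx0 : 0 < L₀ ^ 3 := by positivity
  -- the limit of the lower bound
  set A := ((L₀ + 1)⁻¹) ^ 3 * z₀ - (ρ - ((L₀ + 1)⁻¹) ^ 3 * (n₀ : ℝ)) * C with hA
  have hβ : Tendsto (fun L : ℝ => ((⌊(L₀ + 1)⁻¹ * L⌋₊ : ℝ) / L) ^ 3) atTop (𝓝 (((L₀ + 1)⁻¹) ^ 3)) :=
    (tendsto_nat_floor_mul_div_atTop (by positivity)).pow 3
  have hG : Tendsto (fun L : ℝ => (((⌊(L₀ + 1)⁻¹ * L⌋₊ : ℝ) / L) ^ 3) * z₀ -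
      (ρ - (((⌊(L₀ + 1)⁻¹ * L⌋₊ : ℝ) / L) ^ 3) * (n₀ : ℝ)) * C) atTop (𝓝 A) :=
    (hβ.mul_const z₀).sub ((tendsto_const_nhds.sub (hβ.mul_const (n₀ : ℝ))).mul_const C)
  have hfA : z₀ / L₀ ^ 3 - A ≤ ε / 2 := by
    have hu1 : L₀ ^ 3 / D ≤ 1 := by
      rw [div_le_one hDpos, hD]
      gcongr
      linarith
    have e1 : ((L₀ + 1)⁻¹) ^ 3 = D⁻¹ := by
      rw [hD, inv_pow]
    have e2 : D⁻¹ * z₀ = z₀ / L₀ ^ 3 * (L₀ ^ 3 / D) := by
      field_simp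
    have e3 : D⁻¹ * (n₀ : ℝ) = (n₀ : ℝ) / L₀ ^ 3 * (L₀ ^ 3 / D) := by
      field_simp
    rw [hA, e1, e2, e3]
    have h1 : z₀ / L₀ ^ 3 ≤ B' := hfL₀.trans (le_max_left _ _)
    have h2 : z₀ / L₀ ^ 3 * (1 - L₀ ^ 3 / D) ≤ B' * (1 - L₀ ^ 3 / D) :=
      mul_le_mul_of_nonneg_right h1 (by linarith)
    linarith
  filter_upwards [hG.eventually (lt_mem_nhds (show A - ε / 2 < A by linarith)),
    eventually_ge_atTop (L₀ + 1)] with L hL1 hL2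
  have := key_super h hρ hL₀ hL2
  linarith

lemma two_density (h : ThermoData z b c) {ψ : ℝ → ℝ}
    (hψ : ∀ ρ : ℝ, 0 ≤ ρ → Tendsto (fun L : ℝ => z L ⌊ρ * L ^ 3⌋₊ / L ^ 3) atTop (𝓝 (ψ ρ)))
    {ρ a a' : ℝ} (hρ : 0 < ρ) (ha : 0 ≤ a) (ha' : 0 ≤ a') (haa : a + a' = 1) {L₀ : ℝ}
    (hL₀ : 0 < L₀) (n₁ n₂ : ℕ)
    (hlt : a * ((n₁ : ℝ) / (L₀ + 1) ^ 3) + a' * ((n₂ : ℝ) / (L₀ + 1) ^ 3) < ρ) :
    a * (z L₀ n₁ / (L₀ + 1) ^ 3) + a' * (z L₀ n₂ / (L₀ + 1) ^ 3) -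
      (ρ - (a * ((n₁ : ℝ) / (L₀ + 1) ^ 3) + a' * ((n₂ : ℝ) / (L₀ + 1) ^ 3))) *
        (|Real.log ρ| + c * ρ) ≤ ψ ρ := by
  have hD1 : 0 < L₀ + 1 := by positivity
  set D := (L₀ + 1) ^ 3 with hD
  have hDpos : 0 < D := by positivity
  set C := |Real.log ρ| + c * ρ with hC
  have hC0 : 0 ≤ C := add_nonneg (abs_nonneg _) (mul_nonneg h.hc hρ.le)
  have ha1 : a ≤ 1 := by linarith
  set z₁ := z L₀ n₁ with hz₁
  set z₂ := z L₀ n₂ with hz₂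
  -- the sequence of volumes
  have hLm : Tendsto (fun m : ℕ => (m : ℝ) * (L₀ + 1)) atTop atTop :=
    tendsto_natCast_atTop_atTop.atTop_mul_const hD1
  have hlim := (hψ ρ hρ.le).comp hLm
  have hm3 : Tendsto (fun m : ℕ => (m : ℝ) ^ 3) atTop atTop :=
    (tendsto_pow_atTop (by norm_num)).comp tendsto_natCast_atTop_atTop
  have ht : Tendsto (fun m : ℕ => (⌊a * (m : ℝ) ^ 3⌋₊ : ℝ) / (m : ℝ) ^ 3) atTop (𝓝 a) :=
    (tendsto_nat_floor_mul_div_atTop ha).comp hm3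
  have ht' : Tendsto (fun m : ℕ => 1 - (⌊a * (m : ℝ) ^ 3⌋₊ : ℝ) / (m : ℝ) ^ 3) atTop (𝓝 a') := by
    have := (tendsto_const_nhds (x := (1 : ℝ))).sub ht
    have e : 1 - a = a' := by linarith
    rwa [e] at this
  have hdens : Tendsto (fun m : ℕ => (⌊a * (m : ℝ) ^ 3⌋₊ : ℝ) / (m : ℝ) ^ 3 * ((n₁ : ℝ) / D) +
      (1 - (⌊a * (m : ℝ) ^ 3⌋₊ : ℝ) / (m : ℝ) ^ 3) * ((n₂ : ℝ) / D)) atTop
      (𝓝 (a * ((n₁ : ℝ) / D) + a' * ((n₂ : ℝ) / D))) :=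
    (ht.mul_const _).add (ht'.mul_const _)
  have hG : Tendsto (fun m : ℕ => (⌊a * (m : ℝ) ^ 3⌋₊ : ℝ) / (m : ℝ) ^ 3 * (z₁ / D) +
      (1 - (⌊a * (m : ℝ) ^ 3⌋₊ : ℝ) / (m : ℝ) ^ 3) * (z₂ / D) -
      (ρ - ((⌊a * (m : ℝ) ^ 3⌋₊ : ℝ) / (m : ℝ) ^ 3 * ((n₁ : ℝ) / D) +
        (1 - (⌊a * (m : ℝ) ^ 3⌋₊ : ℝ) / (m : ℝ) ^ 3) * ((n₂ : ℝ) / D))) * C) atTop
      (𝓝 (a * (z₁ / D) + a' * (z₂ / D) -
        (ρ - (a * ((n₁ : ℝ) / D) + a' * ((n₂ : ℝ) / D))) * C)) :=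
    ((ht.mul_const _).add (ht'.mul_const _)).sub ((tendsto_const_nhds.sub hdens).mul_const C)
  refine le_of_tendsto_of_tendsto hG hlim ?_
  filter_upwards [eventually_gt_atTop 0, hdens.eventually (gt_mem_nhds hlt)] with m hm hm2
  have hm' : (0 : ℝ) < m := by exact_mod_cast hm
  have hm3pos : (0 : ℝ) < (m : ℝ) ^ 3 := by positivity
  set k := ⌊a * (m : ℝ) ^ 3⌋₊ with hk
  have hkle : (k : ℝ) ≤ a * (m : ℝ) ^ 3 := Nat.floor_le (by positivity)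
  have hkm : k ≤ m ^ 3 := by
    have : (k : ℝ) ≤ ((m ^ 3 : ℕ) : ℝ) := by
      push_cast
      nlinarith
    exact_mod_cast this
  obtain ⟨k', hk'⟩ : ∃ k', k + k' = m ^ 3 := ⟨m ^ 3 - k, by omega⟩
  have hk'r : (k' : ℝ) = (m : ℝ) ^ 3 - k := by
    have : ((k + k' : ℕ) : ℝ) = ((m ^ 3 : ℕ) : ℝ) := by rw [hk']
    push_cast at this
    linarith
  have hs := z_super_two h hL₀ hm hk' n₁ n₂
  set Lm := (m : ℝ) * (L₀ + 1) with hLmdef
  have hLmpos : 0 < Lm := by positivity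
  have hLm3 : Lm ^ 3 = (m : ℝ) ^ 3 * D := by
    rw [hLmdef, hD]
    ring
  have hx : 0 < Lm ^ 3 := by positivity
  set N := k * n₁ + k' * n₂ with hN
  have hNr : (N : ℝ) = (k : ℝ) * n₁ + ((m : ℝ) ^ 3 - k) * n₂ := by
    rw [hN]
    push_cast
    rw [hk'r]
  have e_dens : (k : ℝ) / (m : ℝ) ^ 3 * ((n₁ : ℝ) / D) +
      (1 - (k : ℝ) / (m : ℝ) ^ 3) * ((n₂ : ℝ) / D) = (N : ℝ) / Lm ^ 3 := by
    rw [hNr, hLm3]
    field_simp
  rw [e_dens] at hm2 ⊢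
  have hNle : (N : ℝ) ≤ ρ * Lm ^ 3 := by
    rw [div_lt_iff₀ hx] at hm2
    exact hm2.le
  set M := ⌊ρ * Lm ^ 3⌋₊ with hM
  have hNM : N ≤ M := Nat.le_floor hNle
  have hMle : (M : ℝ) ≤ ρ * Lm ^ 3 := Nat.floor_le (by positivity)
  have hadd := z_add_many h hLmpos hρ hNM hMle
  simp only [Function.comp_apply]
  rw [← hM, le_div_iff₀ hx]
  have e1 : ((k : ℝ) / (m : ℝ) ^ 3 * (z₁ / D) + (1 - (k : ℝ) / (m : ℝ) ^ 3) * (z₂ / D) -
      (ρ - (N : ℝ) / Lm ^ 3) * C) * Lm ^ 3 =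
      (k : ℝ) * z₁ + (k' : ℝ) * z₂ - (ρ * Lm ^ 3 - N) * C := by
    rw [hk'r]
    have e2 : (ρ - (N : ℝ) / Lm ^ 3) * C * Lm ^ 3 = (ρ * Lm ^ 3 - N) * C := by
      field_simp
    rw [sub_mul, e2, hLm3]
    field_simp
  rw [e1]
  have h3 : ((M : ℝ) - N) * C ≤ (ρ * Lm ^ 3 - N) * C := by
    gcongr
  linarith

lemma finite_volume (h : ThermoData z b c) {ψ : ℝ → ℝ}
    (hψ : ∀ ρ : ℝ, 0 ≤ ρ → Tendsto (fun L : ℝ => z L ⌊ρ * L ^ 3⌋₊ / L ^ 3) atTop (𝓝 (ψ ρ)))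
    {L : ℝ} (hL : 0 < L) (n : ℕ) : z L n ≤ (L + 1) ^ 3 * ψ ((n : ℝ) / (L + 1) ^ 3) := by
  have hD1 : 0 < L + 1 := by positivity
  have hDpos : 0 < (L + 1) ^ 3 := by positivity
  have hρ : 0 ≤ (n : ℝ) / (L + 1) ^ 3 := by positivity
  have hLm : Tendsto (fun m : ℕ => (m : ℝ) * (L + 1)) atTop atTop :=
    tendsto_natCast_atTop_atTop.atTop_mul_const hD1
  have hlim := (hψ _ hρ).comp hLm
  have hle : z L n / (L + 1) ^ 3 ≤ ψ ((n : ℝ) / (L + 1) ^ 3) := by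
    refine ge_of_tendsto hlim ?_
    filter_upwards [eventually_gt_atTop 0] with m hm
    have hm' : (0 : ℝ) < m := by exact_mod_cast hm
    have e : (n : ℝ) / (L + 1) ^ 3 * ((m : ℝ) * (L + 1)) ^ 3 = ((m ^ 3 * n : ℕ) : ℝ) := by
      push_cast
      field_simp
    simp only [Function.comp_apply]
    rw [e, Nat.floor_natCast]
    have hs := z_super_two h hL hm (k := m ^ 3) (k' := 0) (by simp) n 0
    simp only [Nat.cast_pow, Nat.cast_zero, zero_mul, add_zero] at hs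
    rw [div_le_div_iff₀ hDpos (by positivity)]
    have e2 : ((m : ℝ) * (L + 1)) ^ 3 = (m : ℝ) ^ 3 * (L + 1) ^ 3 := by ring
    rw [e2]
    nlinarith
  rw [div_le_iff₀ hDpos] at hle
  linarith

lemma concave (h : ThermoData z b c) {ψ : ℝ → ℝ}
    (hψ : ∀ ρ : ℝ, 0 ≤ ρ → Tendsto (fun L : ℝ => z L ⌊ρ * L ^ 3⌋₊ / L ^ 3) atTop (𝓝 (ψ ρ))) :
    ConcaveOn ℝ (Ici 0) ψ := by
  refine ⟨convex_Ici 0, fun x hx y hy a a' ha ha' haa => ?_⟩
  simp only [mem_Ici] at hx hy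
  simp only [smul_eq_mul]
  rcases ha.eq_or_lt with rfl | hapos
  · have : a' = 1 := by linarith
    simp [this]
  rcases ha'.eq_or_lt with rfl | ha'pos
  · have : a = 1 := by linarith
    simp [this]
  set ρ := a * x + a' * y with hρdef
  rcases (show 0 ≤ ρ by positivity).eq_or_lt with hρ0 | hρ
  · have hx0 : x = 0 := by
      by_contra hne
      have : 0 < x := lt_of_le_of_ne hx (Ne.symm hne)
      have : 0 < a * x := by positivity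
      have : 0 ≤ a' * y := by positivity
      linarith
    have hy0 : y = 0 := by
      by_contra hne
      have : 0 < y := lt_of_le_of_ne hy (Ne.symm hne)
      have : 0 < a' * y := by positivity
      have : 0 ≤ a * x := by positivity
      linarith
    rw [hρdef, hx0, hy0]
    have : a * ψ 0 + a' * ψ 0 = (a + a') * ψ 0 := by ring
    rw [this, haa]
    simp
  set C := |Real.log ρ| + c * ρ with hC
  have hu := tendsto_u
  have hT : Tendsto (fun L₀ : ℝ =>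
      a * ((z L₀ ⌊x * L₀ ^ 3⌋₊ / L₀ ^ 3) * (L₀ ^ 3 / (L₀ + 1) ^ 3)) +
      a' * ((z L₀ ⌊y * L₀ ^ 3⌋₊ / L₀ ^ 3) * (L₀ ^ 3 / (L₀ + 1) ^ 3)) -
      (ρ - (a * (((⌊x * L₀ ^ 3⌋₊ : ℝ) / L₀ ^ 3) * (L₀ ^ 3 / (L₀ + 1) ^ 3)) +
        a' * (((⌊y * L₀ ^ 3⌋₊ : ℝ) / L₀ ^ 3) * (L₀ ^ 3 / (L₀ + 1) ^ 3)))) * C) atTop
      (𝓝 (a * ψ x + a' * ψ y - (ρ - (a * x + a' * y)) * C)) := by
    have h1 := (hψ x hx).mul hu
    have h2 := (hψ y hy).mul hu
    have h3 := (tendsto_r hx).mul hu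
    have h4 := (tendsto_r hy).mul hu
    simp only [mul_one] at h1 h2 h3 h4
    exact ((h1.const_mul a).add (h2.const_mul a')).sub
      ((tendsto_const_nhds.sub ((h3.const_mul a).add (h4.const_mul a'))).mul_const C)
  have hval : a * ψ x + a' * ψ y - (ρ - (a * x + a' * y)) * C = a * ψ x + a' * ψ y := by
    rw [← hρdef]
    ring
  rw [hval] at hT
  refine le_of_tendsto hT ?_
  filter_upwards [eventually_gt_atTop 0] with L₀ hL₀
  have hD1 : 0 < L₀ + 1 := by positivity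
  have hDpos : 0 < (L₀ + 1) ^ 3 := by positivity
  have hx0 : 0 < L₀ ^ 3 := by positivity
  have e1 : ∀ w : ℝ, w / L₀ ^ 3 * (L₀ ^ 3 / (L₀ + 1) ^ 3) = w / (L₀ + 1) ^ 3 := by
    intro w
    field_simp
  simp only [e1]
  refine two_density h hψ hρ ha ha' haa hL₀ _ _ ?_
  have h1 : (⌊x * L₀ ^ 3⌋₊ : ℝ) ≤ x * L₀ ^ 3 := Nat.floor_le (by positivity)
  have h2 : (⌊y * L₀ ^ 3⌋₊ : ℝ) ≤ y * L₀ ^ 3 := Nat.floor_le (by positivity)
  have h3 : L₀ ^ 3 < (L₀ + 1) ^ 3 := by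
    gcongr
    linarith
  have h4 : a * ((⌊x * L₀ ^ 3⌋₊ : ℝ) / (L₀ + 1) ^ 3) + a' * ((⌊y * L₀ ^ 3⌋₊ : ℝ) / (L₀ + 1) ^ 3)
      ≤ ρ * (L₀ ^ 3 / (L₀ + 1) ^ 3) := by
    rw [hρdef]
    have e : (a * x + a' * y) * (L₀ ^ 3 / (L₀ + 1) ^ 3) =
        a * ((x * L₀ ^ 3) / (L₀ + 1) ^ 3) + a' * ((y * L₀ ^ 3) / (L₀ + 1) ^ 3) := by
      ring
    rw [e]
    gcongr
  have h5 : L₀ ^ 3 / (L₀ + 1) ^ 3 < 1 := by
    rw [div_lt_one hDpos]
    exact h3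
  nlinarith

end ThermoAux

/-- **Thermodynamic limit.** The limit exists at every density, is concave and continuous, and the
finite volume inequality holds.  Proof: for `ρ > 0`, let `Ψ = limsup`; choose `L₀` nearly realising
it, `n₀ = ⌊ρ L₀³⌋`; for `L ≥ L₀ + 1`, `m = ⌊L/(L₀+1)⌋`, `z L (m³ n₀) ≥ m³ z L₀ n₀` and add the
missing particles at cost `C_ρ = |log ρ| + c ρ` each.  The finite volume inequality is the same
along `L = m (L₀+1)`, `N = m³ n₀`.  Concavity: occupy a fraction of the cells with `n₁`, the rest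
with `n₂`, and use the one-sided Lipschitz bound from `hadd`. -/
theorem thermo_limit {z : ℝ → ℕ → ℝ} {b c : ℝ} (h : ThermoData z b c) :
    ∃ ψ : ℝ → ℝ,
      (∀ ρ : ℝ, 0 ≤ ρ → Tendsto (fun L : ℝ => z L ⌊ρ * L ^ 3⌋₊ / L ^ 3) atTop (𝓝 (ψ ρ))) ∧
      ψ 0 = 0 ∧ ConcaveOn ℝ (Ici 0) ψ ∧ ContinuousOn ψ (Ici 0) ∧
      (∀ (L : ℝ) (n : ℕ), 0 < L → z L n ≤ (L + 1) ^ 3 * ψ ((n : ℝ) / (L + 1) ^ 3)) ∧
      (∀ ρ : ℝ, 0 < ρ → ψ ρ ≤ ρ * (1 + b - Real.log ρ)) ∧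
      (∀ ρ : ℝ, 0 < ρ → ρ * (1 - Real.log ρ) - c * ρ ^ 2 / 2 ≤ ψ ρ) := by
  have hzero : Tendsto (fun L : ℝ => z L ⌊(0 : ℝ) * L ^ 3⌋₊ / L ^ 3) atTop (𝓝 0) := by
    refine tendsto_const_nhds.congr' ?_
    filter_upwards [eventually_gt_atTop 0] with L hL
    simp [h.hzero L hL]
  have hlim : ∀ ρ : ℝ, 0 ≤ ρ → ∃ ℓ, Tendsto (fun L : ℝ => z L ⌊ρ * L ^ 3⌋₊ / L ^ 3) atTop (𝓝 ℓ) := by
    intro ρ hρ
    rcases hρ.eq_or_lt with rfl | hρ
    · exact ⟨0, hzero⟩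
    · exact ThermoAux.exists_limit h hρ
  choose! ψ hψ using hlim
  have hψ0 : ψ 0 = 0 := tendsto_nhds_unique (hψ 0 le_rfl) hzero
  have hconc := ThermoAux.concave h hψ
  have hub : ∀ ρ : ℝ, 0 < ρ → ψ ρ ≤ ρ * (1 + b - Real.log ρ) := fun ρ hρ =>
    le_of_tendsto_of_tendsto (hψ ρ hρ.le) (ThermoAux.tendsto_upper hρ) (ThermoAux.eventually_upper h hρ)
  have hlb : ∀ ρ : ℝ, 0 < ρ → ρ * (1 - Real.log ρ) - c * ρ ^ 2 / 2 ≤ ψ ρ := fun ρ hρ =>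
    le_of_tendsto_of_tendsto (ThermoAux.tendsto_lower hρ) (hψ ρ hρ.le) (ThermoAux.eventually_lower h hρ)
  refine ⟨ψ, hψ, hψ0, hconc, ?_, fun L n hL => ThermoAux.finite_volume h hψ hL n, hub, hlb⟩
  refine hconc.continuousOn_Ici ?_
  -- continuity at zero by squeezing
  have hup : Continuous (fun x : ℝ => x * (1 + b) - x * Real.log x) :=
    (continuous_id.mul continuous_const).sub Real.continuous_mul_log
  have hlow : Continuous (fun x : ℝ => x - x * Real.log x - c * x ^ 2 / 2) :=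
    (continuous_id.sub Real.continuous_mul_log).sub
      ((continuous_const.mul (continuous_id.pow 2)).div_const 2)
  have h1 : Tendsto (fun x : ℝ => x * (1 + b) - x * Real.log x) (𝓝[Ici 0] 0) (𝓝 (ψ 0)) := by
    have := (hup.tendsto 0).mono_left (nhdsWithin_le_nhds (s := Ici 0))
    simpa [hψ0] using this
  have h2 : Tendsto (fun x : ℝ => x - x * Real.log x - c * x ^ 2 / 2) (𝓝[Ici 0] 0) (𝓝 (ψ 0)) := by
    have := (hlow.tendsto 0).mono_left (nhdsWithin_le_nhds (s := Ici 0))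
    simpa [hψ0] using this
  refine tendsto_of_tendsto_of_tendsto_of_le_of_le' h2 h1 ?_ ?_
  · filter_upwards [self_mem_nhdsWithin] with x hx
    rcases (mem_Ici.1 hx).eq_or_lt with rfl | hx
    · simp [hψ0]
    · have := hlb x hx
      nlinarith
  · filter_upwards [self_mem_nhdsWithin] with x hx
    rcases (mem_Ici.1 hx).eq_or_lt with rfl | hx
    · simp [hψ0]
    · have := hub x hx
      nlinarith

end Crest.Agent.Lib.Gas
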