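import Crest.Agent.Lib.Gas.Config
import Crest.Agent.Lib.Gas.Thermo

/-! # Gas C1: cube, admissible potentials, thermodynamic data. -/
namespace Crest.Agent.Lib.Gas
open MeasureTheory Set Filter Topology
open Crest.ProbabilityR.Continuum

variable {φ φ' v : ℝ → ℝ} {B B' V₁ β ρ : ℝ}

private lemma cube_eq_preimage (L : ℝ) :
    cube L = (@WithLp.ofLp 2 (Fin 3 → ℝ)) ⁻¹' (Icc (fun _ => (0 : ℝ)) (fun _ => L)) := by
  ext x
  simp only [cube, mem_ofPred_eq, mem_preimage, mem_Icc, Pi.le_def]
  constructor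
  · intro h
    exact ⟨fun k => (h k).1, fun k => (h k).2⟩
  · intro h k
    exact ⟨h.1 k, h.2 k⟩

theorem measurableSet_cube (L : ℝ) : MeasurableSet (cube L) := by
  rw [cube_eq_preimage]
  exact (PiLp.volume_preserving_ofLp (Fin 3)).measurable measurableSet_Icc

private lemma volume_cube' (L : ℝ) : volume (cube L) = ENNReal.ofReal L ^ 3 := by
  rw [cube_eq_preimage,
    (PiLp.volume_preserving_ofLp (Fin 3)).measure_preimage measurableSet_Icc.nullMeasurableSet,
    Real.volume_Icc_pi]
  simp

/-- Volume of the cube. -/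
theorem volume_cube (L : ℝ) (hL : 0 ≤ L) : volume.real (cube L) = L ^ 3 := by
  rw [Measure.real, volume_cube', ENNReal.toReal_pow, ENNReal.toReal_ofReal hL]

theorem volume_cube_ne_top (L : ℝ) : volume (cube L) ≠ ⊤ := by
  rw [volume_cube']
  exact ENNReal.pow_ne_top ENNReal.ofReal_ne_top

private lemma volume_cube_ne_zero {L : ℝ} (hL : 0 < L) : volume (cube L) ≠ 0 := by
  rw [volume_cube']
  exact pow_ne_zero _ (by simpa using hL)

/-- The class of potentials for which the limit exists. -/
structure Admissible (φ v : ℝ → ℝ) (B V₁ : ℝ) : Prop where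
  hφ : Measurable φ
  hB : 0 ≤ B
  hst : Stable φ B
  hfar : ∀ r, 1 ≤ r → φ r ≤ 0
  hv : Measurable v
  hφv : ∀ r, φ r ≤ v r
  hv0 : ∀ r, 0 ≤ v r
  hint : Integrable (fun y : Pt => v ‖y‖)
  hV : ∫ y : Pt, v ‖y‖ ≤ V₁

/-- Free energy per volume (`limsup`, a limit for admissible potentials): positive sign, i.e.
`lim L⁻³ log Z`. -/
noncomputable def Psi (φ : ℝ → ℝ) (β ρ : ℝ) : ℝ :=
  limsup (fun L : ℝ => Real.log (partitionFn φ L ⌊ρ * L ^ 3⌋₊ β) / L ^ 3) atTop

theorem Admissible.V₁_nonneg (h : Admissible φ v B V₁) : 0 ≤ V₁ :=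
  (integral_nonneg fun _ => h.hv0 _).trans h.hV

theorem Admissible.zpos (h : Admissible φ v B V₁) (hβ : 0 ≤ β) {L : ℝ} (hL : 0 < L) (n : ℕ) :
    0 < partitionFn φ L n β := by
  rw [partitionFn_eq_zD]
  exact zD_pos h.hφ h.hst hβ (measurableSet_cube L) (volume_cube_ne_top L)
    (volume_cube_ne_zero hL) n

/-- index vector of a cell -/
private def idx {m : ℕ} (c : Fin m × Fin m × Fin m) : Fin 3 → ℕ := ![c.1, c.2.1, c.2.2]

private lemma idx_lt {m : ℕ} (c : Fin m × Fin m × Fin m) (k : Fin 3) : idx c k < m := by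
  fin_cases k
  · exact c.1.2
  · exact c.2.1.2
  · exact c.2.2.2

private lemma idx_inj {m : ℕ} {c c' : Fin m × Fin m × Fin m} (h : c ≠ c') :
    ∃ k, idx c k ≠ idx c' k := by
  by_contra hcon
  push Not at hcon
  apply h
  have h0 := hcon 0
  have h1 := hcon 1
  have h2 := hcon 2
  simp only [idx, Matrix.cons_val_zero, Matrix.cons_val_one, Matrix.cons_val] at h0 h1 h2
  exact Prod.ext (Fin.ext h0) (Prod.ext (Fin.ext h1) (Fin.ext h2))

/-- translation vector of a cell -/
private noncomputable def shift {m : ℕ} (L : ℝ) (c : Fin m × Fin m × Fin m) : Pt :=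
  WithLp.toLp 2 (fun k => (L + 1) * (idx c k : ℝ))

private lemma mem_cell {m : ℕ} {L : ℝ} {c : Fin m × Fin m × Fin m} {x : Pt}
    (hx : x ∈ (fun y => shift L c + y) '' cube L) (k : Fin 3) :
    (L + 1) * (idx c k : ℝ) ≤ x k ∧ x k ≤ (L + 1) * (idx c k : ℝ) + L := by
  obtain ⟨y, hy, rfl⟩ := hx
  have := hy k
  simp only [shift, PiLp.add_apply]
  constructor <;> linarith [this.1, this.2]

private lemma dist_ge_one {m : ℕ} {L : ℝ} (hL : 0 < L) {c c' : Fin m × Fin m × Fin m} (hne : c ≠ c')
    {x y : Pt} (hx : x ∈ (fun y => shift L c + y) '' cube L)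
    (hy : y ∈ (fun y => shift L c' + y) '' cube L) : 1 ≤ dist x y := by
  obtain ⟨k, hk⟩ := idx_inj hne
  have h1 := mem_cell hx k
  have h2 := mem_cell hy k
  have hL1 : 0 < L + 1 := by positivity
  have hcoord : |x k - y k| ≤ dist x y := by
    rw [dist_eq_norm]
    have := PiLp.norm_apply_le (x - y) k
    simpa [Real.norm_eq_abs] using this
  refine le_trans ?_ hcoord
  rcases lt_or_gt_of_ne hk with hlt | hlt
  · have h3 : ((idx c k : ℝ) + 1) ≤ (idx c' k : ℝ) := by exact_mod_cast hlt
    have h4 : (L + 1) * ((idx c k : ℝ) + 1) ≤ (L + 1) * (idx c' k : ℝ) := by gcongr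
    rw [abs_sub_comm]
    refine le_trans ?_ (le_abs_self _)
    nlinarith [h1.2, h2.1]
  · have h3 : ((idx c' k : ℝ) + 1) ≤ (idx c k : ℝ) := by exact_mod_cast hlt
    have h4 : (L + 1) * ((idx c' k : ℝ) + 1) ≤ (L + 1) * (idx c k : ℝ) := by gcongr
    refine le_trans ?_ (le_abs_self _)
    nlinarith [h1.1, h2.2]

/-- The `ThermoData` for `z L n = log Z(φ, L, n, β)`, with `b = β B`, `c = β V₁`. -/
theorem Admissible.thermoData (h : Admissible φ v B V₁) (hβ : 0 ≤ β) :
    ThermoData (fun L n => Real.log (partitionFn φ L n β)) (β * B) (β * V₁) := by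
  have hV₁ := h.V₁_nonneg
  refine ⟨mul_nonneg hβ h.hB, mul_nonneg hβ hV₁, ?_, ?_, ?_, ?_, ?_⟩
  · intro L _
    simp [partitionFn_eq_zD]
  · intro L hL m hm n
    classical
    have hD1 : 0 < L + 1 := by positivity
    have hM : 0 < (m : ℝ) * (L + 1) := by
      have : (0 : ℝ) < m := by exact_mod_cast hm
      positivity
    -- the cells
    set D : Fin m × Fin m × Fin m → Set Pt := fun c => (fun y => shift L c + y) '' cube L with hD
    have hDmeas : ∀ c ∈ (Finset.univ : Finset (Fin m × Fin m × Fin m)), MeasurableSet (D c) := by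
      intro c _
      have : D c = (fun y => -shift L c + y) ⁻¹' cube L := by
        rw [hD]
        exact Set.image_add_left
      rw [this]
      exact (measurable_const.add measurable_id) (measurableSet_cube L)
    have hDvol : ∀ c ∈ (Finset.univ : Finset (Fin m × Fin m × Fin m)), volume (D c) ≠ ⊤ := by
      intro c _
      have : D c = (fun y => -shift L c + y) ⁻¹' cube L := by
        rw [hD]
        exact Set.image_add_left
      rw [this, measure_preimage_add]
      exact volume_cube_ne_top L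
    have hdisj : ∀ c ∈ (Finset.univ : Finset (Fin m × Fin m × Fin m)),
        ∀ c' ∈ (Finset.univ : Finset (Fin m × Fin m × Fin m)), c ≠ c' → Disjoint (D c) (D c') := by
      intro c _ c' _ hne
      rw [Set.disjoint_left]
      intro x hx hx'
      have := dist_ge_one hL hne hx hx'
      rw [dist_self] at this
      linarith
    have hcross : ∀ c ∈ (Finset.univ : Finset (Fin m × Fin m × Fin m)),
        ∀ c' ∈ (Finset.univ : Finset (Fin m × Fin m × Fin m)), c ≠ c' →
          ∀ x ∈ D c, ∀ y ∈ D c', φ (dist x y) ≤ 0 := by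
      intro c _ c' _ hne x hx y hy
      exact h.hfar _ (dist_ge_one hL hne hx hy)
    have hsplit := zD_split_finset h.hφ h.hst hβ Finset.univ D hDmeas hDvol hdisj hcross n
    have htrans : ∀ c, zD φ (D c) (n c) β = partitionFn φ L (n c) β := by
      intro c
      rw [hD, partitionFn_eq_zD]
      exact zD_translate φ (shift L c) (cube L) (n c) β
    have hsub : (⋃ c ∈ (Finset.univ : Finset (Fin m × Fin m × Fin m)), D c) ⊆
        cube ((m : ℝ) * (L + 1)) := by
      intro x hx
      simp only [Finset.mem_univ, iUnion_true, mem_iUnion] at hx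
      obtain ⟨c, hc⟩ := hx
      intro k
      have h1 := mem_cell hc k
      have h2 := idx_lt c k
      have h3 : ((idx c k : ℝ) + 1) ≤ (m : ℝ) := by exact_mod_cast h2
      have h4 : (0 : ℝ) ≤ (idx c k : ℝ) := Nat.cast_nonneg _
      constructor
      · have : 0 ≤ (L + 1) * (idx c k : ℝ) := by positivity
        linarith [h1.1]
      · have : (L + 1) * ((idx c k : ℝ) + 1) ≤ (L + 1) * (m : ℝ) := by gcongr
        nlinarith [h1.2]
    have hUmeas : MeasurableSet (⋃ c ∈ (Finset.univ : Finset (Fin m × Fin m × Fin m)), D c) :=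
      Finset.univ.measurableSet_biUnion hDmeas
    have hmono := zD_mono (D₁ := ⋃ c ∈ (Finset.univ : Finset (Fin m × Fin m × Fin m)), D c)
      h.hφ h.hst hβ (measurableSet_cube _) (volume_cube_ne_top _) hUmeas hsub
      (∑ c ∈ Finset.univ, n c)
    have hle : ∏ c, partitionFn φ L (n c) β ≤ partitionFn φ ((m : ℝ) * (L + 1)) (∑ c, n c) β := by
      rw [partitionFn_eq_zD φ ((m : ℝ) * (L + 1))]
      refine le_trans ?_ hmono
      refine le_trans (le_of_eq ?_) hsplit
      exact Finset.prod_congr rfl fun c _ => (htrans c).symm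
    have hpos : ∀ c ∈ (Finset.univ : Finset (Fin m × Fin m × Fin m)),
        partitionFn φ L (n c) β ≠ 0 := fun c _ => (h.zpos hβ hL (n c)).ne'
    have hprodpos : 0 < ∏ c, partitionFn φ L (n c) β :=
      Finset.prod_pos fun c _ => h.zpos hβ hL (n c)
    have := Real.log_le_log hprodpos hle
    rwa [Real.log_prod hpos] at this
  · intro L L' n hL hLL'
    apply Real.log_le_log (h.zpos hβ hL n)
    rw [partitionFn_eq_zD, partitionFn_eq_zD]
    refine zD_mono h.hφ h.hst hβ (measurableSet_cube L') (volume_cube_ne_top L')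
      (measurableSet_cube L) ?_ n
    intro x hx k
    exact ⟨(hx k).1, (hx k).2.trans hLL'⟩
  · intro L n hL
    have hx : 0 < L ^ 3 := by positivity
    have h1 := zD_add (D := cube L) h.hφ h.hst hβ h.hv h.hφv h.hv0 h.hint h.hV
      (measurableSet_cube L) (volume_cube_ne_top L) (volume_cube_ne_zero hL) n
    rw [volume_cube L hL.le, ← partitionFn_eq_zD, ← partitionFn_eq_zD] at h1
    have hs : (0 : ℝ) < (n : ℝ) + 1 := by positivity
    have hz := h.zpos hβ hL n
    have hdiv : 0 < L ^ 3 / ((n : ℝ) + 1) := by positivity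
    have h2 := Real.log_le_log (by positivity) h1
    rw [Real.log_mul (by positivity) (by positivity), Real.log_mul hz.ne' hdiv.ne',
      Real.log_exp] at h2
    have e : -β * n * V₁ / L ^ 3 = -(β * V₁ * n / L ^ 3) := by ring
    rw [e] at h2
    linarith
  · intro L n hL
    have h1 := zD_le_of_stable (D := cube L) (N := n) h.hφ h.hst hβ (measurableSet_cube L)
      (volume_cube_ne_top L)
    rw [volume_cube L hL.le, ← partitionFn_eq_zD] at h1
    have hz := h.zpos hβ hL n
    have hf : (0 : ℝ) < (Nat.factorial n : ℝ) := by exact_mod_cast Nat.factorial_pos n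
    have hx : 0 < L ^ 3 := by positivity
    have h2 := Real.log_le_log hz h1
    rw [Real.log_div (by positivity) hf.ne', Real.log_mul (by positivity) (by positivity),
      Real.log_pow, Real.log_exp] at h2
    linarith

end Crest.Agent.Lib.Gas
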