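import Crest.Agent.Lib.Gas.ThermoPot1

/-! # Gas C2: the limit `Psi` for admissible potentials. -/
namespace Crest.Agent.Lib.Gas
open MeasureTheory Set Filter Topology
open Crest.ProbabilityR.Continuum

variable {φ φ' v : ℝ → ℝ} {B B' V₁ β ρ : ℝ}

private lemma exists_psi (h : Admissible φ v B V₁) (hβ : 0 ≤ β) :
    (∀ ρ : ℝ, 0 ≤ ρ →
      Tendsto (fun L : ℝ => Real.log (partitionFn φ L ⌊ρ * L ^ 3⌋₊ β) / L ^ 3) atTop
        (𝓝 (Psi φ β ρ))) ∧
      Psi φ β 0 = 0 ∧ ConcaveOn ℝ (Ici 0) (Psi φ β) ∧ ContinuousOn (Psi φ β) (Ici 0) ∧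
      (∀ (L : ℝ) (n : ℕ), 0 < L →
        Real.log (partitionFn φ L n β) ≤ (L + 1) ^ 3 * Psi φ β ((n : ℝ) / (L + 1) ^ 3)) ∧
      (∀ ρ : ℝ, 0 < ρ → Psi φ β ρ ≤ ρ * (1 + β * B - Real.log ρ)) ∧
      (∀ ρ : ℝ, 0 < ρ → ρ * (1 - Real.log ρ) - β * V₁ * ρ ^ 2 / 2 ≤ Psi φ β ρ) := by
  obtain ⟨ψ, h1, h2, h3, h4, h5, h6, h7⟩ := thermo_limit (h.thermoData hβ)
  have e : ∀ ρ : ℝ, 0 ≤ ρ → Psi φ β ρ = ψ ρ := fun ρ hρ => (h1 ρ hρ).limsup_eq
  refine ⟨fun ρ hρ => ?_, ?_, ⟨convex_Ici 0, fun x hx y hy a b ha hb hab => ?_⟩, ?_, ?_, ?_, ?_⟩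
  · rw [e ρ hρ]
    exact h1 ρ hρ
  · rw [e 0 le_rfl, h2]
  · have hmem := (convex_Ici (0 : ℝ)) hx hy ha hb hab
    rw [e _ hx, e _ hy, e _ hmem]
    exact h3.2 hx hy ha hb hab
  · exact h4.congr fun x hx => e x hx
  · intro L n hL
    have hD : 0 ≤ (n : ℝ) / (L + 1) ^ 3 := by positivity
    rw [e _ hD]
    exact h5 L n hL
  · intro ρ hρ
    rw [e ρ hρ.le]
    exact h6 ρ hρ
  · intro ρ hρ
    rw [e ρ hρ.le]
    exact h7 ρ hρ

theorem Admissible.tendsto (h : Admissible φ v B V₁) (hβ : 0 ≤ β) (hρ : 0 ≤ ρ) :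
    Tendsto (fun L : ℝ => Real.log (partitionFn φ L ⌊ρ * L ^ 3⌋₊ β) / L ^ 3) atTop
      (𝓝 (Psi φ β ρ)) :=
  (exists_psi h hβ).1 ρ hρ

theorem Admissible.psi_zero (h : Admissible φ v B V₁) (hβ : 0 ≤ β) : Psi φ β 0 = 0 :=
  (exists_psi h hβ).2.1

theorem Admissible.concave (h : Admissible φ v B V₁) (hβ : 0 ≤ β) :
    ConcaveOn ℝ (Ici 0) (Psi φ β) :=
  (exists_psi h hβ).2.2.1

theorem Admissible.continuous (h : Admissible φ v B V₁) (hβ : 0 ≤ β) :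
    ContinuousOn (Psi φ β) (Ici 0) :=
  (exists_psi h hβ).2.2.2.1

/-- Finite volume inequality. -/
theorem Admissible.fv (h : Admissible φ v B V₁) (hβ : 0 ≤ β) {L : ℝ} (hL : 0 < L) (n : ℕ) :
    Real.log (partitionFn φ L n β) ≤ (L + 1) ^ 3 * Psi φ β ((n : ℝ) / (L + 1) ^ 3) :=
  (exists_psi h hβ).2.2.2.2.1 L n hL

theorem Admissible.ub (h : Admissible φ v B V₁) (hβ : 0 ≤ β) (hρ : 0 < ρ) :
    Psi φ β ρ ≤ ρ * (1 + β * B - Real.log ρ) :=
  (exists_psi h hβ).2.2.2.2.2.1 ρ hρ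

theorem Admissible.lb (h : Admissible φ v B V₁) (hβ : 0 ≤ β) (hρ : 0 < ρ) :
    ρ * (1 - Real.log ρ) - β * V₁ * ρ ^ 2 / 2 ≤ Psi φ β ρ :=
  (exists_psi h hβ).2.2.2.2.2.2 ρ hρ

private lemma volume_cube_ne_zero' {L : ℝ} (hL : 0 < L) : volume (cube L) ≠ 0 := by
  intro h0
  have := volume_cube L hL.le
  rw [Measure.real, h0] at this
  simp only [ENNReal.toReal_zero] at this
  have h3 : 0 < L ^ 3 := by positivity
  linarith

/-- Convexity in `β`. -/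
theorem Admissible.convex_beta (h : Admissible φ v B V₁) (hρ : 0 ≤ ρ) :
    ConvexOn ℝ (Ici 0) (fun β => Psi φ β ρ) := by
  refine ⟨convex_Ici 0, fun x hx y hy a b ha hb hab => ?_⟩
  have hmem := (convex_Ici (0 : ℝ)) hx hy ha hb hab
  simp only [smul_eq_mul] at hmem ⊢
  have h1 := h.tendsto (β := a * x + b * y) hmem hρ
  have h2 := h.tendsto (β := x) hx hρ
  have h3 := h.tendsto (β := y) hy hρ
  refine le_of_tendsto_of_tendsto h1 ((h2.const_mul a).add (h3.const_mul b)) ?_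
  filter_upwards [eventually_gt_atTop 0] with L hL
  have hconv := (log_zD_convex_beta (D := cube L) (N := ⌊ρ * L ^ 3⌋₊) h.hφ h.hst
    (measurableSet_cube L) (volume_cube_ne_top L) (volume_cube_ne_zero' hL)).2 hx hy ha hb hab
  simp only [smul_eq_mul] at hconv
  simp only [partitionFn_eq_zD]
  have hx3 : 0 < L ^ 3 := by positivity
  have e : a * (Real.log (zD φ (cube L) ⌊ρ * L ^ 3⌋₊ x) / L ^ 3) +
      b * (Real.log (zD φ (cube L) ⌊ρ * L ^ 3⌋₊ y) / L ^ 3) =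
      (a * Real.log (zD φ (cube L) ⌊ρ * L ^ 3⌋₊ x) +
        b * Real.log (zD φ (cube L) ⌊ρ * L ^ 3⌋₊ y)) / L ^ 3 := by
    ring
  rw [e]
  exact div_le_div_of_nonneg_right hconv hx3.le

/-- One-sided Lipschitz in `β`. -/
theorem Admissible.beta_lip (h : Admissible φ v B V₁) {β' : ℝ} (hβ : 0 ≤ β) (hββ' : β ≤ β')
    (hρ : 0 ≤ ρ) : Psi φ β' ρ ≤ Psi φ β ρ + (β' - β) * B * ρ := by
  have h1 := h.tendsto (β := β') (hβ.trans hββ') hρ
  have h2 := h.tendsto (β := β) hβ hρ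
  have h3 := ThermoAux.tendsto_r hρ
  refine le_of_tendsto_of_tendsto h1 (h2.add (h3.const_mul ((β' - β) * B))) ?_
  filter_upwards [eventually_gt_atTop 0] with L hL
  have hx3 : 0 < L ^ 3 := by positivity
  set N := ⌊ρ * L ^ 3⌋₊ with hN
  have h4 := zD_beta_lip (D := cube L) (N := N) h.hφ h.hst hβ hββ' (measurableSet_cube L)
    (volume_cube_ne_top L) (volume_cube_ne_zero' hL)
  rw [← partitionFn_eq_zD, ← partitionFn_eq_zD] at h4
  have hz := h.zpos hβ hL N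
  have hz' := h.zpos (hβ.trans hββ') hL N
  have h5 := Real.log_le_log hz' h4
  rw [Real.log_mul hz.ne' (Real.exp_pos _).ne', Real.log_exp] at h5
  have e : Real.log (partitionFn φ L N β) / L ^ 3 + (β' - β) * B * ((N : ℝ) / L ^ 3) =
      (Real.log (partitionFn φ L N β) + (β' - β) * B * N) / L ^ 3 := by
    ring
  rw [e]
  exact div_le_div_of_nonneg_right h5 hx3.le

/-- Monotonicity in the potential. -/
theorem Psi_anti (h : Admissible φ v B V₁) (h' : Admissible φ' v B' V₁) (hle : ∀ r, φ r ≤ φ' r)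
    (hβ : 0 ≤ β) (hρ : 0 ≤ ρ) : Psi φ' β ρ ≤ Psi φ β ρ := by
  refine le_of_tendsto_of_tendsto (h'.tendsto hβ hρ) (h.tendsto hβ hρ) ?_
  filter_upwards [eventually_gt_atTop 0] with L hL
  have hx3 : 0 < L ^ 3 := by positivity
  apply div_le_div_of_nonneg_right _ hx3.le
  set N := ⌊ρ * L ^ 3⌋₊ with hN
  apply Real.log_le_log (h'.zpos hβ hL N)
  have hmeas : MeasurableSet (Set.pi Set.univ (fun _ : Fin N => cube L)) :=
    MeasurableSet.univ_pi fun _ => measurableSet_cube L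
  unfold partitionFn
  apply mul_le_mul_of_nonneg_left _ (by positivity)
  refine setIntegral_mono_on
    (integrableOn_boltz h'.hφ h'.hst hβ (measurableSet_cube L) (volume_cube_ne_top L) N)
    (integrableOn_boltz h.hφ h.hst hβ (measurableSet_cube L) (volume_cube_ne_top L) N) hmeas ?_
  intro x _
  apply Real.exp_le_exp.2
  have hE : energy φ x ≤ energy φ' x := by
    unfold energy
    exact Finset.sum_le_sum fun p _ => hle _
  nlinarith

/-- Convexity in the coupling of a family `v - s T`. -/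
theorem Psi_param_convex {T : ℝ → ℝ} {s₀ s₁ t : ℝ} (hT : Measurable T)
    (h₀ : Admissible (fun r => v r - s₀ * T r) v B V₁)
    (h₁ : Admissible (fun r => v r - s₁ * T r) v B V₁)
    (h : Admissible (fun r => v r - ((1 - t) * s₀ + t * s₁) * T r) v B V₁)
    (ht0 : 0 ≤ t) (ht1 : t ≤ 1) (hβ : 0 ≤ β) (hρ : 0 ≤ ρ) :
    Psi (fun r => v r - ((1 - t) * s₀ + t * s₁) * T r) β ρ ≤
      (1 - t) * Psi (fun r => v r - s₀ * T r) β ρ + t * Psi (fun r => v r - s₁ * T r) β ρ := by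
  refine le_of_tendsto_of_tendsto (h.tendsto hβ hρ)
    (((h₀.tendsto hβ hρ).const_mul (1 - t)).add ((h₁.tendsto hβ hρ).const_mul t)) ?_
  filter_upwards [eventually_gt_atTop 0] with L hL
  have hx3 : 0 < L ^ 3 := by positivity
  have hconv := log_zD_convex_param (D := cube L) (N := ⌊ρ * L ^ 3⌋₊) h.hv hT hβ h₀.hst h₁.hst
    ht0 ht1 (measurableSet_cube L) (volume_cube_ne_top L) (volume_cube_ne_zero' hL)
  simp only [partitionFn_eq_zD]
  have e : (1 - t) * (Real.log (zD (fun r => v r - s₀ * T r) (cube L) ⌊ρ * L ^ 3⌋₊ β) / L ^ 3) +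
      t * (Real.log (zD (fun r => v r - s₁ * T r) (cube L) ⌊ρ * L ^ 3⌋₊ β) / L ^ 3) =
      ((1 - t) * Real.log (zD (fun r => v r - s₀ * T r) (cube L) ⌊ρ * L ^ 3⌋₊ β) +
        t * Real.log (zD (fun r => v r - s₁ * T r) (cube L) ⌊ρ * L ^ 3⌋₊ β)) / L ^ 3 := by
    ring
  rw [e]
  exact div_le_div_of_nonneg_right hconv hx3.le

end Crest.Agent.Lib.Gas
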