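import Crest.Agent.Lib.Gas.TripleChain
import Crest.Agent.Lib.Gas.TripleGaps

/-! # Triple point: the energy of phase `A`. -/
namespace Crest.Agent.Lib.Gas
open Set Filter Topology
namespace TripleData
variable (D : TripleData)

private theorem concave_le_left {f : ℝ → ℝ} {qm q a b : ℝ} (hf : ConcaveOn ℝ (Icc 0 qm) f)
    (hq : q ∈ Icc 0 qm) (hb : b ∈ Icc 0 qm) (hqa : q < a) (hab : a < b) (h : f a ≤ f b) :
    f q ≤ f a := by
  by_contra hcon
  push Not at hcon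
  have hd : 0 < b - q := by linarith
  have ha1 : 0 < (b - a) / (b - q) := div_pos (by linarith) hd
  have hb1 : 0 ≤ (a - q) / (b - q) := div_nonneg (by linarith) hd.le
  have hab1 : (b - a) / (b - q) + (a - q) / (b - q) = 1 := by field_simp; ring
  have h2 := hf.2 hq hb ha1.le hb1 hab1
  simp only [smul_eq_mul] at h2
  have harg : (b - a) / (b - q) * q + (a - q) / (b - q) * b = a := by field_simp; ring
  rw [harg] at h2
  have h4 : (a - q) / (b - q) = 1 - (b - a) / (b - q) := by linarith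
  have h5 : (a - q) / (b - q) * f a ≤ (a - q) / (b - q) * f b := mul_le_mul_of_nonneg_left h hb1
  have h6 : (b - a) / (b - q) * f a < (b - a) / (b - q) * f q := mul_lt_mul_of_pos_left hcon ha1
  have h7 : (b - a) / (b - q) * f a + (a - q) / (b - q) * f a = f a := by
    rw [← add_mul, hab1, one_mul]
  linarith

private theorem concave_le_right {f : ℝ → ℝ} {qm q a b : ℝ} (hf : ConcaveOn ℝ (Icc 0 qm) f)
    (hq : q ∈ Icc 0 qm) (hb : b ∈ Icc 0 qm) (hqa : a < q) (hab : b < a) (h : f a ≤ f b) :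
    f q ≤ f a := by
  by_contra hcon
  push Not at hcon
  have hd : 0 < q - b := by linarith
  have ha1 : 0 < (a - b) / (q - b) := div_pos (by linarith) hd
  have hb1 : 0 ≤ (q - a) / (q - b) := div_nonneg (by linarith) hd.le
  have hab1 : (a - b) / (q - b) + (q - a) / (q - b) = 1 := by field_simp; ring
  have h2 := hf.2 hq hb ha1.le hb1 hab1
  simp only [smul_eq_mul] at h2
  have harg : (a - b) / (q - b) * q + (q - a) / (q - b) * b = a := by field_simp; ring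
  rw [harg] at h2
  have h5 : (q - a) / (q - b) * f a ≤ (q - a) / (q - b) * f b := mul_le_mul_of_nonneg_left h hb1
  have h6 : (a - b) / (q - b) * f a < (a - b) / (q - b) * f q := mul_lt_mul_of_pos_left hcon ha1
  have h7 : (a - b) / (q - b) * f a + (q - a) / (q - b) * f a = f a := by
    rw [← add_mul, hab1, one_mul]
  linarith

/-- Numerics of the edges. -/
private theorem edges : 2 * D.κ₀ < D.θ - 2 * D.κ₀ ∧ D.θ - 2 * D.κ₀ < D.θ + 2 * D.κ₀ ∧
    D.θ + 2 * D.κ₀ < D.K * D.θ - 2 * D.κ₀ ∧ D.K * D.θ - 2 * D.κ₀ ≤ D.qmax ∧ 0 < 2 * D.κ₀ ∧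
    1 / 2 ≤ D.θ - 4 * D.κ₀ ∧ 1 / 2 ≤ (D.K : ℝ) * D.θ - D.θ - 4 * D.κ₀ := by
  have h1 := D.κ₀_pos
  have h2 := D.κ₀_small
  have h3 := D.hθ0
  have h4 := D.two_le_K
  have h5 := D.Kθ_le_qmax
  have h6 : 2 * D.θ ≤ D.K * D.θ := mul_le_mul_of_nonneg_right h4 (by linarith)
  refine ⟨by linarith, by linarith, by linarith, by linarith, by linarith, by linarith, by linarith⟩

/-- The low side, with margin `m`. -/
private theorem side_low {β μ m x q : ℝ} (hβ : β ∈ Icc (1 / 2 : ℝ) 2) (hm : m ≤ D.s₁ β + μ)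
    (hm0 : 0 < m) (hq : q ∈ D.Q) (hq' : q ≤ 2 * D.κ₀)
    (hnear : D.Pinf β (D.θ - 2 * D.κ₀) + μ * (D.θ - 2 * D.κ₀) ≤ D.Pinf β q + μ * q + x)
    (hx : x < m / 2) : False := by
  obtain ⟨e1, e2, e3, e4, e5, e6, e7⟩ := D.edges
  set a := 2 * D.κ₀ with ha
  set b := D.θ - 2 * D.κ₀ with hb
  have hΨ := concaveOn_add_lin (D.hconcI β hβ) μ
  have hbQ : b ∈ Icc 0 D.qmax := ⟨by linarith, by linarith⟩
  have hba : D.Pinf β b = D.Pinf β a + D.s₁ β * (b - a) :=
    D.affine₁ hβ b ⟨e1.le, le_rfl⟩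
  have hdiff' : 1 / 2 ≤ b - a := by rw [ha, hb]; linarith
  have hgain : m * (1 / 2) ≤ (D.s₁ β + μ) * (b - a) := by
    have h1 : 0 ≤ D.s₁ β + μ := by linarith
    nlinarith
  have hab : D.Pinf β a + μ * a ≤ D.Pinf β b + μ * b := by
    rw [hba]; nlinarith
  have h2 : D.Pinf β q + μ * q ≤ D.Pinf β a + μ * a := by
    rcases eq_or_lt_of_le hq' with heq | hlt
    · rw [heq]
    · exact concave_le_left hΨ hq hbQ hlt e1 hab
  rw [hba] at hnear
  nlinarith

/-- The high side, with margin `m`. -/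
private theorem side_high {β μ m x q : ℝ} (hβ : β ∈ Icc (1 / 2 : ℝ) 2) (hm : m ≤ - D.s₂ β - μ)
    (hm0 : 0 < m) (hq : q ∈ D.Q) (hq' : D.K * D.θ - 2 * D.κ₀ ≤ q)
    (hnear : D.Pinf β (D.θ + 2 * D.κ₀) + μ * (D.θ + 2 * D.κ₀) ≤ D.Pinf β q + μ * q + x)
    (hx : x < m / 2) : False := by
  obtain ⟨e1, e2, e3, e4, e5, e6, e7⟩ := D.edges
  set a := D.K * D.θ - 2 * D.κ₀ with ha
  set b := D.θ + 2 * D.κ₀ with hb
  have hΨ := concaveOn_add_lin (D.hconcI β hβ) μ
  have hbQ : b ∈ Icc 0 D.qmax := ⟨by linarith, by linarith⟩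
  have hab0 := D.affine₂ hβ a ⟨e3.le, le_rfl⟩
  rw [← hb] at hab0
  have hdiff' : 1 / 2 ≤ a - b := by rw [ha, hb]; linarith
  have hgain : m * (1 / 2) ≤ (- D.s₂ β - μ) * (a - b) := by
    have h1 : 0 ≤ - D.s₂ β - μ := by linarith
    nlinarith
  have hab : D.Pinf β a + μ * a ≤ D.Pinf β b + μ * b := by
    rw [hab0]; nlinarith
  have h2 : D.Pinf β q + μ * q ≤ D.Pinf β a + μ * a := by
    rcases eq_or_lt_of_le hq' with heq | hlt
    · rw [heq]
    · exact concave_le_right hΨ hq hbQ hlt e3 hab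
  rw [hab0] at h2
  nlinarith

/-- A maximiser in the region between the two slopes lies in the window (concavity, `affine₁₂`). -/
theorem max_mem_window {β μ q : ℝ} (hβ : β ∈ Icc (1 / 2 : ℝ) 2) (h1 : - D.s₁ β < μ) (h2 : μ < - D.s₂ β)
    (hq : q ∈ D.Q) (hmax : ∀ q', q' ∈ D.Q → D.Pinf β q' + μ * q' ≤ D.Pinf β q + μ * q) :
    q ∈ Icc (D.θ - 2 * D.κ₀) (D.θ + 2 * D.κ₀) := by
  obtain ⟨e1, e2, e3, e4, e5, e6, e7⟩ := D.edges
  have hm1 : 0 < D.s₁ β + μ := by linarith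
  have hm2 : 0 < - D.s₂ β - μ := by linarith
  have hbQ : D.θ - 2 * D.κ₀ ∈ D.Q := ⟨by linarith, by linarith⟩
  have haQ : D.θ + 2 * D.κ₀ ∈ D.Q := ⟨by linarith, by linarith⟩
  constructor
  · by_contra hcon
    push Not at hcon
    by_cases hq2 : q ≤ 2 * D.κ₀
    · exact D.side_low hβ le_rfl hm1 hq hq2 (by linarith [hmax _ hbQ]) (x := 0) (by linarith)
    · push Not at hq2
      have h3 := D.affine₁ hβ q ⟨hq2.le, hcon.le⟩
      have h4 := D.affine₁ hβ (D.θ - 2 * D.κ₀) ⟨e1.le, le_rfl⟩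
      have h5 := hmax _ hbQ
      rw [h3, h4] at h5
      nlinarith
  · by_contra hcon
    push Not at hcon
    by_cases hq2 : D.K * D.θ - 2 * D.κ₀ ≤ q
    · exact D.side_high hβ le_rfl hm2 hq hq2 (by linarith [hmax _ haQ]) (x := 0) (by linarith)
    · push Not at hq2
      have h3 := D.affine₂ hβ q ⟨hcon.le, hq2.le⟩
      have h5 := hmax _ haQ
      rw [h3] at h5
      nlinarith

private theorem window_of_near {β μ m : ℝ} {J : ℕ} (hβ : β ∈ Icc (1 / 2 : ℝ) 2) (hμ : |μ| ≤ D.M₀)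
    (hm0 : 0 < m) (hm1 : m ≤ D.s₁ β + μ) (hm2 : m ≤ - D.s₂ β - μ) (herr : 2 * D.err J < m / 2)
    {ρ : ℝ} (hρ : ρ ∈ D.Q)
    (hmax : ∀ q, q ∈ D.Q → D.F J (D.tail J) β μ q ≤ D.F J (D.tail J) β μ ρ) :
    ρ ∈ Icc (D.θ - 2 * D.κ₀) (D.θ + 2 * D.κ₀) := by
  obtain ⟨e1, e2, e3, e4, e5, e6, e7⟩ := D.edges
  have hκs := D.κ₀_small
  have hκp := D.κ₀_pos
  have hθ0 := D.hθ0
  have hθ1 := D.hθ1
  have hK := D.two_le_K
  have hKθ : 2 * D.θ ≤ D.K * D.θ := mul_le_mul_of_nonneg_right hK (by linarith)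
  -- near maximality
  have hnear : ∀ q, q ∈ D.Q → D.Pinf β q + μ * q ≤ D.Pinf β ρ + μ * ρ + 2 * D.err J := by
    intro q hq
    obtain ⟨q', hq', hle⟩ := D.H4I J β μ hβ hμ q hq
    have h1 := hmax q' hq'
    have h2 := D.H3I J β hβ ρ hρ
    unfold F at h1
    change D.Pinf β q + μ * q ≤ D.P J β q' + (β * D.tail J / 2) * q' ^ 2 + μ * q' + D.err J at hle
    change D.P J β ρ + (β * D.tail J / 2) * ρ ^ 2 - D.err J ≤ D.Pinf β ρ at h2
    linarith
  have hbQ : D.θ - 2 * D.κ₀ ∈ D.Q := ⟨by linarith, by linarith⟩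
  have haQ : D.θ + 2 * D.κ₀ ∈ D.Q := ⟨by linarith, by linarith⟩
  have hlow : 2 * D.κ₀ < ρ := by
    by_contra hcon
    push Not at hcon
    exact D.side_low hβ hm1 hm0 hρ hcon (hnear _ hbQ) herr
  have hhigh : ρ < D.K * D.θ - 2 * D.κ₀ := by
    by_contra hcon
    push Not at hcon
    exact D.side_high hβ hm2 hm0 hρ hcon (hnear _ haQ) herr
  have hs := D.shr_le J
  have hs0 := D.shr_nonneg J
  have hW1 : D.W - 1 ≤ D.aa 0 := D.haa0
  have hW2 : D.aa 0 ≤ D.W := by have := D.aa_le_tail 0; rwa [D.tail_zero] at this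
  constructor
  · by_contra hcon
    push Not at hcon
    have hloc := D.loc_of_excl (u := D.κ₀) (v := D.θ - D.κ₀) hβ hκp.le (by linarith)
      (by linarith) (by
        intro a ha μ' q hq
        refine D.excl₁ hβ ?_ ?_ μ' q hq
        · rcases ha with h | h <;> rw [h] <;> linarith
        · rcases ha with h | h <;> rw [h] <;> linarith) J (D.tail J) (Or.inr rfl) μ ρ
      ⟨by linarith, by linarith⟩
    obtain ⟨q', hq', hlt⟩ := hloc
    exact absurd (hmax q' hq') (not_le.mpr hlt)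
  · by_contra hcon
    push Not at hcon
    have hloc := D.loc_of_excl (u := D.θ + D.κ₀) (v := D.K * D.θ - D.κ₀) hβ (by linarith) (by linarith)
      (by linarith) (by
        intro a ha μ' q hq
        refine D.excl₂ hβ ?_ ?_ μ' q hq
        · rcases ha with h | h <;> rw [h] <;> linarith
        · rcases ha with h | h <;> rw [h] <;> linarith) J (D.tail J) (Or.inr rfl) μ ρ
      ⟨by linarith, by linarith⟩
    obtain ⟨q', hq', hlt⟩ := hloc
    exact absurd (hmax q' hq') (not_le.mpr hlt)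

/-- Sum of the errors along the chain. -/
private theorem sum_err_le (J : ℕ) :
    ∑ i ∈ Finset.range J, 2 * D.err i / (D.ϑ * D.aa (i + 1)) ≤ 4 * D.δ / D.ϑ := by
  have hϑ := D.hϑ0
  have hδ := D.hδ0
  have hterm : ∀ i, 2 * D.err i / (D.ϑ * D.aa (i + 1)) ≤ 2 * D.δ / D.ϑ * (1 / 2 : ℝ) ^ i := by
    intro i
    have hai := D.haa_pos (i + 1)
    rw [div_le_iff₀ (by positivity)]
    have h := D.herr i
    have e : 2 * D.δ / D.ϑ * (1 / 2 : ℝ) ^ i * (D.ϑ * D.aa (i + 1))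
        = 2 * (D.δ * (1 / 2 : ℝ) ^ i * D.aa (i + 1)) := by
      field_simp
    rw [e]
    linarith
  have key : ∀ J, ∑ i ∈ Finset.range J, 2 * D.err i / (D.ϑ * D.aa (i + 1))
      ≤ 4 * D.δ / D.ϑ * (1 - (1 / 2 : ℝ) ^ J) := by
    intro J
    induction J with
    | zero => simp
    | succ n ih =>
      rw [Finset.sum_range_succ, pow_succ]
      have := hterm n
      have e : 2 * D.δ / D.ϑ = 4 * D.δ / D.ϑ * (1 / 2) := by ring
      rw [e] at this
      nlinarith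
  have h := key J
  have h2 : (0 : ℝ) < (1 / 2 : ℝ) ^ J := by positivity
  have h3 : 0 < 4 * D.δ / D.ϑ := by positivity
  nlinarith

set_option maxHeartbeats 1000000 in
/-- **The `A` claim.**  In the open region between the slopes, `g` decreases along `d = (1, -5W/8)` at rate
at least `W/16`, at some scale.  Proof: `J` large, `t = ϑ aa J` so small that `x + t d` remains in the
region, with margin `m` and `2 err J < m/4`; `ρ⁺` maximiser of `F J (tail J)` at `x + t d`: it lies in the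
window (`loc_of_excl`, and the margin excludes the sides); `parabola`; `chain`; `top_step`.
Arithmetic: `(5/8)(θ-2κ₀) - (1+2ϑW)(1/2)(θ+2κ₀)² - 1/100 ≥ 1/16`. -/
theorem Aclaim {β μ : ℝ} (hβ : 7 / 8 ≤ β) (hβ' : β ≤ 9 / 8) (h1 : - D.s₁ β < μ) (h2 : μ < - D.s₂ β) :
    ∃ t : ℝ, 0 < t ∧ t ≤ 1 / 2 ∧ D.gI (β + t) (μ - (5 * D.W / 8) * t) ≤ D.gI β μ - t * (D.W / 16) := by
  have hW := D.W_pos
  have hϑ := D.hϑ0
  have hδ := D.hδ0
  have hC₂ := D.hC₂
  set κ : ℝ := -(5 * D.W / 8) with hκ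
  -- margins
  obtain ⟨m, hm0, hm1, hm2⟩ : ∃ m : ℝ, 0 < m ∧ m < D.s₁ β + μ ∧ m < - D.s₂ β - μ := by
    refine ⟨min (D.s₁ β + μ) (- D.s₂ β - μ) / 2, ?_, ?_, ?_⟩
    · have : 0 < min (D.s₁ β + μ) (- D.s₂ β - μ) := lt_min (by linarith) (by linarith)
      linarith
    · have : min (D.s₁ β + μ) (- D.s₂ β - μ) ≤ D.s₁ β + μ := min_le_left _ _
      have h0 : 0 < min (D.s₁ β + μ) (- D.s₂ β - μ) := lt_min (by linarith) (by linarith)
      linarith
    · have : min (D.s₁ β + μ) (- D.s₂ β - μ) ≤ - D.s₂ β - μ := min_le_right _ _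
      have h0 : 0 < min (D.s₁ β + μ) (- D.s₂ β - μ) := lt_min (by linarith) (by linarith)
      linarith
  -- the scale `t J → 0`
  have htend : Tendsto (fun J => D.ϑ * D.aa J) atTop (𝓝 0) := by
    have := D.haa_sum.summable.tendsto_atTop_zero.const_mul D.ϑ
    simpa using this
  have hβmem : β ∈ Ioo (1 / 2 : ℝ) 2 := ⟨by linarith, by linarith⟩
  have hcβ : Tendsto (fun J => β + D.ϑ * D.aa J) atTop (𝓝 β) := by
    have := tendsto_const_nhds (x := β) |>.add htend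
    simpa using this
  have hs₁β : Tendsto (fun J => D.s₁ (β + D.ϑ * D.aa J) + μ + κ * (D.ϑ * D.aa J)) atTop
      (𝓝 (D.s₁ β + μ + κ * 0)) := by
    have hc := (D.s₁_cont.continuousAt (Ioo_mem_nhds hβmem.1 hβmem.2)).tendsto.comp hcβ
    exact (hc.add_const μ).add (htend.const_mul κ)
  have hs₂β : Tendsto (fun J => - D.s₂ (β + D.ϑ * D.aa J) - μ - κ * (D.ϑ * D.aa J)) atTop
      (𝓝 (- D.s₂ β - μ - κ * 0)) := by
    have hc := (D.s₂_cont.continuousAt (Ioo_mem_nhds hβmem.1 hβmem.2)).tendsto.comp hcβ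
    exact (hc.neg.sub_const μ).sub (htend.const_mul κ)
  have hev1 := hs₁β.eventually (lt_mem_nhds (show m < D.s₁ β + μ + κ * 0 by simpa using hm1))
  have hev2 := hs₂β.eventually (lt_mem_nhds (show m < - D.s₂ β - μ - κ * 0 by simpa using hm2))
  have hev3 : ∀ᶠ J in atTop, 2 * D.err J < m / 2 := by
    have := D.err_tendsto.const_mul 2
    rw [mul_zero] at this
    exact this.eventually (gt_mem_nhds (by linarith))
  obtain ⟨J, hJ1, hJ2, hJ3⟩ := (hev1.and (hev2.and hev3)).exists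
  -- notation
  set t : ℝ := D.ϑ * D.aa J with ht
  have hagt := D.haa_pos J
  have ht0 : 0 < t := by positivity
  have hT0 := D.tail_pos J
  have hTW := D.tail_le J
  have haT := D.aa_le_tail J
  have hϑW := D.hϑW
  have htW : t ≤ D.ϑ * D.W := mul_le_mul_of_nonneg_left (haT.trans hTW) hϑ.le
  have ht1 : t ≤ 1 / 200 := by linarith only [htW, hϑW]
  have hβtm : β + t ∈ Icc (1 / 2 : ℝ) 2 := ⟨by linarith, by linarith⟩
  have hβm : β ∈ Icc (1 / 2 : ℝ) 2 := ⟨by linarith, by linarith⟩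
  -- bound on μ
  have hμ : |μ| ≤ 16 * D.C₂ := by
    have h3 := abs_le.mp (D.abs_s₁_le hβm)
    have h4 := abs_le.mp (D.abs_s₂_le hβm)
    rw [abs_le]
    constructor <;> linarith [h3.1, h3.2, h4.1, h4.2]
  have hκt : |κ * t| ≤ D.W := by
    rw [hκ, abs_mul, abs_neg, abs_of_pos (by positivity : 0 < 5 * D.W / 8), abs_of_pos ht0]
    have h3 := mul_le_mul_of_nonneg_left ht1 (by positivity : 0 ≤ 5 * D.W / 8)
    linarith only [h3, hW]
  have hμt : |μ + κ * t| ≤ D.M₀ := by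
    have := abs_add_le μ (κ * t)
    have hM := D.hM₀
    have hΛ := D.Λ_pos
    linarith
  -- the maximiser
  obtain ⟨ρ, hρ, hmax⟩ := D.exists_max_F J (D.tail J) hβtm (μ + κ * t)
  have hρw : ρ ∈ Icc (D.θ - 2 * D.κ₀) (D.θ + 2 * D.κ₀) :=
    D.window_of_near hβtm hμt hm0 (by linarith [hJ1]) (by linarith [hJ2]) hJ3 hρ hmax
  have hκ₀p := D.κ₀_pos
  have hκ₀s := D.κ₀_small
  have hθ0 := D.hθ0
  have hθ1 := D.hθ1
  have hρ0 : 0 ≤ ρ := hρ.1
  have hρ1 : ρ ≤ D.θ + 2 * D.κ₀ := hρw.2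
  have hρ2 : ρ ≤ 1 + 1 / 1000 := by linarith
  set T := D.tail J with hT
  set μ' : ℝ := μ + (β + t) * T * ρ with hμ'
  have hcert : ∀ q, q ∈ D.Q → D.P J (β + t) q + (μ' + κ * t) * q ≤
      D.P J (β + t) ρ + (μ' + κ * t) * ρ - ((β + t) * T / 2) * (q - ρ) ^ 2 := by
    intro q hq
    have := D.parabola hmax hq
    have e : μ' + κ * t = μ + κ * t + (β + t) * T * ρ := by rw [hμ']; ring
    rw [e]
    exact this
  have hμ'b : |μ'| ≤ 16 * D.C₂ + 4 * T := by
    have h3 : |(β + t) * T * ρ| ≤ 4 * T := by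
      rw [abs_of_nonneg (by positivity)]
      have h4 : (β + t) * ρ ≤ 4 := by
        have h5 : (β + t) * ρ ≤ 2 * (1 + 1 / 1000) :=
          mul_le_mul hβtm.2 hρ2 hρ0 (by norm_num)
        linarith only [h5]
      calc (β + t) * T * ρ = ((β + t) * ρ) * T := by ring
        _ ≤ 4 * T := mul_le_mul_of_nonneg_right h4 hT0.le
    have := abs_add_le μ ((β + t) * T * ρ)
    rw [hμ']
    linarith
  have hchain := D.chain J hβ hβ' hκ ht0 le_rfl haT hμ'b hρw hcert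
  have htop := D.top_step hβm ht0 hβtm hμt hρ hmax
  rw [← hμ'] at htop
  rw [le_div_iff₀ ht0] at hchain
  have hS1 := D.sum_err_le J
  set S1 := ∑ i ∈ Finset.range J, 2 * D.err i / (D.ϑ * D.aa (i + 1)) with hS1def
  set X := (D.θ + 2 * D.κ₀) ^ 2 with hX
  have hX1 : X ≤ 1 + 1 / 1000 := by
    rw [hX]
    have : D.θ + 2 * D.κ₀ ≤ 1 + 1 / 5000 := by linarith
    have h0 : 0 ≤ D.θ + 2 * D.κ₀ := by linarith
    have h1 := pow_le_pow_left₀ h0 this 2
    norm_num at h1 ⊢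
    linarith only [h1]
  have hX0 : 0 ≤ X := by rw [hX]; positivity
  have hρX : ρ ^ 2 ≤ X := by
    rw [hX]
    exact pow_le_pow_left₀ hρ0 hρ1 2
  -- the δ-bounds
  have hδϑ := D.hδϑ
  have hS1' : S1 ≤ D.W / 150 := by
    refine hS1.trans ?_
    rw [div_le_iff₀ hϑ]
    linarith only [hδϑ]
  have herrJ : 2 * D.err J ≤ t * (D.W / 300) := by
    have h3 := D.herr J
    have h4 : D.aa (J + 1) ≤ D.aa J := D.haa_anti (Nat.le_succ J)
    have h5 : (1 / 2 : ℝ) ^ J ≤ 1 := pow_le_one₀ (by norm_num) (by norm_num)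
    have h6 : D.δ * (1 / 2 : ℝ) ^ J * D.aa (J + 1) ≤ D.δ * 1 * D.aa J := by
      have h7 : 0 ≤ D.aa (J + 1) := (D.haa_pos _).le
      have h8 : (1 / 2 : ℝ) ^ J * D.aa (J + 1) ≤ 1 * D.aa J :=
        mul_le_mul h5 h4 h7 (by norm_num)
      have h9 := mul_le_mul_of_nonneg_left h8 hδ.le
      linarith only [h9]
    have h10 : 600 * D.δ * D.aa J ≤ D.ϑ * D.W * D.aa J :=
      mul_le_mul_of_nonneg_right hδϑ hagt.le
    rw [ht]
    linarith only [h3, h6, h10]
  -- the tail term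
  set ε := 2 * D.ϑ * D.W with hε
  have hε0 : 0 < ε := by positivity
  have hε1 : ε ≤ 1 / 100 := by rw [hε]; linarith only [hϑW]
  have hβpos : 0 < β := by linarith
  have htailterm : (t / β) * ((β + t) * T / 2) * ρ ^ 2 ≤ t * ((1 + ε) * (T / 2) * X) := by
    have h3 : t / β ≤ ε := by
      rw [div_le_iff₀ hβpos]
      have h7 : ε * (7 / 8) ≤ ε * β := mul_le_mul_of_nonneg_left hβ hε0.le
      have h8 : 0 < D.ϑ * D.W := by positivity
      have h9 : ε = 2 * (D.ϑ * D.W) := by rw [hε]; ring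
      rw [h9] at h7 ⊢
      linarith only [h7, h8, htW]
    have h4 : (t / β) * (β + t) = t * (1 + t / β) := by field_simp
    have h5 : (t / β) * ((β + t) * T / 2) * ρ ^ 2 = t * ((1 + t / β) * (T / 2) * ρ ^ 2) := by
      have : (t / β) * ((β + t) * T / 2) * ρ ^ 2 = ((t / β) * (β + t)) * (T / 2) * ρ ^ 2 := by ring
      rw [this, h4]; ring
    rw [h5]
    refine mul_le_mul_of_nonneg_left ?_ ht0.le
    have h6 : (1 + t / β) * (T / 2) ≤ (1 + ε) * (T / 2) :=
      mul_le_mul_of_nonneg_right (by linarith) (by positivity)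
    have h7 : 0 ≤ (1 + t / β) * (T / 2) := by positivity
    calc (1 + t / β) * (T / 2) * ρ ^ 2 ≤ (1 + ε) * (T / 2) * ρ ^ 2 :=
          mul_le_mul_of_nonneg_right h6 (by positivity)
      _ ≤ (1 + ε) * (T / 2) * X := mul_le_mul_of_nonneg_left hρX (by positivity)
  -- arithmetic
  have hA : (5 * D.W / 8) * (D.θ - 2 * D.κ₀) - (1 + ε) * (D.W / 2) * X - D.W / 100 ≥ D.W / 16 := by
    have h3 : (5 * D.W / 8) * (9 / 10 + 8 / 100) ≤ (5 * D.W / 8) * (D.θ - 2 * D.κ₀) :=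
      mul_le_mul_of_nonneg_left (by linarith) (by positivity)
    have h4 : (1 + ε) * X ≤ (1 + 1 / 100) * (1 + 1 / 1000) :=
      mul_le_mul (by linarith) hX1 hX0 (by norm_num)
    have h5 : (1 + ε) * (D.W / 2) * X = ((1 + ε) * X) * (D.W / 2) := by ring
    rw [h5]
    have h6 := mul_le_mul_of_nonneg_right h4 (by positivity : 0 ≤ D.W / 2)
    linarith only [h3, h6, hW]
  have hμκ : μ - (5 * D.W / 8) * t = μ + κ * t := by rw [hκ]; ring
  refine ⟨t, ht0, by linarith, ?_⟩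
  rw [hμκ]
  -- combine
  have hfinal : t * (D.W / 16) ≤ D.gI β μ - D.gI (β + t) (μ + κ * t) := by
    have h3 : t * (D.W / 16) ≤ t * ((5 * D.W / 8) * (D.θ - 2 * D.κ₀)
        - (1 + ε) * ((D.W - T) / 2) * X - D.W / 150 - (1 + ε) * (T / 2) * X - D.W / 300) := by
      refine mul_le_mul_of_nonneg_left ?_ ht0.le
      have e : (1 + ε) * ((D.W - T) / 2) * X + (1 + ε) * (T / 2) * X = (1 + ε) * (D.W / 2) * X := by
        ring
      linarith
    have h4 : t * ((5 * D.W / 8) * (D.θ - 2 * D.κ₀) - (1 + ε) * ((D.W - T) / 2) * X - D.W / 150)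
        ≤ D.g J β μ' - D.g J (β + t) (μ' + κ * t) := by
      have hchain' : t * ((5 * D.W / 8) * (D.θ - 2 * D.κ₀) - (1 + ε) * ((D.W - T) / 2) * X - S1)
          ≤ D.g J β μ' - D.g J (β + t) (μ' + κ * t) := by
        rw [mul_comm]; exact hchain
      refine le_trans (mul_le_mul_of_nonneg_left ?_ ht0.le) hchain'
      linarith only [hS1']
    have e : t * ((5 * D.W / 8) * (D.θ - 2 * D.κ₀)
        - (1 + ε) * ((D.W - T) / 2) * X - D.W / 150 - (1 + ε) * (T / 2) * X - D.W / 300)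
        = t * ((5 * D.W / 8) * (D.θ - 2 * D.κ₀) - (1 + ε) * ((D.W - T) / 2) * X - D.W / 150)
          - t * ((1 + ε) * (T / 2) * X) - t * (D.W / 300) := by ring
    linarith only [h3, h4, htop, htailterm, herrJ, e]
  linarith only [hfinal]

end TripleData
end Crest.Agent.Lib.Gas
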