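import Crest.Agent.Lib.Gas.TripleBasic

/-! # Triple point: exclusion propagates through the levels; `Pinf` is affine on the gaps. -/

namespace Crest.Agent.Lib.Gas
open Set Filter Topology
namespace TripleData
variable (D : TripleData)


theorem concaveOn_add_lin {s : Set ℝ} {f : ℝ → ℝ} (hf : ConcaveOn ℝ s f) (μ : ℝ) :
    ConcaveOn ℝ s (fun q => f q + μ * q) := by
  refine ⟨hf.1, fun x hx y hy a b ha hb hab => ?_⟩
  have h := hf.2 hx hy ha hb hab
  simp only [smul_eq_mul] at h ⊢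
  have e : a * (f x + μ * x) + b * (f y + μ * y) = (a * f x + b * f y) + μ * (a * x + b * y) := by
    ring
  rw [e]
  linarith

/-- Below a chord outside the interval of the chord: with equal values at `u'`, `v'`. -/
theorem concave_outside {f : ℝ → ℝ} {qm u' v' q : ℝ} (hf : ConcaveOn ℝ (Icc 0 qm) f)
    (hu' : 0 ≤ u') (hv' : v' ≤ qm) (huv : u' < v') (heq : f u' = f v')
    (hq : q ∈ Icc 0 qm) (hnot : q ∉ Ioo u' v') : f q ≤ f u' := by
  have hu'm : u' ∈ Icc 0 qm := ⟨hu', by linarith⟩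
  have hv'm : v' ∈ Icc 0 qm := ⟨by linarith, hv'⟩
  by_cases hq1 : q ≤ u'
  · rcases eq_or_lt_of_le hq1 with rfl | hq1'
    · exact le_refl _
    · -- `u'` is between `q` and `v'`
      have hd : 0 < v' - q := by linarith
      have ha : 0 ≤ (v' - u') / (v' - q) := div_nonneg (by linarith) hd.le
      have hb : 0 ≤ (u' - q) / (v' - q) := div_nonneg (by linarith) hd.le
      have hab : (v' - u') / (v' - q) + (u' - q) / (v' - q) = 1 := by field_simp; ring
      have h := hf.2 hq hv'm ha hb hab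
      simp only [smul_eq_mul] at h
      have harg : (v' - u') / (v' - q) * q + (u' - q) / (v' - q) * v' = u' := by
        field_simp; ring
      rw [harg, ← heq] at h
      have ha' : 0 < (v' - u') / (v' - q) := div_pos (by linarith) hd
      have hb' : (u' - q) / (v' - q) = 1 - (v' - u') / (v' - q) := by linarith
      rw [hb'] at h
      nlinarith
  · push Not at hq1
    have hq2 : v' ≤ q := by
      by_contra hc
      exact hnot ⟨hq1, not_le.mp hc⟩
    rw [heq]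
    rcases eq_or_lt_of_le hq2 with rfl | hq2'
    · exact le_refl _
    · have hd : 0 < q - u' := by linarith
      have ha : 0 ≤ (q - v') / (q - u') := div_nonneg (by linarith) hd.le
      have hb : 0 ≤ (v' - u') / (q - u') := div_nonneg (by linarith) hd.le
      have hab : (q - v') / (q - u') + (v' - u') / (q - u') = 1 := by field_simp; ring
      have h := hf.2 hu'm hq ha hb hab
      simp only [smul_eq_mul] at h
      have harg : (q - v') / (q - u') * u' + (v' - u') / (q - u') * q = v' := by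
        field_simp; ring
      rw [harg, heq] at h
      have hb' : 0 < (v' - u') / (q - u') := div_pos (by linarith) hd
      have ha' : (q - v') / (q - u') = 1 - (v' - u') / (q - u') := by linarith
      rw [ha'] at h
      nlinarith

/-- The core of the `Aff` step (abstract in the function `Pn`). -/
theorem aff_core {β : ℝ} (hβ : β ∈ Icc (1 / 2 : ℝ) 2) (Pn : ℝ → ℝ)
    (hconc : ConcaveOn ℝ (Icc 0 D.qmax) Pn) {u' v' : ℝ} (hu' : 0 ≤ u') (hv' : v' ≤ D.K * D.θ)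
    (hgap : 1 / 8 ≤ v' - u') (hB : ∀ q, q ∈ Icc 0 ((D.K : ℝ) * D.θ) → |Pn q| ≤ D.C₂)
    (j : ℕ) (a : ℝ)
    (hloc : ∀ μ q, q ∈ Ioo u' v' → ∃ q', q' ∈ D.Q ∧ D.F j a β μ q < D.F j a β μ q')
    (h3 : ∀ q, q ∈ D.Q → D.P j β q + (β * a / 2) * q ^ 2 - D.err j ≤ Pn q)
    (h4 : ∀ μ, |μ| ≤ D.M₀ → ∀ q, q ∈ D.Q → ∃ q', q' ∈ D.Q ∧
      Pn q + μ * q ≤ D.P j β q' + (β * a / 2) * q' ^ 2 + μ * q' + D.err j) :
    ∀ q, q ∈ D.Q → Pn q ≤ Pn u' + (Pn v' - Pn u') / (v' - u') * (q - u') + 2 * D.err j := by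
  intro q hq
  have hd : 0 < v' - u' := by linarith
  have hKθ : (D.K : ℝ) * D.θ ≤ D.qmax := by
    have h1 := D.hq
    have h2 := D.hθ1
    have h3 := D.θ_pos
    have h4 := D.two_le_K
    nlinarith
  set σ := (Pn v' - Pn u') / (v' - u') with hσ
  have hσd : σ * (v' - u') = Pn v' - Pn u' := by
    rw [hσ]; field_simp
  have hu'B : u' ∈ Icc 0 ((D.K : ℝ) * D.θ) := ⟨hu', by linarith⟩
  have hv'B : v' ∈ Icc 0 ((D.K : ℝ) * D.θ) := ⟨by linarith, hv'⟩
  have hσ_le : |σ| ≤ D.M₀ := by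
    have h1 := abs_le.mp (hB u' hu'B)
    have h2 := abs_le.mp (hB v' hv'B)
    have hC : 0 ≤ D.C₂ := D.hC₂
    have hW := D.W_pos
    have hΛ := D.Λ_pos
    have hM := D.hM₀
    have hs : |σ| ≤ 16 * D.C₂ := by
      rw [hσ, abs_div, abs_of_pos hd, div_le_iff₀ hd, abs_le]
      constructor <;> nlinarith [h1.1, h1.2, h2.1, h2.2]
    linarith
  set μ := -σ with hμ
  have hμ_le : |μ| ≤ D.M₀ := by rw [hμ, abs_neg]; exact hσ_le
  have hΨconc := concaveOn_add_lin hconc μ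
  have hΨeq : Pn u' + μ * u' = Pn v' + μ * v' := by
    rw [hμ]; nlinarith
  obtain ⟨qs, hqs, hmax⟩ := D.exists_max_F j a hβ μ
  have hqs_not : qs ∉ Ioo u' v' := by
    intro hmem
    obtain ⟨q', hq', hlt⟩ := hloc μ qs hmem
    exact absurd (hmax q' hq') (not_le.mpr hlt)
  have hΨs : Pn qs + μ * qs ≤ Pn u' + μ * u' :=
    concave_outside hΨconc hu' (by linarith) (by linarith) hΨeq hqs hqs_not
  have hFs : D.F j a β μ qs ≤ Pn u' + μ * u' + D.err j := by
    have := h3 qs hqs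
    unfold F
    linarith
  obtain ⟨q', hq', hle⟩ := h4 μ hμ_le q hq
  have hF' : D.F j a β μ q' ≤ D.F j a β μ qs := hmax q' hq'
  have hF'' : D.F j a β μ q' = D.P j β q' + (β * a / 2) * q' ^ 2 + μ * q' := rfl
  rw [hF''] at hF'
  have : Pn q + μ * q ≤ Pn u' + μ * u' + 2 * D.err j := by linarith
  rw [hμ] at this
  linarith

/-- Pure real inequality behind the `Loc` step. -/
theorem loc_real {Pu Pv Pq e β a aa' μ u' v' q ξ : ℝ} (hgap : 1 / 8 ≤ v' - u') (hβ1 : 1 / 2 ≤ β)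
    (ha : aa' ≤ a) (haa : 0 < aa') (he : 0 ≤ e) (hξa : ξ * aa' = 128 * e) (hξ0 : 0 ≤ ξ)
    (hA : ξ < q - u') (hB : ξ < v' - q)
    (h1 : Pu + (β * a / 2) * u' ^ 2 + μ * u' ≤ Pq + (β * a / 2) * q ^ 2 + μ * q)
    (h2 : Pv + (β * a / 2) * v' ^ 2 + μ * v' ≤ Pq + (β * a / 2) * q ^ 2 + μ * q)
    (h3 : Pq ≤ Pu + (Pv - Pu) / (v' - u') * (q - u') + 2 * e) : False := by
  obtain ⟨A, hAdef⟩ : ∃ A, A = q - u' := ⟨_, rfl⟩
  obtain ⟨B, hBdef⟩ : ∃ B, B = v' - q := ⟨_, rfl⟩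
  rw [← hAdef] at hA h3
  rw [← hBdef] at hB
  have hAB : v' - u' = A + B := by rw [hAdef, hBdef]; ring
  rw [hAB] at h3 hgap
  have hAp : 0 < A := by linarith
  have hBp : 0 < B := by linarith
  have hq_eq : q = u' + A := by rw [hAdef]; ring
  have hv_eq : v' = u' + A + B := by rw [hAdef, hBdef]; ring
  have hABpos : 0 < A + B := by linarith
  have hAB_pos : ξ / 16 < A * B := by
    by_cases hA16 : 1 / 16 ≤ A
    · have := mul_le_mul_of_nonneg_right hA16 hBp.le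
      linarith
    · have hB16 : 1 / 16 ≤ B := by
        push Not at hA16
        linarith
      have := mul_le_mul_of_nonneg_left hB16 hAp.le
      linarith
  have ha0 : 0 < a := by linarith
  have hgain : 2 * e < (β * a / 2) * (A * B) := by
    have h5 : a / 4 ≤ β * a / 2 := by nlinarith
    have h6 : 0 < A * B := by linarith [show (0:ℝ) ≤ ξ / 16 by positivity]
    have h7 : (a / 4) * (A * B) ≤ (β * a / 2) * (A * B) := mul_le_mul_of_nonneg_right h5 h6.le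
    have h8 : (a / 4) * (ξ / 16) < (a / 4) * (A * B) := by
      apply mul_lt_mul_of_pos_left hAB_pos; positivity
    have h9 : aa' * ξ ≤ a * ξ := mul_le_mul_of_nonneg_right ha hξ0
    have h10 : 2 * e ≤ (a / 4) * (ξ / 16) := by nlinarith
    linarith
  have e1 : (A + B) * Pq ≤ B * Pu + A * Pv + 2 * e * (A + B) := by
    have h11 := mul_le_mul_of_nonneg_left h3 hABpos.le
    have h12 : (A + B) * (Pu + (Pv - Pu) / (A + B) * A + 2 * e) =
        B * Pu + A * Pv + 2 * e * (A + B) := by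
      field_simp; ring
    linarith
  have e2 : B * ((β * a / 2) * u' ^ 2 + μ * u') + A * ((β * a / 2) * v' ^ 2 + μ * v') -
      (A + B) * ((β * a / 2) * q ^ 2 + μ * q) = (A + B) * ((β * a / 2) * (A * B)) := by
    rw [hq_eq, hv_eq]; ring
  have e3 : (A + B) * (2 * e) < (A + B) * ((β * a / 2) * (A * B)) :=
    mul_lt_mul_of_pos_left hgain hABpos
  have e4 := mul_le_mul_of_nonneg_left h1 hBp.le
  have e5 := mul_le_mul_of_nonneg_left h2 hAp.le
  have e6 : B * (Pu + (β * a / 2) * u' ^ 2 + μ * u') = B * Pu + B * ((β * a / 2) * u' ^ 2 + μ * u') := by ring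
  have e7 : A * (Pv + (β * a / 2) * v' ^ 2 + μ * v') = A * Pv + A * ((β * a / 2) * v' ^ 2 + μ * v') := by ring
  have e8 : B * (Pq + (β * a / 2) * q ^ 2 + μ * q) + A * (Pq + (β * a / 2) * q ^ 2 + μ * q) =
      (A + B) * Pq + (A + B) * ((β * a / 2) * q ^ 2 + μ * q) := by ring
  have e9 : (A + B) * (2 * e) = 2 * e * (A + B) := by ring
  linarith

/-- The `Loc` step. -/
theorem loc_step {j : ℕ} {β u' v' a : ℝ} (hβ : β ∈ Icc (1 / 2 : ℝ) 2) (hu' : 0 ≤ u')
    (hv' : v' ≤ D.qmax) (hgap : 1 / 8 ≤ v' - u') (ha : D.aa (j + 1) ≤ a)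
    (hch : ∀ q, q ∈ D.Q → D.P (j + 1) β q ≤ D.P (j + 1) β u' +
      (D.P (j + 1) β v' - D.P (j + 1) β u') / (v' - u') * (q - u') + 2 * D.err j)
    (μ q : ℝ) (hq : q ∈ Ioo (u' + 128 * D.err j / D.aa (j + 1)) (v' - 128 * D.err j / D.aa (j + 1))) :
    ∃ q', q' ∈ D.Q ∧ D.F (j + 1) a β μ q < D.F (j + 1) a β μ q' := by
  by_contra hcon
  push Not at hcon
  have hu'Q : u' ∈ D.Q := ⟨hu', by linarith⟩
  have hv'Q : v' ∈ D.Q := ⟨by linarith, hv'⟩
  have haa := D.haa_pos (j + 1)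
  have he := D.herr_nn j
  have hξ0 : 0 ≤ 128 * D.err j / D.aa (j + 1) := by positivity
  have hξa : 128 * D.err j / D.aa (j + 1) * D.aa (j + 1) = 128 * D.err j := by field_simp
  have hA : 128 * D.err j / D.aa (j + 1) < q - u' := by have := hq.1; linarith
  have hB : 128 * D.err j / D.aa (j + 1) < v' - q := by have := hq.2; linarith
  have hqQ : q ∈ D.Q := ⟨by linarith, by linarith⟩
  exact loc_real hgap hβ.1 ha haa he hξa hξ0 hA hB (hcon u' hu'Q) (hcon v' hv'Q) (hch q hqQ)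

theorem Kθ_le_qmax : (D.K : ℝ) * D.θ ≤ D.qmax := by
  have h1 := D.hq
  have h2 := D.hθ1
  have h3 := D.θ_pos
  have h4 := D.two_le_K
  nlinarith

/-- **Exclusion at all levels.**  Hypothesis (`Excl₀`): at level `0`, for `a = aa 0` and `a = W`, no point
of `[u,v]` maximises `F 0 a β μ` on `Q`.  Conclusion: the same at level `j` on
`(u + shr j, v - shr j)`, for `a = aa j` and `a = tail j`.

Proof, by induction on `j`.  `Aff(j+1)`: let `[u',v'] = [u + shr j, v - shr j]`, let `μ = -σ`, `σ` the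
slope of `P (j+1) β` over `[u',v']` (`|σ| ≤ 16 C₂ ≤ M₀` by `hBd`, as `v'-u' ≥ 1/8`), `Ψ = P (j+1) β + μ q`,
`h = Ψ u' = Ψ v'`.  Let `q*` maximise `F j (aa j) β μ` on `Q`; by `Loc(j)`, `q* ∉ (u',v')`, so
`Ψ q* ≤ h` by concavity of `Ψ`; by `H3`, `F j (aa j) β μ q* ≤ Ψ q* + err j`; by `H4`, for `q` in `[u',v']`:
`Ψ q ≤ F j (aa j) β μ q* + err j ≤ h + 2 err j`. So `P (j+1) β q ≤ chord q + 2 err j` on `[u',v']`.
`Loc(j+1)`: let `a ≥ aa (j+1)`, `ξ = 128 err j / aa (j+1)`, `q ∈ (u' + ξ, v' - ξ)`.  Then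
`F (j+1) a β μ q ≤ chord[F (j+1) a β μ](q) - (β a/2) (q-u')(v'-q) + 2 err j`, and
`(β a/2)(q-u')(v'-q) > (a/4) ξ (1/16) ≥ 2 err j`, so `q` is below an endpoint. -/
theorem loc_of_excl {β u v : ℝ} (hβ : β ∈ Icc (1 / 2 : ℝ) 2) (hu : 0 ≤ u) (huv : 1 / 4 ≤ v - u)
    (hv : v ≤ D.K * D.θ)
    (h0 : ∀ a, (a = D.aa 0 ∨ a = D.W) → ∀ μ q, q ∈ Icc u v →
      ∃ q', q' ∈ D.Q ∧ D.F 0 a β μ q < D.F 0 a β μ q') :
    ∀ j a, (a = D.aa j ∨ a = D.tail j) → ∀ μ q, q ∈ Ioo (u + D.shr j) (v - D.shr j) →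
      ∃ q', q' ∈ D.Q ∧ D.F j a β μ q < D.F j a β μ q' := by
  have hκ := D.κ₀_small
  intro j
  induction j with
  | zero =>
    intro a ha μ q hq
    have hs : D.shr 0 = 0 := by simp [shr]
    rw [hs] at hq
    have ha' : a = D.aa 0 ∨ a = D.W := by
      rcases ha with h | h
      · exact Or.inl h
      · right; rw [h, D.tail_zero]
    exact h0 a ha' μ q ⟨by have := hq.1; linarith, by have := hq.2; linarith⟩
  | succ j ih =>
    intro a ha μ q hq
    have hs := D.shr_le j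
    have hs0 := D.shr_nonneg j
    have hgap : 1 / 8 ≤ (v - D.shr j) - (u + D.shr j) := by linarith
    have hu' : 0 ≤ u + D.shr j := by linarith
    have hv' : v - D.shr j ≤ D.K * D.θ := by linarith
    have hch := D.aff_core hβ (D.P (j + 1) β) (D.hconc (j + 1) β hβ) hu' hv' hgap
      (D.hBd (j + 1) β hβ) j (D.aa j)
      (fun μ q hq => ih (D.aa j) (Or.inl rfl) μ q hq)
      (fun q hq => D.H3 j β hβ q hq)
      (fun μ hμ q hq => D.H4 j β μ hβ hμ q hq)
    have hKθ := D.Kθ_le_qmax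
    have haa : D.aa (j + 1) ≤ a := by
      rcases ha with h | h
      · rw [h]
      · rw [h]; exact D.aa_le_tail _
    have hq' : q ∈ Ioo (u + D.shr j + 128 * D.err j / D.aa (j + 1))
        (v - D.shr j - 128 * D.err j / D.aa (j + 1)) := by
      rw [D.shr_succ] at hq
      exact ⟨by have := hq.1; linarith, by have := hq.2; linarith⟩
    exact D.loc_step hβ hu' (by linarith) hgap haa hch μ q hq'

/-- **`Pinf` is affine on the shrunk interval.**  Same proof as `Aff` in `loc_of_excl`, with `H3I`,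
`H4I`, `a = tail j`: on `[u',v'] = [u + κ₀, v - κ₀]`, `Ψ ≤ h + 2 err j` for all `j`; let `j → ∞`; the
reverse inequality is concavity. -/
theorem affine_of_excl {β u v : ℝ} (hβ : β ∈ Icc (1 / 2 : ℝ) 2) (hu : 0 ≤ u) (huv : 1 / 4 ≤ v - u)
    (hv : v ≤ D.K * D.θ)
    (h0 : ∀ a, (a = D.aa 0 ∨ a = D.W) → ∀ μ q, q ∈ Icc u v →
      ∃ q', q' ∈ D.Q ∧ D.F 0 a β μ q < D.F 0 a β μ q') :
    ∀ q, q ∈ Icc (u + D.κ₀) (v - D.κ₀) →
      D.Pinf β q = D.Pinf β (u + D.κ₀) +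
        (D.Pinf β (v - D.κ₀) - D.Pinf β (u + D.κ₀)) / ((v - D.κ₀) - (u + D.κ₀)) * (q - (u + D.κ₀)) := by
  intro q hq
  have hκ := D.κ₀_small
  have hκp := D.κ₀_pos
  have hu' : 0 ≤ u + D.κ₀ := by linarith
  have hv' : v - D.κ₀ ≤ D.K * D.θ := by linarith
  have hgap : 1 / 8 ≤ (v - D.κ₀) - (u + D.κ₀) := by linarith
  have hd : 0 < (v - D.κ₀) - (u + D.κ₀) := by linarith
  have hKθ := D.Kθ_le_qmax
  have hqQ : q ∈ D.Q := ⟨by have := hq.1; linarith, by have := hq.2; linarith⟩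
  apply le_antisymm
  · -- upper bound
    have hloc := D.loc_of_excl hβ hu huv hv h0
    have hup : ∀ j, D.Pinf β q ≤ D.Pinf β (u + D.κ₀) +
        (D.Pinf β (v - D.κ₀) - D.Pinf β (u + D.κ₀)) / ((v - D.κ₀) - (u + D.κ₀)) * (q - (u + D.κ₀)) +
        2 * D.err j := by
      intro j
      have hs := D.shr_le j
      refine D.aff_core hβ (D.Pinf β) (D.hconcI β hβ) hu' hv' hgap (D.hBdI β hβ) j (D.tail j) ?_
        (fun q hq => D.H3I j β hβ q hq) (fun μ hμ q hq => D.H4I j β μ hβ hμ q hq) q hqQ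
      intro μ q hq
      apply hloc j (D.tail j) (Or.inr rfl) μ q
      exact ⟨by have := hq.1; linarith, by have := hq.2; linarith⟩
    have hlim : Tendsto (fun j => D.Pinf β (u + D.κ₀) +
        (D.Pinf β (v - D.κ₀) - D.Pinf β (u + D.κ₀)) / ((v - D.κ₀) - (u + D.κ₀)) * (q - (u + D.κ₀)) +
        2 * D.err j) atTop (𝓝 (D.Pinf β (u + D.κ₀) +
        (D.Pinf β (v - D.κ₀) - D.Pinf β (u + D.κ₀)) / ((v - D.κ₀) - (u + D.κ₀)) * (q - (u + D.κ₀)) +
        2 * 0)) := (tendsto_const_nhds).add (D.err_tendsto.const_mul 2)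
    have := ge_of_tendsto' hlim hup
    simpa using this
  · -- lower bound, concavity
    have hconc := D.hconcI β hβ
    have hu'Q : u + D.κ₀ ∈ Icc 0 D.qmax := ⟨hu', by linarith⟩
    have hv'Q : v - D.κ₀ ∈ Icc 0 D.qmax := ⟨by linarith, by linarith⟩
    have ha : 0 ≤ ((v - D.κ₀) - q) / ((v - D.κ₀) - (u + D.κ₀)) :=
      div_nonneg (by have := hq.2; linarith) hd.le
    have hb : 0 ≤ (q - (u + D.κ₀)) / ((v - D.κ₀) - (u + D.κ₀)) :=
      div_nonneg (by have := hq.1; linarith) hd.le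
    have hab : ((v - D.κ₀) - q) / ((v - D.κ₀) - (u + D.κ₀)) +
        (q - (u + D.κ₀)) / ((v - D.κ₀) - (u + D.κ₀)) = 1 := by
      field_simp; ring
    have h := hconc.2 hu'Q hv'Q ha hb hab
    simp only [smul_eq_mul] at h
    have harg : ((v - D.κ₀) - q) / ((v - D.κ₀) - (u + D.κ₀)) * (u + D.κ₀) +
        (q - (u + D.κ₀)) / ((v - D.κ₀) - (u + D.κ₀)) * (v - D.κ₀) = q := by
      field_simp; ring
    rw [harg] at h
    have hb' : ((v - D.κ₀) - q) / ((v - D.κ₀) - (u + D.κ₀)) =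
      1 - (q - (u + D.κ₀)) / ((v - D.κ₀) - (u + D.κ₀)) := by linarith
    rw [hb'] at h
    have e : (D.Pinf β (v - D.κ₀) - D.Pinf β (u + D.κ₀)) / ((v - D.κ₀) - (u + D.κ₀)) * (q - (u + D.κ₀)) =
        (q - (u + D.κ₀)) / ((v - D.κ₀) - (u + D.κ₀)) * (D.Pinf β (v - D.κ₀) - D.Pinf β (u + D.κ₀)) := by
      ring
    rw [e]
    nlinarith


end TripleData
end Crest.Agent.Lib.Gas
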