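import Crest.Agent.Lib.Gas.TripleDefs

/-! # Triple point: elementary facts about the data. -/

namespace Crest.Agent.Lib.Gas
open Set Filter Topology
namespace TripleData
variable (D : TripleData)

theorem W_pos : 0 < D.W := by
  have := D.hS
  have := D.hW
  linarith

theorem two_le_K : (2 : ℝ) ≤ D.K := by
  exact_mod_cast D.hK

theorem Λ_pos : 0 < D.Λ := by
  have h := D.hWK
  have h1 := D.W_pos
  have h2 := D.two_le_K
  have : 0 < D.W * D.K := by positivity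
  linarith

theorem κ₀_pos : 0 < D.κ₀ := by
  rw [D.hκ₀]
  have h1 := D.W_pos
  have h2 := D.hS
  have : 0 < D.S := by linarith
  positivity

/-- `κ₀ ≤ 10⁻⁴`. -/
theorem κ₀_small : D.κ₀ ≤ 1 / 10000 := by
  rw [D.hκ₀, div_le_iff₀ D.W_pos]
  have := D.hW
  linarith

theorem W_κ₀ : D.W * D.κ₀ = 100 * D.S := by
  rw [D.hκ₀]
  have := D.W_pos
  field_simp

theorem θ_pos : 0 < D.θ := by
  have := D.hθ0
  linarith

/-- `W ≤ Λ` and `Λ (1 - θ) ≤ S`, `W (1-θ) ≤ S`. -/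
theorem W_le_Λ : D.W ≤ D.Λ := by
  have h := D.hWK
  have h1 := D.W_pos
  have h2 := D.two_le_K
  nlinarith

theorem Λθ : D.Λ * (1 - D.θ) ≤ D.S := by
  have h := D.hθΛ
  have h1 := D.Λ_pos
  have h2 := D.two_le_K
  have h3 := D.hθ1
  have h4 : 0 ≤ D.Λ * (1 - D.θ) := mul_nonneg h1.le (by linarith)
  nlinarith

theorem tail_zero : D.tail 0 = D.W := by
  unfold tail
  simpa using D.haa_sum.tsum_eq

theorem summable_aa_add (j : ℕ) : Summable (fun l => D.aa (j + l)) := by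
  have h := (summable_nat_add_iff j).2 D.haa_sum.summable
  simpa [add_comm] using h

theorem tail_succ (j : ℕ) : D.tail j = D.aa j + D.tail (j + 1) := by
  unfold tail
  rw [(D.summable_aa_add j).tsum_eq_zero_add]
  simp only [add_zero]
  congr 1
  apply tsum_congr
  intro l
  congr 1
  omega

theorem tail_pos (j : ℕ) : 0 < D.tail j := by
  unfold tail
  exact (D.summable_aa_add j).tsum_pos (fun l => (D.haa_pos _).le) 0 (D.haa_pos _)

theorem aa_le_tail (j : ℕ) : D.aa j ≤ D.tail j := by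
  rw [tail_succ]
  have := D.tail_pos (j + 1)
  linarith

theorem tail_le (j : ℕ) : D.tail j ≤ D.W := by
  induction j with
  | zero => rw [D.tail_zero]
  | succ n ih =>
    have h1 := D.tail_succ n
    have h2 := D.haa_pos n
    linarith

/-- `err j → 0`. -/
theorem err_tendsto : Tendsto D.err atTop (𝓝 0) := by
  have h1 : Tendsto (fun j : ℕ => D.δ * (1 / 2 : ℝ) ^ j * D.aa 0) atTop (𝓝 0) := by
    have := tendsto_pow_atTop_nhds_zero_of_lt_one (r := (1 / 2 : ℝ)) (by norm_num) (by norm_num)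
    have h2 := (this.const_mul D.δ).mul_const (D.aa 0)
    simpa using h2
  refine squeeze_zero D.herr_nn ?_ h1
  intro j
  refine (D.herr j).trans ?_
  have h2 : D.aa (j + 1) ≤ D.aa 0 := D.haa_anti (Nat.zero_le _)
  have h3 : 0 ≤ D.δ * (1 / 2 : ℝ) ^ j := mul_nonneg D.hδ0.le (by positivity)
  exact mul_le_mul_of_nonneg_left h2 h3

theorem tail_tendsto : Tendsto D.tail atTop (𝓝 0) := by
  have h := tendsto_sum_nat_add D.aa
  refine h.congr ?_
  intro j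
  unfold tail
  apply tsum_congr
  intro l
  rw [add_comm]

theorem shr_nonneg (j : ℕ) : 0 ≤ D.shr j := by
  unfold shr
  apply Finset.sum_nonneg
  intro i _
  have h1 := D.herr_nn i
  have h2 := D.haa_pos (i + 1)
  positivity

theorem shr_succ (j : ℕ) : D.shr (j + 1) = D.shr j + 128 * D.err j / D.aa (j + 1) := by
  unfold shr
  rw [Finset.sum_range_succ]

/-- `128 err i / aa (i+1) ≤ 128 δ 2^{-i}`, so `shr j ≤ 256 δ ≤ κ₀ / 2`. -/
theorem shr_le (j : ℕ) : D.shr j ≤ D.κ₀ / 2 := by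
  have hterm : ∀ i, 128 * D.err i / D.aa (i + 1) ≤ 128 * D.δ * (1 / 2 : ℝ) ^ i := by
    intro i
    rw [div_le_iff₀ (D.haa_pos _)]
    have := D.herr i
    nlinarith
  have key : ∀ j, D.shr j ≤ 256 * D.δ * (1 - (1 / 2 : ℝ) ^ j) := by
    intro j
    induction j with
    | zero => simp [shr]
    | succ n ih =>
      rw [D.shr_succ, pow_succ]
      have := hterm n
      nlinarith
  have h := key j
  have h2 : (0 : ℝ) < (1 / 2 : ℝ) ^ j := by positivity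
  have h3 := D.hδκ
  have h4 := D.hδ0
  nlinarith

theorem qmax_nonneg : 0 ≤ D.qmax := by
  have h1 := D.hq
  have h2 := D.two_le_K
  linarith

theorem isCompact_Q : IsCompact D.Q := isCompact_Icc

theorem nonempty_Q : D.Q.Nonempty := ⟨0, le_refl _, D.qmax_nonneg⟩

theorem continuousOn_F (j : ℕ) (a : ℝ) {β : ℝ} (hβ : β ∈ Icc (1 / 2 : ℝ) 2) (μ : ℝ) :
    ContinuousOn (fun q => D.F j a β μ q) D.Q := by
  unfold F
  have h := D.hcont j β hβ
  have h2 : ContinuousOn (fun q : ℝ => (β * a / 2) * q ^ 2 + μ * q) D.Q := by fun_prop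
  have h3 := (show ContinuousOn (D.P j β) D.Q from h).add h2
  refine h3.congr ?_
  intro q _
  simp only [Pi.add_apply]
  ring

/-- maximiser exists. -/
theorem exists_max_F (j : ℕ) (a : ℝ) {β : ℝ} (hβ : β ∈ Icc (1 / 2 : ℝ) 2) (μ : ℝ) :
    ∃ q, q ∈ D.Q ∧ ∀ q', q' ∈ D.Q → D.F j a β μ q' ≤ D.F j a β μ q := by
  obtain ⟨q, hq, h⟩ := D.isCompact_Q.exists_isMaxOn D.nonempty_Q (D.continuousOn_F j a hβ μ)
  exact ⟨q, hq, fun q' hq' => h hq'⟩

theorem exists_max_P (j : ℕ) {β : ℝ} (hβ : β ∈ Icc (1 / 2 : ℝ) 2) (μ : ℝ) :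
    ∃ q, q ∈ D.Q ∧ ∀ q', q' ∈ D.Q → D.P j β q' + μ * q' ≤ D.P j β q + μ * q := by
  have hc : ContinuousOn (fun q => D.P j β q + μ * q) D.Q :=
    (show ContinuousOn (D.P j β) D.Q from D.hcont j β hβ).add (by fun_prop)
  obtain ⟨q, hq, h⟩ := D.isCompact_Q.exists_isMaxOn D.nonempty_Q hc
  exact ⟨q, hq, fun q' hq' => h hq'⟩

theorem exists_max_Pinf {β : ℝ} (hβ : β ∈ Icc (1 / 2 : ℝ) 2) (μ : ℝ) :
    ∃ q, q ∈ D.Q ∧ ∀ q', q' ∈ D.Q → D.Pinf β q' + μ * q' ≤ D.Pinf β q + μ * q := by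
  have hc : ContinuousOn (fun q => D.Pinf β q + μ * q) D.Q :=
    (show ContinuousOn (D.Pinf β) D.Q from D.hcontI β hβ).add (by fun_prop)
  obtain ⟨q, hq, h⟩ := D.isCompact_Q.exists_isMaxOn D.nonempty_Q hc
  exact ⟨q, hq, fun q' hq' => h hq'⟩

theorem g_eq_of_max {j : ℕ} {β μ q : ℝ} (hq : q ∈ D.Q)
    (h : ∀ q', q' ∈ D.Q → D.P j β q' + μ * q' ≤ D.P j β q + μ * q) :
    D.g j β μ = D.P j β q + μ * q := by
  unfold g
  apply IsGreatest.csSup_eq
  constructor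
  · exact ⟨q, hq, rfl⟩
  · rintro _ ⟨q', hq', rfl⟩
    exact h q' hq'

theorem le_g {j : ℕ} {β μ q : ℝ} (hβ : β ∈ Icc (1 / 2 : ℝ) 2) (hq : q ∈ D.Q) :
    D.P j β q + μ * q ≤ D.g j β μ := by
  obtain ⟨q₀, hq₀, h⟩ := D.exists_max_P j hβ μ
  rw [D.g_eq_of_max hq₀ h]
  exact h q hq

theorem gI_eq_of_max {β μ q : ℝ} (hq : q ∈ D.Q)
    (h : ∀ q', q' ∈ D.Q → D.Pinf β q' + μ * q' ≤ D.Pinf β q + μ * q) :
    D.gI β μ = D.Pinf β q + μ * q := by
  unfold gI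
  apply IsGreatest.csSup_eq
  constructor
  · exact ⟨q, hq, rfl⟩
  · rintro _ ⟨q', hq', rfl⟩
    exact h q' hq'

theorem le_gI {β μ q : ℝ} (hβ : β ∈ Icc (1 / 2 : ℝ) 2) (hq : q ∈ D.Q) :
    D.Pinf β q + μ * q ≤ D.gI β μ := by
  obtain ⟨q₀, hq₀, h⟩ := D.exists_max_Pinf hβ μ
  rw [D.gI_eq_of_max hq₀ h]
  exact h q hq

/-- `g j` is convex along lines: for `y + t d`, slopes from `0` are monotone, i.e. for
`0 < t₁ ≤ t₂`, `(g(y) - g(y + t₂ d))/t₂ ≤ (g(y) - g(y + t₁ d))/t₁`. -/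
theorem g_slope_mono (j : ℕ) {β μ κ t₁ t₂ : ℝ} (hβ : β ∈ Icc (1 / 2 : ℝ) 2)
    (hβ' : β + t₂ ∈ Icc (1 / 2 : ℝ) 2) (ht₁ : 0 < t₁) (ht : t₁ ≤ t₂) :
    (D.g j β μ - D.g j (β + t₂) (μ + κ * t₂)) / t₂ ≤
      (D.g j β μ - D.g j (β + t₁) (μ + κ * t₁)) / t₁ := by
  have ht₂ : 0 < t₂ := lt_of_lt_of_le ht₁ ht
  have hβ₁ : β + t₁ ∈ Icc (1 / 2 : ℝ) 2 := by
    constructor
    · have := hβ.1; linarith
    · have := hβ'.2; linarith
  obtain ⟨q, hq, hmax⟩ := D.exists_max_P j hβ₁ (μ + κ * t₁)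
  have hg1 := D.g_eq_of_max hq hmax
  have h0 := D.le_g (j := j) (μ := μ) hβ hq
  have h2 := D.le_g (j := j) (μ := μ + κ * t₂) hβ' hq
  -- convexity in β
  have e1' : 0 ≤ (t₂ - t₁) / t₂ := by apply div_nonneg <;> linarith
  have e2' : 0 ≤ t₁ / t₂ := by apply div_nonneg <;> linarith
  have e3' : (t₂ - t₁) / t₂ + t₁ / t₂ = 1 := by field_simp; ring
  have hconv := (D.hconv j q hq).2 hβ hβ' e1' e2' e3'
  simp only [smul_eq_mul] at hconv
  have harg : (t₂ - t₁) / t₂ * β + t₁ / t₂ * (β + t₂) = β + t₁ := by field_simp; ring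
  rw [harg] at hconv
  have hkey : D.g j (β + t₁) (μ + κ * t₁) ≤
      (t₂ - t₁) / t₂ * D.g j β μ + t₁ / t₂ * D.g j (β + t₂) (μ + κ * t₂) := by
    rw [hg1]
    have e1 : 0 ≤ (t₂ - t₁) / t₂ := by apply div_nonneg <;> linarith
    have e2 : 0 ≤ t₁ / t₂ := by apply div_nonneg <;> linarith
    have e3 := mul_le_mul_of_nonneg_left h0 e1
    have e4 := mul_le_mul_of_nonneg_left h2 e2
    have e5 : (μ + κ * t₁) * q = (t₂ - t₁) / t₂ * (μ * q) + t₁ / t₂ * ((μ + κ * t₂) * q) := by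
      field_simp; ring
    nlinarith
  rw [div_le_div_iff₀ ht₂ ht₁]
  have h3 : t₂ * D.g j (β + t₁) (μ + κ * t₁) ≤
      (t₂ - t₁) * D.g j β μ + t₁ * D.g j (β + t₂) (μ + κ * t₂) := by
    have := mul_le_mul_of_nonneg_left hkey ht₂.le
    have e : t₂ * ((t₂ - t₁) / t₂ * D.g j β μ + t₁ / t₂ * D.g j (β + t₂) (μ + κ * t₂)) =
      (t₂ - t₁) * D.g j β μ + t₁ * D.g j (β + t₂) (μ + κ * t₂) := by field_simp
    linarith
  nlinarith

end TripleData
end Crest.Agent.Lib.Gas
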