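import Crest.Agent.Lib.Gas.TripleSteps
import Crest.Agent.Lib.Gas.TripleAff
import Crest.Agent.Lib.Gas.TripleExcl

/-! # Triple point: telescoping along the levels. -/
namespace Crest.Agent.Lib.Gas
open Set Filter Topology
namespace TripleData
variable (D : TripleData)

theorem loc_arith {A X C ϑ δ b ap s e : ℝ} (hA : 0 < A) (hb : 1 / 2 ≤ b) (hap : A ≤ ap) (hX : 0 ≤ X)
    (hC : 0 ≤ C) (hs : s ≤ ϑ * A) (he : e ≤ δ * A)
    (hmain : (b * ap / 2) * X ≤ C * s + 2 * e) (hfin : 4 * C * ϑ + 8 * δ ≤ 1 / 64) : X ≤ 1 / 64 := by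
  have h1 : A / 2 ≤ b * ap := by nlinarith
  have h2 : (A / 4) * X ≤ (b * ap / 2) * X := mul_le_mul_of_nonneg_right (by linarith) hX
  have h3 : C * s ≤ C * (ϑ * A) := mul_le_mul_of_nonneg_left hs hC
  have h4 : A * X ≤ A * (4 * C * ϑ + 8 * δ) := by nlinarith
  have h5 := le_of_mul_le_mul_left h4 hA
  linarith

theorem chain_quad {t β a ρ τ Q2 : ℝ} (ht : 0 < t) (hβ : 0 < β) (ha : 0 < a) (hρ : ρ ^ 2 ≤ Q2)
    (hτ : t / β ≤ τ) : (t / β) * ((β + t) * a / 2) * ρ ^ 2 ≤ t * ((1 + τ) * (a / 2) * Q2) := by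
  have h1 : (t / β) * ((β + t) * a / 2) * ρ ^ 2 = t * ((1 + t / β) * (a / 2) * ρ ^ 2) := by
    field_simp
  rw [h1]
  apply mul_le_mul_of_nonneg_left _ ht.le
  have h4 : 0 ≤ t / β := by positivity
  have h5 : (1 + t / β) * (a / 2) ≤ (1 + τ) * (a / 2) :=
    mul_le_mul_of_nonneg_right (by linarith) (by positivity)
  have hQ : 0 ≤ Q2 := (sq_nonneg ρ).trans hρ
  calc (1 + t / β) * (a / 2) * ρ ^ 2 ≤ (1 + t / β) * (a / 2) * Q2 :=
        mul_le_mul_of_nonneg_left hρ (by positivity)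
    _ ≤ _ := mul_le_mul_of_nonneg_right h5 hQ

set_option maxHeartbeats 1000000 in
/-- Localisation of the next maximiser (see proof of `chain`).  Certificate at level `j+1`, at `ρ⁺`
in the window `[θ-2κ₀, θ+2κ₀]`; `ρ` maximises `F j (aa j)` at `(β+t, μ+κt)`, `t = ϑ aa (j+1)`,
`t⁺ ≤ t`.  Then `ρ` is in the window.  Proof: by `H4`, `H3`:
`Ψ(x̂;ρ⁺) ≤ Ψ(x̂;ρ) + 2 err j`; with the certificate at `q = ρ`:
`((β+t⁺) a⁺/2) (ρ-ρ⁺)² ≤ Δ(ρ) - Δ(ρ⁺) + 2 err j`, where `Δ q = P (j+1) (β+t) q - P (j+1) (β+t⁺) q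
+ κ (t-t⁺) q`, `Δ ρ ≤ C₁ (t-t⁺)`, `-Δ ρ⁺ ≤ (8 C₂ + 2 W) (t-t⁺)`.  So `(ρ-ρ⁺)² ≤ 1/64`, and `ρ` is not
in the gaps by `loc_of_excl` (with `excl₁`, `excl₂`). -/
theorem localise {j : ℕ} {β μ κ t tp ap ρp ρ : ℝ} (hβ : 7 / 8 ≤ β) (hβ' : β ≤ 9 / 8)
    (hκ : κ = -(5 * D.W / 8))
    (ht : t = D.ϑ * D.aa (j + 1)) (htp0 : 0 < tp) (htp : tp ≤ t) (hap : D.aa (j + 1) ≤ ap)
    (hμ : |μ + κ * t| ≤ D.M₀) (hρp : ρp ∈ Icc (D.θ - 2 * D.κ₀) (D.θ + 2 * D.κ₀))
    (hcert : ∀ q, q ∈ D.Q → D.P (j + 1) (β + tp) q + (μ + κ * tp) * q ≤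
      D.P (j + 1) (β + tp) ρp + (μ + κ * tp) * ρp - ((β + tp) * ap / 2) * (q - ρp) ^ 2)
    (hρ : ρ ∈ D.Q) (hmax : ∀ q, q ∈ D.Q → D.F j (D.aa j) (β + t) (μ + κ * t) q ≤
      D.F j (D.aa j) (β + t) (μ + κ * t) ρ) :
    ρ ∈ Icc (D.θ - 2 * D.κ₀) (D.θ + 2 * D.κ₀) := by
  have hκs := D.κ₀_small
  have hκp := D.κ₀_pos
  have hθ0 := D.hθ0
  have hθ1 := D.hθ1
  have hW := D.W_pos
  have hK := D.two_le_K
  have hA : 0 < D.aa (j + 1) := D.haa_pos _
  have hAW : D.aa (j + 1) ≤ D.W := (D.aa_le_tail _).trans (D.tail_le _)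
  have hϑ := D.hϑ0
  have hϑW := D.hϑW
  have ht0 : 0 < t := by rw [ht]; positivity
  have ht1 : t ≤ 1 / 200 := by
    rw [ht]
    have : D.ϑ * D.aa (j + 1) ≤ D.ϑ * D.W := mul_le_mul_of_nonneg_left hAW hϑ.le
    linarith
  have hβt : β + t ∈ Icc (1 / 2 : ℝ) 2 := ⟨by linarith, by linarith⟩
  have hβtp : β + tp ∈ Icc (1 / 2 : ℝ) 2 := ⟨by linarith, by linarith⟩
  have hKθ := D.Kθ_le_qmax
  have hθK : D.θ ≤ (D.K : ℝ) * D.θ := by nlinarith
  have hK1 : 99 / 100 ≤ ((D.K : ℝ) - 1) * D.θ := by nlinarith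
  have hρpQ : ρp ∈ D.Q := ⟨by have := hρp.1; linarith, by have := hρp.2; linarith⟩
  have hρpK : ρp ∈ Icc 0 ((D.K : ℝ) * D.θ) :=
    ⟨by have := hρp.1; linarith, by have := hρp.2; linarith⟩
  -- step 1
  obtain ⟨q', hq', hle⟩ := D.H4 j (β + t) (μ + κ * t) hβt hμ ρp hρpQ
  have hm := hmax q' hq'
  have h3 := D.H3 j (β + t) hβt ρ hρ
  unfold F at hm
  have hstep1 : D.P (j + 1) (β + t) ρp + (μ + κ * t) * ρp ≤
      D.P (j + 1) (β + t) ρ + (μ + κ * t) * ρ + 2 * D.err j := by linarith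
  -- step 2
  have hc := hcert ρ hρ
  have hΔ1 : D.P (j + 1) (β + t) ρ ≤ D.P (j + 1) (β + tp) ρ + D.C₁ * (t - tp) := by
    have := D.hlip (j + 1) (β + tp) (β + t) hβtp hβt (by linarith) ρ hρ
    have e : β + t - (β + tp) = t - tp := by ring
    rwa [e] at this
  have hΔ2 : D.P (j + 1) (β + tp) ρp - D.P (j + 1) (β + t) ρp ≤ 8 * D.C₂ * (t - tp) := by
    have := D.lip_left (j := j + 1) (β₁ := β + tp) (β₂ := β + t) (q := ρp) (by linarith)
      (by linarith) (by linarith) hρpK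
    have e : β + t - (β + tp) = t - tp := by ring
    rwa [e] at this
  have hκ0 : κ ≤ 0 := by rw [hκ]; linarith
  have hρ0 : 0 ≤ ρ := hρ.1
  have hdt : 0 ≤ t - tp := by linarith
  have hκρ : κ * (t - tp) * ρ ≤ 0 := by
    have : 0 ≤ (-κ) * (t - tp) * ρ := by
      have : 0 ≤ -κ := by linarith
      positivity
    linarith
  have hκρp : -(κ * (t - tp) * ρp) ≤ 2 * D.W * (t - tp) := by
    have hρp1 : ρp ≤ 2 := by have := hρp.2; linarith
    have hρp0 : 0 ≤ ρp := hρpK.1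
    rw [hκ]
    have e : -(-(5 * D.W / 8) * (t - tp) * ρp) = (5 / 8) * (D.W * (t - tp)) * ρp := by ring
    rw [e]
    have h1 : 0 ≤ D.W * (t - tp) := by positivity
    nlinarith
  have hmain : ((β + tp) * ap / 2) * (ρ - ρp) ^ 2 ≤
      (D.C₁ + 8 * D.C₂ + 2 * D.W) * (t - tp) + 2 * D.err j := by
    have e1 : (μ + κ * t) * ρ = (μ + κ * tp) * ρ + κ * (t - tp) * ρ := by ring
    have e2 : (μ + κ * t) * ρp = (μ + κ * tp) * ρp + κ * (t - tp) * ρp := by ring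
    rw [e1, e2] at hstep1
    have e4 : (D.C₁ + 8 * D.C₂ + 2 * D.W) * (t - tp) =
        D.C₁ * (t - tp) + 8 * D.C₂ * (t - tp) + 2 * D.W * (t - tp) := by ring
    rw [e4]
    linarith
  have herr : D.err j ≤ D.δ * D.aa (j + 1) := by
    refine (D.herr j).trans ?_
    have h1 : (1 / 2 : ℝ) ^ j ≤ 1 := pow_le_one₀ (by norm_num) (by norm_num)
    have h2 : 0 < D.δ := D.hδ0
    have h3' : D.δ * (1 / 2) ^ j ≤ D.δ * 1 := mul_le_mul_of_nonneg_left h1 h2.le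
    have := mul_le_mul_of_nonneg_right h3' hA.le
    linarith
  have hsq : (ρ - ρp) ^ 2 ≤ 1 / 64 := by
    have hC : 0 ≤ D.C₁ + 8 * D.C₂ + 2 * D.W := by
      have := D.hC₁
      have := D.hC₂
      linarith
    have hfin : 4 * (D.C₁ + 8 * D.C₂ + 2 * D.W) * D.ϑ + 8 * D.δ ≤ 1 / 64 := D.hϑC
    exact loc_arith hA hβtp.1 hap (sq_nonneg _) hC (by rw [← ht]; linarith) herr hmain hfin
  have habs : |ρ - ρp| ≤ 1 / 8 := by
    apply abs_le_of_sq_le_sq' _ (by norm_num) |> abs_le.mpr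
    nlinarith
  have habs' := abs_le.mp habs
  -- step 3
  have hshr := D.shr_le j
  have hshr0 := D.shr_nonneg j
  have hmaxcontra : ∀ u v : ℝ, 0 ≤ u → 1 / 4 ≤ v - u → v ≤ D.K * D.θ →
      (∀ a, (a = D.aa 0 ∨ a = D.W) → ∀ μ q, q ∈ Icc u v →
        ∃ q', q' ∈ D.Q ∧ D.F 0 a (β + t) μ q < D.F 0 a (β + t) μ q') →
      ρ ∉ Ioo (u + D.shr j) (v - D.shr j) := by
    intro u v hu huv hv h0 hmem
    obtain ⟨q₁, hq₁, hlt⟩ := D.loc_of_excl hβt hu huv hv h0 j (D.aa j) (Or.inl rfl)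
      (μ + κ * t) ρ hmem
    exact absurd (hmax q₁ hq₁) (not_le.mpr hlt)
  have haa0W : D.aa 0 ≤ D.W := by
    have := D.aa_le_tail 0
    rwa [D.tail_zero] at this
  have haa0 := D.haa0
  constructor
  · by_contra hcon
    push Not at hcon
    refine hmaxcontra D.κ₀ (D.θ - D.κ₀) hκp.le (by linarith) (by linarith) ?_
      ⟨by have := hρp.1; linarith [habs'.1], by linarith⟩
    intro a ha μ' q hq
    have h1 : D.W - 1 ≤ a := by rcases ha with h | h <;> rw [h] <;> linarith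
    have h2 : a ≤ D.W := by rcases ha with h | h <;> rw [h] <;> linarith
    exact D.excl₁ hβt h1 h2 μ' q hq
  · by_contra hcon
    push Not at hcon
    refine hmaxcontra (D.θ + D.κ₀) (D.K * D.θ - D.κ₀) (by linarith) (by linarith) (by linarith) ?_
      ⟨by linarith, by have := hρp.2; linarith [habs'.2]⟩
    intro a ha μ' q hq
    have h1 : D.W - 1 ≤ a := by rcases ha with h | h <;> rw [h] <;> linarith
    have h2 : a ≤ D.W := by rcases ha with h | h <;> rw [h] <;> linarith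
    exact D.excl₂ hβt h1 h2 μ' q hq

set_option maxHeartbeats 1000000 in
/-- **Telescoping.**  Under a certificate at level `j`, the decrease of `g j` along `d = (1, κ)` at
scale `t⁺ ≤ ϑ aa j` is at least the announced bound.  Induction on `j`.  `j = 0`: `ρ⁺` maximises
`Ψ₀(β+t⁺, μ+κt⁺)`, `P 0` decreasing in `β`: `g₀(β,μ) - g₀(β+t⁺, μ+κt⁺) ≥ -κ t⁺ ρ⁺`.
`j+1`: `t = ϑ aa (j+1)`, `ρ` maximiser of `F j (aa j)` at `(β+t, μ+κt)`, `localise`, `parabola` gives the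
certificate at level `j`, with `μ' = μ + (β+t) aa j ρ`; IH; `level_step`; `g_slope_mono` to pass from
`t` to `t⁺`. -/
theorem chain (j : ℕ) : ∀ {β μ κ tp ap ρp : ℝ}, 7 / 8 ≤ β → β ≤ 9 / 8 → κ = -(5 * D.W / 8) →
    0 < tp → tp ≤ D.ϑ * D.aa j → D.aa j ≤ ap →
    |μ| ≤ 16 * D.C₂ + 4 * D.tail j →
    ρp ∈ Icc (D.θ - 2 * D.κ₀) (D.θ + 2 * D.κ₀) →
    (∀ q, q ∈ D.Q → D.P j (β + tp) q + (μ + κ * tp) * q ≤
      D.P j (β + tp) ρp + (μ + κ * tp) * ρp - ((β + tp) * ap / 2) * (q - ρp) ^ 2) →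
    (5 * D.W / 8) * (D.θ - 2 * D.κ₀)
        - (1 + 2 * D.ϑ * D.W) * ((D.W - D.tail j) / 2) * (D.θ + 2 * D.κ₀) ^ 2
        - ∑ i ∈ Finset.range j, 2 * D.err i / (D.ϑ * D.aa (i + 1))
      ≤ (D.g j β μ - D.g j (β + tp) (μ + κ * tp)) / tp := by
  have hκs := D.κ₀_small
  have hκp := D.κ₀_pos
  have hθ0 := D.hθ0
  have hθ1 := D.hθ1
  have hW := D.W_pos
  have hϑ := D.hϑ0
  have hϑW := D.hϑW
  induction j with
  | zero =>
    intro β μ κ tp ap ρp hβ hβ' hκ htp0 htp hap hμ hρp hcert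
    have ha0 := D.haa_pos 0
    have hA0W : D.aa 0 ≤ D.W := by
      have := D.aa_le_tail 0
      rwa [D.tail_zero] at this
    have htp1 : tp ≤ 1 / 200 := by
      have : D.ϑ * D.aa 0 ≤ D.ϑ * D.W := mul_le_mul_of_nonneg_left hA0W hϑ.le
      linarith
    have hβm : β ∈ Icc (1 / 2 : ℝ) 2 := ⟨by linarith, by linarith⟩
    have hβt : β + tp ∈ Icc (1 / 2 : ℝ) 2 := ⟨by linarith, by linarith⟩
    have hKθ := D.Kθ_le_qmax
    have hK := D.two_le_K
    have hK1 : 99 / 100 ≤ ((D.K : ℝ) - 1) * D.θ := by nlinarith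
    have hρpQ : ρp ∈ D.Q := ⟨by have := hρp.1; linarith, by have := hρp.2; linarith⟩
    have hap0 : 0 < ap := by linarith
    have hmx : ∀ q, q ∈ D.Q → D.P 0 (β + tp) q + (μ + κ * tp) * q ≤
        D.P 0 (β + tp) ρp + (μ + κ * tp) * ρp := by
      intro q hq
      have h1 := hcert q hq
      have h2 : 0 ≤ ((β + tp) * ap / 2) * (q - ρp) ^ 2 := by
        have : 0 < β + tp := by linarith
        positivity
      linarith
    have hg1 := D.g_eq_of_max hρpQ hmx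
    have hg0 := D.le_g (j := 0) (μ := μ) hβm hρpQ
    have hm := D.hmono0 β (β + tp) hβm hβt (by linarith) ρp hρpQ
    have hdiff : (5 * D.W / 8) * (D.θ - 2 * D.κ₀) * tp ≤
        D.g 0 β μ - D.g 0 (β + tp) (μ + κ * tp) := by
      rw [hg1, hκ]
      have h1 : (5 * D.W / 8) * (D.θ - 2 * D.κ₀) * tp ≤ (5 * D.W / 8) * ρp * tp := by
        have := hρp.1
        have h5 : 0 ≤ 5 * D.W / 8 := by positivity
        have h6 : (5 * D.W / 8) * (D.θ - 2 * D.κ₀) ≤ (5 * D.W / 8) * ρp :=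
          mul_le_mul_of_nonneg_left this h5
        exact mul_le_mul_of_nonneg_right h6 htp0.le
      nlinarith
    have htail : D.W - D.tail 0 = 0 := by rw [D.tail_zero]; ring
    rw [htail]
    simp only [Finset.range_zero, Finset.sum_empty]
    rw [le_div_iff₀ htp0]
    nlinarith
  | succ j ih =>
    intro β μ κ tp ap ρp hβ hβ' hκ htp0 htp hap hμ hρp hcert
    obtain ⟨t, ht⟩ : ∃ t, t = D.ϑ * D.aa (j + 1) := ⟨_, rfl⟩
    rw [← ht] at htp
    have hA : 0 < D.aa (j + 1) := D.haa_pos _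
    have haj : 0 < D.aa j := D.haa_pos _
    have hAW : D.aa (j + 1) ≤ D.W := (D.aa_le_tail _).trans (D.tail_le _)
    have hajA : D.aa (j + 1) ≤ D.aa j := D.haa_anti (Nat.le_succ j)
    have ht0 : 0 < t := by rw [ht]; positivity
    have ht1 : t ≤ 1 / 200 := by
      rw [ht]
      have : D.ϑ * D.aa (j + 1) ≤ D.ϑ * D.W := mul_le_mul_of_nonneg_left hAW hϑ.le
      linarith
    have hϑt : t ≤ D.ϑ * D.W := by
      rw [ht]
      exact mul_le_mul_of_nonneg_left hAW hϑ.le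
    have hβm : β ∈ Icc (1 / 2 : ℝ) 2 := ⟨by linarith, by linarith⟩
    have hβt : β + t ∈ Icc (1 / 2 : ℝ) 2 := ⟨by linarith, by linarith⟩
    have htailj1 := D.tail_succ j
    have htail_le := D.tail_le (j + 1)
    have hC₂ := D.hC₂
    have hκWt : |κ * t| ≤ D.W := by
      rw [hκ, abs_mul, abs_neg, abs_of_pos (by positivity : 0 < 5 * D.W / 8), abs_of_pos ht0]
      nlinarith
    have hμM : |μ + κ * t| ≤ D.M₀ := by
      have h1 := abs_add_le μ (κ * t)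
      have h2 := D.hM₀
      have hΛ := D.Λ_pos
      linarith
    obtain ⟨ρ, hρ, hρmax⟩ := D.exists_max_F j (D.aa j) hβt (μ + κ * t)
    have hloc := D.localise (j := j) hβ hβ' hκ ht htp0 htp hap hμM hρp hcert hρ hρmax
    -- certificate at level `j`
    have hcert' : ∀ q, q ∈ D.Q → D.P j (β + t) q + ((μ + (β + t) * D.aa j * ρ) + κ * t) * q ≤
        D.P j (β + t) ρ + ((μ + (β + t) * D.aa j * ρ) + κ * t) * ρ -
          ((β + t) * D.aa j / 2) * (q - ρ) ^ 2 := by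
      intro q hq
      have h1 := D.parabola hρmax hq
      have e : μ + (β + t) * D.aa j * ρ + κ * t = μ + κ * t + (β + t) * D.aa j * ρ := by ring
      rw [e]
      exact h1
    have hρ0 : 0 ≤ ρ := hρ.1
    have hρ1 : ρ ≤ 2 := by have := hloc.2; linarith
    have hμ' : |μ + (β + t) * D.aa j * ρ| ≤ 16 * D.C₂ + 4 * D.tail j := by
      have h1 := abs_add_le μ ((β + t) * D.aa j * ρ)
      have h2 : |(β + t) * D.aa j * ρ| ≤ 4 * D.aa j := by
        rw [abs_of_nonneg (by have : 0 < β + t := by linarith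
                              positivity)]
        have hb : β + t ≤ 2 := hβt.2
        have hb0 : 0 < β + t := by linarith
        have h3 : (β + t) * ρ ≤ 4 := by nlinarith
        nlinarith
      linarith
    have hIH := ih (β := β) (μ := μ + (β + t) * D.aa j * ρ) (κ := κ) (tp := t) (ap := D.aa j)
      (ρp := ρ) hβ hβ' hκ ht0 (by rw [ht]; exact mul_le_mul_of_nonneg_left hajA hϑ.le) le_rfl hμ'
      hloc hcert'
    have hstep := D.level_step (j := j) hβm ht0 hβt hμM hρ hρmax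
    have hslope := D.g_slope_mono (j + 1) (β := β) (μ := μ) (κ := κ) hβm hβt htp0 htp
    refine le_trans ?_ hslope
    rw [le_div_iff₀ ht0]
    rw [le_div_iff₀ ht0] at hIH
    -- arithmetic
    rw [Finset.sum_range_succ]
    have herrterm : 2 * D.err j / (D.ϑ * D.aa (j + 1)) * t = 2 * D.err j := by
      rw [ht]
      field_simp
    have hβ0 : 0 < β := by linarith
    have hquad : (t / β) * ((β + t) * D.aa j / 2) * ρ ^ 2 ≤
        t * ((1 + 2 * D.ϑ * D.W) * (D.aa j / 2) * (D.θ + 2 * D.κ₀) ^ 2) := by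
      refine chain_quad ht0 hβ0 haj (pow_le_pow_left₀ hρ0 hloc.2 2) ?_
      rw [div_le_iff₀ hβ0]
      have hϑW0 : 0 ≤ D.ϑ * D.W := by positivity
      nlinarith
    have htailj : D.W - D.tail (j + 1) = (D.W - D.tail j) + D.aa j := by rw [htailj1]; ring
    rw [htailj]
    set Q2 : ℝ := (D.θ + 2 * D.κ₀) ^ 2
    set SS : ℝ := ∑ i ∈ Finset.range j, 2 * D.err i / (D.ϑ * D.aa (i + 1))
    set E : ℝ := 2 * D.err j / (D.ϑ * D.aa (j + 1))
    have hgoal : ((5 * D.W / 8) * (D.θ - 2 * D.κ₀) -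
          (1 + 2 * D.ϑ * D.W) * ((D.W - D.tail j + D.aa j) / 2) * Q2 - (SS + E)) * t =
        ((5 * D.W / 8) * (D.θ - 2 * D.κ₀) -
          (1 + 2 * D.ϑ * D.W) * ((D.W - D.tail j) / 2) * Q2 - SS) * t
          - t * ((1 + 2 * D.ϑ * D.W) * (D.aa j / 2) * Q2) - E * t := by ring
    rw [hgoal, herrterm]
    linarith

end TripleData
end Crest.Agent.Lib.Gas
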