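import Crest.Agent.Lib.Gas.TripleSub
import Crest.Agent.Lib.Gas.TripleA

/-! # Triple point: phase `A` at the triple point. -/
namespace Crest.Agent.Lib.Gas
open Set Filter Topology
namespace TripleData
variable (D : TripleData)

/-- **Phase `A` at the triple point.**  There is a subgradient of `gI` at `(βc, -s₁ βc)` in the window
with `e - (5W/8) q ≤ -W/16`: `β_n ↑ βc`, `μ_n` the midpoint of `-s₁ β_n`, `-s₂ β_n`, `q_n` maximiser
(`max_mem_window`), `e_n` from `exists_beta_sub`; `Aclaim` gives the bound at level `n`, extract a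
convergent subsequence, `gI_tendsto`. -/
theorem exists_phaseA {βc : ℝ} (h1 : 7 / 8 < βc) (h2 : βc ≤ 9 / 8) (hs : D.s₁ βc = D.s₂ βc)
    (hlt : ∀ β, 7 / 8 ≤ β → β < βc → D.s₂ β < D.s₁ β) :
    ∃ e q, D.IsSub βc (- D.s₁ βc) e q ∧ q ∈ Icc (D.θ - 2 * D.κ₀) (D.θ + 2 * D.κ₀) ∧
      e - (5 * D.W / 8) * q ≤ - (D.W / 16) := by
  have hW := D.W_pos
  have hκ₀p := D.κ₀_pos
  have hκ₀s := D.κ₀_small
  have hθ0 := D.hθ0
  have hθ1 := D.hθ1
  have hK := D.two_le_K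
  have hKθ : 2 * D.θ ≤ D.K * D.θ := mul_le_mul_of_nonneg_right hK (by linarith)
  have hKq := D.Kθ_le_qmax
  -- the sequence `β_n`
  set βn : ℕ → ℝ := fun n => βc - (βc - 7 / 8) / ((n : ℝ) + 1) with hβn
  have hd : 0 < βc - 7 / 8 := by linarith
  have hβn1 : ∀ n, 7 / 8 ≤ βn n := by
    intro n
    simp only [hβn]
    have h3 : (βc - 7 / 8) / ((n : ℝ) + 1) ≤ βc - 7 / 8 := by
      apply div_le_self hd.le
      have : (0 : ℝ) ≤ n := by positivity
      linarith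
    linarith
  have hβn2 : ∀ n, βn n < βc := by
    intro n
    simp only [hβn]
    have h3 : 0 < (βc - 7 / 8) / ((n : ℝ) + 1) := by positivity
    linarith
  have hβnt : Tendsto βn atTop (𝓝 βc) := by
    have h3 : Tendsto (fun n : ℕ => (βc - 7 / 8) / ((n : ℝ) + 1)) atTop (𝓝 0) := by
      have := (tendsto_one_div_add_atTop_nhds_zero_nat (𝕜 := ℝ)).const_mul (βc - 7 / 8)
      simpa [div_eq_mul_inv] using this
    have h4 := (tendsto_const_nhds (x := βc)).sub h3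
    simpa [hβn] using h4
  set μn : ℕ → ℝ := fun n => - ((D.s₁ (βn n) + D.s₂ (βn n)) / 2) with hμn
  have hμ1 : ∀ n, - D.s₁ (βn n) < μn n := by
    intro n
    have := hlt _ (hβn1 n) (hβn2 n)
    simp only [hμn]
    linarith
  have hμ2 : ∀ n, μn n < - D.s₂ (βn n) := by
    intro n
    have := hlt _ (hβn1 n) (hβn2 n)
    simp only [hμn]
    linarith
  have hβcm : βc ∈ Ioo (1 / 2 : ℝ) 2 := ⟨by linarith, by linarith⟩
  have hμnt : Tendsto μn atTop (𝓝 (- D.s₁ βc)) := by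
    have h3 := (D.s₁_cont.continuousAt (Ioo_mem_nhds hβcm.1 hβcm.2)).tendsto.comp hβnt
    have h4 := (D.s₂_cont.continuousAt (Ioo_mem_nhds hβcm.1 hβcm.2)).tendsto.comp hβnt
    have h5 := ((h3.add h4).div_const 2).neg
    have e : - ((D.s₁ βc + D.s₂ βc) / 2) = - D.s₁ βc := by rw [← hs]; ring
    rw [e] at h5
    exact h5
  have hβni : ∀ n, βn n ∈ Icc (1 / 2 : ℝ) 2 := fun n =>
    ⟨by linarith [hβn1 n], by linarith [hβn2 n]⟩
  -- maximisers and subgradients at level `n`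
  have hstep : ∀ n, ∃ p : ℝ × ℝ, p ∈ Icc (- (16 * D.C₂)) (16 * D.C₂) ×ˢ
        Icc (D.θ - 2 * D.κ₀) (D.θ + 2 * D.κ₀) ∧
      D.IsSub (βn n) (μn n) p.1 p.2 ∧ p.1 - (5 * D.W / 8) * p.2 ≤ - (D.W / 16) := by
    intro n
    obtain ⟨q, hq, hmax⟩ := D.exists_max_Pinf (hβni n) (μn n)
    have hqw := D.max_mem_window (hβni n) (hμ1 n) (hμ2 n) hq hmax
    have hqK : q ∈ Icc 0 ((D.K : ℝ) * D.θ) := ⟨hq.1, by linarith [hqw.2]⟩
    obtain ⟨e, he, hsub⟩ := D.exists_beta_sub (hβn1 n) (by linarith [hβn2 n]) hqK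
    have hIs := D.isSub_of_max (hβni n) hq hmax hsub
    refine ⟨(e, q), ⟨abs_le.mp he, hqw⟩, hIs, ?_⟩
    obtain ⟨t, ht0, ht1, hA⟩ := D.Aclaim (hβn1 n) (by linarith [hβn2 n]) (hμ1 n) (hμ2 n)
    have h3 := hIs (βn n + t) (μn n - (5 * D.W / 8) * t)
      ⟨by linarith [hβni n |>.1], by linarith [hβn2 n]⟩
    have h4 : t * (e - (5 * D.W / 8) * q) ≤ t * (- (D.W / 16)) := by
      linarith only [h3, hA]
    exact le_of_mul_le_mul_left h4 ht0
  choose p hp1 hp2 hp3 using hstep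
  have hcomp : IsCompact (Icc (- (16 * D.C₂)) (16 * D.C₂) ×ˢ
      Icc (D.θ - 2 * D.κ₀) (D.θ + 2 * D.κ₀)) := isCompact_Icc.prod isCompact_Icc
  obtain ⟨a, ha, φ, hφ, hlim⟩ := hcomp.tendsto_subseq hp1
  have hlim1 : Tendsto (fun n => (p (φ n)).1) atTop (𝓝 a.1) :=
    (continuous_fst.tendsto a).comp hlim
  have hlim2 : Tendsto (fun n => (p (φ n)).2) atTop (𝓝 a.2) :=
    (continuous_snd.tendsto a).comp hlim
  have hφt : Tendsto φ atTop atTop := hφ.tendsto_atTop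
  have hβφ : Tendsto (fun n => βn (φ n)) atTop (𝓝 βc) := hβnt.comp hφt
  have hμφ : Tendsto (fun n => μn (φ n)) atTop (𝓝 (- D.s₁ βc)) := hμnt.comp hφt
  refine ⟨a.1, a.2, ?_, ha.2, ?_⟩
  · intro β μ hβ
    have hg := D.gI_tendsto h1.le h2 hβφ hμφ
    have hlhs : Tendsto (fun n => D.gI (βn (φ n)) (μn (φ n)) + (p (φ n)).1 * (β - βn (φ n))
        + (p (φ n)).2 * (μ - μn (φ n))) atTop
        (𝓝 (D.gI βc (- D.s₁ βc) + a.1 * (β - βc) + a.2 * (μ - (- D.s₁ βc)))) :=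
      (hg.add (hlim1.mul (tendsto_const_nhds.sub hβφ))).add
        (hlim2.mul (tendsto_const_nhds.sub hμφ))
    exact le_of_tendsto' hlhs fun n => hp2 (φ n) β μ hβ
  · have hlhs : Tendsto (fun n => (p (φ n)).1 - (5 * D.W / 8) * (p (φ n)).2) atTop
        (𝓝 (a.1 - (5 * D.W / 8) * a.2)) := hlim1.sub (hlim2.const_mul _)
    exact le_of_tendsto' hlhs fun n => hp3 (φ n)

end TripleData
end Crest.Agent.Lib.Gas
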