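import Crest.Agent.Lib.Gas.TripleBasic

/-! # Triple point: parabola and level steps. -/
namespace Crest.Agent.Lib.Gas
open Set Filter Topology
namespace TripleData
variable (D : TripleData)

/-- Parabola: a maximiser `q₀` of `F j a β μ` maximises `P j β + (μ + β a q₀) q` with quadratic decay.
(Pure algebra.) -/
theorem parabola {j : ℕ} {a β μ q₀ : ℝ} (h : ∀ q, q ∈ D.Q → D.F j a β μ q ≤ D.F j a β μ q₀) {q : ℝ}
    (hq : q ∈ D.Q) :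
    D.P j β q + (μ + β * a * q₀) * q ≤
      D.P j β q₀ + (μ + β * a * q₀) * q₀ - (β * a / 2) * (q - q₀) ^ 2 := by
  have h1 := h q hq
  unfold F at h1
  nlinarith [h1]

/-- The core of `level_step` and `top_step`. -/
theorem step_core {j : ℕ} {β μ κ t ρ a G0 G1 : ℝ} (hβ : β ∈ Icc (1 / 2 : ℝ) 2) (ht : 0 < t)
    (hβt : β + t ∈ Icc (1 / 2 : ℝ) 2) (ha : 0 < a) (hρ : ρ ∈ D.Q)
    (hmax : ∀ q, q ∈ D.Q → D.F j a (β + t) (μ + κ * t) q ≤ D.F j a (β + t) (μ + κ * t) ρ)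
    (hG0 : ∀ q, q ∈ D.Q → D.P j β q + (β * a / 2) * q ^ 2 + μ * q - D.err j ≤ G0)
    (hG1 : ∃ q', q' ∈ D.Q ∧ G1 ≤ D.P j (β + t) q' + ((β + t) * a / 2) * q' ^ 2 + (μ + κ * t) * q'
      + D.err j) :
    D.g j β (μ + (β + t) * a * ρ) - D.g j (β + t) (μ + (β + t) * a * ρ + κ * t)
        - (t / β) * ((β + t) * a / 2) * ρ ^ 2 - 2 * D.err j ≤ G0 - G1 := by
  have hβ0 : 0 < β := by have := hβ.1; linarith
  have hβt0 : 0 < β + t := by linarith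
  -- upper bound on `G1`
  have hG1' : G1 ≤ D.P j (β + t) ρ + ((β + t) * a / 2) * ρ ^ 2 + (μ + κ * t) * ρ + D.err j := by
    obtain ⟨q', hq', hle⟩ := hG1
    have := hmax q' hq'
    unfold F at this
    linarith
  -- the value of `g j` at `(β+t, μ')`
  have hpar : ∀ q, q ∈ D.Q → D.P j (β + t) q + (μ + (β + t) * a * ρ + κ * t) * q ≤
      D.P j (β + t) ρ + (μ + (β + t) * a * ρ + κ * t) * ρ := by
    intro q hq
    have h1 := D.parabola hmax hq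
    have h2 : 0 ≤ ((β + t) * a / 2) * (q - ρ) ^ 2 := by positivity
    nlinarith
  have hgval := D.g_eq_of_max hρ hpar
  -- lower bound on `G0`
  obtain ⟨q, hq, hqmax⟩ := D.exists_max_P j hβ (μ + (β + t) * a * ρ)
  have hgq := D.g_eq_of_max hq hqmax
  have h0 := hG0 q hq
  rw [hgq, hgval]
  have hsq : -(((β + t) * a * ρ) ^ 2 / (2 * (β * a))) ≤ (β * a / 2) * q ^ 2 - (β + t) * a * ρ * q := by
    have hpos : 0 < β * a := mul_pos hβ0 ha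
    have e : (β * a / 2) * q ^ 2 - (β + t) * a * ρ * q + ((β + t) * a * ρ) ^ 2 / (2 * (β * a)) =
        (β * a * q - (β + t) * a * ρ) ^ 2 / (2 * (β * a)) := by
      field_simp
      ring
    have h3 : 0 ≤ (β * a * q - (β + t) * a * ρ) ^ 2 / (2 * (β * a)) := by positivity
    linarith
  have e2 : ((β + t) * a * ρ) ^ 2 / (2 * (β * a)) =
      (t / β) * ((β + t) * a / 2) * ρ ^ 2 + ((β + t) * a / 2) * ρ ^ 2 := by
    field_simp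
    ring
  rw [e2] at hsq
  nlinarith

/-- One level step (`H3` at `(β, μ)`, `H4` at `(β+t, μ+κt)`, `(β a/2) q² - ν q ≥ -ν²/(2 β a)`). -/
theorem level_step {j : ℕ} {β μ κ t ρ : ℝ} (hβ : β ∈ Icc (1 / 2 : ℝ) 2) (ht : 0 < t)
    (hβt : β + t ∈ Icc (1 / 2 : ℝ) 2) (hμ : |μ + κ * t| ≤ D.M₀) (hρ : ρ ∈ D.Q)
    (hmax : ∀ q, q ∈ D.Q → D.F j (D.aa j) (β + t) (μ + κ * t) q ≤
      D.F j (D.aa j) (β + t) (μ + κ * t) ρ) :
    D.g j β (μ + (β + t) * D.aa j * ρ) - D.g j (β + t) (μ + (β + t) * D.aa j * ρ + κ * t)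
        - (t / β) * ((β + t) * D.aa j / 2) * ρ ^ 2 - 2 * D.err j ≤
      D.g (j + 1) β μ - D.g (j + 1) (β + t) (μ + κ * t) := by
  refine D.step_core hβ ht hβt (D.haa_pos j) hρ hmax ?_ ?_
  · intro q hq
    have h1 := D.H3 j β hβ q hq
    have h2 := D.le_g (j := j + 1) (μ := μ) hβ hq
    linarith
  · obtain ⟨q, hq, hqmax⟩ := D.exists_max_P (j + 1) hβt (μ + κ * t)
    rw [D.g_eq_of_max hq hqmax]
    obtain ⟨q', hq', hle⟩ := D.H4 j (β + t) (μ + κ * t) hβt hμ q hq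
    exact ⟨q', hq', by linarith⟩

/-- Top step, same proof with `H3I`, `H4I`. -/
theorem top_step {j : ℕ} {β μ κ t ρ : ℝ} (hβ : β ∈ Icc (1 / 2 : ℝ) 2) (ht : 0 < t)
    (hβt : β + t ∈ Icc (1 / 2 : ℝ) 2) (hμ : |μ + κ * t| ≤ D.M₀) (hρ : ρ ∈ D.Q)
    (hmax : ∀ q, q ∈ D.Q → D.F j (D.tail j) (β + t) (μ + κ * t) q ≤
      D.F j (D.tail j) (β + t) (μ + κ * t) ρ) :
    D.g j β (μ + (β + t) * D.tail j * ρ) - D.g j (β + t) (μ + (β + t) * D.tail j * ρ + κ * t)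
        - (t / β) * ((β + t) * D.tail j / 2) * ρ ^ 2 - 2 * D.err j ≤
      D.gI β μ - D.gI (β + t) (μ + κ * t) := by
  refine D.step_core hβ ht hβt (D.tail_pos j) hρ hmax ?_ ?_
  · intro q hq
    have h1 := D.H3I j β hβ q hq
    have h2 := D.le_gI (μ := μ) hβ hq
    unfold tail
    linarith
  · obtain ⟨q, hq, hqmax⟩ := D.exists_max_Pinf hβt (μ + κ * t)
    rw [D.gI_eq_of_max hq hqmax]
    obtain ⟨q', hq', hle⟩ := D.H4I j (β + t) (μ + κ * t) hβt hμ q hq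
    refine ⟨q', hq', ?_⟩
    unfold tail
    linarith

/-- Lipschitz bound in `β` from convexity and `hBd`, on the left: for `7/8 ≤ β₁ ≤ β₂ ≤ 2`, `q ≤ K`,
`P j β₁ q - P j β₂ q ≤ 8 C₂ (β₂ - β₁)`. -/
theorem lip_left {j : ℕ} {β₁ β₂ q : ℝ} (h1 : 7 / 8 ≤ β₁) (h12 : β₁ ≤ β₂) (h2 : β₂ ≤ 2)
    (hq : q ∈ Icc 0 ((D.K : ℝ) * D.θ)) : D.P j β₁ q - D.P j β₂ q ≤ 8 * D.C₂ * (β₂ - β₁) := by
  have hKθ : (D.K : ℝ) * D.θ ≤ D.qmax := by
    have h1 := D.hq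
    have h2 := D.hθ1
    have h3 := D.θ_pos
    have h4 := D.two_le_K
    nlinarith
  have hqQ : q ∈ Icc 0 D.qmax := ⟨hq.1, hq.2.trans hKθ⟩
  have hC := D.hC₂
  rcases eq_or_lt_of_le h12 with rfl | hlt
  · simp
  have hm1 : β₁ ∈ Icc (1 / 2 : ℝ) 2 := ⟨by linarith, by linarith⟩
  have hm2 : β₂ ∈ Icc (1 / 2 : ℝ) 2 := ⟨by linarith, h2⟩
  have hm0 : (1 / 2 : ℝ) ∈ Icc (1 / 2 : ℝ) 2 := ⟨le_refl _, by norm_num⟩
  have hd : 0 < β₂ - 1 / 2 := by linarith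
  have ha : 0 ≤ (β₂ - β₁) / (β₂ - 1 / 2) := div_nonneg (by linarith) hd.le
  have hb : 0 ≤ (β₁ - 1 / 2) / (β₂ - 1 / 2) := div_nonneg (by linarith) hd.le
  have hab : (β₂ - β₁) / (β₂ - 1 / 2) + (β₁ - 1 / 2) / (β₂ - 1 / 2) = 1 := by
    rw [← add_div, div_eq_one_iff_eq hd.ne']; ring
  have hconv := (D.hconv j q hqQ).2 hm0 hm2 ha hb hab
  simp only [smul_eq_mul] at hconv
  have harg : (β₂ - β₁) / (β₂ - 1 / 2) * (1 / 2) + (β₁ - 1 / 2) / (β₂ - 1 / 2) * β₂ = β₁ := by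
    rw [div_mul_eq_mul_div, div_mul_eq_mul_div, ← add_div, div_eq_iff hd.ne']; ring
  rw [harg] at hconv
  have hb0 := abs_le.mp (D.hBd j (1 / 2) hm0 q hq)
  have hb2 := abs_le.mp (D.hBd j β₂ hm2 q hq)
  have hb' : (β₁ - 1 / 2) / (β₂ - 1 / 2) = 1 - (β₂ - β₁) / (β₂ - 1 / 2) := by linarith
  rw [hb'] at hconv
  obtain ⟨lam, hlam⟩ : ∃ lam, lam = (β₂ - β₁) / (β₂ - 1 / 2) := ⟨_, rfl⟩
  rw [← hlam] at hconv ha
  have hlam2 : lam * (β₂ - 1 / 2) = β₂ - β₁ := by rw [hlam, div_mul_cancel₀ _ hd.ne']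
  have hlam3 : lam ≤ (8 / 3) * (β₂ - β₁) := by
    have : (3 / 8 : ℝ) * lam ≤ β₂ - β₁ := by nlinarith
    linarith
  have h5 : D.P j β₁ q - D.P j β₂ q ≤ lam * (2 * D.C₂) := by nlinarith [hb0.1, hb0.2, hb2.1, hb2.2]
  have h6 : lam * (2 * D.C₂) ≤ (8 / 3) * (β₂ - β₁) * (2 * D.C₂) :=
    mul_le_mul_of_nonneg_right hlam3 (by linarith)
  have h7 : 0 ≤ D.C₂ * (β₂ - β₁) := mul_nonneg hC (by linarith)
  nlinarith

end TripleData
end Crest.Agent.Lib.Gas
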