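import Crest.Agent.Lib.Gas.TripleBasic

/-! # Triple point: subgradients. -/
namespace Crest.Agent.Lib.Gas
open Set Filter Topology
namespace TripleData
variable (D : TripleData)

/-- Supporting line of a convex function at an interior point. -/
private theorem exists_support_convex {f : ℝ → ℝ} {a b x : ℝ} (hf : ConvexOn ℝ (Icc a b) f)
    (hx : x ∈ Ioo a b) : ∃ e : ℝ, ∀ y, y ∈ Icc a b → f x + e * (y - x) ≤ f y := by
  have hxI : x ∈ Icc a b := ⟨hx.1.le, hx.2.le⟩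
  have hbI : b ∈ Icc a b := ⟨(hx.1.trans hx.2).le, le_refl _⟩
  have haI : a ∈ Icc a b := ⟨le_refl _, (hx.1.trans hx.2).le⟩
  set A : Set ℝ := (fun y => (f x - f y) / (x - y)) '' Ico a x with hA
  have hne : A.Nonempty := ⟨_, a, ⟨le_refl _, hx.1⟩, rfl⟩
  have hsl : ∀ y z, y ∈ Icc a b → y < x → z ∈ Icc a b → x < z →
      (f x - f y) / (x - y) ≤ (f z - f x) / (z - x) := by
    intro y z hy hyx hz hxz
    exact hf.slope_mono_adjacent hy hz hyx hxz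
  have hbdd : BddAbove A := by
    refine ⟨(f b - f x) / (b - x), ?_⟩
    rintro _ ⟨y, hy, rfl⟩
    exact hsl y b ⟨hy.1, (hy.2.trans hx.2).le⟩ hy.2 hbI hx.2
  refine ⟨sSup A, ?_⟩
  intro y hy
  rcases lt_trichotomy y x with hyx | hyx | hyx
  · have h1 : (f x - f y) / (x - y) ≤ sSup A := le_csSup hbdd ⟨y, ⟨hy.1, hyx⟩, rfl⟩
    have h2 : 0 < x - y := by linarith
    rw [div_le_iff₀ h2] at h1
    nlinarith
  · subst hyx
    simp
  · have h1 : sSup A ≤ (f y - f x) / (y - x) := by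
      apply csSup_le hne
      rintro _ ⟨z, hz, rfl⟩
      exact hsl z y ⟨hz.1, (hz.2.trans hx.2).le⟩ hz.2 hy hyx
    have h2 : 0 < y - x := by linarith
    rw [le_div_iff₀ h2] at h1
    linarith

/-- Subgradient of `gI` at `(β₀, μ₀)`. -/
def IsSub (β₀ μ₀ e q : ℝ) : Prop :=
  ∀ β μ, β ∈ Icc (1 / 2 : ℝ) 2 → D.gI β₀ μ₀ + e * (β - β₀) + q * (μ - μ₀) ≤ D.gI β μ

/-- Subgradients from a maximiser and a subgradient in `β`. -/
theorem isSub_of_max {β₀ μ₀ e q : ℝ} (hβ₀ : β₀ ∈ Icc (1 / 2 : ℝ) 2) (hq : q ∈ D.Q)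
    (hmax : ∀ q', q' ∈ D.Q → D.Pinf β₀ q' + μ₀ * q' ≤ D.Pinf β₀ q + μ₀ * q)
    (he : ∀ β, β ∈ Icc (1 / 2 : ℝ) 2 → D.Pinf β₀ q + e * (β - β₀) ≤ D.Pinf β q) :
    D.IsSub β₀ μ₀ e q := by
  intro β μ hβ
  rw [D.gI_eq_of_max hq hmax]
  have h1 := he β hβ
  have h2 := D.le_gI (μ := μ) hβ hq
  nlinarith

/-- Existence of a `β`-subgradient of `Pinf · q` at an interior point, bounded by `16 C₂` for
`q ≤ K θ`, `β₀ ∈ [7/8, 9/8]`. -/
theorem exists_beta_sub {β₀ q : ℝ} (h1 : 7 / 8 ≤ β₀) (h2 : β₀ ≤ 9 / 8) (hq : q ∈ Icc 0 ((D.K : ℝ) * D.θ)) :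
    ∃ e : ℝ, |e| ≤ 16 * D.C₂ ∧
      ∀ β, β ∈ Icc (1 / 2 : ℝ) 2 → D.Pinf β₀ q + e * (β - β₀) ≤ D.Pinf β q := by
  have hKθ : (D.K : ℝ) * D.θ ≤ D.qmax := by
    have h3 := D.hq
    have h4 := D.hθ1
    have h5 := D.two_le_K
    nlinarith
  have hqQ : q ∈ Icc 0 D.qmax := ⟨hq.1, hq.2.trans hKθ⟩
  have hβ₀ : β₀ ∈ Ioo (1 / 2 : ℝ) 2 := ⟨by linarith, by linarith⟩
  obtain ⟨e, he⟩ := exists_support_convex (D.hconvI q hqQ) hβ₀
  refine ⟨e, ?_, he⟩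
  have hβ₀I : β₀ ∈ Icc (1 / 2 : ℝ) 2 := ⟨hβ₀.1.le, hβ₀.2.le⟩
  have ha : (1 / 2 : ℝ) ∈ Icc (1 / 2 : ℝ) 2 := ⟨le_refl _, by norm_num⟩
  have hb : (2 : ℝ) ∈ Icc (1 / 2 : ℝ) 2 := ⟨by norm_num, le_refl _⟩
  have e1 := he (1 / 2) ha
  have e2 := he 2 hb
  have b0 := abs_le.1 (D.hBdI β₀ hβ₀I q hq)
  have b1 := abs_le.1 (D.hBdI (1 / 2) ha q hq)
  have b2 := abs_le.1 (D.hBdI 2 hb q hq)
  have hC := D.hC₂
  rw [abs_le]
  constructor
  · by_contra hcon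
    push Not at hcon
    -- `e < -16 C₂`: the value at `1/2` is too large
    have : e * (1 / 2 - β₀) ≥ 16 * D.C₂ * (3 / 8) := by nlinarith
    nlinarith
  · by_contra hcon
    push Not at hcon
    have : e * (2 - β₀) ≥ 16 * D.C₂ * (7 / 8) := by nlinarith
    nlinarith

/-- `gI` is Lipschitz in `μ`. -/
private theorem gI_lip {β μ μ' : ℝ} (hβ : β ∈ Icc (1 / 2 : ℝ) 2) :
    D.gI β μ ≤ D.gI β μ' + D.qmax * |μ - μ'| := by
  obtain ⟨q, hq, hmax⟩ := D.exists_max_Pinf hβ μ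
  rw [D.gI_eq_of_max hq hmax]
  have h1 := D.le_gI (μ := μ') hβ hq
  have h2 : (μ - μ') * q ≤ |μ - μ'| * D.qmax := by
    have h3 : |(μ - μ') * q| ≤ |μ - μ'| * D.qmax := by
      rw [abs_mul, abs_of_nonneg hq.1]
      exact mul_le_mul_of_nonneg_left hq.2 (abs_nonneg _)
    exact (le_abs_self _).trans h3
  nlinarith

/-- `gI · μ` is convex. -/
private theorem gI_convex (μ : ℝ) : ConvexOn ℝ (Icc (1 / 2 : ℝ) 2) (fun β => D.gI β μ) := by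
  refine ⟨convex_Icc _ _, ?_⟩
  intro x hx y hy a b ha hb hab
  have hm : a • x + b • y ∈ Icc (1 / 2 : ℝ) 2 := (convex_Icc _ _) hx hy ha hb hab
  obtain ⟨q, hq, hmax⟩ := D.exists_max_Pinf hm μ
  show D.gI (a • x + b • y) μ ≤ a • D.gI x μ + b • D.gI y μ
  rw [D.gI_eq_of_max hq hmax]
  have hc := (D.hconvI q hq).2 hx hy ha hb hab
  have h1 := D.le_gI (μ := μ) hx hq
  have h2 := D.le_gI (μ := μ) hy hq
  simp only [smul_eq_mul] at hc ⊢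
  have e3 : μ * q = a * (μ * q) + b * (μ * q) := by
    rw [← add_mul, hab, one_mul]
  have h3 := mul_le_mul_of_nonneg_left h1 ha
  have h4 := mul_le_mul_of_nonneg_left h2 hb
  nlinarith

/-- Continuity of `gI` used for the limit of subgradients (`|gI β μ - gI β μ'| ≤ qmax |μ-μ'|`, and
convexity in `β`). -/
theorem gI_tendsto {βn μn : ℕ → ℝ} {β₀ μ₀ : ℝ} (h1 : 7 / 8 ≤ β₀) (h2 : β₀ ≤ 9 / 8)
    (hβ : Tendsto βn atTop (𝓝 β₀)) (hμ : Tendsto μn atTop (𝓝 μ₀)) :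
    Tendsto (fun n => D.gI (βn n) (μn n)) atTop (𝓝 (D.gI β₀ μ₀)) := by
  have hconv : ConvexOn ℝ (Ioo (1 / 2 : ℝ) 2) (fun β => D.gI β μ₀) :=
    (D.gI_convex μ₀).subset Ioo_subset_Icc_self (convex_Ioo _ _)
  have hcont : ContinuousOn (fun β => D.gI β μ₀) (Ioo (1 / 2 : ℝ) 2) :=
    hconv.continuousOn isOpen_Ioo
  have hβ₀ : β₀ ∈ Ioo (1 / 2 : ℝ) 2 := ⟨by linarith, by linarith⟩
  have hcat : ContinuousAt (fun β => D.gI β μ₀) β₀ := hcont.continuousAt (isOpen_Ioo.mem_nhds hβ₀)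
  have h3 : Tendsto (fun n => D.gI (βn n) μ₀) atTop (𝓝 (D.gI β₀ μ₀)) := hcat.tendsto.comp hβ
  have hev : ∀ᶠ n in atTop, βn n ∈ Ioo (1 / 2 : ℝ) 2 := hβ (isOpen_Ioo.mem_nhds hβ₀)
  have h4 : Tendsto (fun n => D.qmax * |μn n - μ₀|) atTop (𝓝 0) := by
    have h5 : Tendsto (fun n => |μn n - μ₀|) atTop (𝓝 0) := by
      have := (hμ.sub_const μ₀).abs
      simpa using this
    simpa using h5.const_mul D.qmax
  have hlo : Tendsto (fun n => D.gI (βn n) μ₀ - D.qmax * |μn n - μ₀|) atTop (𝓝 (D.gI β₀ μ₀)) := by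
    simpa using h3.sub h4
  have hhi : Tendsto (fun n => D.gI (βn n) μ₀ + D.qmax * |μn n - μ₀|) atTop (𝓝 (D.gI β₀ μ₀)) := by
    simpa using h3.add h4
  refine tendsto_of_tendsto_of_tendsto_of_le_of_le' hlo hhi ?_ ?_
  · filter_upwards [hev] with n hn
    have hnI : βn n ∈ Icc (1 / 2 : ℝ) 2 := ⟨hn.1.le, hn.2.le⟩
    have := D.gI_lip (μ := μ₀) (μ' := μn n) hnI
    rw [abs_sub_comm] at this
    linarith
  · filter_upwards [hev] with n hn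
    have hnI : βn n ∈ Icc (1 / 2 : ℝ) 2 := ⟨hn.1.le, hn.2.le⟩
    exact D.gI_lip (μ := μn n) (μ' := μ₀) hnI

/-- Duality: a subgradient `(e, q)` of `gI` with interior density gives a `β`-subgradient of
`Pinf · q` (support `Pinf β` at `q` by a line of slope `-μ`). -/
theorem sub_of_isSub {βc μc e q : ℝ} (hβc : βc ∈ Icc (1 / 2 : ℝ) 2) (hsub : D.IsSub βc μc e q)
    (hq : q ∈ Ioo 0 D.qmax) {β : ℝ} (hβ : β ∈ Icc (1 / 2 : ℝ) 2) :
    D.Pinf βc q + e * (β - βc) ≤ D.Pinf β q := by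
  have hconv : ConvexOn ℝ (Icc 0 D.qmax) (fun q' => - D.Pinf β q') := (D.hconcI β hβ).neg
  obtain ⟨m, hm⟩ := exists_support_convex hconv hq
  have hqI : q ∈ D.Q := ⟨hq.1.le, hq.2.le⟩
  have hmax : ∀ q', q' ∈ D.Q → D.Pinf β q' + m * q' ≤ D.Pinf β q + m * q := by
    intro q' hq'
    have := hm q' hq'
    nlinarith
  have h1 := D.gI_eq_of_max hqI hmax
  have h2 := hsub β m hβ
  have h3 := D.le_gI (μ := μc) hβc hqI
  rw [h1] at h2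
  nlinarith

/-- Convex combinations of subgradients. -/
theorem IsSub.comb {β₀ μ₀ e e' q q' t : ℝ} (h : D.IsSub β₀ μ₀ e q) (h' : D.IsSub β₀ μ₀ e' q')
    (ht0 : 0 ≤ t) (ht1 : t ≤ 1) :
    D.IsSub β₀ μ₀ ((1 - t) * e + t * e') ((1 - t) * q + t * q') := by
  intro β μ hβ
  have h1 := mul_le_mul_of_nonneg_left (h β μ hβ) (sub_nonneg.2 ht1)
  have h2 := mul_le_mul_of_nonneg_left (h' β μ hβ) ht0
  nlinarith

end TripleData
end Crest.Agent.Lib.Gas
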